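import Vale.Agent.P143.KMeas

/-!
# The sequential construction of the forest
-/

open Filter Topology MeasureTheory ProbabilityTheory
open scoped unitInterval ENNReal

namespace Vale.Agent.P143

universe u

variable {V : Type u}

open Classical in
/-- the first `k` decisions -/
noncomputable def st (e : ℕ → Sym2 V) (G : SimpleGraph V) (W : ℕ → I) : ℕ → Set (Sym2 V)
  | 0 => ∅
  | k + 1 => if (W k : ℝ) < pe G (e '' Set.Iio k) (st e G W k) (e k)
      then insert (e k) (st e G W k) else st e G W k

/-- the forest -/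
noncomputable def fullSt (e : ℕ → Sym2 V) (G : SimpleGraph V) (W : ℕ → I) : Set (Sym2 V) :=
  ⋃ k, st e G W k

theorem image_Iio_succ (e : ℕ → Sym2 V) (k : ℕ) :
    e '' Set.Iio (k + 1) = insert (e k) (e '' Set.Iio k) := by
  rw [← Set.image_insert_eq]
  congr 1
  ext j
  simp only [Set.mem_Iio, Set.mem_insert_iff]
  omega

theorem st_subset (e : ℕ → Sym2 V) (G : SimpleGraph V) (W : ℕ → I) (k : ℕ) :
    st e G W k ⊆ e '' Set.Iio k := by
  induction k with
  | zero => simp [st]
  | succ k ih =>
    rw [image_Iio_succ]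
    unfold st
    split_ifs
    · exact Set.insert_subset_insert ih
    · exact ih.trans (Set.subset_insert _ _)

theorem st_subset_succ (e : ℕ → Sym2 V) (G : SimpleGraph V) (W : ℕ → I) (k : ℕ) :
    st e G W k ⊆ st e G W (k + 1) := by
  conv_rhs => unfold st
  split_ifs
  · exact Set.subset_insert _ _
  · exact subset_rfl

theorem st_mono (e : ℕ → Sym2 V) (G : SimpleGraph V) (W : ℕ → I) : Monotone (st e G W) :=
  monotone_nat_of_le_succ (st_subset_succ e G W)

theorem st_succ_subset (e : ℕ → Sym2 V) (G : SimpleGraph V) (W : ℕ → I) (k : ℕ) :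
    st e G W (k + 1) ⊆ insert (e k) (st e G W k) := by
  conv_lhs => unfold st
  split_ifs
  · exact subset_rfl
  · exact Set.subset_insert _ _

theorem notMem_image_Iio {e : ℕ → Sym2 V} (he : Function.Injective e) {k m : ℕ} (h : k ≤ m) :
    e m ∉ e '' Set.Iio k := by
  rintro ⟨j, hj, hjm⟩
  have := he hjm
  subst this
  exact absurd hj (not_lt.2 h)

theorem fullSt_inter {e : ℕ → Sym2 V} (he : Function.Injective e) (G : SimpleGraph V) (W : ℕ → I)
    (k : ℕ) : fullSt e G W ∩ e '' Set.Iio k = st e G W k := by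
  apply Set.Subset.antisymm
  · rintro x ⟨hx, hxk⟩
    obtain ⟨m, hm⟩ := Set.mem_iUnion.1 hx
    rcases le_total m k with h | h
    · exact st_mono e G W h hm
    · induction m, h using Nat.le_induction with
      | base => exact hm
      | succ m hkm ih =>
        rcases st_succ_subset e G W m hm with rfl | h
        · exact absurd hxk (notMem_image_Iio he hkm)
        · exact ih h
  · intro x hx
    exact ⟨Set.mem_iUnion.2 ⟨k, hx⟩, st_subset e G W k hx⟩

theorem st_succ_eq_iff {e : ℕ → Sym2 V} (he : Function.Injective e) (G : SimpleGraph V)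
    (W : ℕ → I) (k : ℕ) (B : Set (Sym2 V)) :
    st e G W (k + 1) = B ↔
      (st e G W k = B ∧ ¬ (W k : ℝ) < pe G (e '' Set.Iio k) B (e k)) ∨
      (e k ∈ B ∧ st e G W k = B \ {e k} ∧
        (W k : ℝ) < pe G (e '' Set.Iio k) (B \ {e k}) (e k)) := by
  have hk : e k ∉ st e G W k := fun h => notMem_image_Iio he le_rfl (st_subset e G W k h)
  conv_lhs => unfold st
  split_ifs with h
  · constructor
    · rintro rfl
      right
      have : insert (e k) (st e G W k) \ {e k} = st e G W k := by
        ext x
        simp only [Set.mem_sdiff, Set.mem_insert_iff, Set.mem_singleton_iff]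
        constructor
        · rintro ⟨rfl | h1, h2⟩
          · exact absurd rfl h2
          · exact h1
        · intro h1
          exact ⟨Or.inr h1, fun h2 => hk (h2 ▸ h1)⟩
      rw [this]
      exact ⟨Set.mem_insert _ _, rfl, h⟩
    · rintro (⟨h1, h2⟩ | ⟨h1, h2, h3⟩)
      · rw [← h1] at h2
        exact absurd h h2
      · rw [h2]
        ext x
        simp only [Set.mem_sdiff, Set.mem_insert_iff, Set.mem_singleton_iff]
        constructor
        · rintro (rfl | h4)
          · exact h1
          · exact h4.1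
        · intro h4
          by_cases h5 : x = e k
          · exact Or.inl h5
          · exact Or.inr ⟨h4, h5⟩
  · constructor
    · rintro rfl
      exact Or.inl ⟨rfl, h⟩
    · rintro (⟨h1, h2⟩ | ⟨h1, h2, h3⟩)
      · exact h1
      · rw [← h2] at h3
        exact absurd h3 h

theorem image_Iio_finite (e : ℕ → Sym2 V) (k : ℕ) : (e '' Set.Iio k).Finite :=
  (Set.finite_Iio k).image e

theorem measurableSet_st [Countable V] {e : ℕ → Sym2 V} (he : Function.Injective e) (k : ℕ)
    (B : Set (Sym2 V)) :
    MeasurableSet {p : SimpleGraph V × (ℕ → I) | st e p.1 p.2 k = B} := by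
  induction k generalizing B with
  | zero =>
    change MeasurableSet {_p : SimpleGraph V × (ℕ → I) | (∅ : Set (Sym2 V)) = B}
    exact MeasurableSet.const _
  | succ k ih =>
    have hlt : ∀ A, MeasurableSet {p : SimpleGraph V × (ℕ → I) |
        (p.2 k : ℝ) < pe p.1 (e '' Set.Iio k) A (e k)} := by
      intro A
      refine measurableSet_lt ?_ ?_
      · exact measurable_subtype_coe.comp ((measurable_pi_apply k).comp measurable_snd)
      · exact (measurable_pe_fin (image_Iio_finite e k) A (e k)).comp measurable_fst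
    have : {p : SimpleGraph V × (ℕ → I) | st e p.1 p.2 (k + 1) = B} =
        ({p : SimpleGraph V × (ℕ → I) | st e p.1 p.2 k = B} ∩
          {p : SimpleGraph V × (ℕ → I) | (p.2 k : ℝ) < pe p.1 (e '' Set.Iio k) B (e k)}ᶜ) ∪
        ({_p : SimpleGraph V × (ℕ → I) | e k ∈ B} ∩
          ({p : SimpleGraph V × (ℕ → I) | st e p.1 p.2 k = B \ {e k}} ∩
          {p : SimpleGraph V × (ℕ → I) |
            (p.2 k : ℝ) < pe p.1 (e '' Set.Iio k) (B \ {e k}) (e k)})) := by
      ext p
      simp only [Set.mem_ofPred_eq, Set.mem_union, Set.mem_inter_iff, Set.mem_compl_iff]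
      exact st_succ_eq_iff he p.1 p.2 k B
    rw [this]
    exact ((ih B).inter (hlt B).compl).union
      ((MeasurableSet.const _).inter ((ih _).inter (hlt _)))

theorem measurable_fullSt [Countable V] {e : ℕ → Sym2 V} (he : Function.Bijective e) :
    Measurable fun p : SimpleGraph V × (ℕ → I) => fullSt e p.1 p.2 := by
  rw [measurable_set_iff]
  intro x
  rw [← measurableSet_setOfPred]
  obtain ⟨j, rfl⟩ := he.2 x
  have : {p : SimpleGraph V × (ℕ → I) | e j ∈ fullSt e p.1 p.2} =
      ⋃ B ∈ {B : Set (Sym2 V) | B ⊆ e '' Set.Iio (j + 1) ∧ e j ∈ B},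
        {p : SimpleGraph V × (ℕ → I) | st e p.1 p.2 (j + 1) = B} := by
    ext p
    simp only [Set.mem_ofPred_eq, Set.mem_iUnion, exists_prop]
    have hj : e j ∈ e '' Set.Iio (j + 1) := ⟨j, Nat.lt_succ_self j, rfl⟩
    constructor
    · intro h
      refine ⟨st e p.1 p.2 (j + 1), ⟨st_subset e p.1 p.2 _, ?_⟩, rfl⟩
      rw [← fullSt_inter he.1]
      exact ⟨h, hj⟩
    · rintro ⟨B, ⟨_, h⟩, rfl⟩
      rw [← fullSt_inter he.1] at h
      exact h.1
  rw [this]
  refine MeasurableSet.biUnion ?_ (fun B _ => measurableSet_st he.1 (j + 1) B)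
  exact ((image_Iio_finite e (j + 1)).finite_subsets.subset (fun B hB => hB.1)).countable

/-! ### The law for a fixed graph -/

/-- the law of the labels -/
noncomputable abbrev labMeas : Measure (ℕ → I) := Measure.infinitePi fun _ : ℕ => (volume : Measure I)

theorem labMeas_lt (k : ℕ) {p : ℝ} (h0 : 0 ≤ p) (h1 : p ≤ 1) :
    labMeas {W | (W k : ℝ) < p} = ENNReal.ofReal p := by
  have h : Measure.map (fun W : ℕ → I => W k) labMeas = volume :=
    Measure.infinitePi_map_eval (fun _ : ℕ => (volume : Measure I)) k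
  have h2 : {W : ℕ → I | (W k : ℝ) < p} = (fun W : ℕ → I => W k) ⁻¹' Set.Iio ⟨p, h0, h1⟩ := by
    ext W
    simp only [Set.mem_ofPred_eq, Set.mem_preimage, Set.mem_Iio]
    exact Iff.rfl
  rw [h2, ← Measure.map_apply (measurable_pi_apply k) measurableSet_Iio, h]
  exact unitInterval.volume_Iio _

/-- past σ-algebra -/
@[reducible] def past (k : ℕ) : MeasurableSpace (ℕ → I) :=
  ⨆ i ∈ Set.Iio k, MeasurableSpace.comap (fun W : ℕ → I => W i) inferInstance

theorem past_mono {j k : ℕ} (h : j ≤ k) : past j ≤ past k :=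
  biSup_mono fun _ hi => lt_of_lt_of_le hi h

theorem measurableSet_past_lt {j k : ℕ} (h : j < k) (p : ℝ) :
    MeasurableSet[past k] {W : ℕ → I | (W j : ℝ) < p} := by
  have h1 : MeasurableSpace.comap (fun W : ℕ → I => W j) inferInstance ≤ past k :=
    le_biSup (fun i => MeasurableSpace.comap (fun W : ℕ → I => W i) inferInstance) h
  apply h1
  exact ⟨{x : I | (x : ℝ) < p}, measurableSet_lt measurable_subtype_coe measurable_const, rfl⟩

theorem measurableSet_past_st {e : ℕ → Sym2 V} (he : Function.Injective e) (G : SimpleGraph V)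
    (k : ℕ) (B : Set (Sym2 V)) : MeasurableSet[past k] {W : ℕ → I | st e G W k = B} := by
  induction k generalizing B with
  | zero =>
    change MeasurableSet[past 0] {_W : ℕ → I | (∅ : Set (Sym2 V)) = B}
    exact MeasurableSet.const _
  | succ k ih =>
    have : {W : ℕ → I | st e G W (k + 1) = B} =
        ({W : ℕ → I | st e G W k = B} ∩
          {W : ℕ → I | (W k : ℝ) < pe G (e '' Set.Iio k) B (e k)}ᶜ) ∪
        ({_W : ℕ → I | e k ∈ B} ∩
          ({W : ℕ → I | st e G W k = B \ {e k}} ∩
          {W : ℕ → I | (W k : ℝ) < pe G (e '' Set.Iio k) (B \ {e k}) (e k)})) := by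
      ext W
      simp only [Set.mem_ofPred_eq, Set.mem_union, Set.mem_inter_iff, Set.mem_compl_iff]
      exact st_succ_eq_iff he G W k B
    rw [this]
    have hp := past_mono (Nat.le_succ k)
    have h1 := measurableSet_past_lt (Nat.lt_succ_self k) (pe G (e '' Set.Iio k) B (e k))
    have h2 := measurableSet_past_lt (Nat.lt_succ_self k)
      (pe G (e '' Set.Iio k) (B \ {e k}) (e k))
    exact MeasurableSet.union (MeasurableSet.inter (hp _ (ih B)) h1.compl)
      (MeasurableSet.inter (MeasurableSet.const _) (MeasurableSet.inter (hp _ (ih _)) h2))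

theorem past_le (k : ℕ) : past k ≤ (inferInstance : MeasurableSpace (ℕ → I)) :=
  iSup₂_le fun i _ => (measurable_pi_apply i).comap_le

theorem indep_past (k : ℕ) {S : Set (ℕ → I)} (hS : MeasurableSet[past k] S) (p : ℝ) :
    labMeas (S ∩ {W | (W k : ℝ) < p}) = labMeas S * labMeas {W | (W k : ℝ) < p} := by
  have hind : iIndepFun (fun (i : ℕ) (W : ℕ → I) => W i) labMeas :=
    iIndepFun_infinitePi (X := fun _ x => x) (fun _ => measurable_id)
  have h := indep_iSup_of_disjoint (fun i => (measurable_pi_apply i).comap_le) hind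
    (S := Set.Iio k) (T := {k}) (by simp)
  have h2 := (Indep_iff _ _ _).1 h S {W | (W k : ℝ) < p} hS ?_
  · exact h2
  · have h1 : MeasurableSpace.comap (fun W : ℕ → I => W k) inferInstance ≤
        ⨆ i ∈ ({k} : Set ℕ), MeasurableSpace.comap (fun W : ℕ → I => W i) inferInstance :=
      le_biSup (fun i => MeasurableSpace.comap (fun W : ℕ → I => W i) inferInstance)
        (Set.mem_singleton k)
    apply h1
    exact ⟨{x : I | (x : ℝ) < p}, measurableSet_lt measurable_subtype_coe measurable_const, rfl⟩

theorem law_insert {e : ℕ → Sym2 V} (he : Function.Injective e) (G : SimpleGraph V) (k : ℕ)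
    {A : Set (Sym2 V)} (hA : A ⊆ e '' Set.Iio k) :
    labMeas {W | st e G W (k + 1) = insert (e k) A} =
      ENNReal.ofReal (pe G (e '' Set.Iio k) A (e k)) * labMeas {W | st e G W k = A} := by
  have hk : e k ∉ A := fun h => notMem_image_Iio he le_rfl (hA h)
  have h1 : insert (e k) A \ {e k} = A := by
    ext x
    simp only [Set.mem_sdiff, Set.mem_insert_iff, Set.mem_singleton_iff]
    constructor
    · rintro ⟨rfl | h1, h2⟩
      · exact absurd rfl h2
      · exact h1
    · intro h1
      exact ⟨Or.inr h1, fun h2 => hk (h2 ▸ h1)⟩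
  have h2 : {W : ℕ → I | st e G W (k + 1) = insert (e k) A} =
      {W : ℕ → I | st e G W k = A} ∩ {W | (W k : ℝ) < pe G (e '' Set.Iio k) A (e k)} := by
    ext W
    simp only [Set.mem_ofPred_eq, Set.mem_inter_iff]
    rw [st_succ_eq_iff he, h1]
    constructor
    · rintro (⟨h3, _⟩ | ⟨_, h4, h5⟩)
      · exfalso
        have : e k ∈ st e G W k := by rw [h3]; exact Set.mem_insert _ _
        exact notMem_image_Iio he le_rfl (st_subset e G W k this)
      · exact ⟨h4, h5⟩
    · rintro ⟨h3, h4⟩
      exact Or.inr ⟨Set.mem_insert _ _, h3, h4⟩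
  rw [h2, indep_past k (measurableSet_past_st he G k A), labMeas_lt k (pe_nonneg _ _ _ _)
    (pe_le_one _ _ _ _), mul_comm]

end Vale.Agent.P143
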