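import Vale.Agent.P143.KUst
import Vale.Agent.P143.KSeq

/-!
# Existence of the FUSF as a measurable kernel in the graph
-/

open Filter Topology MeasureTheory ProbabilityTheory
open scoped unitInterval ENNReal

namespace Vale.Agent.P143

universe u

variable {V : Type u}

/-! ### Exhaustions -/

theorem reachable_comap_of_walk {G : SimpleGraph V} {S : Set V} {a b : V} (p : G.Walk a b)
    (hp : ∀ x ∈ p.support, x ∈ S) (ha : a ∈ S) (hb : b ∈ S) :
    (G.comap (Subtype.val : S → V)).Reachable ⟨a, ha⟩ ⟨b, hb⟩ := by
  induction p with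
  | nil => exact SimpleGraph.Reachable.refl _
  | @cons x y z h p ih =>
    have hy : y ∈ S := hp y (by simp)
    have h1 : (G.comap (Subtype.val : S → V)).Adj ⟨x, ha⟩ ⟨y, hy⟩ := h
    refine h1.reachable.trans (ih (fun w hw => hp w ?_) hy hb)
    rw [SimpleGraph.Walk.support_cons]
    exact List.mem_cons_of_mem _ hw

/-- induced subgraph -/
def indSub (G : SimpleGraph V) (S : Set V) : G.Subgraph where
  verts := S
  Adj x y := G.Adj x y ∧ x ∈ S ∧ y ∈ S
  adj_sub h := h.1
  edge_vert h := h.2.1
  symm := ⟨fun _ _ h => ⟨h.1.symm, h.2.2, h.2.1⟩⟩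

theorem exists_exhaustion [Countable V] {G : SimpleGraph V} (hG : G.Connected) :
    ∃ H : ℕ → G.Subgraph, IsExhaustion G H := by
  classical
  have := hG.nonempty
  obtain ⟨f, hf⟩ := exists_surjective_nat V
  have hw : ∀ k, Nonempty (G.Walk (f 0) (f k)) := fun k => hG.preconnected _ _
  let w : ∀ k, G.Walk (f 0) (f k) := fun k => (hw k).some
  let S : ℕ → Set V := fun n => ⋃ k ∈ Set.Iic n, {x | x ∈ (w k).support}
  have hSm : Monotone S := fun n m h => Set.biUnion_mono (Set.Iic_subset_Iic.2 h) fun _ _ => subset_rfl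
  have h0 : ∀ n, f 0 ∈ S n := fun n =>
    Set.mem_biUnion (Set.mem_Iic.2 (Nat.zero_le n)) ((w 0).start_mem_support)
  have hcov : ∀ x, ∃ n, x ∈ S n := fun x => by
    obtain ⟨k, rfl⟩ := hf x
    exact ⟨k, Set.mem_biUnion (Set.mem_Iic.2 le_rfl) (w k).end_mem_support⟩
  refine ⟨fun n => indSub G (S n), ?_, ?_, ?_, ?_⟩
  · intro n m h
    exact ⟨hSm h, fun x y hxy => ⟨hxy.1, hSm h hxy.2.1, hSm h hxy.2.2⟩⟩
  · intro n
    exact (Set.finite_Iic n).biUnion fun k _ => (w k).support.finite_toSet
  · intro n
    have e : (indSub G (S n)).coe = G.comap (Subtype.val : S n → V) := by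
      ext x y
      constructor
      · intro h; exact h.1
      · intro h; exact ⟨h, x.2, y.2⟩
    have key : ∀ x (hx : x ∈ S n), (G.comap (Subtype.val : S n → V)).Reachable ⟨f 0, h0 n⟩ ⟨x, hx⟩ := by
      intro x hx
      obtain ⟨k, hk, hxk⟩ := Set.mem_iUnion₂.1 hx
      have hxk' : x ∈ (w k).support := hxk
      refine reachable_comap_of_walk ((w k).takeUntil x hxk') ?_ _ _
      intro y hy
      exact Set.mem_biUnion hk ((w k).support_takeUntil_subset_support hxk' hy)
    constructor
    rw [e]
    have hne : Nonempty (indSub G (S n)).verts := ⟨⟨f 0, h0 n⟩⟩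
    have hpre : (G.comap (Subtype.val : S n → V)).Preconnected := fun x y =>
      (key x.1 x.2).symm.trans (key y.1 y.2)
    exact ⟨hpre⟩
  · apply SimpleGraph.Subgraph.ext
    · rw [SimpleGraph.Subgraph.verts_iSup]
      ext x
      simp only [Set.mem_iUnion]
      exact ⟨fun _ => trivial, fun _ => hcov x⟩
    · ext x y
      rw [SimpleGraph.Subgraph.iSup_adj]
      constructor
      · rintro ⟨n, h⟩
        exact h.1
      · intro h
        obtain ⟨n, hn⟩ := hcov x
        obtain ⟨m, hm⟩ := hcov y
        exact ⟨max n m, h, hSm (le_max_left _ _) hn, hSm (le_max_right _ _) hm⟩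

/-! ### Cylinders -/

/-- cylinder events -/
def cyl (F A : Set (Sym2 V)) : Set (Set (Sym2 V)) := {T | T ∩ F = A}

theorem measurableSet_cyl [Countable V] (F A : Set (Sym2 V)) : MeasurableSet (cyl F A) := by
  have : cyl F A = ⋂ x : Sym2 V, {T : Set (Sym2 V) | (x ∈ T ∧ x ∈ F) ↔ x ∈ A} := by
    ext T
    simp only [cyl, Set.mem_ofPred_eq, Set.mem_iInter]
    exact Set.ext_iff
  rw [this]
  refine MeasurableSet.iInter fun x => ?_
  have h1 : MeasurableSet {T : Set (Sym2 V) | x ∈ T} :=
    measurableSet_setOfPred.2 (measurable_set_mem x)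
  by_cases hF : x ∈ F <;> by_cases hA : x ∈ A
  · simpa only [hF, hA, and_true, iff_true] using h1
  · simp only [hF, hA, and_true, iff_false]
    exact h1.compl
  · simp [hF, hA]
  · simp [hF, hA]

theorem cyl_split [Countable V] (ν : Measure (Set (Sym2 V))) [IsFiniteMeasure ν]
    {F A : Set (Sym2 V)} (hAF : A ⊆ F) {e : Sym2 V} (he : e ∉ F) :
    ν.real (cyl F A) = ν.real (cyl (insert e F) A) + ν.real (cyl (insert e F) (insert e A)) := by
  rw [← measureReal_union]
  · congr 1
    ext T
    simp only [cyl, Set.mem_union, Set.mem_ofPred_eq]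
    rw [inter_insert_iff hAF he, inter_insert_iff' hAF he]
    tauto
  · rw [Set.disjoint_left]
    intro T h1 h2
    simp only [cyl, Set.mem_ofPred_eq] at h1 h2
    rw [inter_insert_iff' hAF he] at h1
    rw [inter_insert_iff hAF he] at h2
    exact h1.2 h2.2
  · exact measurableSet_cyl _ _

theorem cyl_empty {F A : Set (Sym2 V)} (h : ¬ A ⊆ F) : cyl F A = ∅ := by
  ext T
  simp only [cyl, Set.mem_ofPred_eq, Set.mem_empty_iff_false, iff_false]
  rintro rfl
  exact h Set.inter_subset_right

/-- convergence of all cylinder probabilities over `F` -/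
def ConvOn {G : SimpleGraph V} (H : ℕ → G.Subgraph) (ν : Measure (Set (Sym2 V)))
    (F : Set (Sym2 V)) : Prop :=
  ∀ A, Tendsto (fun n => ustProb (H n) F A) atTop (𝓝 (ν.real (cyl F A)))

theorem ConvOn.of_insert [Countable V] {G : SimpleGraph V} {H : ℕ → G.Subgraph}
    (hH : IsExhaustion G H) {ν : Measure (Set (Sym2 V))} [IsFiniteMeasure ν] {F : Set (Sym2 V)}
    {e : Sym2 V} (h : ConvOn H ν (insert e F)) : ConvOn H ν F := by
  by_cases he : e ∈ F
  · rwa [Set.insert_eq_of_mem he] at h
  intro A
  by_cases hAF : A ⊆ F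
  · rw [cyl_split ν hAF he]
    have : (fun n => ustProb (H n) F A) =
        fun n => ustProb (H n) (insert e F) A + ustProb (H n) (insert e F) (insert e A) := by
      funext n
      exact ustProb_split (hH.finite n) hAF he
    rw [this]
    exact (h A).add (h (insert e A))
  · rw [cyl_empty hAF]
    simp only [ustProb_eq_zero _ hAF, measureReal_empty]
    exact tendsto_const_nhds

theorem ConvOn.mono [Countable V] {G : SimpleGraph V} {H : ℕ → G.Subgraph}
    (hH : IsExhaustion G H) {ν : Measure (Set (Sym2 V))} [IsFiniteMeasure ν] {F E : Set (Sym2 V)}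
    (hE : E.Finite) (hFE : F ⊆ E) (h : ConvOn H ν E) : ConvOn H ν F := by
  have key : ∀ D : Set (Sym2 V), D.Finite → ConvOn H ν (F ∪ D) → ConvOn H ν F := by
    intro D hD
    induction D, hD using Set.Finite.induction_on with
    | empty => simp
    | @insert x D _ _ ih =>
      intro h
      apply ih
      rw [Set.union_insert] at h
      exact h.of_insert hH
  refine key E hE ?_
  rwa [Set.union_eq_self_of_subset_left hFE]

theorem exists_fusf_kernel (V : Type u) [Countable V] [Infinite V] :
    ∃ κ : Kernel (SimpleGraph V) (Set (Sym2 V)), IsMarkovKernel κ ∧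
      ∀ G : SimpleGraph V, G.Connected →
        IsFUSF G (κ G) ∧
        (∀ᵐ η ∂(κ G), η ⊆ G.edgeSet) ∧
        ∀ F A : Set (Sym2 V), F.Finite → A ⊆ F → ∀ e ∉ F,
          κ G {η | η ∩ F = A ∧ e ∈ η} =
            ENNReal.ofReal (pe G F A e) * κ G {η | η ∩ F = A} := by
  classical
  have hinf : Infinite (Sym2 V) := Infinite.of_injective (fun x : V => s(x, x)) (by
    intro x y h
    rcases Sym2.eq_iff.1 h with h | h
    · exact h.1
    · exact h.1)
  obtain ⟨e⟩ : Nonempty (ℕ ≃ Sym2 V) := nonempty_equiv_of_countable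
  have hmeas := measurable_fullSt (V := V) e.bijective
  let κ : Kernel (SimpleGraph V) (Set (Sym2 V)) :=
    (Kernel.id ×ₖ Kernel.const (SimpleGraph V) labMeas).map (fun p => fullSt e p.1 p.2)
  have hκ : IsMarkovKernel κ := Kernel.IsMarkovKernel.map _ hmeas
  have hκG : ∀ G, κ G = Measure.map (fun W => fullSt e G W) labMeas := by
    intro G
    simp only [κ]
    rw [Kernel.map_apply _ hmeas, Kernel.prod_apply, Kernel.id_apply, Kernel.const_apply,
      Measure.dirac_prod, Measure.map_map hmeas measurable_prodMk_left]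
    rfl
  have hmG : ∀ G, Measurable fun W => fullSt e G W := fun G =>
    hmeas.comp measurable_prodMk_left
  refine ⟨κ, hκ, fun G hG => ?_⟩
  have hcyl : ∀ k A, κ G (cyl (e '' Set.Iio k) A) = labMeas {W | st e G W k = A} := by
    intro k A
    rw [hκG, Measure.map_apply (hmG G) (measurableSet_cyl _ _)]
    congr 1
    ext W
    simp only [Set.mem_preimage, cyl, Set.mem_ofPred_eq, fullSt_inter e.injective]
  -- convergence along the enumeration
  have hconvk : ∀ H : ℕ → G.Subgraph, IsExhaustion G H → ∀ k, ConvOn H (κ G) (e '' Set.Iio k) := by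
    intro H hH k
    induction k with
    | zero =>
      have h0 : e '' Set.Iio 0 = ∅ := by simp
      rw [h0]
      intro A
      by_cases hA : A = ∅
      · subst hA
        have : cyl (∅ : Set (Sym2 V)) ∅ = Set.univ := by
          ext T; simp [cyl]
        rw [this]
        simp only [ustProb_empty (hH.finite _) (hH.connected _), probReal_univ]
        exact tendsto_const_nhds
      · have hA' : ¬ A ⊆ ∅ := fun h => hA (Set.subset_empty_iff.1 h)
        rw [cyl_empty hA']
        simp only [ustProb_eq_zero _ hA', measureReal_empty]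
        exact tendsto_const_nhds
    | succ k ih =>
      have hek : e k ∉ e '' Set.Iio k := notMem_image_Iio e.injective le_rfl
      have hins : ∀ A, A ⊆ e '' Set.Iio k →
          Tendsto (fun n => ustProb (H n) (insert (e k) (e '' Set.Iio k)) (insert (e k) A)) atTop
            (𝓝 ((κ G).real (cyl (insert (e k) (e '' Set.Iio k)) (insert (e k) A)))) := by
        intro A hA
        have h1 := tendsto_ustProb_insert hH (image_Iio_finite e k) hA hek (ih A)
        have h2 : (κ G).real (cyl (insert (e k) (e '' Set.Iio k)) (insert (e k) A)) =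
            pe G (e '' Set.Iio k) A (e k) * (κ G).real (cyl (e '' Set.Iio k) A) := by
          unfold Measure.real
          rw [← image_Iio_succ, hcyl, hcyl, law_insert e.injective G k hA, ENNReal.toReal_mul,
            ENNReal.toReal_ofReal (pe_nonneg _ _ _ _)]
        rw [h2]
        exact h1
      rw [image_Iio_succ]
      intro B
      by_cases hB : B ⊆ insert (e k) (e '' Set.Iio k)
      · by_cases hk : e k ∈ B
        · have h1 : insert (e k) (B \ {e k}) = B := by
            ext x
            simp only [Set.mem_insert_iff, Set.mem_sdiff, Set.mem_singleton_iff]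
            constructor
            · rintro (rfl | h)
              · exact hk
              · exact h.1
            · intro h
              by_cases h' : x = e k
              · exact Or.inl h'
              · exact Or.inr ⟨h, h'⟩
          have h2 : B \ {e k} ⊆ e '' Set.Iio k := by
            rintro x ⟨hx, hxk⟩
            exact (hB hx).resolve_left hxk
          have := hins _ h2
          rwa [h1] at this
        · have h2 : B ⊆ e '' Set.Iio k := by
            intro x hx
            exact (hB hx).resolve_left (fun h => hk (h ▸ hx))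
          have h3 := (ih B).sub (hins B h2)
          have h4 : (κ G).real (cyl (insert (e k) (e '' Set.Iio k)) B) =
              (κ G).real (cyl (e '' Set.Iio k) B) -
              (κ G).real (cyl (insert (e k) (e '' Set.Iio k)) (insert (e k) B)) := by
            rw [cyl_split (κ G) h2 hek]; ring
          rw [h4]
          refine h3.congr fun n => ?_
          rw [ustProb_split (hH.finite n) h2 hek]; ring
      · rw [cyl_empty hB]
        simp only [ustProb_eq_zero _ hB, measureReal_empty]
        exact tendsto_const_nhds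
  have hsub : ∀ F : Set (Sym2 V), F.Finite → ∃ k, F ⊆ e '' Set.Iio k := by
    intro F hF
    obtain ⟨N, hN⟩ := (hF.image e.symm).bddAbove
    refine ⟨N + 1, fun x hx => ⟨e.symm x, ?_, e.apply_symm_apply x⟩⟩
    exact Nat.lt_succ_of_le (hN (Set.mem_image_of_mem _ hx))
  have hconv : ∀ H : ℕ → G.Subgraph, IsExhaustion G H → ∀ F : Set (Sym2 V), F.Finite →
      ConvOn H (κ G) F := by
    intro H hH F hF
    obtain ⟨k, hk⟩ := hsub F hF
    exact (hconvk H hH k).mono hH (image_Iio_finite e k) hk
  obtain ⟨H, hH⟩ := exists_exhaustion hG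
  have hchain : ∀ F A : Set (Sym2 V), F.Finite → A ⊆ F → ∀ e ∉ F,
      κ G {η | η ∩ F = A ∧ e ∈ η} = ENNReal.ofReal (pe G F A e) * κ G {η | η ∩ F = A} := by
    intro F A hF hAF x hx
    have h1 := tendsto_ustProb_insert hH hF hAF hx (hconv H hH F hF A)
    have h2 := hconv H hH (insert x F) (hF.insert x) (insert x A)
    have h3 := tendsto_nhds_unique h2 h1
    have h4 : {η : Set (Sym2 V) | η ∩ F = A ∧ x ∈ η} = cyl (insert x F) (insert x A) := by
      ext T
      simp only [cyl, Set.mem_ofPred_eq]
      rw [inter_insert_iff hAF hx]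
    have h5 : {η : Set (Sym2 V) | η ∩ F = A} = cyl F A := rfl
    rw [h4, h5, ← ofReal_measureReal (h := measure_ne_top _ _),
      ← ofReal_measureReal (μ := κ G) (s := cyl F A) (h := measure_ne_top _ _), h3,
      ENNReal.ofReal_mul (pe_nonneg _ _ _ _)]
  refine ⟨⟨inferInstance, ⟨H, hH⟩, fun H hH F A hF => hconv H hH F hF A⟩, ?_, hchain⟩
  have hall : ∀ x : Sym2 V, x ∉ G.edgeSet → ∀ᵐ η ∂(κ G), x ∉ η := by
    intro x hx
    have := hchain ∅ ∅ Set.finite_empty (Set.Subset.refl _) x (Set.notMem_empty _)
    rw [pe_of_notMem hx, ENNReal.ofReal_zero, zero_mul] at this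
    rw [ae_iff]
    convert this using 2
    ext T
    simp
  have h2 : ∀ᵐ η ∂(κ G), ∀ x : Sym2 V, x ∉ G.edgeSet → x ∉ η := by
    rw [ae_all_iff]
    intro x
    by_cases hx : x ∈ G.edgeSet
    · exact Eventually.of_forall fun η h => absurd hx h
    · filter_upwards [hall x hx] with η h _
      exact h
  filter_upwards [h2] with η h x hx
  by_contra h'
  exact h x h' hx

end Vale.Agent.P143
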