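import Vale.Agent.P143.Labels
import Vale.Agent.P143.Kernel

/-!
# From edge labels to vertex labels, and the Cayley graph case
-/

open MeasureTheory Filter Topology ProbabilityTheory
open scoped unitInterval ENNReal

namespace Vale.Agent.P143

universe u

variable {V : Type u}

/-- extension of edge labels by a default value -/
noncomputable def extLab (S : Set (Sym2 V)) (U : S → I × I) (e : Sym2 V) : I × I :=
  open Classical in if h : e ∈ S then U ⟨e, h⟩ else (0, 0)

theorem measurable_extLab (S : Set (Sym2 V)) : Measurable (extLab S) := by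
  classical
  refine measurable_pi_lambda _ fun e => ?_
  unfold extLab
  by_cases h : e ∈ S
  · simp only [h, dif_pos]
    exact measurable_pi_apply _
  · simp only [h, dif_neg, not_false_eq_true]
    exact measurable_const

/-- passage from edge labels to vertex labels for the law on one graph -/
theorem law_of_edge [Countable V] {Φ : SimpleGraph V → (Sym2 V → I × I) → Set (Sym2 V)}
    (hΦm : Measurable (fun p : SimpleGraph V × (Sym2 V → I × I) => Φ p.1 p.2))
    (hΦe : ∀ G U U', (∀ e ∈ G.edgeSet, U e = U' e) → Φ G U = Φ G U')
    {Ψ : SimpleGraph V → (V → I) → (Sym2 V → I × I)}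
    (hΨm : Measurable (fun p : SimpleGraph V × (V → I) => Ψ p.1 p.2)) (G : SimpleGraph V)
    (hΨ : Measure.map (fun U (e : G.edgeSet) => Ψ G U e)
            (Measure.infinitePi fun _ : V => (volume : Measure I)) =
          Measure.infinitePi fun _ : G.edgeSet => (volume : Measure (I × I))) :
    Measure.map (fun U => Φ G (Ψ G U)) (Measure.infinitePi fun _ : V => (volume : Measure I)) =
      Measure.map (Φ G) (Measure.infinitePi fun _ : Sym2 V => (volume : Measure (I × I))) := by
  have hΦG : Measurable (Φ G) := hΦm.comp measurable_prodMk_left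
  have hΨG : Measurable (Ψ G) := hΨm.comp measurable_prodMk_left
  have hc : Measurable (fun U => Φ G (extLab G.edgeSet U)) := hΦG.comp (measurable_extLab _)
  have hres : ∀ U : Sym2 V → I × I, Φ G U = Φ G (extLab G.edgeSet fun e => U e) := by
    intro U
    apply hΦe
    intro e he
    simp [extLab, he]
  have h1 : Measure.map (fun (U : Sym2 V → I × I) (e : G.edgeSet) => U e)
      (Measure.infinitePi fun _ : Sym2 V => (volume : Measure (I × I))) =
      Measure.infinitePi fun _ : G.edgeSet => (volume : Measure (I × I)) :=
    Measure.map_infinitePi_infinitePi_of_inj (P := fun _ : Sym2 V => (volume : Measure (I × I)))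
      Subtype.val_injective
  have h2 : Measure.map (Φ G) (Measure.infinitePi fun _ : Sym2 V => (volume : Measure (I × I))) =
      Measure.map (fun U => Φ G (extLab G.edgeSet U))
        (Measure.infinitePi fun _ : G.edgeSet => (volume : Measure (I × I))) := by
    rw [← h1, Measure.map_map hc (by fun_prop)]
    congr 1
    funext U
    exact hres U
  rw [h2, ← hΨ, Measure.map_map hc]
  · congr 1
    funext U
    exact hres (Ψ G U)
  · exact measurable_pi_lambda _ fun e => (measurable_pi_apply _).comp hΨG

/-- mass transport for the identity component of a Cayley graph: `P` is the Dirac mass at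
`(G, 1)` and `𝒮` is the set of left multiplications. -/
theorem mtp_cayley {Γ : Type u} [Group Γ] [Countable Γ] [MeasurableSpace Γ]
    [DiscreteMeasurableSpace Γ] (G : SimpleGraph Γ)
    (hG : ∀ γ : Γ, permG (Equiv.mulLeft γ) G = G) :
    MTP (Set.range (Equiv.mulLeft : Γ → Equiv.Perm Γ)) permG
      (Measure.dirac ((G, 1) : SimpleGraph Γ × Γ)) := by
  intro f hf hinv
  have hm : ∀ (F : SimpleGraph Γ → Γ → Γ → ℝ≥0∞), (∀ x y, Measurable fun ω => F ω x y) →
      Measurable fun p : SimpleGraph Γ × Γ => ∑' y, F p.1 p.2 y := by
    intro F hF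
    refine Measurable.tsum fun y => ?_
    exact measurable_from_prod_countable_left fun x => hF x y
  rw [lintegral_dirac' _ (hm f hf), lintegral_dirac' _ (hm (fun ω x y => f ω y x)
    (fun x y => hf y x))]
  simp only
  have h1 : ∀ y, f G 1 y = f G y⁻¹ 1 := by
    intro y
    have := hinv (Equiv.mulLeft y⁻¹) ⟨y⁻¹, rfl⟩ G 1 y
    rw [hG] at this
    simpa using this.symm
  rw [tsum_congr h1]
  exact (Equiv.inv Γ).tsum_eq (fun y => f G y 1)

end Vale.Agent.P143
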