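import Vale.Agent.P143.Defs

/-!
# Hilbert space objects for P143
-/

open MeasureTheory Filter Topology
open scoped unitInterval ENNReal

namespace Vale.Agent.P143

universe u

variable {V : Type u}

/-- The Hilbert space `ℓ²(V × V)`. -/
abbrev Hs (V : Type u) := lp (fun _ : V × V => ℝ) 2

open Classical in
/-- basis vector -/
noncomputable def dl (i : V × V) : Hs V := lp.single 2 i (1 : ℝ)

/-- Vectors vanishing off `T`. -/
def coordSub (T : Set (V × V)) : Submodule ℝ (Hs V) where
  carrier := {x | ∀ i ∉ T, x i = 0}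
  add_mem' := by
    intro x y hx hy i hi
    simp [hx i hi, hy i hi]
  zero_mem' := by intro i _; simp
  smul_mem' := by
    intro c x hx i hi
    simp [hx i hi]

/-- Antisymmetric vectors. -/
def antisym (V : Type u) : Submodule ℝ (Hs V) where
  carrier := {x | ∀ a b, x (a, b) = - x (b, a)}
  add_mem' := by
    intro x y hx hy a b
    simp [hx a b, hy a b]; ring
  zero_mem' := by intro a b; simp
  smul_mem' := by
    intro c x hx a b
    simp [hx a b]

/-- The pairs whose unordered pair lies in `R`. -/
def idx (R : Set (Sym2 V)) : Set (V × V) := {i | s(i.1, i.2) ∈ R}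

/-- Finite cycles of `G` (finitely supported divergence-free antisymmetric functions on edges). -/
def cyc (G : SimpleGraph V) : Submodule ℝ (Hs V) where
  carrier := {x | (Function.support (x : V × V → ℝ)).Finite ∧ x ∈ antisym V ∧
    (∀ a b, ¬ G.Adj a b → x (a, b) = 0) ∧ ∀ a, ∑ᶠ b, x (a, b) = 0}
  add_mem' := by
    rintro x y ⟨hx1, hx2, hx3, hx4⟩ ⟨hy1, hy2, hy3, hy4⟩
    refine ⟨?_, add_mem hx2 hy2, ?_, ?_⟩
    · refine (hx1.union hy1).subset ?_
      intro i hi
      simp only [Function.mem_support, lp.coeFn_add, Pi.add_apply, ne_eq] at hi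
      by_contra hcon
      simp only [Set.mem_union, Function.mem_support, not_or, not_not] at hcon
      exact hi (by rw [hcon.1, hcon.2, add_zero])
    · intro a b hab
      simp [hx3 a b hab, hy3 a b hab]
    · intro a
      have hfx : (Function.support fun b => x (a, b)).Finite :=
        hx1.preimage (f := fun b => (a, b)) (by intro b _ c _ h; exact (Prod.mk.inj h).2)
      have hfy : (Function.support fun b => y (a, b)).Finite :=
        hy1.preimage (f := fun b => (a, b)) (by intro b _ c _ h; exact (Prod.mk.inj h).2)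
      simp only [lp.coeFn_add, Pi.add_apply]
      rw [finsum_add_distrib hfx hfy, hx4, hy4, add_zero]
  zero_mem' := by
    refine ⟨?_, zero_mem _, by simp, by simp⟩
    have : Function.support ((0 : Hs V) : V × V → ℝ) = ∅ := by
      rw [lp.coeFn_zero]; exact Function.support_zero
    rw [this]; exact Set.finite_empty
  smul_mem' := by
    rintro c x ⟨hx1, hx2, hx3, hx4⟩
    refine ⟨?_, (antisym V).smul_mem c hx2, ?_, ?_⟩
    · refine hx1.subset ?_
      intro i hi
      simp only [Function.mem_support, lp.coeFn_smul, Pi.smul_apply, smul_eq_mul, ne_eq,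
        mul_eq_zero, not_or] at hi
      exact hi.2
    · intro a b hab
      simp [hx3 a b hab]
    · intro a
      simp only [lp.coeFn_smul, Pi.smul_apply]
      rw [← smul_finsum, hx4, smul_zero]

/-- The orthogonal projection onto the closure of `K`. -/
noncomputable def pj (K : Submodule ℝ (Hs V)) : Hs V →L[ℝ] Hs V :=
  K.topologicalClosure.starProjection

/-- diagonal entries of the projection onto the closure of `K` -/
noncomputable def qq (K : Submodule ℝ (Hs V)) (i : V × V) : ℝ := inner ℝ (dl i) (pj K (dl i))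

/-- `closure Π_{Rᶜ} (X ∩ (T0)^⊥)`: the subspace `X` after deleting `T0 ⊆ R` and contracting
`R \ T0`. -/
noncomputable def condSub (X : Submodule ℝ (Hs V)) (R T0 : Set (V × V)) : Submodule ℝ (Hs V) :=
  ((X ⊓ coordSub T0ᶜ).map (pj (coordSub Rᶜ) : Hs V →ₗ[ℝ] Hs V)).topologicalClosure

/-- closure of the finite cycles -/
noncomputable def dia (G : SimpleGraph V) : Submodule ℝ (Hs V) := (cyc G).topologicalClosure

open Classical in
/-- conditional probability that `i` is in the forest, given that the forest agrees with `η`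
on `R` (indexed by ordered pairs) -/
noncomputable def pei (G : SimpleGraph V) (R η : Set (Sym2 V)) (i : V × V) : ℝ :=
  if s(i.1, i.2) ∈ G.edgeSet then
    1 - 2 * qq (condSub (dia G) (idx R) (idx (R \ η))) i
  else 0

/-- conditional probability that `e` is in the forest, given that the forest agrees with `η`
on `R` -/
noncomputable def pe (G : SimpleGraph V) (R η : Set (Sym2 V)) (e : Sym2 V) : ℝ :=
  pei G R η (Quot.out e)

/-! ### actions of permutations -/

/-- relabelling of a graph -/
def permG (g : Equiv.Perm V) (G : SimpleGraph V) : SimpleGraph V := G.comap g.symm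

/-- relabelling of a set of edges -/
def permE (g : Equiv.Perm V) (η : Set (Sym2 V)) : Set (Sym2 V) := (Sym2.map g.symm) ⁻¹' η

/-- relabelling of edge labels -/
def permL {α : Type*} (g : Equiv.Perm V) (U : Sym2 V → α) : Sym2 V → α :=
  fun e => U (Sym2.map g.symm e)

/-- Mass transport principle for a measure on (configuration, root), with respect to a set `𝒮` of
permutations of the vertices, acting on configurations by `act`. -/
def MTP {Ω : Type*} [MeasurableSpace Ω] [MeasurableSpace V] (𝒮 : Set (Equiv.Perm V))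
    (act : Equiv.Perm V → Ω → Ω) (P : Measure (Ω × V)) : Prop :=
  ∀ f : Ω → V → V → ℝ≥0∞, (∀ x y, Measurable fun ω => f ω x y) →
    (∀ g ∈ 𝒮, ∀ ω x y, f (act g ω) (g x) (g y) = f ω x y) →
    ∫⁻ p, ∑' y, f p.1 p.2 y ∂P = ∫⁻ p, ∑' y, f p.1 y p.2 ∂P

/-- measurable equivariant random subset of `V × V` -/
structure GoodSet {Ω : Type*} [MeasurableSpace Ω] (𝒮 : Set (Equiv.Perm V))
    (act : Equiv.Perm V → Ω → Ω) (R : Ω → Set (V × V)) : Prop where
  meas : ∀ i, MeasurableSet {ω | i ∈ R ω}
  equi : ∀ g ∈ 𝒮, ∀ ω (i : V × V), (g i.1, g i.2) ∈ R (act g ω) ↔ i ∈ R ω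

/-- measurable equivariant field of bounded operators -/
structure GoodOp {Ω : Type*} [MeasurableSpace Ω] (𝒮 : Set (Equiv.Perm V))
    (act : Equiv.Perm V → Ω → Ω) (A : Ω → (Hs V →L[ℝ] Hs V)) : Prop where
  meas : ∀ i j, Measurable fun ω => (inner ℝ (dl i) (A ω (dl j)) : ℝ)
  equi : ∀ g ∈ 𝒮, ∀ ω (i j : V × V),
    (inner ℝ (dl (g i.1, g i.2)) (A (act g ω) (dl (g j.1, g j.2))) : ℝ) =
      inner ℝ (dl i) (A ω (dl j))

end Vale.Agent.P143
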