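import Vale.Agent.P143.Pe

/-!
# Convergence of the conditional subspaces along increasing sequences of graphs
-/

open Filter Topology MeasureTheory

namespace Vale.Agent.P143

universe u

variable {V : Type u}

theorem coordSub_continuous_apply (i : V × V) : Continuous fun x : Hs V => x i := by
  have : (fun x : Hs V => x i) = fun x => inner ℝ (dl i) x := by
    funext x
    rw [inner_dl_left]
  rw [this]
  fun_prop

theorem closure_inf_ker (K : Submodule ℝ (Hs V)) (i : V × V) {x : Hs V}
    (hx : x ∈ K.topologicalClosure) (hxi : x i = 0) :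
    x ∈ (K ⊓ coordSub {i}ᶜ).topologicalClosure := by
  by_cases h : ∀ k ∈ K, k i = 0
  · have : K ⊓ coordSub {i}ᶜ = K := by
      refine inf_eq_left.2 fun k hk j hj => ?_
      simp only [Set.mem_compl_iff, Set.mem_singleton_iff, not_not] at hj
      rw [hj]; exact h k hk
    rwa [this]
  · push Not at h
    obtain ⟨k0, hk0, hne⟩ := h
    have hcont : Continuous (fun y : Hs V => y - (y i / k0 i) • k0) :=
      continuous_id.sub (((coordSub_continuous_apply i).div_const _).smul continuous_const)
    have hmaps : Set.MapsTo (fun y : Hs V => y - (y i / k0 i) • k0) (K : Set (Hs V))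
        ((K ⊓ coordSub {i}ᶜ : Submodule ℝ (Hs V)) : Set (Hs V)) := by
      intro y hy
      refine ⟨K.sub_mem hy (K.smul_mem _ hk0), ?_⟩
      intro j hj
      simp only [Set.mem_compl_iff, Set.mem_singleton_iff, not_not] at hj
      subst hj
      have e : (y - (y j / k0 j) • k0) j = y j - (y j / k0 j) * k0 j := rfl
      rw [e, div_mul_cancel₀ _ hne, sub_self]
    have h1 := hmaps.closure hcont hx
    simp only [hxi, zero_div, zero_smul, sub_zero] at h1
    exact h1

theorem closure_inf_coordSub (K : Submodule ℝ (Hs V)) {T : Set (V × V)} (hT : T.Finite)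
    {x : Hs V} (hx : x ∈ K.topologicalClosure) (hxT : x ∈ coordSub Tᶜ) :
    x ∈ (K ⊓ coordSub Tᶜ).topologicalClosure := by
  induction T, hT using Set.Finite.induction_on generalizing x with
  | empty =>
    have : K ⊓ coordSub (∅ : Set (V × V))ᶜ = K := by
      refine inf_eq_left.2 fun k _ j hj => ?_
      simp at hj
    rwa [this]
  | @insert i T hi hT ih =>
    have h1 : x ∈ coordSub Tᶜ := by
      intro j hj
      refine hxT j (fun h => hj (fun h' => h (Set.mem_insert_of_mem _ h')))
    have h2 := closure_inf_ker _ i (ih hx h1) (hxT i (by simp))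
    have : K ⊓ coordSub Tᶜ ⊓ coordSub {i}ᶜ ≤ K ⊓ coordSub (insert i T)ᶜ := by
      rintro y ⟨⟨hy1, hy2⟩, hy3⟩
      refine ⟨hy1, fun j hj => ?_⟩
      simp only [Set.mem_compl_iff, not_not] at hj
      rcases hj with rfl | hj
      · exact hy3 j (by simp)
      · exact hy2 j (by simpa using hj)
    exact Submodule.topologicalClosure_mono this h2

/-- the unclosed conditional subspace -/
noncomputable def preSub (X : Submodule ℝ (Hs V)) (R T : Set (V × V)) : Submodule ℝ (Hs V) :=
  (X ⊓ coordSub Tᶜ).map (pj (coordSub Rᶜ) : Hs V →ₗ[ℝ] Hs V)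

theorem condSub_eq_closure (X : Submodule ℝ (Hs V)) (R T : Set (V × V)) :
    condSub X R T = (preSub X R T).topologicalClosure := rfl

theorem condSub_dia (G : SimpleGraph V) (R : Set (V × V)) {T : Set (V × V)} (hT : T.Finite) :
    condSub (dia G) R T = condSub (cyc G) R T := by
  apply le_antisymm
  · unfold condSub
    apply Submodule.topologicalClosure_minimal _ _ (Submodule.isClosed_topologicalClosure _)
    rintro _ ⟨x, hx, rfl⟩
    have h1 : x ∈ (cyc G ⊓ coordSub Tᶜ).topologicalClosure :=
      closure_inf_coordSub _ hT hx.1 hx.2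
    have hmaps : Set.MapsTo (pj (coordSub Rᶜ) : Hs V → Hs V)
        ((cyc G ⊓ coordSub Tᶜ : Submodule ℝ (Hs V)) : Set (Hs V))
        (((cyc G ⊓ coordSub Tᶜ).map (pj (coordSub Rᶜ) : Hs V →ₗ[ℝ] Hs V) :
          Submodule ℝ (Hs V)) : Set (Hs V)) := fun y hy => ⟨y, hy, rfl⟩
    exact hmaps.closure (pj (coordSub Rᶜ)).continuous h1
  · apply Submodule.topologicalClosure_mono
    apply Submodule.map_mono
    exact inf_le_inf_right _ (Submodule.le_topologicalClosure _)

theorem cyc_mono {G G' : SimpleGraph V} (h : G ≤ G') : cyc G ≤ cyc G' := by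
  rintro x ⟨h1, h2, h3, h4⟩
  exact ⟨h1, h2, fun a b hab => h3 a b (fun h' => hab (h h')), h4⟩

theorem exists_cyc_of_mono {G : SimpleGraph V} {Gn : ℕ → SimpleGraph V} (hm : Monotone Gn)
    (hG : ∀ a b, G.Adj a b → ∃ n, (Gn n).Adj a b) {x : Hs V} (hx : x ∈ cyc G) :
    ∃ n, x ∈ cyc (Gn n) := by
  obtain ⟨h1, h2, h3, h4⟩ := hx
  have key : ∀ s : Set (V × V), s.Finite → (∀ i ∈ s, G.Adj i.1 i.2) →
      ∃ n, ∀ i ∈ s, (Gn n).Adj i.1 i.2 := by
    intro s hs
    induction s, hs using Set.Finite.induction_on with
    | empty => exact fun _ => ⟨0, by simp⟩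
    | @insert i s _ _ ih =>
      intro h
      obtain ⟨n, hn⟩ := ih (fun j hj => h j (Set.mem_insert_of_mem _ hj))
      obtain ⟨m, hm'⟩ := hG _ _ (h i (Set.mem_insert _ _))
      refine ⟨max n m, fun j hj => ?_⟩
      rcases hj with rfl | hj
      · exact hm (le_max_right _ _) hm'
      · exact hm (le_max_left _ _) (hn j hj)
  obtain ⟨n, hn⟩ := key _ h1 (fun i hi => by
    by_contra h
    exact hi (h3 _ _ h))
  refine ⟨n, h1, h2, fun a b hab => ?_, h4⟩
  by_contra h
  exact hab (hn (a, b) h)

theorem tendsto_qq {G : SimpleGraph V} {Gn : ℕ → SimpleGraph V} (hm : Monotone Gn)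
    (hle : ∀ n, Gn n ≤ G) (hG : ∀ a b, G.Adj a b → ∃ n, (Gn n).Adj a b) (R : Set (V × V))
    {T : Set (V × V)} (hT : T.Finite) (i : V × V) :
    Tendsto (fun n => qq (condSub (cyc (Gn n)) R T) i) atTop (𝓝 (qq (condSub (dia G) R T) i)) := by
  rw [condSub_dia G R hT]
  set U : ℕ → Submodule ℝ (Hs V) := fun n => (condSub (cyc (Gn n)) R T).topologicalClosure with hU
  have hUm : Monotone U := by
    intro n m hnm
    apply Submodule.topologicalClosure_mono
    apply Submodule.topologicalClosure_mono
    apply Submodule.map_mono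
    exact inf_le_inf_right _ (cyc_mono (hm hnm))
  have hsup : (⨆ n, U n).topologicalClosure = (condSub (cyc G) R T).topologicalClosure := by
    apply le_antisymm
    · apply Submodule.topologicalClosure_minimal _ _ (Submodule.isClosed_topologicalClosure _)
      refine iSup_le fun n => ?_
      apply Submodule.topologicalClosure_mono
      apply Submodule.topologicalClosure_mono
      apply Submodule.map_mono
      exact inf_le_inf_right _ (cyc_mono (hle n))
    · apply Submodule.topologicalClosure_minimal _ _ (Submodule.isClosed_topologicalClosure _)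
      apply Submodule.topologicalClosure_mono
      rintro _ ⟨x, hx, rfl⟩
      obtain ⟨n, hn⟩ := exists_cyc_of_mono hm hG hx.1
      refine (le_iSup U n) ?_
      apply Submodule.le_topologicalClosure
      apply Submodule.le_topologicalClosure
      exact ⟨x, ⟨hn, hx.2⟩, rfl⟩
  have h := Submodule.starProjection_tendsto_closure_iSup U hUm (dl i)
  have e : (⨆ n, U n).topologicalClosure.starProjection = pj (condSub (cyc G) R T) := by
    unfold pj
    simp_rw [hsup]
  rw [e] at h
  have h2 : Tendsto (fun n => (inner ℝ (dl i) (pj (condSub (cyc (Gn n)) R T) (dl i)) : ℝ)) atTop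
      (𝓝 (inner ℝ (dl i) (pj (condSub (cyc G) R T) (dl i)))) := tendsto_const_nhds.inner h
  exact h2

end Vale.Agent.P143
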