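import Vale.Agent.P143.MeasPe

/-!
# Cylinder events and the conditional-probability property
-/

open MeasureTheory Filter Topology
open scoped unitInterval ENNReal

namespace Vale.Agent.P143

universe u

section cyl

variable {E : Type u} [Countable E]

omit [Countable E] in
theorem measurable_inter_const (F : Set E) : Measurable fun η : Set E => η ∩ F := by
  rw [measurable_set_iff]
  intro a
  exact (measurable_set_mem a).and measurable_const

theorem measurableSet_cylE (F A : Set E) : MeasurableSet {η : Set E | η ∩ F = A} := by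
  have : {η : Set E | η ∩ F = A} = (fun η : Set E => η ∩ F) ⁻¹' {A} := rfl
  rw [this]
  exact measurable_inter_const F (measurableSet_singleton A)

theorem ext_cyl {μ ν : Measure (Set E)} [IsFiniteMeasure μ]
    (h : ∀ (F : Finset E) (A : Set E), A ⊆ F →
      μ {η : Set E | η ∩ (F : Set E) = A} = ν {η : Set E | η ∩ (F : Set E) = A}) : μ = ν := by
  have h' : ∀ (F : Finset E) (A : Set E), μ {η : Set E | η ∩ (F : Set E) = A} =
      ν {η : Set E | η ∩ (F : Set E) = A} := by
    intro F A
    by_cases hA : A ⊆ F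
    · exact h F A hA
    · have : {η : Set E | η ∩ (F : Set E) = A} = ∅ := by
        ext η
        simp only [Set.mem_ofPred_eq, Set.mem_empty_iff_false, iff_false]
        intro h'
        exact hA (h' ▸ Set.inter_subset_right)
      rw [this, measure_empty, measure_empty]
  refine ext_of_generate_finite
    {S : Set (Set E) | ∃ F : Finset E, ∃ A : Set E, S = {η : Set E | η ∩ (F : Set E) = A}} ?_ ?_ ?_ ?_
  · apply le_antisymm
    · have hm : @Measurable (Set E) (Set E) (MeasurableSpace.generateFrom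
          {S : Set (Set E) | ∃ F : Finset E, ∃ A : Set E, S = {η : Set E | η ∩ (F : Set E) = A}}) _ id := by
        rw [@measurable_set_iff]
        intro e
        rw [← @measurableSet_setOfPred]
        apply MeasurableSpace.measurableSet_generateFrom
        refine ⟨{e}, {e}, ?_⟩
        ext η
        simp only [id, Set.mem_ofPred_eq, Finset.coe_singleton]
        constructor
        · intro he
          rw [Set.inter_eq_right]
          simpa using he
        · intro he
          have : e ∈ η ∩ {e} := by rw [he]; rfl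
          exact this.1
      intro s hs
      exact hm hs
    · apply MeasurableSpace.generateFrom_le
      rintro _ ⟨F, A, rfl⟩
      exact measurableSet_cylE _ _
  · rintro _ ⟨F, A, rfl⟩ _ ⟨F', A', rfl⟩ ⟨η₀, h1, h2⟩
    classical
    refine ⟨F ∪ F', A ∪ A', ?_⟩
    simp only [Set.mem_ofPred_eq] at h1 h2
    subst h1 h2
    ext η
    simp only [Set.mem_inter_iff, Set.mem_ofPred_eq, Finset.coe_union, Set.inter_union_distrib_left]
    constructor
    · rintro ⟨h3, h4⟩
      rw [h3, h4]
    · intro h3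
      constructor
      · ext x
        have := Set.ext_iff.1 h3 x
        simp only [Set.mem_union, Set.mem_inter_iff, Finset.mem_coe] at this ⊢
        tauto
      · ext x
        have := Set.ext_iff.1 h3 x
        simp only [Set.mem_union, Set.mem_inter_iff, Finset.mem_coe] at this ⊢
        tauto
  · rintro _ ⟨F, A, rfl⟩
    exact h' F A
  · have := h' ∅ ∅
    simpa using this

theorem lintegral_fin (μ : Measure (Set E)) (F : Finset E) (h : Set E → ℝ≥0∞)
    (hh : ∀ η : Set E, h η = h (η ∩ (F : Set E))) {B : Set (Set E)} (hB : MeasurableSet B) :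
    ∫⁻ η in B, h η ∂μ = ∑ A ∈ F.powerset, h (A : Set E) *
      μ (B ∩ {η : Set E | η ∩ (F : Set E) = (A : Set E)}) := by
  classical
  have h1 : ∀ η : Set E, h η = ∑ A ∈ F.powerset,
      {η : Set E | η ∩ (F : Set E) = (A : Set E)}.indicator (fun _ => h (A : Set E)) η := by
    intro η
    have hA : ((F.filter (fun x => x ∈ η) : Finset E) : Set E) = η ∩ (F : Set E) := by
      ext x; simp [and_comm]
    rw [Finset.sum_eq_single (F.filter (fun x => x ∈ η))]
    · rw [Set.indicator_of_mem (by rw [Set.mem_ofPred_eq, hA]), hA, ← hh]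
    · intro A _ hne
      apply Set.indicator_of_notMem
      intro h2
      apply hne
      rw [Set.mem_ofPred_eq, ← hA] at h2
      exact_mod_cast h2.symm
    · intro h2
      exact absurd (Finset.mem_powerset.2 (Finset.filter_subset _ _)) h2
  calc ∫⁻ η in B, h η ∂μ = ∫⁻ η in B, ∑ A ∈ F.powerset,
      {η : Set E | η ∩ (F : Set E) = (A : Set E)}.indicator (fun _ => h (A : Set E)) η ∂μ :=
        lintegral_congr h1
    _ = ∑ A ∈ F.powerset, ∫⁻ η in B,
      {η : Set E | η ∩ (F : Set E) = (A : Set E)}.indicator (fun _ => h (A : Set E)) η ∂μ := by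
        rw [lintegral_finsetSum]
        intro A _
        exact measurable_const.indicator (measurableSet_cylE _ _)
    _ = _ := by
        apply Finset.sum_congr rfl
        intro A _
        rw [lintegral_indicator_const (measurableSet_cylE _ _),
          Measure.restrict_apply (measurableSet_cylE _ _), Set.inter_comm]

end cyl

variable {V : Type u}

/-- the conditional-probability property of the FUSF -/
structure IsCP (G : SimpleGraph V) (μ : Measure (Set (Sym2 V))) : Prop where
  prob : IsProbabilityMeasure μ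
  sub : ∀ᵐ η ∂μ, η ⊆ G.edgeSet
  cp : ∀ F A : Set (Sym2 V), F.Finite → A ⊆ F → ∀ e ∉ F,
    μ {η | η ∩ F = A ∧ e ∈ η} = ENNReal.ofReal (pe G F A e) * μ {η | η ∩ F = A}

theorem pe_inter (G : SimpleGraph V) (R η : Set (Sym2 V)) (e : Sym2 V) :
    pe G R (η ∩ R) e = pe G R η e := by
  apply pe_congr
  rw [Set.inter_assoc, Set.inter_self]

variable [Countable V] {G : SimpleGraph V} {μ : Measure (Set (Sym2 V))}

theorem IsCP.cp_compl (hμ : IsCP G μ) (F A : Set (Sym2 V)) (hF : F.Finite) (hA : A ⊆ F)
    (e : Sym2 V) (he : e ∉ F) :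
    μ {η | η ∩ F = A ∧ e ∉ η} = ENNReal.ofReal (1 - pe G F A e) * μ {η | η ∩ F = A} := by
  have := hμ.prob
  have h1 := hμ.cp F A hF hA e he
  have h2 : μ {η | η ∩ F = A} = μ {η | η ∩ F = A ∧ e ∈ η} + μ {η | η ∩ F = A ∧ e ∉ η} := by
    have h3 := (measure_inter_add_diff (μ := μ) {η | η ∩ F = A} (measurableSet_mem e)).symm
    exact h3
  have h4 : μ {η | η ∩ F = A ∧ e ∈ η} ≠ ⊤ := measure_ne_top _ _
  have h5 : μ {η | η ∩ F = A} ≠ ⊤ := measure_ne_top _ _
  have h6 : ENNReal.ofReal (1 - pe G F A e) + ENNReal.ofReal (pe G F A e) = 1 := by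
    rw [← ENNReal.ofReal_add (by linarith [pe_le_one G F A e]) (pe_nonneg _ _ _ _)]
    simp
  have h7 : μ {η | η ∩ F = A ∧ e ∈ η} + μ {η | η ∩ F = A ∧ e ∉ η} =
      μ {η | η ∩ F = A ∧ e ∈ η} + ENNReal.ofReal (1 - pe G F A e) * μ {η | η ∩ F = A} := by
    rw [← h2]
    conv_rhs => rw [h1, ← add_mul, add_comm (ENNReal.ofReal (pe G F A e)), h6, one_mul]
  exact (ENNReal.add_right_inj h4).1 h7

theorem IsCP.fin (hμ : IsCP G μ) (F : Finset (Sym2 V)) {e : Sym2 V} (he : e ∉ F)
    (h : Set (Sym2 V) → ℝ≥0∞) (hh : ∀ η : Set (Sym2 V), h η = h (η ∩ (F : Set (Sym2 V)))) :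
    ∫⁻ η in {η | e ∈ η}, h η ∂μ = ∫⁻ η, h η * ENNReal.ofReal (pe G F η e) ∂μ := by
  rw [lintegral_fin μ F h hh (measurableSet_mem e)]
  rw [← setLIntegral_univ, lintegral_fin μ F _ _ MeasurableSet.univ]
  · apply Finset.sum_congr rfl
    intro A hA
    rw [Finset.mem_powerset] at hA
    have h1 := hμ.cp F A F.finite_toSet (by exact_mod_cast hA) e (by exact_mod_cast he)
    have h2 : {η : Set (Sym2 V) | e ∈ η} ∩ {η | η ∩ (F : Set (Sym2 V)) = A} =
        {η | η ∩ (F : Set (Sym2 V)) = A ∧ e ∈ η} := by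
      ext η; simp [and_comm]
    rw [h2, h1, Set.univ_inter, mul_assoc]
  · intro η
    rw [pe_inter, ← hh]

theorem IsCP.fin_compl (hμ : IsCP G μ) (F : Finset (Sym2 V)) {e : Sym2 V} (he : e ∉ F)
    (h : Set (Sym2 V) → ℝ≥0∞) (hh : ∀ η : Set (Sym2 V), h η = h (η ∩ (F : Set (Sym2 V)))) :
    ∫⁻ η in {η | e ∉ η}, h η ∂μ = ∫⁻ η, h η * ENNReal.ofReal (1 - pe G F η e) ∂μ := by
  rw [lintegral_fin μ F h hh (measurableSet_notMem e)]
  rw [← setLIntegral_univ, lintegral_fin μ F _ _ MeasurableSet.univ]
  · apply Finset.sum_congr rfl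
    intro A hA
    rw [Finset.mem_powerset] at hA
    have h1 := hμ.cp_compl F A F.finite_toSet (by exact_mod_cast hA) e (by exact_mod_cast he)
    have h2 : {η : Set (Sym2 V) | e ∉ η} ∩ {η | η ∩ (F : Set (Sym2 V)) = A} =
        {η | η ∩ (F : Set (Sym2 V)) = A ∧ e ∉ η} := by
      ext η; simp [and_comm]
    rw [h2, h1, Set.univ_inter, mul_assoc]
  · intro η
    rw [pe_inter, ← hh]

end Vale.Agent.P143
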