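import Mathlib

/-!
# Definitions for P143 (uniform spanning forests and factors of IID)
-/

open MeasureTheory Filter Topology
open scoped unitInterval ENNReal

namespace Vale.Agent.P143

universe u

variable {V : Type u}

/-- The spanning trees of a subgraph `H`, viewed as edge sets. -/
def spanningTrees {G : SimpleGraph V} (H : G.Subgraph) : Set (Set (Sym2 V)) :=
  {T | ∃ K : G.Subgraph, K ≤ H ∧ K.verts = H.verts ∧ K.coe.IsTree ∧ K.edgeSet = T}

/-- For a finite connected subgraph `H`, the probability that the uniform spanning tree `T` of `H`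
satisfies `T ∩ F = A`. -/
noncomputable def ustProb {G : SimpleGraph V} (H : G.Subgraph) (F A : Set (Sym2 V)) : ℝ :=
  ({T ∈ spanningTrees H | T ∩ F = A}.ncard : ℝ) / ((spanningTrees H).ncard : ℝ)

/-- `H` is an exhaustion of `G` by finite connected subgraphs. -/
structure IsExhaustion (G : SimpleGraph V) (H : ℕ → G.Subgraph) : Prop where
  mono : Monotone H
  finite : ∀ n, (H n).verts.Finite
  connected : ∀ n, (H n).Connected
  iSup_eq_top : ⨆ n, H n = ⊤

/-- `μ` is the free uniform spanning forest measure of `G`: exhaustions of `G` by finite connected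
subgraphs exist, and for every such exhaustion the laws of the uniform spanning trees converge
weakly to `μ` (convergence of the probabilities of all cylinder events). -/
structure IsFUSF (G : SimpleGraph V) (μ : Measure (Set (Sym2 V))) : Prop where
  prob : IsProbabilityMeasure μ
  exists_exhaustion : ∃ H : ℕ → G.Subgraph, IsExhaustion G H
  tendsto : ∀ H : ℕ → G.Subgraph, IsExhaustion G H →
    ∀ F A : Set (Sym2 V), F.Finite →
      Tendsto (fun n => ustProb (H n) F A) atTop (𝓝 (μ.real {T | T ∩ F = A}))

/-- The (right) Cayley graph of `Γ` with respect to `S`, on which `Γ` acts by left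
multiplication: `x` and `x * s` are adjacent for `s ∈ S ∪ S⁻¹`, `s ≠ 1`. -/
def cayleyGraph {Γ : Type u} [Group Γ] (S : Set Γ) : SimpleGraph Γ :=
  SimpleGraph.fromRel fun x y => x⁻¹ * y ∈ S

/-- Relabelling of a graph by a permutation `g` of its vertices: `g` is an isomorphism from `G`
to `relabel g G`. -/
def relabel (g : Equiv.Perm V) (G : SimpleGraph V) : SimpleGraph V := G.comap g.symm

/-- `P` is the law of a unimodular random graph `(G, o)`. The (infinite, connected, locally finite)
graph is realized on the vertex set `ℕ`; Borel functions of isomorphism classes of graphs with two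
distinguished vertices are the measurable functions `f G x y` that are invariant under all
relabellings, and the mass transport principle holds for all of them. -/
structure IsUnimodular (P : Measure (SimpleGraph ℕ × ℕ)) : Prop where
  prob : IsProbabilityMeasure P
  connected : ∀ᵐ p ∂P, p.1.Connected
  locallyFinite : ∀ᵐ p ∂P, ∀ x, (p.1.neighborSet x).Finite
  massTransport : ∀ f : SimpleGraph ℕ → ℕ → ℕ → ℝ≥0∞, (∀ x y, Measurable fun G => f G x y) →
    (∀ (g : Equiv.Perm ℕ) (G : SimpleGraph ℕ) (x y : ℕ),
      f (relabel g G) (g x) (g y) = f G x y) →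
    ∫⁻ p, ∑' v, f p.1 p.2 v ∂P = ∫⁻ p, ∑' v, f p.1 v p.2 ∂P

/-- The law of i.i.d. uniform `[0, 1]` labels of the vertices. -/
noncomputable def iidLabels (V : Type u) : Measure (V → I) := Measure.infinitePi fun _ => volume

end Vale.Agent.P143
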