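import Vale.Agent.P143.Basic

/-!
# Facts about the laws of the labels
-/

open MeasureTheory Filter Topology ProbabilityTheory
open scoped unitInterval ENNReal

namespace Vale.Agent.P143

/-- law of a label: exponential clock and uniform mark -/
noncomputable def lab : Measure (ℝ × ℝ) :=
  (expMeasure 1).prod (volume.restrict (Set.Ioo 0 1))

theorem expMeasure_eq : expMeasure 1 = (volume : Measure ℝ).withDensity (exponentialPDF 1) := rfl

theorem isProb_exp : IsProbabilityMeasure (expMeasure 1) :=
  isProbabilityMeasure_expMeasure one_pos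

theorem isProb_unif : IsProbabilityMeasure ((volume : Measure ℝ).restrict (Set.Ioo 0 1)) := by
  constructor
  rw [Measure.restrict_apply_univ]
  simp

theorem isProb_lab : IsProbabilityMeasure lab := by
  have := isProb_exp
  have := isProb_unif
  unfold lab
  infer_instance

theorem expMeasure_Iic {s : ℝ} (hs : 0 ≤ s) :
    (expMeasure 1) (Set.Iic s) = ENNReal.ofReal (1 - Real.exp (-s)) := by
  have := isProb_exp
  rw [← ofReal_cdf, cdf_expMeasure_eq one_pos, if_pos hs, one_mul]

theorem expMeasure_singleton (s : ℝ) : (expMeasure 1) {s} = 0 := by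
  rw [expMeasure_eq]
  exact withDensity_absolutelyContinuous _ _ (measure_singleton s)

theorem expMeasure_lt_le {s : ℝ} (hs : 0 ≤ s) :
    (expMeasure 1) {w | w < s} ≤ ENNReal.ofReal s := by
  have h1 : {w : ℝ | w < s} ⊆ Set.Iic s := fun w (hw : w < s) => hw.le
  refine (measure_mono h1).trans ?_
  rw [expMeasure_Iic hs]
  apply ENNReal.ofReal_le_ofReal
  have := Real.add_one_le_exp (-s)
  linarith

theorem expMeasure_Ioi {s : ℝ} (hs : 0 ≤ s) :
    (expMeasure 1) (Set.Ioi s) = ENNReal.ofReal (Real.exp (-s)) := by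
  have := isProb_exp
  have h : (Set.Ioi s) = (Set.Iic s)ᶜ := by ext; simp
  rw [h, prob_compl_eq_one_sub measurableSet_Iic, expMeasure_Iic hs]
  rw [← ENNReal.ofReal_one, ← ENNReal.ofReal_sub _ (by
    have : Real.exp (-s) ≤ 1 := Real.exp_le_one_iff.2 (by linarith)
    linarith)]
  congr 1
  ring

/-- resampling one coordinate of an infinite product measure -/
theorem lintegral_update {E X : Type*} [MeasurableSpace X] [DecidableEq E] (ν : Measure X)
    [IsProbabilityMeasure ν] (e : E) {H : (E → X) → ℝ≥0∞} (hH : Measurable H) :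
    ∫⁻ L, H L ∂(Measure.infinitePi fun _ : E => ν) =
      ∫⁻ L, ∫⁻ x, H (Function.update L e x) ∂ν ∂(Measure.infinitePi fun _ : E => ν) := by
  have hφ : Measurable fun p : (E → X) × X => Function.update p.1 e p.2 := by
    refine measurable_pi_lambda _ fun i => ?_
    by_cases h : i = e
    · subst h
      simp only [Function.update_self]
      exact measurable_snd
    · simp only [Function.update_of_ne h]
      exact (measurable_pi_apply i).comp measurable_fst
  have hmap : Measure.map (fun p : (E → X) × X => Function.update p.1 e p.2)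
      ((Measure.infinitePi fun _ : E => ν).prod ν) = Measure.infinitePi fun _ : E => ν := by
    refine Measure.eq_infinitePi _ fun s t ht => ?_
    rw [Measure.map_apply hφ (.pi s.countable_toSet fun _ _ => ht _)]
    have hpre : (fun p : (E → X) × X => Function.update p.1 e p.2) ⁻¹' (Set.pi s t) =
        (Set.pi ↑(s.erase e) t) ×ˢ (if e ∈ s then t e else Set.univ) := by
      ext ⟨L, x⟩
      simp only [Set.mem_preimage, Set.mem_pi, Finset.mem_coe, Set.mem_prod, Finset.coe_erase,
        Set.mem_sdiff, Set.mem_singleton_iff]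
      constructor
      · intro h
        refine ⟨fun i hi => ?_, ?_⟩
        · have := h i hi.1
          rwa [Function.update_of_ne hi.2] at this
        · split_ifs with he
          · have := h e he
            rwa [Function.update_self] at this
          · trivial
      · rintro ⟨h1, h2⟩ i hi
        by_cases hie : i = e
        · subst hie
          rw [Function.update_self]
          rwa [if_pos hi] at h2
        · rw [Function.update_of_ne hie]
          exact h1 i ⟨hi, hie⟩
    rw [hpre, Measure.prod_prod, Measure.infinitePi_pi _ (fun i _ => ht i)]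
    by_cases he : e ∈ s
    · rw [if_pos he, Finset.prod_erase_mul s _ he]
    · rw [if_neg he, Finset.erase_eq_of_notMem he]
      simp
  conv_lhs => rw [← hmap]
  rw [lintegral_map hH hφ]
  exact lintegral_prod _ (hH.comp hφ).aemeasurable

theorem lintegral_mul_right_eq {D : ℝ} (hD : 0 < D) {F : ℝ → ℝ≥0∞} (hF : Measurable F) :
    ∫⁻ w, F (w * D) = ENNReal.ofReal D⁻¹ * ∫⁻ t, F t := by
  have h := Real.map_volume_mul_right hD.ne'
  rw [← lintegral_map hF (measurable_mul_const D), h, lintegral_smul_measure,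
    abs_of_pos (inv_pos.2 hD)]
  rfl

/-- the hazard rate of `w * D` is at most `1` -/
theorem lintegral_exp_hazard {D : ℝ} (hD : 1 ≤ D) {h : ℝ → ℝ≥0∞} (hh : Measurable h) :
    ∫⁻ w, h (w * D) ∂(expMeasure 1) ≤
      ∫⁻ t in Set.Ici (0 : ℝ), (expMeasure 1) {w | t < w * D} * h t := by
  have hD0 : 0 < D := by linarith
  have hpdf : Measurable (exponentialPDF 1) :=
    (measurable_exponentialPDFReal 1).ennreal_ofReal
  have hcomp : Measurable fun w => h (w * D) := hh.comp (measurable_mul_const D)
  rw [expMeasure_eq, lintegral_withDensity_eq_lintegral_mul _ hpdf hcomp, ← expMeasure_eq]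
  have e1 : ∀ w, (exponentialPDF 1 * fun w => h (w * D)) w =
      (fun t => exponentialPDF 1 (t / D) * h t) (w * D) := by
    intro w
    simp only [Pi.mul_apply]
    rw [mul_div_cancel_right₀ _ hD0.ne']
  have hF : Measurable fun t => exponentialPDF 1 (t / D) * h t :=
    (hpdf.comp (measurable_id.div_const D)).mul hh
  calc ∫⁻ w, (exponentialPDF 1 * fun w => h (w * D)) w
      = ∫⁻ w, (fun t => exponentialPDF 1 (t / D) * h t) (w * D) := lintegral_congr e1
    _ = ENNReal.ofReal D⁻¹ * ∫⁻ t, exponentialPDF 1 (t / D) * h t := lintegral_mul_right_eq hD0 hF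
    _ ≤ 1 * ∫⁻ t, exponentialPDF 1 (t / D) * h t := by
        gcongr
        rw [← ENNReal.ofReal_one]
        exact ENNReal.ofReal_le_ofReal (inv_le_one_of_one_le₀ hD)
    _ = ∫⁻ t, exponentialPDF 1 (t / D) * h t := one_mul _
    _ = ∫⁻ t in Set.Ici (0 : ℝ), (expMeasure 1) {w | t < w * D} * h t := by
        rw [← lintegral_indicator measurableSet_Ici]
        refine lintegral_congr fun t => ?_
        by_cases ht : 0 ≤ t
        · rw [Set.indicator_of_mem (Set.mem_Ici.2 ht)]
          have h1 : {w : ℝ | t < w * D} = Set.Ioi (t / D) := by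
            ext w
            simp only [Set.mem_ofPred_eq, Set.mem_Ioi]
            rw [div_lt_iff₀ hD0]
          have h2 : 0 ≤ t / D := div_nonneg ht hD0.le
          rw [h1, expMeasure_Ioi h2, exponentialPDF_of_nonneg h2]
          simp
        · rw [Set.indicator_of_notMem (fun h => ht (Set.mem_Ici.1 h))]
          have h2 : t / D < 0 := div_neg_of_neg_of_pos (not_le.1 ht) hD0
          rw [exponentialPDF_of_neg h2, zero_mul]

theorem lintegral_affine {a c : ℝ} (hc : 0 < c) {h : ℝ → ℝ≥0∞} (hh : Measurable h) :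
    ENNReal.ofReal c * ∫⁻ z in Set.Ioo (0 : ℝ) 1, h (a + c * z) =
      ∫⁻ v in Set.Ioo a (a + c), h v := by
  have h1 : ∫⁻ z in Set.Ioo (0 : ℝ) 1, h (a + c * z) =
      ∫⁻ z, (fun y => (Set.Ioo a (a + c)).indicator h (a + y)) (z * c) := by
    rw [← lintegral_indicator measurableSet_Ioo]
    refine lintegral_congr fun z => ?_
    have hiff : z ∈ Set.Ioo (0 : ℝ) 1 ↔ a + z * c ∈ Set.Ioo a (a + c) := by
      simp only [Set.mem_Ioo]
      constructor
      · rintro ⟨h1, h2⟩
        constructor <;> nlinarith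
      · rintro ⟨h1, h2⟩
        constructor
        · by_contra hcon
          push Not at hcon
          nlinarith
        · by_contra hcon
          push Not at hcon
          nlinarith
    by_cases hz : z ∈ Set.Ioo (0 : ℝ) 1
    · rw [Set.indicator_of_mem hz]
      simp only
      rw [Set.indicator_of_mem (hiff.1 hz), mul_comm c z]
    · rw [Set.indicator_of_notMem hz]
      simp only
      rw [Set.indicator_of_notMem (fun h => hz (hiff.2 h))]
  have hm : Measurable fun y => (Set.Ioo a (a + c)).indicator h (a + y) :=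
    (hh.indicator measurableSet_Ioo).comp (measurable_const_add a)
  rw [h1, lintegral_mul_right_eq hc hm, ← mul_assoc, ← ENNReal.ofReal_mul hc.le,
    mul_inv_cancel₀ hc.ne', ENNReal.ofReal_one, one_mul,
    lintegral_add_left_eq_self (μ := (volume : Measure ℝ))
      (fun y => (Set.Ioo a (a + c)).indicator h y) a, lintegral_indicator measurableSet_Ioo]

theorem lintegral_unif {p : ℝ} (hp0 : 0 ≤ p) (hp1 : p ≤ 1) {h : ℝ → ℝ≥0∞} (hh : Measurable h) :
    (ENNReal.ofReal p * ∫⁻ z in Set.Ioo (0 : ℝ) 1, h (z * p)) +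
      (ENNReal.ofReal (1 - p) * ∫⁻ z in Set.Ioo (0 : ℝ) 1, h (p + (1 - p) * z)) =
      ∫⁻ v in Set.Ioo (0 : ℝ) 1, h v := by
  have e1 : ENNReal.ofReal p * ∫⁻ z in Set.Ioo (0 : ℝ) 1, h (z * p) =
      ∫⁻ v in Set.Ioo 0 p, h v := by
    rcases hp0.eq_or_lt with h0 | h0
    · rw [← h0]; simp
    · have := lintegral_affine (a := 0) h0 hh
      simp only [zero_add] at this
      rw [← this]
      congr 1
      refine lintegral_congr fun z => ?_
      rw [mul_comm]
  have e2 : ENNReal.ofReal (1 - p) * ∫⁻ z in Set.Ioo (0 : ℝ) 1, h (p + (1 - p) * z) =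
      ∫⁻ v in Set.Ioo p 1, h v := by
    rcases hp1.eq_or_lt with h0 | h0
    · rw [h0]; simp
    · have := lintegral_affine (a := p) (sub_pos.2 h0) hh
      rw [add_sub_cancel] at this
      exact this
  rw [e1, e2, ← lintegral_union measurableSet_Ioo]
  · rcases hp0.eq_or_lt with h0 | h0
    · rw [← h0]; simp
    rcases hp1.eq_or_lt with h1 | h1
    · rw [h1]; simp
    refine setLIntegral_congr ?_
    have h3 : Set.Ioo (0 : ℝ) 1 = (Set.Ioo 0 p ∪ Set.Ioo p 1) ∪ {p} := by
      ext x
      simp only [Set.mem_Ioo, Set.mem_union, Set.mem_singleton_iff]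
      constructor
      · rintro ⟨h2, h3⟩
        rcases lt_trichotomy x p with h | h | h
        · exact Or.inl (Or.inl ⟨h2, h⟩)
        · exact Or.inr h
        · exact Or.inl (Or.inr ⟨h, h3⟩)
      · rintro ((⟨h2, h3⟩ | ⟨h2, h3⟩) | rfl)
        · exact ⟨h2, h3.trans h1⟩
        · exact ⟨h0.trans h2, h3⟩
        · exact ⟨h0, h1⟩
    rw [h3]
    exact (union_ae_eq_left_of_ae_eq_empty (by
      rw [ae_eq_empty]; exact measure_singleton p)).symm
  · rw [Set.disjoint_left]
    rintro x ⟨_, h1⟩ ⟨h2, _⟩
    linarith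

/-- no ties -/
theorem lab_no_ties {E : Type*} {e f : E} (hef : e ≠ f) {c d : ℝ} (hc : c ≠ 0) :
    (Measure.infinitePi fun _ : E => lab) {L | (L e).1 * c = (L f).1 * d} = 0 := by
  have := isProb_lab
  have := isProb_exp
  have := isProb_unif
  have h1 := Measure.infinitePi_map_eval_prod (P := fun _ : E => lab) hef
  have hm : MeasurableSet {p : (ℝ × ℝ) × (ℝ × ℝ) | p.1.1 * c = p.2.1 * d} :=
    measurableSet_eq_fun (by fun_prop) (by fun_prop)
  have h2 : {L : E → ℝ × ℝ | (L e).1 * c = (L f).1 * d} =
      (fun L : E → ℝ × ℝ => (L e, L f)) ⁻¹' {p : (ℝ × ℝ) × (ℝ × ℝ) | p.1.1 * c = p.2.1 * d} := rfl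
  rw [h2, ← Measure.map_apply (by fun_prop) hm, h1, Measure.prod_apply_symm hm]
  rw [lintegral_eq_zero_iff (measurable_measure_prodMk_right hm)]
  refine Eventually.of_forall fun p => ?_
  have h3 : (fun x => (x, p)) ⁻¹' {p : (ℝ × ℝ) × (ℝ × ℝ) | p.1.1 * c = p.2.1 * d} =
      ({p.1 * d / c} : Set ℝ) ×ˢ Set.univ := by
    ext q
    simp only [Set.mem_preimage, Set.mem_ofPred_eq, Set.mem_prod, Set.mem_singleton_iff,
      Set.mem_univ, and_true]
    rw [eq_div_iff hc]
  change lab ((fun x => (x, p)) ⁻¹' {p : (ℝ × ℝ) × (ℝ × ℝ) | p.1.1 * c = p.2.1 * d}) = 0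
  rw [h3]
  unfold lab
  rw [Measure.prod_prod, expMeasure_singleton, zero_mul]

end Vale.Agent.P143
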