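import Vale.Agent.P143.MeasPe

/-!
# Arrival times of the edges and the Picard iteration
-/

open MeasureTheory Filter Topology
open scoped unitInterval ENNReal

namespace Vale.Agent.P143

universe u

variable {V : Type u}

/-- scale of an edge: one plus the sum of the degrees of the endpoints -/
noncomputable def Dn (G : SimpleGraph V) (e : Sym2 V) : ℝ :=
  Sym2.lift ⟨fun a b => ((G.neighborSet a).ncard : ℝ) + ((G.neighborSet b).ncard : ℝ) + 1, by
    intro a b; ring⟩ e

theorem Dn_mk (G : SimpleGraph V) (a b : V) :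
    Dn G s(a, b) = ((G.neighborSet a).ncard : ℝ) + ((G.neighborSet b).ncard : ℝ) + 1 := rfl

theorem one_le_Dn (G : SimpleGraph V) (e : Sym2 V) : 1 ≤ Dn G e := by
  induction e using Sym2.ind with
  | _ a b =>
    rw [Dn_mk]
    have h1 : (0 : ℝ) ≤ ((G.neighborSet a).ncard : ℝ) := Nat.cast_nonneg _
    have h2 : (0 : ℝ) ≤ ((G.neighborSet b).ncard : ℝ) := Nat.cast_nonneg _
    linarith

theorem Dn_pos (G : SimpleGraph V) (e : Sym2 V) : 0 < Dn G e :=
  lt_of_lt_of_le one_pos (one_le_Dn G e)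

/-- arrival time -/
noncomputable def tm (G : SimpleGraph V) (L : Sym2 V → ℝ × ℝ) (e : Sym2 V) : ℝ :=
  (L e).1 * Dn G e

/-- the edges that arrived before time `t` -/
def RR (G : SimpleGraph V) (L : Sym2 V → ℝ × ℝ) (t : ℝ) : Set (Sym2 V) :=
  {f | f ∈ G.edgeSet ∧ tm G L f < t}

theorem mem_RR {G : SimpleGraph V} {L : Sym2 V → ℝ × ℝ} {t : ℝ} {f : Sym2 V} :
    f ∈ RR G L t ↔ f ∈ G.edgeSet ∧ tm G L f < t := Iff.rfl

/-- Picard iteration -/
noncomputable def pic (G : SimpleGraph V) (L : Sym2 V → ℝ × ℝ) : ℕ → Set (Sym2 V)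
  | 0 => ∅
  | k + 1 => {e | e ∈ G.edgeSet ∧ (L e).2 < pe G (RR G L (tm G L e)) (pic G L k) e}

theorem mem_pic_succ {G : SimpleGraph V} {L : Sym2 V → ℝ × ℝ} {k : ℕ} {e : Sym2 V} :
    e ∈ pic G L (k + 1) ↔
      e ∈ G.edgeSet ∧ (L e).2 < pe G (RR G L (tm G L e)) (pic G L k) e := Iff.rfl

theorem pic_subset (G : SimpleGraph V) (L : Sym2 V → ℝ × ℝ) (k : ℕ) : pic G L k ⊆ G.edgeSet := by
  cases k with
  | zero => intro e he; exact absurd he (Set.notMem_empty e)
  | succ k => intro e he; exact he.1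

/-- the limit of the iteration -/
noncomputable def ph (G : SimpleGraph V) (L : Sym2 V → ℝ × ℝ) : Set (Sym2 V) :=
  {e | ∀ᶠ k in atTop, e ∈ pic G L k}

open Classical in
/-- the mark of an edge recovered from the forest -/
noncomputable def vv (b : Prop) (p z : ℝ) : ℝ := if b then z * p else p + (1 - p) * z

/-- the derived labels -/
noncomputable def lhat (G : SimpleGraph V) (η : Set (Sym2 V)) (L : Sym2 V → ℝ × ℝ) :
    Sym2 V → ℝ × ℝ :=
  fun e => ((L e).1, vv (e ∈ η) (pe G (RR G L (tm G L e)) η e) (L e).2)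

theorem lhat_fst (G : SimpleGraph V) (η : Set (Sym2 V)) (L : Sym2 V → ℝ × ℝ) (e : Sym2 V) :
    (lhat G η L e).1 = (L e).1 := rfl

theorem tm_lhat (G : SimpleGraph V) (η : Set (Sym2 V)) (L : Sym2 V → ℝ × ℝ) (e : Sym2 V) :
    tm G (lhat G η L) e = tm G L e := rfl

theorem RR_lhat (G : SimpleGraph V) (η : Set (Sym2 V)) (L : Sym2 V → ℝ × ℝ) (t : ℝ) :
    RR G (lhat G η L) t = RR G L t := rfl

/-! ### equivariance -/

theorem permG_neighborSet (g : Equiv.Perm V) (G : SimpleGraph V) (a : V) :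
    (permG g G).neighborSet (g a) = g '' (G.neighborSet a) := by
  ext b
  simp only [SimpleGraph.mem_neighborSet, permG, SimpleGraph.comap_adj, Equiv.symm_apply_apply,
    Set.mem_image]
  constructor
  · intro h; exact ⟨g.symm b, h, by simp⟩
  · rintro ⟨c, hc, rfl⟩; simpa using hc

theorem Dn_perm (g : Equiv.Perm V) (G : SimpleGraph V) (e : Sym2 V) :
    Dn (permG g G) (Sym2.map g e) = Dn G e := by
  induction e using Sym2.ind with
  | _ a b =>
    rw [Sym2.map_mk, Dn_mk, Dn_mk, permG_neighborSet, permG_neighborSet,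
      Set.ncard_image_of_injective _ g.injective, Set.ncard_image_of_injective _ g.injective]

theorem permL_map {α : Type*} (g : Equiv.Perm V) (L : Sym2 V → α) (e : Sym2 V) :
    permL g L (Sym2.map g e) = L e := by
  unfold permL
  rw [Sym2.map_map]
  have : (g.symm ∘ g : V → V) = id := by funext x; simp
  rw [this, Sym2.map_id]
  rfl

theorem map_symm_map (g : Equiv.Perm V) (e : Sym2 V) : Sym2.map g.symm (Sym2.map g e) = e := by
  rw [Sym2.map_map]
  have : (g.symm ∘ g : V → V) = id := by funext x; simp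
  rw [this, Sym2.map_id]; rfl

theorem map_map_symm (g : Equiv.Perm V) (e : Sym2 V) : Sym2.map g (Sym2.map g.symm e) = e := by
  rw [Sym2.map_map]
  have : (g ∘ g.symm : V → V) = id := by funext x; simp
  rw [this, Sym2.map_id]; rfl

theorem mem_permE {g : Equiv.Perm V} {η : Set (Sym2 V)} {e : Sym2 V} :
    e ∈ permE g η ↔ Sym2.map g.symm e ∈ η := Iff.rfl

theorem map_mem_permE {g : Equiv.Perm V} {η : Set (Sym2 V)} {e : Sym2 V} :
    Sym2.map g e ∈ permE g η ↔ e ∈ η := by
  rw [mem_permE, map_symm_map]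

theorem tm_perm (g : Equiv.Perm V) (G : SimpleGraph V) (L : Sym2 V → ℝ × ℝ) (e : Sym2 V) :
    tm (permG g G) (permL g L) (Sym2.map g e) = tm G L e := by
  unfold tm
  rw [permL_map, Dn_perm]

theorem perm_set_ext {g : Equiv.Perm V} {A B : Set (Sym2 V)}
    (h : ∀ e, Sym2.map g e ∈ A ↔ e ∈ B) : A = permE g B := by
  ext e
  rw [mem_permE, ← h, map_map_symm]

theorem RR_perm (g : Equiv.Perm V) (G : SimpleGraph V) (L : Sym2 V → ℝ × ℝ) (t : ℝ) :
    RR (permG g G) (permL g L) t = permE g (RR G L t) := by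
  apply perm_set_ext
  intro e
  rw [mem_RR, mem_RR, tm_perm, mem_edgeSet_permG]

theorem pic_perm (g : Equiv.Perm V) (G : SimpleGraph V) (L : Sym2 V → ℝ × ℝ) (k : ℕ) :
    pic (permG g G) (permL g L) k = permE g (pic G L k) := by
  induction k with
  | zero => rfl
  | succ k ih =>
    apply perm_set_ext
    intro e
    rw [mem_pic_succ, mem_pic_succ, tm_perm, mem_edgeSet_permG, permL_map, RR_perm, ih, pe_perm]

theorem ph_perm (g : Equiv.Perm V) (G : SimpleGraph V) (L : Sym2 V → ℝ × ℝ) :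
    ph (permG g G) (permL g L) = permE g (ph G L) := by
  apply perm_set_ext
  intro e
  unfold ph
  simp only [Set.mem_ofPred_eq, pic_perm, map_mem_permE]

theorem lhat_perm (g : Equiv.Perm V) (G : SimpleGraph V) (η : Set (Sym2 V))
    (L : Sym2 V → ℝ × ℝ) :
    lhat (permG g G) (permE g η) (permL g L) = permL g (lhat G η L) := by
  funext e
  have h : ∀ e, lhat (permG g G) (permE g η) (permL g L) (Sym2.map g e) = lhat G η L e := by
    intro e
    unfold lhat
    rw [permL_map, tm_perm, RR_perm, pe_perm]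
    simp only [map_mem_permE]
  have := h (Sym2.map g.symm e)
  rw [map_map_symm] at this
  rw [this]; rfl

/-! ### dependence on the past -/

/-- the labels agree on the edges arriving before time `t` -/
def Agree (G : SimpleGraph V) (L L' : Sym2 V → ℝ × ℝ) (t : ℝ) : Prop :=
  ∀ f ∈ G.edgeSet, (tm G L f < t ∨ tm G L' f < t) → L f = L' f

theorem Agree.symm {G : SimpleGraph V} {L L' : Sym2 V → ℝ × ℝ} {t : ℝ} (h : Agree G L L' t) :
    Agree G L' L t := fun f hf h' => (h f hf h'.symm).symm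

theorem Agree.mono {G : SimpleGraph V} {L L' : Sym2 V → ℝ × ℝ} {s t : ℝ} (h : Agree G L L' t)
    (hst : s ≤ t) : Agree G L L' s :=
  fun f hf h' => h f hf (h'.imp (fun h => h.trans_le hst) (fun h => h.trans_le hst))

theorem tm_congr {G : SimpleGraph V} {L L' : Sym2 V → ℝ × ℝ} {f : Sym2 V} (h : L f = L' f) :
    tm G L f = tm G L' f := by
  unfold tm; rw [h]

theorem Agree.RR_eq {G : SimpleGraph V} {L L' : Sym2 V → ℝ × ℝ} {t : ℝ} (h : Agree G L L' t) :
    RR G L t = RR G L' t := by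
  ext f
  constructor
  · rintro ⟨h1, h2⟩
    refine ⟨h1, ?_⟩
    rw [← tm_congr (h f h1 (Or.inl h2))]; exact h2
  · rintro ⟨h1, h2⟩
    refine ⟨h1, ?_⟩
    rw [tm_congr (h f h1 (Or.inr h2))]; exact h2

theorem pic_dep {G : SimpleGraph V} {L L' : Sym2 V → ℝ × ℝ} {t : ℝ} (h : Agree G L L' t)
    (k : ℕ) {f : Sym2 V} (hf : f ∈ RR G L t) : f ∈ pic G L k ↔ f ∈ pic G L' k := by
  induction k generalizing f with
  | zero => exact Iff.rfl
  | succ k ih =>
    have hL : L f = L' f := h f hf.1 (Or.inl hf.2)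
    have htm : tm G L f = tm G L' f := tm_congr hL
    have hR := (h.mono hf.2.le).RR_eq
    rw [mem_pic_succ, mem_pic_succ, ← htm, ← hR, hL]
    have : pe G (RR G L (tm G L f)) (pic G L k) f = pe G (RR G L (tm G L f)) (pic G L' k) f := by
      apply pe_congr
      ext e
      constructor
      · rintro ⟨h1, h2⟩
        exact ⟨(ih ⟨h2.1, h2.2.trans hf.2⟩).1 h1, h2⟩
      · rintro ⟨h1, h2⟩
        exact ⟨(ih ⟨h2.1, h2.2.trans hf.2⟩).2 h1, h2⟩
    rw [this]

theorem pic_inter_eq {G : SimpleGraph V} {L L' : Sym2 V → ℝ × ℝ} {t : ℝ} (h : Agree G L L' t)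
    (k : ℕ) : pic G L k ∩ RR G L t = pic G L' k ∩ RR G L t := by
  ext f
  constructor
  · rintro ⟨h1, h2⟩; exact ⟨(pic_dep h k h2).1 h1, h2⟩
  · rintro ⟨h1, h2⟩; exact ⟨(pic_dep h k h2).2 h1, h2⟩

theorem lhat_dep {G : SimpleGraph V} {L L' : Sym2 V → ℝ × ℝ} {η η' : Set (Sym2 V)} {t : ℝ}
    (h : Agree G L L' t) (hη : η ∩ RR G L t = η' ∩ RR G L t) {f : Sym2 V} (hf : f ∈ RR G L t) :
    lhat G η L f = lhat G η' L' f := by
  have hL : L f = L' f := h f hf.1 (Or.inl hf.2)
  have htm : tm G L f = tm G L' f := tm_congr hL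
  have hR := (h.mono hf.2.le).RR_eq
  unfold lhat
  rw [← htm, ← hR, hL]
  have h1 : (f ∈ η) = (f ∈ η') := by
    apply propext
    constructor
    · intro h'
      have : f ∈ η ∩ RR G L t := ⟨h', hf⟩
      rw [hη] at this; exact this.1
    · intro h'
      have : f ∈ η' ∩ RR G L t := ⟨h', hf⟩
      rw [← hη] at this; exact this.1
  have h2 : pe G (RR G L (tm G L f)) η f = pe G (RR G L (tm G L f)) η' f := by
    apply pe_congr
    ext e
    constructor
    · rintro ⟨h3, h4⟩
      have : e ∈ η ∩ RR G L t := ⟨h3, h4.1, h4.2.trans hf.2⟩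
      rw [hη] at this; exact ⟨this.1, h4⟩
    · rintro ⟨h3, h4⟩
      have : e ∈ η' ∩ RR G L t := ⟨h3, h4.1, h4.2.trans hf.2⟩
      rw [← hη] at this; exact ⟨this.1, h4⟩
  rw [h1, h2]

theorem agree_lhat {G : SimpleGraph V} {L L' : Sym2 V → ℝ × ℝ} {η η' : Set (Sym2 V)} {t : ℝ}
    (h : Agree G L L' t) (hη : η ∩ RR G L t = η' ∩ RR G L t) :
    Agree G (lhat G η L) (lhat G η' L') t := by
  intro f hf h'
  rw [tm_lhat, tm_lhat] at h'
  have : f ∈ RR G L t := by
    rcases h' with h1 | h1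
    · exact ⟨hf, h1⟩
    · rw [h.RR_eq]; exact ⟨hf, h1⟩
  exact lhat_dep h hη this

theorem pic_lhat_dep {G : SimpleGraph V} {L L' : Sym2 V → ℝ × ℝ} {η η' : Set (Sym2 V)} {t : ℝ}
    (h : Agree G L L' t) (hη : η ∩ RR G L t = η' ∩ RR G L t) (k : ℕ) :
    pic G (lhat G η L) k ∩ RR G L t = pic G (lhat G η' L') k ∩ RR G L t :=
  pic_inter_eq (agree_lhat h hη) k

theorem pic_congr {G : SimpleGraph V} {L L' : Sym2 V → ℝ × ℝ} (h : ∀ e ∈ G.edgeSet, L e = L' e)
    (k : ℕ) : pic G L k = pic G L' k := by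
  ext f
  by_cases hf : f ∈ G.edgeSet
  · have h1 : Agree G L L' (tm G L f + 1) := fun e he _ => h e he
    exact pic_dep h1 k ⟨hf, by linarith⟩
  · constructor
    · intro h'; exact absurd (pic_subset _ _ _ h') hf
    · intro h'; exact absurd (pic_subset _ _ _ h') hf

theorem ph_congr {G : SimpleGraph V} {L L' : Sym2 V → ℝ × ℝ} (h : ∀ e ∈ G.edgeSet, L e = L' e) :
    ph G L = ph G L' := by
  unfold ph
  simp only [pic_congr h]

theorem agree_update [DecidableEq (Sym2 V)] {G : SimpleGraph V} {L : Sym2 V → ℝ × ℝ}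
    {e : Sym2 V} {x : ℝ × ℝ} {t : ℝ} (h1 : t ≤ tm G L e) (h2 : t ≤ x.1 * Dn G e) :
    Agree G L (Function.update L e x) t := by
  intro f _ h'
  have hfe : f ≠ e := by
    rintro rfl
    rcases h' with h' | h'
    · exact absurd h' (not_lt.2 h1)
    · unfold tm at h'
      rw [Function.update_self] at h'
      exact absurd h' (not_lt.2 h2)
  rw [Function.update_of_ne hfe]

/-! ### measurability -/

section meas

variable [Countable V] {Ω : Type*} [MeasurableSpace Ω] {Gf : Ω → SimpleGraph V}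
  {Lf : Ω → Sym2 V → ℝ × ℝ} {ηf : Ω → Set (Sym2 V)} {tf : Ω → ℝ}

theorem measurable_Dn (hG : Measurable Gf) (e : Sym2 V) : Measurable fun ω => Dn (Gf ω) e := by
  induction e using Sym2.ind with
  | _ a b =>
    simp only [Dn_mk]
    have h : ∀ a : V, Measurable fun ω => (((Gf ω).neighborSet a).ncard : ℝ) := by
      intro a
      have h1 : Measurable fun ω => (Gf ω).neighborSet a := by
        rw [measurable_set_iff]
        intro b
        exact (SimpleGraph.measurable_iff_adj.1 hG) a b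
      exact (measurable_of_countable (fun n : ℕ => (n : ℝ))).comp (measurable_ncard.comp h1)
    exact ((h a).add (h b)).add measurable_const

theorem measurable_tm (hG : Measurable Gf) (hL : Measurable Lf) (e : Sym2 V) :
    Measurable fun ω => tm (Gf ω) (Lf ω) e := by
  unfold tm
  exact ((measurable_pi_iff.1 hL e).fst).mul (measurable_Dn hG e)

theorem measurable_RR (hG : Measurable Gf) (hL : Measurable Lf) (ht : Measurable tf) :
    Measurable fun ω => RR (Gf ω) (Lf ω) (tf ω) := by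
  rw [measurable_set_iff]
  intro f
  refine Measurable.and ?_ ?_
  · exact (measurable_set_iff.1 SimpleGraph.measurable_edgeSet f).comp hG
  · rw [← measurableSet_setOfPred]
    exact measurableSet_lt (measurable_tm hG hL f) ht

theorem measurable_pic (hG : Measurable Gf) (hL : Measurable Lf) (k : ℕ) :
    Measurable fun ω => pic (Gf ω) (Lf ω) k := by
  induction k with
  | zero => exact measurable_const
  | succ k ih =>
    rw [measurable_set_iff]
    intro f
    refine Measurable.and ?_ ?_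
    · exact (measurable_set_iff.1 SimpleGraph.measurable_edgeSet f).comp hG
    · rw [← measurableSet_setOfPred]
      exact measurableSet_lt ((measurable_pi_iff.1 hL f).snd)
        (measurable_pe hG (measurable_RR hG hL (measurable_tm hG hL f)) ih f)

theorem measurable_ph (hG : Measurable Gf) (hL : Measurable Lf) :
    Measurable fun ω => ph (Gf ω) (Lf ω) := by
  rw [measurable_set_iff]
  intro f
  have h1 : ∀ k, MeasurableSet {ω | f ∈ pic (Gf ω) (Lf ω) k} := fun k =>
    measurableSet_setOfPred.2 (measurable_set_iff.1 (measurable_pic hG hL k) f)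
  rw [← measurableSet_setOfPred]
  have h2 : {ω | f ∈ ph (Gf ω) (Lf ω)} =
      ⋃ n : ℕ, ⋂ k : ℕ, ⋂ (_ : n ≤ k), {ω | f ∈ pic (Gf ω) (Lf ω) k} := by
    ext ω
    simp only [Set.mem_iUnion, Set.mem_iInter, Set.mem_ofPred_eq, ph, eventually_atTop]
  rw [h2]
  exact MeasurableSet.iUnion fun n => MeasurableSet.iInter fun k => MeasurableSet.iInter fun _ =>
    h1 k

theorem measurable_lhat (hG : Measurable Gf) (hη : Measurable ηf) (hL : Measurable Lf) :
    Measurable fun ω => lhat (Gf ω) (ηf ω) (Lf ω) := by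
  rw [measurable_pi_iff]
  intro f
  unfold lhat vv
  have hp := measurable_pe hG (measurable_RR hG hL (measurable_tm hG hL f)) hη f
  refine Measurable.prodMk ((measurable_pi_iff.1 hL f).fst) ?_
  refine Measurable.ite ?_ ?_ ?_
  · exact measurableSet_setOfPred.2 (measurable_set_iff.1 hη f)
  · exact ((measurable_pi_iff.1 hL f).snd).mul hp
  · exact hp.add ((measurable_const.sub hp).mul ((measurable_pi_iff.1 hL f).snd))

end meas

end Vale.Agent.P143
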