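import Vale.Agent.P143.Field

/-!
# The dimension inequality coming from the mass transport principle
-/

open MeasureTheory Filter Topology
open scoped unitInterval ENNReal

namespace Vale.Agent.P143

universe u

variable {V : Type u}

section

variable {Ω : Type*} [MeasurableSpace Ω] {𝒮 : Set (Equiv.Perm V)} {act : Equiv.Perm V → Ω → Ω}

theorem meas_prod [Countable V] [MeasurableSpace V] [DiscreteMeasurableSpace V] {β : Type*}
    [MeasurableSpace β] {f : Ω → V → β} (h : ∀ v, Measurable (fun ω => f ω v)) :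
    Measurable (fun p : Ω × V => f p.1 p.2) :=
  measurable_from_prod_countable_left h

theorem norm_sq_eq_tsum_ofReal (x : Hs V) :
    ENNReal.ofReal (‖x‖ ^ 2) = ∑' i, ENNReal.ofReal (x i ^ 2) := by
  rw [norm_sq_eq_tsum]
  rw [ENNReal.ofReal_tsum_of_nonneg (fun i => sq_nonneg _)]
  have := lp.summable_inner (𝕜 := ℝ) x x
  simpa [pow_two] using this

theorem ent_adjoint (A : Hs V →L[ℝ] Hs V) (i j : V × V) :
    ent (ContinuousLinearMap.adjoint A) i j = ent A j i := by
  unfold ent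
  rw [ContinuousLinearMap.adjoint_inner_right, real_inner_comm]

variable [Countable V] [MeasurableSpace V] [DiscreteMeasurableSpace V]

/-- squared Hilbert-Schmidt norm per root -/
noncomputable def NN (P : Measure (Ω × V)) (A : Ω → (Hs V →L[ℝ] Hs V)) : ℝ≥0∞ :=
  ∫⁻ p, ∑' y, ENNReal.ofReal (‖A p.1 (dl (p.2, y))‖ ^ 2) ∂P

omit [MeasurableSpace V] [DiscreteMeasurableSpace V] in
theorem GoodOp.meas_norm_sq {A : Ω → (Hs V →L[ℝ] Hs V)} (hA : GoodOp 𝒮 act A) (j : V × V) :
    Measurable fun ω => ENNReal.ofReal (‖A ω (dl j)‖ ^ 2) := by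
  simp only [norm_sq_eq_tsum_ofReal]
  refine Measurable.ennreal_tsum fun i => ?_
  have := (hA.meas i j)
  simp only [inner_dl_left] at this
  exact (this.pow_const 2).ennreal_ofReal

theorem GoodOp.meas_NN {A : Ω → (Hs V →L[ℝ] Hs V)} (hA : GoodOp 𝒮 act A) :
    Measurable fun p : Ω × V => ∑' y, ENNReal.ofReal (‖A p.1 (dl (p.2, y))‖ ^ 2) :=
  meas_prod (f := fun ω v => ∑' y, ENNReal.ofReal (‖A ω (dl (v, y))‖ ^ 2))
    (fun v => Measurable.ennreal_tsum fun y => hA.meas_norm_sq (v, y))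

omit [DiscreteMeasurableSpace V] in
theorem NN_adjoint {P : Measure (Ω × V)} (hP : MTP 𝒮 act P) {A : Ω → (Hs V →L[ℝ] Hs V)}
    (hA : GoodOp 𝒮 act A) :
    NN P (fun ω => ContinuousLinearMap.adjoint (A ω)) = NN P A := by
  have key := hP (fun ω x x' => ∑' y, ∑' y', ENNReal.ofReal (ent (A ω) (x', y') (x, y) ^ 2))
    (by
      intro x x'
      refine Measurable.ennreal_tsum fun y => Measurable.ennreal_tsum fun y' => ?_
      exact ((hA.meas _ _).pow_const 2).ennreal_ofReal)
    (by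
      intro g hg ω x x'
      rw [← g.tsum_eq]
      apply tsum_congr
      intro y
      rw [← g.tsum_eq]
      apply tsum_congr
      intro y'
      have := hA.equi g hg ω (x', y') (x, y)
      simp only [ent]
      simp only at this
      rw [this])
  have h1 : NN P A = ∫⁻ p, ∑' x', ∑' y, ∑' y',
      ENNReal.ofReal (ent (A p.1) (x', y') (p.2, y) ^ 2) ∂P := by
    unfold NN
    apply lintegral_congr
    intro p
    rw [ENNReal.tsum_comm]
    apply tsum_congr
    intro y
    rw [norm_sq_eq_tsum_ofReal, ENNReal.tsum_prod']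
    apply tsum_congr
    intro x'
    apply tsum_congr
    intro y'
    rw [ent_eq]
  have h2 : NN P (fun ω => ContinuousLinearMap.adjoint (A ω)) = ∫⁻ p, ∑' x', ∑' y, ∑' y',
      ENNReal.ofReal (ent (A p.1) (p.2, y') (x', y) ^ 2) ∂P := by
    unfold NN
    apply lintegral_congr
    intro p
    have : ∀ y', ENNReal.ofReal (‖(ContinuousLinearMap.adjoint (A p.1)) (dl (p.2, y'))‖ ^ 2) =
        ∑' x', ∑' y, ENNReal.ofReal (ent (A p.1) (p.2, y') (x', y) ^ 2) := by
      intro y'
      rw [norm_sq_eq_tsum_ofReal, ENNReal.tsum_prod']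
      apply tsum_congr
      intro x'
      apply tsum_congr
      intro y
      rw [← ent_eq, ent_adjoint]
    simp only [this]
    rw [ENNReal.tsum_comm]
    apply tsum_congr
    intro x'
    rw [ENNReal.tsum_comm]
  rw [h1, h2, key]

omit [Countable V] [DiscreteMeasurableSpace V] in
theorem NN_mono {P : Measure (Ω × V)} {A B : Ω → (Hs V →L[ℝ] Hs V)}
    (h : ∀ ω i, ‖A ω (dl i)‖ ≤ ‖B ω (dl i)‖) : NN P A ≤ NN P B := by
  unfold NN
  apply lintegral_mono
  intro p
  apply ENNReal.tsum_le_tsum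
  intro y
  apply ENNReal.ofReal_le_ofReal
  have := h p.1 (p.2, y)
  gcongr

/-- polarization -/
theorem polarization {P : Measure (Ω × V)} (hP : MTP 𝒮 act P) {A B : Ω → (Hs V →L[ℝ] Hs V)}
    (hA : GoodOp 𝒮 act A) (hB : GoodOp 𝒮 act B)
    (hfin : NN P (fun ω => A ω - B ω) ≠ ⊤)
    (h1 : ∀ ω i, (0 : ℝ) ≤ inner ℝ (A ω (dl i)) (B ω (dl i)))
    (h2 : ∀ ω i, (0 : ℝ) ≤ inner ℝ (ContinuousLinearMap.adjoint (A ω) (dl i))
      (ContinuousLinearMap.adjoint (B ω) (dl i))) :
    ∫⁻ p, ∑' y, ENNReal.ofReal (inner ℝ (A p.1 (dl (p.2, y))) (B p.1 (dl (p.2, y)))) ∂P =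
    ∫⁻ p, ∑' y, ENNReal.ofReal (inner ℝ (ContinuousLinearMap.adjoint (A p.1) (dl (p.2, y)))
      (ContinuousLinearMap.adjoint (B p.1) (dl (p.2, y)))) ∂P := by
  have hmain : ∀ (A B : Ω → (Hs V →L[ℝ] Hs V)), GoodOp 𝒮 act A → GoodOp 𝒮 act B →
      (∀ ω i, (0 : ℝ) ≤ inner ℝ (A ω (dl i)) (B ω (dl i))) →
      4 * ∫⁻ p, ∑' y, ENNReal.ofReal (inner ℝ (A p.1 (dl (p.2, y))) (B p.1 (dl (p.2, y)))) ∂P
        + NN P (fun ω => A ω - B ω) = NN P (fun ω => A ω + B ω) := by
    intro A B hA hB h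
    have hm : Measurable fun p : Ω × V => ∑' y, ENNReal.ofReal
        (inner ℝ (A p.1 (dl (p.2, y))) (B p.1 (dl (p.2, y)))) := by
      refine meas_prod (f := fun ω v => ∑' y, ENNReal.ofReal
        (inner ℝ (A ω (dl (v, y))) (B ω (dl (v, y))))) ?_
      intro v
      refine Measurable.ennreal_tsum fun y => ?_
      have h3 : (fun ω => (inner ℝ (A ω (dl (v, y))) (B ω (dl (v, y))) : ℝ)) =
          fun ω => ent (ContinuousLinearMap.adjoint (A ω) * B ω) (v, y) (v, y) := by
        funext ω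
        unfold ent
        change _ = inner ℝ _ ((ContinuousLinearMap.adjoint (A ω)) (B ω (dl (v, y))))
        rw [ContinuousLinearMap.adjoint_inner_right]
      rw [show (fun ω => ENNReal.ofReal (inner ℝ (A ω (dl (v, y))) (B ω (dl (v, y))))) =
        fun ω => ENNReal.ofReal (ent (ContinuousLinearMap.adjoint (A ω) * B ω) (v, y) (v, y)) from
        by funext ω; exact congrArg ENNReal.ofReal (congrFun h3 ω)]
      exact ((hA.adjoint.mul hB).meas _ _).ennreal_ofReal
    unfold NN
    rw [← lintegral_const_mul _ hm, ← lintegral_add_left (hm.const_mul 4)]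
    apply lintegral_congr
    intro p
    rw [← ENNReal.tsum_mul_left, ← ENNReal.tsum_add]
    apply tsum_congr
    intro y
    have e1 : (4 : ℝ≥0∞) = ENNReal.ofReal 4 := by norm_num
    rw [e1, ← ENNReal.ofReal_mul (by norm_num), ← ENNReal.ofReal_add
      (mul_nonneg (by norm_num) (h _ _)) (by positivity)]
    congr 1
    rw [sub_apply, add_apply, norm_sub_sq_real, norm_add_sq_real]
    ring
  have e1 := hmain A B hA hB h1
  have e2 := hmain _ _ hA.adjoint hB.adjoint h2
  have e3 : NN P (fun ω => ContinuousLinearMap.adjoint (A ω) - ContinuousLinearMap.adjoint (B ω))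
      = NN P (fun ω => A ω - B ω) := by
    rw [← NN_adjoint hP (hA.sub hB)]
    congr 1
    funext ω
    rw [map_sub]
  have e4 : NN P (fun ω => ContinuousLinearMap.adjoint (A ω) + ContinuousLinearMap.adjoint (B ω))
      = NN P (fun ω => A ω + B ω) := by
    rw [← NN_adjoint hP (hA.add hB)]
    congr 1
    funext ω
    rw [map_add]
  rw [e3, e4, ← e1] at e2
  have e5 := (ENNReal.add_left_inj hfin).1 e2
  exact ((ENNReal.mul_right_inj (by norm_num) (by norm_num)).1 e5).symm

end

/-! ### operator inequalities -/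

theorem inner_pow_nonneg {U : Hs V →L[ℝ] Hs V}
    (hsa : ∀ x y, (inner ℝ (U x) y : ℝ) = inner ℝ x (U y))
    (hpos : ∀ x, (0 : ℝ) ≤ inner ℝ x (U x)) (j : ℕ) (x : Hs V) :
    (0 : ℝ) ≤ inner ℝ x ((U ^ j) x) := by
  have hsaj : ∀ (m : ℕ) x y, (inner ℝ ((U ^ m) x) y : ℝ) = inner ℝ x ((U ^ m) y) := by
    intro m
    induction m with
    | zero => intro x y; simp
    | succ m ih =>
      intro x y
      rw [pow_succ]
      change (inner ℝ ((U ^ m) (U x)) y : ℝ) = inner ℝ x ((U ^ m) (U y))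
      rw [ih, hsa]
      have : U ((U ^ m) y) = (U ^ m) (U y) := by
        change (U * U ^ m) y = (U ^ m * U) y
        rw [← pow_succ, ← pow_succ']
      rw [this]
  rcases Nat.even_or_odd' j with ⟨m, rfl | rfl⟩
  · have : (U ^ (2 * m)) x = (U ^ m) ((U ^ m) x) := by
      rw [two_mul, pow_add]; rfl
    rw [this, ← hsaj]
    exact real_inner_self_nonneg
  · have : (U ^ (2 * m + 1)) x = (U ^ m) (U ((U ^ m) x)) := by
      have h : U ^ (2 * m + 1) = U ^ m * (U * U ^ m) := by
        rw [← pow_succ', ← pow_add]; congr 1; ring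
      rw [h]; rfl
    rw [this, ← hsaj]
    exact hpos _

end Vale.Agent.P143
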