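import Vale.Agent.P143.Cyl
import Vale.Agent.P143.Times
import Vale.Agent.P143.Trace
import Vale.Agent.P143.Resample

/-!
# The extended probability space and the mass transport principle
-/

open MeasureTheory Filter Topology ProbabilityTheory
open scoped unitInterval ENNReal

namespace Vale.Agent.P143

universe u

variable {V : Type u}

/-! ### connectivity is measurable -/

/-- reachability in exactly `n` steps -/
def reachN (G : SimpleGraph V) : ℕ → V → V → Prop
  | 0, u, v => u = v
  | n + 1, u, v => ∃ x, G.Adj u x ∧ reachN G n x v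

theorem reachable_iff_reachN (G : SimpleGraph V) (u v : V) :
    G.Reachable u v ↔ ∃ n, reachN G n u v := by
  rw [SimpleGraph.reachable_iff_reflTransGen]
  constructor
  · intro h
    induction h using Relation.ReflTransGen.head_induction_on with
    | refl => exact ⟨0, rfl⟩
    | head hab _ ih =>
      obtain ⟨n, hn⟩ := ih
      exact ⟨n + 1, _, hab, hn⟩
  · rintro ⟨n, hn⟩
    induction n generalizing u with
    | zero =>
      have : u = v := hn
      rw [this]
    | succ n ih =>
      obtain ⟨x, hx, hxv⟩ := hn
      exact Relation.ReflTransGen.head hx (ih x hxv)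

theorem measurable_reachN [Countable V] (n : ℕ) (u v : V) :
    Measurable fun G : SimpleGraph V => reachN G n u v := by
  induction n generalizing u with
  | zero => exact measurable_const
  | succ n ih =>
    exact Measurable.exists fun x => ((SimpleGraph.measurable_iff_adj.1 measurable_id) u x).and
      (ih x)

theorem measurableSet_connected [Countable V] :
    MeasurableSet {G : SimpleGraph V | G.Connected} := by
  have : {G : SimpleGraph V | G.Connected} =
      {G : SimpleGraph V | (∀ u v, ∃ n, reachN G n u v) ∧ Nonempty V} := by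
    ext G
    simp only [Set.mem_ofPred_eq, SimpleGraph.connected_iff, SimpleGraph.Preconnected,
      reachable_iff_reachN]
  rw [this, measurableSet_setOfPred]
  exact (Measurable.forall fun u => Measurable.forall fun v => Measurable.exists fun n =>
    measurable_reachN n u v).and measurable_const

/-- `g` is an isomorphism from `G` to `permG g G` -/
def permIso (g : Equiv.Perm V) (G : SimpleGraph V) : G ≃g permG g G where
  toEquiv := g
  map_rel_iff' := by
    intro a b
    simp [permG]

theorem connected_permG {g : Equiv.Perm V} {G : SimpleGraph V} :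
    (permG g G).Connected ↔ G.Connected := (permIso g G).connected_iff.symm

/-! ### uniqueness and equivariance of the conditional-probability property -/

section cp

theorem cyl_insert_mem {F A η : Set (Sym2 V)} {e : Sym2 V} (he : e ∉ F) (heA : e ∈ A)
    (hA : A ⊆ insert e F) : η ∩ insert e F = A ↔ (η ∩ F = A \ {e} ∧ e ∈ η) := by
  constructor
  · rintro rfl
    refine ⟨?_, heA.1⟩
    ext f
    simp only [Set.mem_inter_iff, Set.mem_diff, Set.mem_insert_iff, Set.mem_singleton_iff]
    constructor
    · rintro ⟨h1, h2⟩
      exact ⟨⟨h1, Or.inr h2⟩, fun h => he (h ▸ h2)⟩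
    · rintro ⟨⟨h1, h2⟩, h3⟩
      exact ⟨h1, h2.resolve_left h3⟩
  · rintro ⟨h1, h2⟩
    ext f
    by_cases hf : f = e
    · subst hf; simp [h2, heA]
    · have := Set.ext_iff.1 h1 f
      simp only [Set.mem_inter_iff, Set.mem_diff, Set.mem_insert_iff, Set.mem_singleton_iff] at *
      tauto

theorem cyl_insert_notMem {F A η : Set (Sym2 V)} {e : Sym2 V} (heA : e ∉ A) :
    η ∩ insert e F = A ↔ (η ∩ F = A ∧ e ∉ η) := by
  constructor
  · rintro rfl
    have h0 : e ∉ η := fun h => heA ⟨h, Set.mem_insert _ _⟩
    refine ⟨?_, h0⟩
    ext f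
    simp only [Set.mem_inter_iff, Set.mem_insert_iff]
    constructor
    · rintro ⟨h1, h2⟩
      exact ⟨h1, Or.inr h2⟩
    · rintro ⟨h1, h2⟩
      refine ⟨h1, h2.resolve_left ?_⟩
      rintro rfl; exact h0 h1
  · rintro ⟨h1, h2⟩
    ext f
    by_cases hf : f = e
    · subst hf; simp [h2, heA]
    · have := Set.ext_iff.1 h1 f
      simp only [Set.mem_inter_iff, Set.mem_insert_iff] at *
      tauto

variable [Countable V] {G : SimpleGraph V} {μ ν : Measure (Set (Sym2 V))}

theorem IsCP.unique (h1 : IsCP G μ) (h2 : IsCP G ν) : μ = ν := by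
  classical
  have i1 := h1.prob
  have i2 := h2.prob
  apply ext_cyl
  intro F
  induction F using Finset.induction_on with
  | empty =>
    intro A hA
    have : A = ∅ := by simpa using hA
    subst this
    simp
  | insert e F he ih =>
    intro A hA
    rw [Finset.coe_insert] at hA ⊢
    have he' : e ∉ (F : Set (Sym2 V)) := by simpa using he
    by_cases heA : e ∈ A
    · have e1 : {η : Set (Sym2 V) | η ∩ insert e (F : Set (Sym2 V)) = A} =
          {η : Set (Sym2 V) | η ∩ (F : Set (Sym2 V)) = A \ {e} ∧ e ∈ η} := by
        ext η; exact cyl_insert_mem he' heA hA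
      have hA' : A \ {e} ⊆ F := by
        intro f hf
        exact (hA hf.1).resolve_left hf.2
      rw [e1, h1.cp F _ F.finite_toSet hA' e he', h2.cp F _ F.finite_toSet hA' e he', ih _ hA']
    · have e1 : {η : Set (Sym2 V) | η ∩ insert e (F : Set (Sym2 V)) = A} =
          {η : Set (Sym2 V) | η ∩ (F : Set (Sym2 V)) = A ∧ e ∉ η} := by
        ext η; exact cyl_insert_notMem heA
      have hA' : A ⊆ F := by
        intro f hf
        refine (hA hf).resolve_left ?_
        rintro rfl; exact heA hf
      rw [e1, h1.cp_compl F _ F.finite_toSet hA' e he', h2.cp_compl F _ F.finite_toSet hA' e he',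
        ih _ hA']

omit [Countable V] in
theorem measurable_permE (g : Equiv.Perm V) :
    Measurable (permE g : Set (Sym2 V) → Set (Sym2 V)) := by
  rw [measurable_set_iff]
  intro e
  exact measurable_set_mem _

omit [Countable V] in
theorem measurable_permG (g : Equiv.Perm V) :
    Measurable (permG g : SimpleGraph V → SimpleGraph V) := by
  rw [SimpleGraph.measurable_iff_adj]
  intro a b
  exact (SimpleGraph.measurable_iff_adj.1 measurable_id) (g.symm a) (g.symm b)

omit [Countable V] in
theorem measurable_permL {α : Type*} [MeasurableSpace α] (g : Equiv.Perm V) :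
    Measurable (permL g : (Sym2 V → α) → (Sym2 V → α)) := by
  rw [measurable_pi_iff]
  intro e
  exact measurable_pi_apply _

omit [Countable V] in
theorem permE_symm (g : Equiv.Perm V) (F : Set (Sym2 V)) : permE g (permE g.symm F) = F := by
  ext e
  rw [mem_permE, mem_permE, Equiv.symm_symm, map_map_symm]

omit [Countable V] in
theorem permE_symm' (g : Equiv.Perm V) (F : Set (Sym2 V)) : permE g.symm (permE g F) = F := by
  ext e
  rw [mem_permE, mem_permE, Equiv.symm_symm, map_symm_map]

omit [Countable V] in
theorem permE_inter (g : Equiv.Perm V) (F A : Set (Sym2 V)) :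
    permE g (F ∩ A) = permE g F ∩ permE g A := rfl

theorem IsCP.perm (g : Equiv.Perm V) (h : IsCP G μ) : IsCP (permG g G) (μ.map (permE g)) := by
  have i1 := h.prob
  refine ⟨Measure.isProbabilityMeasure_map (measurable_permE g).aemeasurable, ?_, ?_⟩
  · rw [ae_map_iff (measurable_permE g).aemeasurable]
    · filter_upwards [h.sub] with η hη
      intro e he
      have h1 : Sym2.map g.symm e ∈ G.edgeSet := hη he
      rw [← mem_edgeSet_permG g, map_map_symm] at h1
      exact h1
    · exact measurableSet_setOfPred.2 (Measurable.subset measurable_id measurable_const)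
  · intro F A hF hA e he
    have e1 : permE g ⁻¹' {η | η ∩ F = A ∧ e ∈ η} =
        {η | η ∩ permE g.symm F = permE g.symm A ∧ Sym2.map g.symm e ∈ η} := by
      ext η
      simp only [Set.mem_preimage, Set.mem_ofPred_eq]
      constructor
      · rintro ⟨h1, h2⟩
        refine ⟨?_, h2⟩
        rw [← h1, permE_inter, permE_symm']
      · rintro ⟨h1, h2⟩
        refine ⟨?_, h2⟩
        have := congrArg (permE g) h1
        rwa [permE_inter, permE_symm, permE_symm] at this
    have e2 : permE g ⁻¹' {η | η ∩ F = A} =
        {η | η ∩ permE g.symm F = permE g.symm A} := by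
      ext η
      simp only [Set.mem_preimage, Set.mem_ofPred_eq]
      constructor
      · rintro h1
        rw [← h1, permE_inter, permE_symm']
      · rintro h1
        have := congrArg (permE g) h1
        rwa [permE_inter, permE_symm, permE_symm] at this
    have hm1 : MeasurableSet {η : Set (Sym2 V) | η ∩ F = A ∧ e ∈ η} :=
      (measurableSet_cylE F A).inter (measurableSet_mem e)
    rw [Measure.map_apply (measurable_permE g) hm1,
      Measure.map_apply (measurable_permE g) (measurableSet_cylE F A)]
    rw [e1, e2, h.cp]
    · congr 2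
      have := pe_perm g G (permE g.symm F) (permE g.symm A) (Sym2.map g.symm e)
      rw [permE_symm, permE_symm, map_map_symm] at this
      exact this.symm
    · exact hF.preimage (Function.Injective.injOn (by
        intro a b hab
        have := congrArg (Sym2.map g.symm) hab
        simpa [Sym2.map_map] using this))
    · intro f hf; exact hA hf
    · intro h1
      apply he
      rw [mem_permE, Equiv.symm_symm, map_map_symm] at h1
      exact h1

end cp

/-! ### the law of the labels -/

/-- the law of the labels -/
noncomputable def labE (V : Type u) : Measure (Sym2 V → ℝ × ℝ) :=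
  Measure.infinitePi fun _ : Sym2 V => lab

instance isProb_labE : IsProbabilityMeasure (labE V) := by
  have := isProb_lab
  unfold labE
  infer_instance

theorem map_permL_labE (g : Equiv.Perm V) : (labE V).map (permL g) = labE V := by
  classical
  have := isProb_lab
  unfold labE
  apply Measure.eq_infinitePi
  intro s t ht
  have e1 : permL g ⁻¹' (Set.pi (s : Set (Sym2 V)) t) =
      Set.pi ((s.image (Sym2.map g.symm) : Finset (Sym2 V)) : Set (Sym2 V))
        (fun i => t (Sym2.map g i)) := by
    ext L
    simp only [Set.mem_preimage, Set.mem_pi, Finset.coe_image, Set.mem_image, Finset.mem_coe]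
    constructor
    · rintro h _ ⟨e, he, rfl⟩
      rw [map_map_symm]
      exact h e he
    · intro h e he
      have := h (Sym2.map g.symm e) ⟨e, he, rfl⟩
      rw [map_map_symm] at this
      exact this
  rw [Measure.map_apply (measurable_permL g) (MeasurableSet.pi s.countable_toSet
    fun i _ => ht i), e1, Measure.infinitePi_pi _ (fun i _ => ht _), Finset.prod_image]
  · apply Finset.prod_congr rfl
    intro e _
    rw [map_map_symm]
  · intro a _ b _ hab
    have := congrArg (Sym2.map g) hab
    simpa [map_map_symm] using this

/-! ### the extended space -/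

/-- the extended configuration space: graph, forest, labels -/
abbrev Ext (V : Type u) := SimpleGraph V × (Set (Sym2 V) × (Sym2 V → ℝ × ℝ))

/-- action of permutations on the extended space -/
def actE (g : Equiv.Perm V) (ω : Ext V) : Ext V :=
  (permG g ω.1, (permE g ω.2.1, permL g ω.2.2))

section ext

variable [Countable V] [MeasurableSpace V] [DiscreteMeasurableSpace V]
  (P : Measure (SimpleGraph V × V)) (κ : Kernel (SimpleGraph V) (Set (Sym2 V)))

/-- the joint law of forest and labels given the graph, as a kernel -/
noncomputable def Kext : Kernel (SimpleGraph V) (Set (Sym2 V) × (Sym2 V → ℝ × ℝ)) :=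
  κ ×ₖ (Kernel.const _ (labE V))

omit [MeasurableSpace V] [DiscreteMeasurableSpace V] [Countable V] in
theorem Kext_apply [IsMarkovKernel κ] (G : SimpleGraph V) :
    Kext κ G = (κ G).prod (labE V) := by
  unfold Kext
  rw [Kernel.prod_apply, Kernel.const_apply]

instance [IsMarkovKernel κ] : IsMarkovKernel (Kext κ) := by
  unfold Kext; infer_instance

/-- the law of the rooted extended configuration -/
noncomputable def Phat : Measure (Ext V × V) :=
  (P ⊗ₘ ((Kext κ).comap Prod.fst measurable_fst)).map fun q => ((q.1.1, q.2), q.1.2)

omit [Countable V] [DiscreteMeasurableSpace V] in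
theorem measurable_rearr : Measurable fun q : (SimpleGraph V × V) ×
    (Set (Sym2 V) × (Sym2 V → ℝ × ℝ)) => (((q.1.1, q.2), q.1.2) : Ext V × V) := by
  fun_prop

variable {P κ} [IsMarkovKernel κ]

omit [Countable V] [DiscreteMeasurableSpace V] in
theorem lintegral_Phat [SFinite P] {f : Ext V × V → ℝ≥0∞} (hf : Measurable f) :
    ∫⁻ x, f x ∂(Phat P κ) =
      ∫⁻ p, ∫⁻ q, f ((p.1, q), p.2) ∂((κ p.1).prod (labE V)) ∂P := by
  unfold Phat
  rw [lintegral_map hf measurable_rearr]
  have h1 := Measure.lintegral_compProd (μ := P) (κ := (Kext κ).comap Prod.fst measurable_fst)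
    (hf.comp measurable_rearr)
  refine Eq.trans h1 ?_
  apply lintegral_congr
  intro p
  rw [Kernel.comap_apply, Kext_apply]
  rfl

omit [Countable V] [DiscreteMeasurableSpace V] in
theorem ae_Phat [SFinite P] {Pr : Ext V × V → Prop} (hPr : MeasurableSet {x | Pr x}) :
    (∀ᵐ x ∂(Phat P κ), Pr x) ↔
      ∀ᵐ p ∂P, ∀ᵐ q ∂((κ p.1).prod (labE V)), Pr ((p.1, q), p.2) := by
  unfold Phat
  rw [ae_map_iff measurable_rearr.aemeasurable hPr, Measure.ae_compProd_iff]
  · simp only [Kernel.comap_apply, Kext_apply]
  · exact measurable_rearr hPr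

instance [IsProbabilityMeasure P] : IsProbabilityMeasure (Phat P κ) := by
  unfold Phat
  exact Measure.isProbabilityMeasure_map measurable_rearr.aemeasurable

/-- equivariance of the conditional laws -/
theorem map_Kext {G : SimpleGraph V} (hκ : ∀ G : SimpleGraph V, G.Connected → IsCP G (κ G))
    (hG : G.Connected) (g : Equiv.Perm V) :
    ((κ G).prod (labE V)).map (fun q => (permE g q.1, permL g q.2)) =
      (κ (permG g G)).prod (labE V) := by
  have h1 : κ (permG g G) = (κ G).map (permE g) :=
    (hκ _ (connected_permG.2 hG)).unique ((hκ G hG).perm g)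
  rw [h1]
  conv_rhs => rw [← map_permL_labE g]
  rw [Measure.map_prod_map _ _ (measurable_permE g) (measurable_permL g)]
  rfl

theorem mtp_Phat [IsProbabilityMeasure P] {𝒮 : Set (Equiv.Perm V)} (hP : MTP 𝒮 permG P)
    (hconn : ∀ᵐ p ∂P, p.1.Connected)
    (hκ : ∀ G : SimpleGraph V, G.Connected → IsCP G (κ G)) :
    MTP 𝒮 actE (Phat P κ) := by
  classical
  intro f hf hequi
  set F : SimpleGraph V → V → V → ℝ≥0∞ := fun G x y =>
    if G.Connected then ∫⁻ q, f (G, q) x y ∂((κ G).prod (labE V)) else 0 with hF
  have hFm : ∀ x y, Measurable fun G => F G x y := by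
    intro x y
    refine Measurable.ite measurableSet_connected ?_ measurable_const
    have := Measurable.lintegral_kernel_prod_right (κ := Kext κ)
      (f := fun G q => f (G, q) x y) (hf x y)
    simpa only [Kext_apply] using this
  have hFe : ∀ g ∈ 𝒮, ∀ G x y, F (permG g G) (g x) (g y) = F G x y := by
    intro g hg G x y
    simp only [hF, connected_permG]
    by_cases hG : G.Connected
    · simp only [hG, if_true]
      rw [← map_Kext hκ hG g, lintegral_map]
      · apply lintegral_congr
        intro q
        exact hequi g hg (G, q) x y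
      · exact (hf _ _).comp (measurable_const.prodMk measurable_id)
      · exact ((measurable_permE g).comp measurable_fst).prodMk
          ((measurable_permL g).comp measurable_snd)
    · simp only [hG, if_false]
  have key := hP F hFm hFe
  have e1 : ∫⁻ p, ∑' y, f p.1 p.2 y ∂(Phat P κ) = ∫⁻ p, ∑' y, F p.1 p.2 y ∂P := by
    rw [lintegral_Phat (f := fun p => ∑' y, f p.1 p.2 y)
      (meas_prod (f := fun ω v => ∑' y, f ω v y) fun v => Measurable.ennreal_tsum fun y => hf v y)]
    apply lintegral_congr_ae
    filter_upwards [hconn] with p hp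
    rw [lintegral_tsum]
    · apply tsum_congr
      intro y
      simp only [hF, hp, if_true]
    · intro y
      exact ((hf _ _).comp (measurable_const.prodMk measurable_id)).aemeasurable
  have e2 : ∫⁻ p, ∑' y, f p.1 y p.2 ∂(Phat P κ) = ∫⁻ p, ∑' y, F p.1 y p.2 ∂P := by
    rw [lintegral_Phat (f := fun p => ∑' y, f p.1 y p.2)
      (meas_prod (f := fun ω v => ∑' y, f ω y v) fun v => Measurable.ennreal_tsum fun y => hf y v)]
    apply lintegral_congr_ae
    filter_upwards [hconn] with p hp
    rw [lintegral_tsum]
    · apply tsum_congr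
      intro y
      simp only [hF, hp, if_true]
    · intro y
      exact ((hf _ _).comp (measurable_const.prodMk measurable_id)).aemeasurable
  rw [e1, e2]
  exact key

end ext

/-! ### from the root to all vertices -/

theorem MTP.all {Ω : Type*} [MeasurableSpace Ω] [Countable V] [MeasurableSpace V]
    [DiscreteMeasurableSpace V] {𝒮 : Set (Equiv.Perm V)}
    {act : Equiv.Perm V → Ω → Ω} {P : Measure (Ω × V)} (hP : MTP 𝒮 act P) {Pr : Ω → V → Prop}
    (hm : ∀ x, MeasurableSet {ω | Pr ω x})
    (he : ∀ g ∈ 𝒮, ∀ ω x, Pr (act g ω) (g x) ↔ Pr ω x) (h : ∀ᵐ p ∂P, Pr p.1 p.2) :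
    ∀ᵐ p ∂P, ∀ x, Pr p.1 x := by
  classical
  have key := hP (fun ω _ y => if Pr ω y then 0 else 1)
    (fun x y => Measurable.ite (hm y) measurable_const measurable_const)
    (by
      intro g hg ω x y
      simp only [he g hg])
  have h0 : ∫⁻ p, ∑' y : V, (if Pr p.1 p.2 then (0 : ℝ≥0∞) else 1) ∂P = 0 := by
    rw [lintegral_eq_zero_iff']
    · filter_upwards [h] with p hp
      simp [hp]
    · apply Measurable.aemeasurable
      exact meas_prod (f := fun ω v => ∑' y : V, (if Pr ω v then (0 : ℝ≥0∞) else 1))
        fun v => Measurable.ennreal_tsum fun y =>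
          Measurable.ite (hm v) measurable_const measurable_const
  rw [h0, lintegral_eq_zero_iff'] at key
  · filter_upwards [key] with p hp x
    have h1 := ENNReal.tsum_eq_zero.1 hp x
    by_contra hne
    simp [hne] at h1
  · apply Measurable.aemeasurable
    exact meas_prod (f := fun ω v => ∑' y : V, (if Pr ω y then (0 : ℝ≥0∞) else 1))
      fun v => Measurable.ennreal_tsum fun y =>
        Measurable.ite (hm y) measurable_const measurable_const

end Vale.Agent.P143
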