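import Vale.Agent.P143.Perm
import Mathlib.Analysis.InnerProductSpace.MeanErgodic

/-!
# Measurable equivariant fields of operators
-/

open MeasureTheory Filter Topology
open scoped unitInterval ENNReal

namespace Vale.Agent.P143

universe u

variable {V : Type u}

/-- matrix entries -/
noncomputable def ent (A : Hs V →L[ℝ] Hs V) (i j : V × V) : ℝ := inner ℝ (dl i) (A (dl j))

theorem ent_eq (A : Hs V →L[ℝ] Hs V) (i j : V × V) : ent A i j = A (dl j) i := by
  unfold ent; rw [inner_dl_left]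

theorem hasSum_smul_dl (x : Hs V) : HasSum (fun i => x i • (dl i : Hs V)) x := by
  classical
  have h := lp.hasSum_single (E := fun _ : V × V => ℝ) (p := 2) (by norm_num) x
  have : (fun i => x i • (dl i : Hs V)) = fun i => lp.single 2 i (x i) := by
    funext i
    apply Hs.ext'
    intro j
    by_cases h : j = i
    · subst h
      simp [dl]
    · simp [dl, Pi.single_eq_of_ne h]
  rw [this]
  exact h

theorem hasSum_ent_mul (A B : Hs V →L[ℝ] Hs V) (i j : V × V) :
    HasSum (fun k => ent A i k * ent B k j) (ent (A * B) i j) := by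
  have h1 := hasSum_smul_dl (B (dl j))
  have h2 := (innerSL ℝ (dl i)).hasSum (A.hasSum h1)
  have h3 : (fun k => ent A i k * ent B k j) =
      fun k => (innerSL ℝ (dl i)) (A ((B (dl j)) k • dl k)) := by
    funext k
    simp only [map_smul, smul_eq_mul]
    rw [ent_eq B, mul_comm]
    rfl
  rw [h3]
  exact h2

section

variable {Ω : Type*} [MeasurableSpace Ω] {𝒮 : Set (Equiv.Perm V)} {act : Equiv.Perm V → Ω → Ω}

theorem GoodOp.const_one : GoodOp 𝒮 act (fun _ : Ω => (1 : Hs V →L[ℝ] Hs V)) := by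
  refine ⟨fun i j => measurable_const, ?_⟩
  intro g _ ω i j
  simp only [ContinuousLinearMap.one_apply, inner_dl_left]
  by_cases h : i = j
  · subst h; rw [dl_apply_self, dl_apply_self]
  · rw [dl_apply_ne h, dl_apply_ne]
    intro h'
    apply h
    have := Prod.mk.inj h'
    exact Prod.ext (g.injective this.1) (g.injective this.2)

theorem GoodOp.add {A B : Ω → (Hs V →L[ℝ] Hs V)} (hA : GoodOp 𝒮 act A) (hB : GoodOp 𝒮 act B) :
    GoodOp 𝒮 act (fun ω => A ω + B ω) := by
  refine ⟨fun i j => ?_, fun g hg ω i j => ?_⟩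
  · simp only [ContinuousLinearMap.add_apply, inner_add_right]
    exact (hA.meas i j).add (hB.meas i j)
  · simp only [ContinuousLinearMap.add_apply, inner_add_right]
    rw [hA.equi g hg, hB.equi g hg]

theorem GoodOp.smul {A : Ω → (Hs V →L[ℝ] Hs V)} (hA : GoodOp 𝒮 act A) (c : ℝ) :
    GoodOp 𝒮 act (fun ω => c • A ω) := by
  refine ⟨fun i j => ?_, fun g hg ω i j => ?_⟩
  · simp only [ContinuousLinearMap.smul_apply, inner_smul_right]
    exact (hA.meas i j).const_mul c
  · simp only [ContinuousLinearMap.smul_apply, inner_smul_right]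
    rw [hA.equi g hg]

theorem GoodOp.neg {A : Ω → (Hs V →L[ℝ] Hs V)} (hA : GoodOp 𝒮 act A) :
    GoodOp 𝒮 act (fun ω => - A ω) := by
  have := hA.smul (-1)
  simpa using this

theorem GoodOp.sub {A B : Ω → (Hs V →L[ℝ] Hs V)} (hA : GoodOp 𝒮 act A) (hB : GoodOp 𝒮 act B) :
    GoodOp 𝒮 act (fun ω => A ω - B ω) := by
  have := hA.add hB.neg
  simpa [sub_eq_add_neg] using this

theorem GoodOp.adjoint {A : Ω → (Hs V →L[ℝ] Hs V)} (hA : GoodOp 𝒮 act A) :
    GoodOp 𝒮 act (fun ω => ContinuousLinearMap.adjoint (A ω)) := by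
  refine ⟨fun i j => ?_, fun g hg ω i j => ?_⟩
  · simp only [ContinuousLinearMap.adjoint_inner_right]
    have := hA.meas j i
    simpa [real_inner_comm] using this
  · simp only [ContinuousLinearMap.adjoint_inner_right]
    have := hA.equi g hg ω j i
    rw [real_inner_comm, this, real_inner_comm]

theorem GoodOp.mul [Countable V] {A B : Ω → (Hs V →L[ℝ] Hs V)} (hA : GoodOp 𝒮 act A)
    (hB : GoodOp 𝒮 act B) : GoodOp 𝒮 act (fun ω => A ω * B ω) := by
  refine ⟨fun i j => ?_, fun g hg ω i j => ?_⟩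
  · refine measurable_of_tendsto_metrizable' (atTop : Filter (Finset (V × V)))
      (f := fun s ω => ∑ k ∈ s, ent (A ω) i k * ent (B ω) k j) ?_ ?_
    · intro s
      exact Finset.measurable_sum _ fun k _ => (hA.meas i k).mul (hB.meas k j)
    · rw [tendsto_pi_nhds]
      intro ω
      exact hasSum_ent_mul (A ω) (B ω) i j
  · have h1 := hasSum_ent_mul (A ω) (B ω) i j
    have h2 := hasSum_ent_mul (A (act g ω)) (B (act g ω)) (g i.1, g i.2) (g j.1, g j.2)
    have h3 := (pp g).hasSum_iff.2 h2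
    have h4 : ((fun k => ent (A (act g ω)) (g i.1, g i.2) k *
        ent (B (act g ω)) k (g j.1, g j.2)) ∘ (pp g)) =
        fun k => ent (A ω) i k * ent (B ω) k j := by
      funext k
      simp only [Function.comp, pp_apply]
      unfold ent
      rw [hA.equi g hg, hB.equi g hg]
    rw [h4] at h3
    exact h3.unique h1

theorem GoodOp.pow [Countable V] {A : Ω → (Hs V →L[ℝ] Hs V)} (hA : GoodOp 𝒮 act A) (n : ℕ) :
    GoodOp 𝒮 act (fun ω => A ω ^ n) := by
  induction n with
  | zero => simpa using (GoodOp.const_one (𝒮 := 𝒮) (act := act))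
  | succ n ih =>
    have := ih.mul hA
    simpa [pow_succ] using this

theorem GoodOp.const_zero : GoodOp 𝒮 act (fun _ : Ω => (0 : Hs V →L[ℝ] Hs V)) := by
  have := (GoodOp.const_one (𝒮 := 𝒮) (act := act)).smul 0
  simpa using this

theorem GoodOp.sum {ι : Type*} (s : Finset ι) {A : ι → Ω → (Hs V →L[ℝ] Hs V)}
    (hA : ∀ i ∈ s, GoodOp 𝒮 act (A i)) : GoodOp 𝒮 act (fun ω => ∑ i ∈ s, A i ω) := by
  classical
  induction s using Finset.induction_on with
  | empty => simpa using (GoodOp.const_zero (𝒮 := 𝒮) (act := act))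
  | insert a s ha ih =>
    have h1 := (hA a (Finset.mem_insert_self a s)).add
      (ih fun i hi => hA i (Finset.mem_insert_of_mem hi))
    have h2 : (fun ω => ∑ i ∈ insert a s, A i ω) = fun ω => A a ω + ∑ i ∈ s, A i ω := by
      funext ω; rw [Finset.sum_insert ha]
    rw [h2]; exact h1

theorem GoodOp.lim {A : ℕ → Ω → (Hs V →L[ℝ] Hs V)} {B : Ω → (Hs V →L[ℝ] Hs V)}
    (hA : ∀ n, GoodOp 𝒮 act (A n))
    (h : ∀ ω i j, Tendsto (fun n => (inner ℝ (dl i) (A n ω (dl j)) : ℝ)) atTop
      (𝓝 (inner ℝ (dl i) (B ω (dl j))))) : GoodOp 𝒮 act B := by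
  refine ⟨fun i j => ?_, fun g hg ω i j => ?_⟩
  · refine measurable_of_tendsto_metrizable (fun n => (hA n).meas i j) ?_
    rw [tendsto_pi_nhds]
    intro ω
    exact h ω i j
  · have h1 := h (act g ω) (g i.1, g i.2) (g j.1, g j.2)
    have h2 := h ω i j
    have h3 : (fun n => (inner ℝ (dl (g i.1, g i.2)) (A n (act g ω) (dl (g j.1, g j.2))) : ℝ)) =
        fun n => inner ℝ (dl i) (A n ω (dl j)) := by
      funext n; exact (hA n).equi g hg ω i j
    rw [h3] at h1
    exact tendsto_nhds_unique h1 h2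

theorem goodOp_coordSub {R : Ω → Set (V × V)} (hR : GoodSet 𝒮 act R) :
    GoodOp 𝒮 act (fun ω => pj (coordSub (R ω))) := by
  classical
  refine ⟨fun i j => ?_, fun g hg ω i j => ?_⟩
  · have : (fun ω => (inner ℝ (dl i) (pj (coordSub (R ω)) (dl j)) : ℝ)) =
        {ω | i ∈ R ω}.indicator (fun _ => (dl j : Hs V) i) := by
      funext ω
      rw [inner_dl_left, pj_coordSub_apply]
      by_cases h : i ∈ R ω
      · rw [Set.indicator_of_mem h, Set.indicator_of_mem (show ω ∈ {ω | i ∈ R ω} from h)]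
      · rw [Set.indicator_of_notMem h, Set.indicator_of_notMem (show ω ∉ {ω | i ∈ R ω} from h)]
    rw [this]
    exact measurable_const.indicator (hR.meas i)
  · rw [inner_dl_left, inner_dl_left, pj_coordSub_apply, pj_coordSub_apply]
    have h0 : (dl (g j.1, g j.2) : Hs V) (g i.1, g i.2) = (dl j : Hs V) i := by
      have := (GoodOp.const_one (V := V) (Ω := Unit) (𝒮 := Set.univ) (act := fun _ => id)).equi g
        trivial () i j
      simpa [inner_dl_left] using this
    by_cases h : i ∈ R ω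
    · rw [Set.indicator_of_mem h, Set.indicator_of_mem ((hR.equi g hg ω i).2 h), h0]
    · rw [Set.indicator_of_notMem h,
        Set.indicator_of_notMem (fun h' => h ((hR.equi g hg ω i).1 h'))]

/-- the mean ergodic theorem in the form needed here -/
theorem tendsto_avg (T : Hs V →L[ℝ] Hs V) (hT : ‖T‖ ≤ 1) {K : Submodule ℝ (Hs V)}
    (hK : IsClosed (K : Set (Hs V))) (h : ∀ x, x ∈ K ↔ T x = x) (x : Hs V) :
    Tendsto (fun n : ℕ => ((n : ℝ)⁻¹ • ∑ k ∈ Finset.range n, T ^ k) x) atTop (𝓝 (pj K x)) := by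
  have h1 := ContinuousLinearMap.tendsto_birkhoffAverage_orthogonalProjection T hT x
  have h2 : ∀ n : ℕ, birkhoffAverage ℝ T _root_.id n x =
      ((n : ℝ)⁻¹ • ∑ k ∈ Finset.range n, T ^ k) x := by
    intro n
    simp only [birkhoffAverage, birkhoffSum, id, ContinuousLinearMap.smul_apply,
      ContinuousLinearMap.sum_apply]
    congr 1
    apply Finset.sum_congr rfl
    intro k _
    rw [← ContinuousLinearMap.coe_pow' T k]
  simp_rw [h2] at h1
  convert h1 using 2
  unfold pj
  have h3 : K.topologicalClosure = T.eqLocus (1 : Hs V →L[ℝ] Hs V) := by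
    rw [topologicalClosure_eq_of_isClosed hK]
    ext y
    rw [h y]
    rfl
  simp_rw [h3]
  rfl

theorem norm_pj_le_one (K : Submodule ℝ (Hs V)) : ‖pj K‖ ≤ 1 :=
  Submodule.starProjection_norm_le _

/-- fixed vectors of a product of projections -/
theorem pj_mul_pj_fixed {K L : Submodule ℝ (Hs V)} {x : Hs V} (h : pj K (pj L x) = x) :
    x ∈ K.topologicalClosure ∧ x ∈ L.topologicalClosure := by
  have h1 : x ∈ K.topologicalClosure := by rw [← h]; exact pj_mem K _
  refine ⟨h1, ?_⟩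
  have h2 : ‖x‖ ≤ ‖pj L x‖ := by
    calc ‖x‖ = ‖pj K (pj L x)‖ := by rw [h]
      _ ≤ ‖pj L x‖ := norm_pj_le K _
  exact (Submodule.mem_iff_norm_starProjection L.topologicalClosure x).2
    (le_antisymm (norm_pj_le L x) h2)

theorem goodOp_inf [Countable V] {X Y : Ω → Submodule ℝ (Hs V)}
    (hX : GoodOp 𝒮 act (fun ω => pj (X ω))) (hY : GoodOp 𝒮 act (fun ω => pj (Y ω)))
    (hXc : ∀ ω, IsClosed (X ω : Set (Hs V))) (hYc : ∀ ω, IsClosed (Y ω : Set (Hs V))) :
    GoodOp 𝒮 act (fun ω => pj (X ω ⊓ Y ω)) := by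
  refine GoodOp.lim (A := fun n ω => (n : ℝ)⁻¹ • ∑ k ∈ Finset.range n, (pj (X ω) * pj (Y ω)) ^ k)
    ?_ ?_
  · intro n
    exact (GoodOp.sum _ fun k _ => (hX.mul hY).pow k).smul _
  · intro ω i j
    have hcl : IsClosed ((X ω ⊓ Y ω : Submodule ℝ (Hs V)) : Set (Hs V)) :=
      (hXc ω).inter (hYc ω)
    have hnorm : ‖pj (X ω) * pj (Y ω)‖ ≤ 1 := by
      calc ‖pj (X ω) * pj (Y ω)‖ ≤ ‖pj (X ω)‖ * ‖pj (Y ω)‖ := norm_mul_le _ _
        _ ≤ 1 * 1 := by
          gcongr
          · exact norm_pj_le_one _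
          · exact norm_pj_le_one _
        _ = 1 := by norm_num
    have h := tendsto_avg (pj (X ω) * pj (Y ω)) hnorm hcl (x := dl j) (by
      intro x
      constructor
      · rintro ⟨h1, h2⟩
        change pj (X ω) (pj (Y ω) x) = x
        rw [pj_eq_self (Submodule.le_topologicalClosure _ h2),
          pj_eq_self (Submodule.le_topologicalClosure _ h1)]
      · intro h
        have := pj_mul_pj_fixed (K := X ω) (L := Y ω) h
        rw [topologicalClosure_eq_of_isClosed (hXc ω), topologicalClosure_eq_of_isClosed (hYc ω)]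
          at this
        exact ⟨this.1, this.2⟩)
    exact ((innerSL ℝ (dl i)).continuous.tendsto _).comp h

/-- projection onto the orthogonal complement -/
theorem pj_orthogonal (K : Submodule ℝ (Hs V)) : pj Kᗮ = 1 - pj K := by
  ext1 x
  have h1 : pj Kᗮ x = x - pj K x := by
    apply pj_eq_of
    · apply Submodule.le_topologicalClosure
      have := Submodule.sub_starProjection_mem_orthogonal (K := K.topologicalClosure) x
      rwa [Submodule.orthogonal_closure] at this
    · intro w hw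
      rw [sub_sub_cancel, inner_pj_left]
      have h2 : pj K w = 0 := by
        apply pj_eq_of (zero_mem _)
        intro v hv
        rw [sub_zero]
        rw [real_inner_comm]
        exact hw v hv
      rw [h2, inner_zero_right]
  rw [h1]; rfl

theorem goodOp_orthogonal {X : Ω → Submodule ℝ (Hs V)} (hX : GoodOp 𝒮 act (fun ω => pj (X ω))) :
    GoodOp 𝒮 act (fun ω => pj (X ω)ᗮ) := by
  simp only [pj_orthogonal]
  exact GoodOp.const_one.sub hX

/-- closure of the image of `K` under the projection onto `L`: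
`L ⊖ (L ∩ Kᗮ)` -/
theorem pj_map_pj (K L : Submodule ℝ (Hs V)) (hL : IsClosed (L : Set (Hs V))) :
    pj (K.map (pj L : Hs V →ₗ[ℝ] Hs V)) = pj L - pj (L ⊓ Kᗮ) := by
  ext1 x
  apply pj_eq_of
  · -- `pj L x - pj (L ⊓ Kᗮ) x` is in the closure of the image: it is orthogonal to `(im)ᗮ`
    have hcl : ((K.map (pj L : Hs V →ₗ[ℝ] Hs V)).topologicalClosure) =
        ((K.map (pj L : Hs V →ₗ[ℝ] Hs V))ᗮ)ᗮ := by
      rw [Submodule.orthogonal_orthogonal_eq_closure]
    rw [hcl, Submodule.mem_orthogonal]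
    intro y hy
    have hy' : ∀ k ∈ K, (inner ℝ (pj L k) y : ℝ) = 0 := by
      intro k hk
      exact (Submodule.mem_orthogonal _ _).1 hy _ ⟨k, hk, rfl⟩
    have h1 : pj L y ∈ L ⊓ Kᗮ := by
      refine ⟨pj_mem_of_isClosed hL y, ?_⟩
      rw [SetLike.mem_coe, Submodule.mem_orthogonal]
      intro k hk
      rw [← inner_pj_left]
      exact hy' k hk
    have hLx : pj L (pj L x - pj (L ⊓ Kᗮ) x) = pj L x - pj (L ⊓ Kᗮ) x := by
      rw [map_sub, pj_pj]
      congr 1
      apply pj_eq_self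
      exact Submodule.topologicalClosure_mono inf_le_left (pj_mem _ x)
    change (inner ℝ y ((pj L - pj (L ⊓ Kᗮ)) x) : ℝ) = 0
    rw [ContinuousLinearMap.sub_apply, ← hLx, ← inner_pj_left]
    rw [inner_sub_right]
    have h2 : (inner ℝ (pj L y) (pj (L ⊓ Kᗮ) x) : ℝ) = inner ℝ (pj L y) x := by
      rw [← inner_pj_left, pj_eq_self (Submodule.le_topologicalClosure _ h1)]
    rw [h2, ← inner_pj_left, pj_pj, sub_self]
  · rintro _ ⟨k, hk, rfl⟩
    change (inner ℝ (x - (pj L - pj (L ⊓ Kᗮ)) x) (pj L k) : ℝ) = 0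
    rw [ContinuousLinearMap.sub_apply, ← inner_pj_left, map_sub, map_sub, pj_pj]
    have h3 : pj L (pj (L ⊓ Kᗮ) x) = pj (L ⊓ Kᗮ) x := by
      apply pj_eq_self
      exact Submodule.topologicalClosure_mono inf_le_left (pj_mem _ x)
    rw [h3, sub_sub_cancel]
    have h4 : pj (L ⊓ Kᗮ) x ∈ Kᗮ := by
      have h5 : (L ⊓ Kᗮ).topologicalClosure ≤ Kᗮ :=
        Submodule.topologicalClosure_minimal _ inf_le_right (Submodule.isClosed_orthogonal K)
      exact h5 (pj_mem _ x)
    rw [real_inner_comm]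
    exact (Submodule.mem_orthogonal _ _).1 h4 k hk

theorem goodOp_map_pj [Countable V] {K L : Ω → Submodule ℝ (Hs V)}
    (hK : GoodOp 𝒮 act (fun ω => pj (K ω))) (hL : GoodOp 𝒮 act (fun ω => pj (L ω)))
    (hLc : ∀ ω, IsClosed (L ω : Set (Hs V))) :
    GoodOp 𝒮 act (fun ω => pj ((K ω).map (pj (L ω) : Hs V →ₗ[ℝ] Hs V))) := by
  have h1 : (fun ω => pj ((K ω).map (pj (L ω) : Hs V →ₗ[ℝ] Hs V))) =
      fun ω => pj (L ω) - pj (L ω ⊓ (K ω)ᗮ) := by
    funext ω; exact pj_map_pj _ _ (hLc ω)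
  rw [h1]
  exact hL.sub (goodOp_inf hL (goodOp_orthogonal hK) hLc
    (fun ω => Submodule.isClosed_orthogonal _))

theorem pj_closure (K : Submodule ℝ (Hs V)) : pj K.topologicalClosure = pj K := by
  unfold pj
  have : K.topologicalClosure.topologicalClosure = K.topologicalClosure :=
    topologicalClosure_eq_of_isClosed (Submodule.isClosed_topologicalClosure _)
  simp_rw [this]

theorem GoodSet.compl {R : Ω → Set (V × V)} (hR : GoodSet 𝒮 act R) :
    GoodSet 𝒮 act (fun ω => (R ω)ᶜ) :=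
  ⟨fun i => (hR.meas i).compl, fun g hg ω i => not_congr (hR.equi g hg ω i)⟩

theorem goodOp_condSub [Countable V] {X : Ω → Submodule ℝ (Hs V)} {R T : Ω → Set (V × V)}
    (hX : GoodOp 𝒮 act (fun ω => pj (X ω))) (hXc : ∀ ω, IsClosed (X ω : Set (Hs V)))
    (hR : GoodSet 𝒮 act R) (hT : GoodSet 𝒮 act T) :
    GoodOp 𝒮 act (fun ω => pj (condSub (X ω) (R ω) (T ω))) := by
  unfold condSub
  simp only [pj_closure]
  exact goodOp_map_pj (goodOp_inf hX (goodOp_coordSub hT.compl) hXc
    (fun ω => isClosed_coordSub _)) (goodOp_coordSub hR.compl) (fun ω => isClosed_coordSub _)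

end

end Vale.Agent.P143
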