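import Vale.Agent.P143.Gronwall2

/-!
# The main theorem with edge labels
-/

open MeasureTheory Filter Topology ProbabilityTheory
open scoped unitInterval ENNReal

namespace Vale.Agent.P143

universe u

variable {V : Type u} [Countable V] [MeasurableSpace V] [DiscreteMeasurableSpace V]

/-- (C) the main theorem with edge labels in `I × I` -/
theorem main_edge (V : Type u) [Countable V] [MeasurableSpace V] [DiscreteMeasurableSpace V]
    [Infinite V] :
    ∃ Φ : SimpleGraph V → (Sym2 V → I × I) → Set (Sym2 V),
      Measurable (fun p : SimpleGraph V × (Sym2 V → I × I) => Φ p.1 p.2) ∧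
      (∀ (g : Equiv.Perm V) G U, Φ (permG g G) (permL g U) = permE g (Φ G U)) ∧
      (∀ G U U', (∀ e ∈ G.edgeSet, U e = U' e) → Φ G U = Φ G U') ∧
      (∀ G U, Φ G U ⊆ G.edgeSet) ∧
      ∀ (𝒮 : Set (Equiv.Perm V)) (P : Measure (SimpleGraph V × V)) [IsProbabilityMeasure P],
        MTP 𝒮 permG P → (∀ᵐ p ∂P, p.1.Connected) →
        (∀ᵐ p ∂P, ∀ x, (p.1.neighborSet x).Finite) →
        ∀ (κ : Kernel (SimpleGraph V) (Set (Sym2 V))) [IsMarkovKernel κ],
        (∀ G : SimpleGraph V, G.Connected →
          IsFUSF G (κ G) ∧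
          (∀ᵐ η ∂(κ G), η ⊆ G.edgeSet) ∧
          ∀ F A : Set (Sym2 V), F.Finite → A ⊆ F → ∀ e ∉ F,
            κ G {η | η ∩ F = A ∧ e ∈ η} =
              ENNReal.ofReal (pe G F A e) * κ G {η | η ∩ F = A}) →
        ∀ᵐ p ∂P,
          Measure.map (Φ p.1) (Measure.infinitePi fun _ : Sym2 V => (volume : Measure (I × I)))
            = κ p.1 := by
  have i0 := isProb_lab
  obtain ⟨f, hf, hfm⟩ := Measure.exists_measurable_map_eq lab
  have hφ : Measurable fun x : I × I => f x.1 := hf.comp measurable_fst
  have hφm : (volume : Measure (I × I)).map (fun x : I × I => f x.1) = lab := by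
    have h1 : (fun x : I × I => f x.1) = f ∘ Prod.fst := rfl
    rw [h1, ← Measure.map_map hf measurable_fst]
    have h2 : (volume : Measure (I × I)).map Prod.fst = volume := by
      rw [Measure.volume_eq_prod, Measure.map_fst_prod, measure_univ, one_smul]
    rw [h2, hfm]
  refine ⟨fun G U => ph G (fun e => f (U e).1), ?_, ?_, ?_, ?_, ?_⟩
  · apply measurable_ph measurable_fst
    rw [measurable_pi_iff]
    intro e
    exact hφ.comp ((measurable_pi_apply e).comp measurable_snd)
  · intro g G U
    exact ph_perm g G (fun e => f (U e).1)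
  · intro G U U' h
    apply ph_congr
    intro e he
    simp only [h e he]
  · intro G U e he
    obtain ⟨k, hk⟩ := he.exists
    exact pic_subset _ _ _ hk
  · intro 𝒮 P _ hP hconn hlf κ _ hκ
    have hκ' : ∀ G : SimpleGraph V, G.Connected → IsCP G (κ G) := fun G hG =>
      ⟨inferInstance, (hκ G hG).2.1, (hκ G hG).2.2⟩
    have hM := mtp_Phat (κ := κ) hP hconn hκ'
    have hRT := random_time (κ := κ) hP hconn hlf hκ'
    have hconv := all_conv hM hconn hlf hκ' hRT
    filter_upwards [hconv, hconn, hRT] with p hp hc hrt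
    have hlaw : (Measure.infinitePi fun _ : Sym2 V => (volume : Measure (I × I))).map
        (fun U e => f (U e).1) = labE V := by
      have h1 := Measure.infinitePi_map_pi (μ := fun _ : Sym2 V => (volume : Measure (I × I)))
        (f := fun _ x => f x.1) (fun _ => hφ)
      simp only [hφm] at h1
      exact h1
    have hmU : Measurable fun (U : Sym2 V → I × I) e => f (U e).1 := by
      rw [measurable_pi_iff]
      intro e
      exact hφ.comp (measurable_pi_apply e)
    have hph : Measurable (ph p.1) := measurable_ph measurable_const measurable_id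
    have e1 : (fun U : Sym2 V → I × I => ph p.1 (fun e => f (U e).1)) =
        ph p.1 ∘ (fun (U : Sym2 V → I × I) e => f (U e).1) := rfl
    have e2 : (Measure.infinitePi fun _ : Sym2 V => (volume : Measure (I × I))).map
        (fun U : Sym2 V → I × I => ph p.1 (fun e => f (U e).1)) = (labE V).map (ph p.1) := by
      rw [e1, ← Measure.map_map hph hmU, hlaw]
    rw [e2]
    have e3 : labE V = ((κ p.1).prod (labE V)).map
        (fun q : Set (Sym2 V) × (Sym2 V → ℝ × ℝ) => lhat p.1 q.1 q.2) :=
      (law_lhat (hκ' p.1 hc) hrt).symm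
    have hlh : Measurable fun q : Set (Sym2 V) × (Sym2 V → ℝ × ℝ) => lhat p.1 q.1 q.2 :=
      measurable_lhat measurable_const measurable_fst measurable_snd
    conv_lhs => rw [e3]
    rw [Measure.map_map hph hlh]
    have e4 : (ph p.1 ∘ fun q : Set (Sym2 V) × (Sym2 V → ℝ × ℝ) => lhat p.1 q.1 q.2) =ᵐ[
        (κ p.1).prod (labE V)] Prod.fst := hp
    rw [Measure.map_congr e4, Measure.map_fst_prod, measure_univ, one_smul]

end Vale.Agent.P143
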