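import Vale.Agent.P143.Assembly
import Vale.Agent.P143.MainEdge

/-!
# The final theorems
-/

open MeasureTheory Filter Topology ProbabilityTheory
open scoped unitInterval ENNReal

namespace Vale.Agent.P143

universe u

variable {V : Type u}

/-- The FUSF as a factor of vertex labels, for all measures with the mass transport principle. -/
theorem main_vertex (V : Type u) [Countable V] [Infinite V] [MeasurableSpace V]
    [DiscreteMeasurableSpace V] :
    ∃ Φ : SimpleGraph V → (V → I) → Set (Sym2 V),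
      Measurable (fun p : SimpleGraph V × (V → I) => Φ p.1 p.2) ∧
      (∀ G U, Φ G U ⊆ G.edgeSet) ∧
      (∀ (g : Equiv.Perm V) G U, Φ (permG g G) (fun x => U (g.symm x)) = permE g (Φ G U)) ∧
      ∀ (𝒮 : Set (Equiv.Perm V)) (P : Measure (SimpleGraph V × V)) [IsProbabilityMeasure P],
        MTP 𝒮 permG P → (∀ᵐ p ∂P, p.1.Connected) →
        (∀ᵐ p ∂P, ∀ x, (p.1.neighborSet x).Finite) →
        ∀ᵐ p ∂P, IsFUSF p.1
          (Measure.map (Φ p.1) (Measure.infinitePi fun _ : V => (volume : Measure I))) := by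
  obtain ⟨κ, hκm, hκ⟩ := exists_fusf_kernel V
  obtain ⟨Φ, hΦm, hΦe, hΦl, hΦs, hΦ⟩ := main_edge V
  obtain ⟨Ψ, hΨm, hΨe, hΨ⟩ := exists_edge_labels V
  refine ⟨fun G U => Φ G (Ψ G U), ?_, ?_, ?_, ?_⟩
  · exact hΦm.comp (measurable_fst.prodMk hΨm)
  · exact fun G U => hΦs G _
  · intro g G U
    change Φ (permG g G) (Ψ (permG g G) fun x => U (g.symm x)) = permE g (Φ G (Ψ G U))
    rw [hΨe, hΦe]
  · intro 𝒮 P _ hP hconn hlf
    filter_upwards [hconn, hlf, hΦ 𝒮 P hP hconn hlf κ hκ] with p h1 h2 h3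
    have h4 := law_of_edge hΦm hΦl hΨm p.1 (hΨ p.1 h2)
    rw [h4, h3]
    exact (hκ p.1 h1).1

/-! ### Cayley graphs -/

theorem cayley_adj {Γ : Type u} [Group Γ] (S : Set Γ) (x y : Γ) :
    (cayleyGraph S).Adj x y ↔ x ≠ y ∧ (x⁻¹ * y ∈ S ∨ y⁻¹ * x ∈ S) := Iff.rfl

theorem cayley_perm {Γ : Type u} [Group Γ] (S : Set Γ) (γ : Γ) :
    permG (Equiv.mulLeft γ) (cayleyGraph S) = cayleyGraph S := by
  ext x y
  change (cayleyGraph S).Adj (γ⁻¹ * x) (γ⁻¹ * y) ↔ (cayleyGraph S).Adj x y
  rw [cayley_adj, cayley_adj]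
  have e1 : (γ⁻¹ * x)⁻¹ * (γ⁻¹ * y) = x⁻¹ * y := by group
  have e2 : (γ⁻¹ * y)⁻¹ * (γ⁻¹ * x) = y⁻¹ * x := by group
  rw [e1, e2, ne_eq, mul_right_inj]

theorem cayley_finite {Γ : Type u} [Group Γ] {S : Set Γ} (hS : S.Finite) (x : Γ) :
    ((cayleyGraph S).neighborSet x).Finite := by
  refine ((hS.image (fun s => x * s)).union (hS.image (fun s => x * s⁻¹))).subset ?_
  intro y hy
  rcases ((cayley_adj S x y).1 hy).2 with h | h
  · exact Or.inl ⟨_, h, by simp⟩
  · exact Or.inr ⟨_, h, by simp⟩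

theorem cayley_connected {Γ : Type u} [Group Γ] {S : Set Γ} (hS : Subgroup.closure S = ⊤) :
    (cayleyGraph S).Connected := by
  have hstep : ∀ x : Γ, ∀ s ∈ S, (cayleyGraph S).Reachable x (x * s) := by
    intro x s hs
    by_cases h : x = x * s
    · rw [← h]
    · refine SimpleGraph.Adj.reachable ((cayley_adj S _ _).2 ⟨h, Or.inl ?_⟩)
      simpa using hs
  have hstep' : ∀ x : Γ, ∀ s ∈ S, (cayleyGraph S).Reachable x (x * s⁻¹) := by
    intro x s hs
    have := hstep (x * s⁻¹) s hs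
    rw [inv_mul_cancel_right] at this
    exact this.symm
  have key : ∀ x : Γ, (cayleyGraph S).Reachable 1 x := by
    intro x
    have hx : x ∈ Subgroup.closure S := by rw [hS]; trivial
    induction hx using Subgroup.closure_induction_right with
    | one => exact SimpleGraph.Reachable.refl _
    | mul_right x _ y hy ih => exact ih.trans (hstep x y hy)
    | mul_inv_cancel x _ y hy ih => exact ih.trans (hstep' x y hy)
  exact ⟨fun x y => (key x).symm.trans (key y)⟩

theorem countable_of_fg {Γ : Type u} [Group Γ] {S : Set Γ} (hS : S.Finite)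
    (hcl : Subgroup.closure S = ⊤) : Countable Γ := by
  have hfin : Finite (S ∪ S⁻¹ : Set Γ) := (hS.union hS.inv).to_subtype
  have hsurj : Function.Surjective (fun l : List (S ∪ S⁻¹ : Set Γ) => (l.map Subtype.val).prod) := by
    intro x
    have hx : x ∈ (Subgroup.closure S).toSubmonoid := by rw [hcl]; trivial
    rw [Subgroup.closure_toSubmonoid] at hx
    obtain ⟨l, hl, rfl⟩ := Submonoid.exists_list_of_mem_closure hx
    refine ⟨l.pmap (fun y hy => ⟨y, hy⟩) hl, ?_⟩
    simp [List.map_pmap]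
  exact hsurj.countable

theorem measurableSingletonClass_graph (V : Type u) [Countable V] :
    MeasurableSingletonClass (SimpleGraph V) := by
  constructor
  intro K
  have : ({K} : Set (SimpleGraph V)) = gRes Set.univ ⁻¹' {K} := by
    ext G
    have e : gRes Set.univ G = G := by
      ext x y
      exact ⟨fun h => h.1, fun h => ⟨h, trivial, trivial⟩⟩
    simp only [Set.mem_preimage, e]
  rw [this]
  exact measurableSet_preimage_gRes _ K

theorem permE_eq_image (g : Equiv.Perm V) (η : Set (Sym2 V)) :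
    permE g η = Sym2.map g '' η := by
  ext e
  constructor
  · intro h
    refine ⟨_, h, ?_⟩
    rw [Sym2.map_map]
    have : (g ∘ g.symm : V → V) = id := by
      funext x
      simp
    rw [this, Sym2.map_id]
    rfl
  · rintro ⟨f, hf, rfl⟩
    change Sym2.map g.symm (Sym2.map g f) ∈ η
    rw [Sym2.map_map]
    have : (g.symm ∘ g : V → V) = id := by
      funext x
      simp
    rw [this, Sym2.map_id]
    exact hf

/-- the FUSF of every Cayley graph of every infinite finitely generated group is a factor of iid -/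
theorem cayley_main {Γ : Type u} [Group Γ] [Infinite Γ] {S : Set Γ} (hS : S.Finite)
    (hcl : Subgroup.closure S = ⊤) :
    ∃ Φ : (Γ → I) → Set (Sym2 Γ), Measurable Φ ∧
      (∀ U, Φ U ⊆ (cayleyGraph S).edgeSet) ∧
      (∀ (g : Γ) (U : Γ → I), Φ (fun x => U (g⁻¹ * x)) = Sym2.map (g * ·) '' Φ U) ∧
      IsFUSF (cayleyGraph S)
        (Measure.map Φ (Measure.infinitePi fun _ : Γ => (volume : Measure I))) := by
  have hcount : Countable Γ := countable_of_fg hS hcl
  let _ : MeasurableSpace Γ := ⊤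
  have hdisc : DiscreteMeasurableSpace Γ := ⟨fun _ => trivial⟩
  have hmtp := mtp_cayley (cayleyGraph S) (cayley_perm S)
  have hsing := measurableSingletonClass_graph Γ
  have hae : ∀ {q : SimpleGraph Γ × Γ → Prop}, q (cayleyGraph S, 1) →
      ∀ᵐ p ∂(Measure.dirac ((cayleyGraph S, 1) : SimpleGraph Γ × Γ)), q p := by
    intro q hq
    rw [ae_dirac_eq]
    exact hq
  obtain ⟨Φ, hΦm, hΦs, hΦe, hΦ⟩ := main_vertex Γ
  have hΦ1 := hΦ _ _ hmtp (hae (q := fun p => p.1.Connected) (cayley_connected hcl))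
    (hae (q := fun p => ∀ x, (p.1.neighborSet x).Finite) (cayley_finite hS))
  rw [ae_dirac_eq] at hΦ1
  refine ⟨Φ (cayleyGraph S), hΦm.comp measurable_prodMk_left, hΦs _, ?_, hΦ1⟩
  intro g U
  have h1 := hΦe (Equiv.mulLeft g) (cayleyGraph S) U
  rw [cayley_perm, permE_eq_image] at h1
  exact h1

/-- the FUSF of every unimodular random graph is a factor of iid -/
theorem unimodular_main :
    ∃ Φ : SimpleGraph ℕ → (ℕ → I) → Set (Sym2 ℕ),
      Measurable (fun p : SimpleGraph ℕ × (ℕ → I) => Φ p.1 p.2) ∧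
      (∀ G U, Φ G U ⊆ G.edgeSet) ∧
      (∀ (g : Equiv.Perm ℕ) G U,
        Φ (permG g G) (fun x => U (g.symm x)) = Sym2.map g '' Φ G U) ∧
      ∀ (P : Measure (SimpleGraph ℕ × ℕ)) [IsProbabilityMeasure P],
        MTP Set.univ permG P → (∀ᵐ p ∂P, p.1.Connected) →
        (∀ᵐ p ∂P, ∀ x, (p.1.neighborSet x).Finite) →
        ∀ᵐ p ∂P, IsFUSF p.1
          (Measure.map (Φ p.1) (Measure.infinitePi fun _ : ℕ => (volume : Measure I))) := by
  obtain ⟨Φ, hΦm, hΦs, hΦe, hΦ⟩ := main_vertex ℕ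
  refine ⟨Φ, hΦm, hΦs, ?_, fun P _ h1 h2 h3 => hΦ _ P h1 h2 h3⟩
  intro g G U
  rw [hΦe, permE_eq_image]

end Vale.Agent.P143
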