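import Vale.Agent.P143.Trace2

/-!
# The trace bound and the dimension inequality
-/

open MeasureTheory Filter Topology
open scoped unitInterval ENNReal

namespace Vale.Agent.P143

universe u

variable {V : Type u}

theorem pj_congr {K L : Submodule ℝ (Hs V)} (h : K.topologicalClosure = L.topologicalClosure) :
    pj K = pj L := by
  unfold pj
  simp_rw [h]

theorem pj_eq_zero_iff {K : Submodule ℝ (Hs V)} {x : Hs V} : pj K x = 0 ↔ x ∈ Kᗮ := by
  rw [Submodule.mem_orthogonal]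
  constructor
  · intro h k hk
    rw [← pj_eq_self (Submodule.le_topologicalClosure K hk), inner_pj_left, h, inner_zero_right]
  · intro h
    apply pj_eq_of (zero_mem _)
    intro w hw
    rw [sub_zero, real_inner_comm]
    exact h w hw

theorem closure_map_pj_le {K L : Submodule ℝ (Hs V)} (hL : IsClosed (L : Set (Hs V))) :
    (K.map (pj L : Hs V →ₗ[ℝ] Hs V)).topologicalClosure ≤ L := by
  apply Submodule.topologicalClosure_minimal _ _ hL
  rintro _ ⟨x, _, rfl⟩
  exact pj_mem_of_isClosed hL x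

/-- a closed subspace `L` is contained in the closure of `pj L` applied to `K` as soon as
no nonzero vector of `L` is orthogonal to `K` -/
theorem closure_map_pj_eq {K L : Submodule ℝ (Hs V)} (hL : IsClosed (L : Set (Hs V)))
    (h : L ⊓ Kᗮ = ⊥) : (K.map (pj L : Hs V →ₗ[ℝ] Hs V)).topologicalClosure = L := by
  apply le_antisymm (closure_map_pj_le hL)
  intro x hx
  have h1 := pj_map_pj K L hL
  rw [h] at h1
  have h2 : pj (⊥ : Submodule ℝ (Hs V)) x = 0 := by
    apply pj_eq_of (zero_mem _)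
    intro w hw
    rw [(Submodule.mem_bot ℝ).1 hw, inner_zero_right]
  have h3 : pj (K.map (pj L : Hs V →ₗ[ℝ] Hs V)) x = x := by
    rw [h1]
    change pj L x - pj ⊥ x = x
    rw [h2, sub_zero, pj_eq_self (Submodule.le_topologicalClosure _ hx)]
  rw [← h3]
  exact pj_mem _ _

/-- orthogonal decomposition of projections -/
theorem pj_inf_orthogonal {A B : Submodule ℝ (Hs V)} (hB : IsClosed (B : Set (Hs V)))
    (hAB : A ≤ B) (x : Hs V) : pj (B ⊓ Aᗮ) x = pj B x - pj A x := by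
  apply pj_eq_of
  · apply Submodule.le_topologicalClosure
    constructor
    · apply Submodule.sub_mem
      · exact pj_mem_of_isClosed hB x
      · have h1 : A.topologicalClosure ≤ B := Submodule.topologicalClosure_minimal _ hAB hB
        exact h1 (pj_mem A x)
    · rw [SetLike.mem_coe, ← pj_eq_zero_iff, map_sub, pj_pj, sub_eq_zero]
      apply pj_eq_of (pj_mem A x)
      intro w hw
      rw [inner_sub_left, inner_pj_left, inner_pj_left,
        pj_eq_self (Submodule.le_topologicalClosure _ (hAB hw)),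
        pj_eq_self (Submodule.le_topologicalClosure _ hw), sub_self]
  · intro w hw
    rw [inner_sub_left, inner_sub_left, inner_pj_left, inner_pj_left,
      pj_eq_self (Submodule.le_topologicalClosure _ hw.1), pj_eq_zero_iff.2 hw.2,
      inner_zero_right]
    ring

theorem qq_inf_orthogonal {A B : Submodule ℝ (Hs V)} (hB : IsClosed (B : Set (Hs V)))
    (hAB : A ≤ B) (i : V × V) : qq (B ⊓ Aᗮ) i = qq B i - qq A i := by
  unfold qq
  rw [pj_inf_orthogonal hB hAB, inner_sub_right]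

theorem map_closure_le (K : Submodule ℝ (Hs V)) (A : Hs V →L[ℝ] Hs V) {x : Hs V}
    (hx : x ∈ K.topologicalClosure) :
    A x ∈ (K.map (A : Hs V →ₗ[ℝ] Hs V)).topologicalClosure := by
  have h1 : (K : Set (Hs V)) ⊆ A ⁻¹' ((K.map (A : Hs V →ₗ[ℝ] Hs V)).topologicalClosure) := by
    intro y hy
    exact Submodule.le_topologicalClosure _ ⟨y, hy, rfl⟩
  have h2 := closure_minimal h1
    ((Submodule.isClosed_topologicalClosure _).preimage A.continuous)
  exact h2 hx

theorem mem_coordSub_compl_iff {D : Set (V × V)} {x : Hs V} :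
    x ∈ coordSub Dᶜ ↔ x ∈ (coordSub D)ᗮ := by
  rw [Submodule.mem_orthogonal]
  constructor
  · intro h y hy
    rw [lp.inner_eq_tsum]
    have : ∀ i, (inner ℝ (y i) (x i) : ℝ) = 0 := by
      intro i
      by_cases hi : i ∈ D
      · have := mem_coordSub.1 h i (by simpa using hi)
        rw [this]; simp
      · have := mem_coordSub.1 hy i hi
        rw [this]; simp
    rw [tsum_congr this, tsum_zero]
  · intro h i hi
    have hi' : i ∈ D := by simpa using hi
    have := h (dl i) (fun j hj => dl_apply_ne (fun h' => hj (h' ▸ hi')))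
    rwa [inner_dl_left] at this

/-- the orthogonal complement in `Y` of the vectors `pj Y d`, `d ∈ coordSub D`, consists of the
vectors of `Y` vanishing on `D` -/
theorem inf_orthogonal_map {Y : Submodule ℝ (Hs V)} (hY : IsClosed (Y : Set (Hs V)))
    (D : Set (V × V)) :
    Y ⊓ ((coordSub D).map (pj Y : Hs V →ₗ[ℝ] Hs V))ᗮ = Y ⊓ coordSub Dᶜ := by
  ext x
  simp only [Submodule.mem_inf]
  constructor
  · rintro ⟨h1, h2⟩
    refine ⟨h1, ?_⟩
    rw [mem_coordSub_compl_iff, Submodule.mem_orthogonal]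
    intro d hd
    rw [Submodule.mem_orthogonal] at h2
    have := h2 (pj Y d) ⟨d, hd, rfl⟩
    rwa [inner_pj_left, pj_eq_self (Submodule.le_topologicalClosure _ h1)] at this
  · rintro ⟨h1, h2⟩
    refine ⟨h1, ?_⟩
    rw [Submodule.mem_orthogonal]
    rintro _ ⟨d, hd, rfl⟩
    change (inner ℝ (pj Y d) x : ℝ) = 0
    rw [inner_pj_left, pj_eq_self (Submodule.le_topologicalClosure _ h1)]
    rw [mem_coordSub_compl_iff, Submodule.mem_orthogonal] at h2
    exact h2 d hd

/-- every vector of a closed `B` is a sum of a vector of the closure of `A ≤ B` and one of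
`B ⊓ Aᗮ` -/
theorem decomp {A B : Submodule ℝ (Hs V)} (hB : IsClosed (B : Set (Hs V))) (hAB : A ≤ B)
    {x : Hs V} (hx : x ∈ B) :
    pj A x ∈ A.topologicalClosure ∧ x - pj A x ∈ B ⊓ Aᗮ := by
  refine ⟨pj_mem A x, ?_⟩
  have h1 := pj_inf_orthogonal hB hAB x
  rw [pj_eq_self (Submodule.le_topologicalClosure _ hx)] at h1
  rw [← h1]
  have h2 : IsClosed ((B ⊓ Aᗮ : Submodule ℝ (Hs V)) : Set (Hs V)) :=
    hB.inter (Submodule.isClosed_orthogonal A)
  exact pj_mem_of_isClosed h2 x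

theorem coordSub_inf (S T : Set (V × V)) : (coordSub S ⊓ coordSub T : Submodule ℝ (Hs V)) =
    coordSub (S ∩ T) := by
  ext x
  simp only [Submodule.mem_inf, mem_coordSub, Set.mem_inter_iff, not_and_or]
  constructor
  · rintro ⟨h1, h2⟩ i (h | h)
    · exact h1 i h
    · exact h2 i h
  · intro h
    exact ⟨fun i hi => h i (Or.inl hi), fun i hi => h i (Or.inr hi)⟩

theorem qq_coordSub (T : Set (V × V)) (i : V × V) : qq (coordSub T) i = T.indicator 1 i := by
  classical
  unfold qq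
  rw [inner_dl_left, pj_coordSub_apply]
  by_cases h : i ∈ T
  · rw [Set.indicator_of_mem h, Set.indicator_of_mem h, dl_apply_self]; rfl
  · rw [Set.indicator_of_notMem h, Set.indicator_of_notMem h]

/-- the deterministic inclusion behind the trace bound -/
theorem trace_incl {X : Submodule ℝ (Hs V)} (hX : IsClosed (X : Set (Hs V)))
    (R T T' : Set (V × V)) :
    condSub X R (T ∩ T') ⊓ (condSub X R (T ∪ T'))ᗮ ≤
      ((((coordSub (symmDiff T T')).map
        (pj (X ⊓ coordSub (T ∩ T')ᶜ) : Hs V →ₗ[ℝ] Hs V)).map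
        (pj (coordSub Rᶜ) : Hs V →ₗ[ℝ] Hs V)).map
        (pj (condSub X R (T ∪ T'))ᗮ : Hs V →ₗ[ℝ] Hs V)).topologicalClosure := by
  set Y0 := X ⊓ coordSub (T ∩ T')ᶜ with hY0
  have hY0c : IsClosed (Y0 : Set (Hs V)) := hX.inter (isClosed_coordSub _)
  set K1 := (coordSub (symmDiff T T')).map (pj Y0 : Hs V →ₗ[ℝ] Hs V) with hK1
  have hK1Y : K1 ≤ Y0 := by
    rintro _ ⟨x, _, rfl⟩
    exact pj_mem_of_isClosed hY0c x
  set Lm := condSub X R (T ∪ T') with hLm
  set K2 := K1.map (pj (coordSub Rᶜ) : Hs V →ₗ[ℝ] Hs V) with hK2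
  rintro v ⟨hv1, hv2⟩
  have hv3 : pj Lmᗮ v = v := pj_eq_self (Submodule.le_topologicalClosure _ hv2)
  rw [← hv3]
  have key : ∀ w ∈ (Y0.map (pj (coordSub Rᶜ) : Hs V →ₗ[ℝ] Hs V)),
      pj Lmᗮ w ∈ (K2.map (pj Lmᗮ : Hs V →ₗ[ℝ] Hs V)).topologicalClosure := by
    rintro _ ⟨y, hy, rfl⟩
    obtain ⟨h1, h2⟩ := decomp hY0c hK1Y hy
    rw [hK1, inf_orthogonal_map hY0c, ← hK1] at h2
    have e : (pj (coordSub Rᶜ) : Hs V →ₗ[ℝ] Hs V) y =
        pj (coordSub Rᶜ) (pj K1 y) + pj (coordSub Rᶜ) (y - pj K1 y) := by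
      rw [← map_add, add_sub_cancel]; rfl
    rw [e, map_add]
    have h3 : pj (coordSub Rᶜ) (y - pj K1 y) ∈ Lm := by
      apply Submodule.le_topologicalClosure
      refine ⟨y - pj K1 y, ⟨h2.1.1, ?_⟩, rfl⟩
      have h4 : y - pj K1 y ∈ coordSub (T ∩ T')ᶜ ⊓ coordSub (symmDiff T T')ᶜ := ⟨h2.1.2, h2.2⟩
      rw [coordSub_inf] at h4
      have h5 : (T ∩ T')ᶜ ∩ (symmDiff T T')ᶜ = (T ∪ T')ᶜ := by
        ext i
        simp only [Set.mem_inter_iff, Set.mem_compl_iff, Set.mem_union, Set.mem_symmDiff]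
        tauto
      rwa [h5] at h4
    have h6 : pj Lmᗮ (pj (coordSub Rᶜ) (y - pj K1 y)) = 0 := by
      rw [pj_eq_zero_iff]
      exact Submodule.le_orthogonal_orthogonal _ h3
    rw [h6, add_zero]
    apply map_closure_le
    exact map_closure_le _ _ h1
  have h7 : closure ((Y0.map (pj (coordSub Rᶜ) : Hs V →ₗ[ℝ] Hs V) : Submodule ℝ (Hs V)) :
      Set (Hs V)) ⊆ (pj Lmᗮ) ⁻¹'
      ((K2.map (pj Lmᗮ : Hs V →ₗ[ℝ] Hs V)).topologicalClosure : Set (Hs V)) := by
    apply closure_minimal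
    · intro w hw; exact key w hw
    · exact (Submodule.isClosed_topologicalClosure _).preimage (pj Lmᗮ).continuous
  exact h7 hv1

/-- the deterministic decomposition behind the dimension inequality -/
theorem dim_decomp {X : Submodule ℝ (Hs V)} (hX : IsClosed (X : Set (Hs V)))
    {R T : Set (V × V)} (i : V × V) :
    qq X i + qq (((coordSub R).map (pj (X ⊓ coordSub Tᶜ) : Hs V →ₗ[ℝ] Hs V)).map
        (pj (coordSub Rᶜ) : Hs V →ₗ[ℝ] Hs V)) i =
      qq (condSub X R T) i + (qq (X ⊓ (X ⊓ coordSub Tᶜ)ᗮ) i +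
        qq ((coordSub R).map (pj (X ⊓ coordSub Tᶜ) : Hs V →ₗ[ℝ] Hs V)) i) := by
  set Y := X ⊓ coordSub Tᶜ with hY
  have hYc : IsClosed (Y : Set (Hs V)) := hX.inter (isClosed_coordSub _)
  set Z := (coordSub R).map (pj Y : Hs V →ₗ[ℝ] Hs V) with hZ
  have hZY : Z ≤ Y := by
    rintro _ ⟨x, _, rfl⟩
    exact pj_mem_of_isClosed hYc x
  set W' := Z.map (pj (coordSub Rᶜ) : Hs V →ₗ[ℝ] Hs V) with hW'
  have h1 := qq_inf_orthogonal hX (show Y ≤ X from inf_le_left) i
  have h2 := qq_inf_orthogonal hYc hZY i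
  rw [hZ, inf_orthogonal_map hYc, ← hZ] at h2
  -- `W' = condSub ⊖ (Y ∩ coordSub Rᶜ)`
  have h3 : Y ⊓ coordSub Rᶜ ≤ condSub X R T := by
    rintro y ⟨hy1, hy2⟩
    apply Submodule.le_topologicalClosure
    exact ⟨y, hy1, pj_eq_self (Submodule.le_topologicalClosure _ hy2)⟩
  have h4 := qq_inf_orthogonal (isClosed_condSub X R T) h3 i
  have h5 : condSub X R T ⊓ (Y ⊓ coordSub Rᶜ)ᗮ = W'.topologicalClosure := by
    have horth : ∀ z ∈ Z.topologicalClosure, ∀ y ∈ Y ⊓ coordSub Rᶜ, (inner ℝ y z : ℝ) = 0 := by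
      intro z hz y hy
      rw [hZ, ← Submodule.orthogonal_orthogonal_eq_closure, Submodule.mem_orthogonal] at hz
      apply hz
      rw [← inf_orthogonal_map hYc] at hy
      exact hy.2
    apply le_antisymm
    · rintro v ⟨hv1, hv2⟩
      have hv3 : pj (Y ⊓ coordSub Rᶜ)ᗮ v = v := pj_eq_self (Submodule.le_topologicalClosure _ hv2)
      rw [← hv3]
      have key : ∀ w ∈ (Y.map (pj (coordSub Rᶜ) : Hs V →ₗ[ℝ] Hs V)),
          pj (Y ⊓ coordSub Rᶜ)ᗮ w ∈ W'.topologicalClosure := by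
        rintro _ ⟨y, hy, rfl⟩
        obtain ⟨g1, g2⟩ := decomp hYc hZY hy
        rw [hZ, inf_orthogonal_map hYc, ← hZ] at g2
        have e : (pj (coordSub Rᶜ) : Hs V →ₗ[ℝ] Hs V) y =
            pj (coordSub Rᶜ) (pj Z y) + pj (coordSub Rᶜ) (y - pj Z y) := by
          rw [← map_add, add_sub_cancel]; rfl
        rw [e, map_add]
        have g3 : pj (coordSub Rᶜ) (y - pj Z y) = y - pj Z y :=
          pj_eq_self (Submodule.le_topologicalClosure _ g2.2)
        have g4 : pj (Y ⊓ coordSub Rᶜ)ᗮ (pj (coordSub Rᶜ) (y - pj Z y)) = 0 := by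
          rw [g3, pj_eq_zero_iff]
          exact Submodule.le_orthogonal_orthogonal _ g2
        rw [g4, add_zero]
        have g5 : pj (coordSub Rᶜ) (pj Z y) ∈ (Y ⊓ coordSub Rᶜ)ᗮ := by
          rw [Submodule.mem_orthogonal]
          intro u hu
          rw [← inner_pj_left, pj_eq_self (Submodule.le_topologicalClosure _ hu.2)]
          exact horth _ g1 u hu
        rw [pj_eq_self (Submodule.le_topologicalClosure _ g5)]
        exact map_closure_le _ _ g1
      have h7 : closure ((Y.map (pj (coordSub Rᶜ) : Hs V →ₗ[ℝ] Hs V) : Submodule ℝ (Hs V)) :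
          Set (Hs V)) ⊆ (pj (Y ⊓ coordSub Rᶜ)ᗮ) ⁻¹' (W'.topologicalClosure : Set (Hs V)) := by
        apply closure_minimal
        · intro w hw; exact key w hw
        · exact (Submodule.isClosed_topologicalClosure _).preimage (pj _).continuous
      exact h7 hv1
    · apply Submodule.topologicalClosure_minimal
      · rintro _ ⟨z, hz, rfl⟩
        refine ⟨Submodule.le_topologicalClosure _ ⟨z, hZY hz, rfl⟩, ?_⟩
        rw [SetLike.mem_coe, Submodule.mem_orthogonal]
        intro u hu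
        change (inner ℝ u (pj (coordSub Rᶜ) z) : ℝ) = 0
        rw [← inner_pj_left, pj_eq_self (Submodule.le_topologicalClosure _ hu.2)]
        exact horth _ (Submodule.le_topologicalClosure _ hz) u hu
      · exact (isClosed_condSub X R T).inter (Submodule.isClosed_orthogonal _)
  rw [h5, qq_closure] at h4
  linarith

/-- the subspace `X ⊖ (X ∩ T^⊥)` is the closure of the projection of antisymmetric functions
supported on `T` -/
theorem diff_incl {X : Submodule ℝ (Hs V)} (hX : IsClosed (X : Set (Hs V)))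
    (hXa : X ≤ antisym V) {T : Set (V × V)} (hT : SymmSet T) :
    X ⊓ (X ⊓ coordSub Tᶜ)ᗮ ≤
      ((coordSub T ⊓ antisym V).map (pj X : Hs V →ₗ[ℝ] Hs V)).topologicalClosure := by
  set A := (coordSub T ⊓ antisym V).map (pj X : Hs V →ₗ[ℝ] Hs V) with hA
  have hAX : A ≤ X := by
    rintro _ ⟨x, _, rfl⟩
    exact pj_mem_of_isClosed hX x
  rintro v ⟨hv1, hv2⟩
  obtain ⟨h1, h2, h3⟩ := decomp hX hAX hv1
  set b := v - pj A v with hb
  have hbT : b ∈ coordSub Tᶜ := by
    have ht : pj (coordSub T) b ∈ coordSub T ⊓ antisym V :=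
      ⟨pj_mem_of_isClosed (isClosed_coordSub T) b, pj_coordSub_antisym hT (hXa h2)⟩
    have h4 : (inner ℝ (pj X (pj (coordSub T) b)) b : ℝ) = 0 :=
      (Submodule.mem_orthogonal _ _).1 h3 _ ⟨_, ht, rfl⟩
    rw [inner_pj_left, pj_eq_self (Submodule.le_topologicalClosure _ h2), inner_pj_left,
      inner_pj_self] at h4
    have h5 : pj (coordSub T) b = 0 := by
      have : ‖pj (coordSub T) b‖ = 0 := by nlinarith [norm_nonneg (pj (coordSub T) b)]
      exact norm_eq_zero.1 this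
    rw [mem_coordSub_compl_iff, ← pj_eq_zero_iff]
    exact h5
  have hbY : b ∈ X ⊓ coordSub Tᶜ := ⟨h2, hbT⟩
  have h6 : (inner ℝ b v : ℝ) = 0 := (Submodule.mem_orthogonal _ _).1 hv2 b hbY
  have h7 : (inner ℝ b (pj A v) : ℝ) = 0 := by
    rw [← inner_pj_left, pj_eq_zero_iff.2 h3, inner_zero_left]
  have h8 : (inner ℝ b b : ℝ) = 0 := by
    conv_lhs => rw [hb, inner_sub_right]
    rw [← hb, h6, h7, sub_zero]
  have h9 : b = 0 := inner_self_eq_zero.1 h8
  have h10 : v = pj A v := by rw [← sub_eq_zero, ← hb]; exact h9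
  rw [h10]
  exact h1

section

variable {Ω : Type*} [MeasurableSpace Ω] {𝒮 : Set (Equiv.Perm V)} {act : Equiv.Perm V → Ω → Ω}

theorem mapW_antisym (g : Equiv.Perm V) : mapW g (antisym V) = antisym V := by
  ext x
  rw [mem_mapW, mem_antisym, mem_antisym]
  constructor
  · intro h a b
    have := h (g.symm a) (g.symm b)
    rw [W_symm_apply, W_symm_apply] at this
    simpa using this
  · intro h a b
    rw [W_symm_apply, W_symm_apply]
    exact h _ _

theorem goodOp_antisym : GoodOp 𝒮 act (fun _ : Ω => pj (antisym V)) := by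
  refine ⟨fun i j => measurable_const, fun g _ ω i j => ?_⟩
  have := inner_pj_mapW g (antisym V) i j
  rwa [mapW_antisym] at this

theorem GoodSet.symmDiff {R T : Ω → Set (V × V)} (hR : GoodSet 𝒮 act R)
    (hT : GoodSet 𝒮 act T) : GoodSet 𝒮 act (fun ω => symmDiff (R ω) (T ω)) := by
  refine ⟨fun i => ?_, fun g hg ω i => ?_⟩
  · have : {ω | i ∈ _root_.symmDiff (R ω) (T ω)} =
        _root_.symmDiff {ω | i ∈ R ω} {ω | i ∈ T ω} := by
      ext ω; simp only [Set.mem_ofPred_eq, Set.mem_symmDiff]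
    rw [this]
    exact (hR.meas i).symmDiff (hT.meas i)
  · simp only [Set.mem_symmDiff]
    rw [hR.equi g hg, hT.equi g hg]

theorem GoodSet.inter {R T : Ω → Set (V × V)} (hR : GoodSet 𝒮 act R)
    (hT : GoodSet 𝒮 act T) : GoodSet 𝒮 act (fun ω => R ω ∩ T ω) := by
  refine ⟨fun i => ?_, fun g hg ω i => ?_⟩
  · exact (hR.meas i).inter (hT.meas i)
  · simp only [Set.mem_inter_iff]
    rw [hR.equi g hg, hT.equi g hg]

theorem GoodSet.union {R T : Ω → Set (V × V)} (hR : GoodSet 𝒮 act R)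
    (hT : GoodSet 𝒮 act T) : GoodSet 𝒮 act (fun ω => R ω ∪ T ω) := by
  refine ⟨fun i => ?_, fun g hg ω i => ?_⟩
  · exact (hR.meas i).union (hT.meas i)
  · simp only [Set.mem_union]
    rw [hR.equi g hg, hT.equi g hg]

variable [Countable V] [MeasurableSpace V] [DiscreteMeasurableSpace V]

omit [Countable V] [DiscreteMeasurableSpace V] in
theorem NN_pj (P : Measure (Ω × V)) (K : Ω → Submodule ℝ (Hs V)) :
    NN P (fun ω => pj (K ω)) = ∫⁻ p, ∑' y, ENNReal.ofReal (qq (K p.1) (p.2, y)) ∂P := by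
  unfold NN
  simp only [qq_eq_norm_sq]

omit [Countable V] [DiscreteMeasurableSpace V] in
theorem NN_coordSub (P : Measure (Ω × V)) (T : Ω → Set (V × V)) :
    NN P (fun ω => pj (coordSub (T ω))) = ∫⁻ p, ∑' y, (T p.1).indicator 1 (p.2, y) ∂P := by
  rw [NN_pj]
  apply lintegral_congr
  intro p
  apply tsum_congr
  intro y
  rw [qq_coordSub]
  by_cases h : (p.2, y) ∈ T p.1
  · rw [Set.indicator_of_mem h, Set.indicator_of_mem h]; simp
  · rw [Set.indicator_of_notMem h, Set.indicator_of_notMem h]; simp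

/-- (I2) -/
theorem NN_le_map {P : Measure (Ω × V)} (hP : MTP 𝒮 act P) {K L : Ω → Submodule ℝ (Hs V)}
    (hK : GoodOp 𝒮 act (fun ω => pj (K ω))) (hL : GoodOp 𝒮 act (fun ω => pj (L ω)))
    (hLc : ∀ ω, IsClosed (L ω : Set (Hs V)))
    (hKL : ∀ᵐ p ∂P, (K p.1).topologicalClosure ⊓ (L p.1)ᗮ = ⊥) :
    NN P (fun ω => pj (K ω)) ≤ NN P (fun ω => pj ((K ω).map (pj (L ω) : Hs V →ₗ[ℝ] Hs V))) := by
  have h1 := NN_map_le hP (goodOp_map_pj hK hL hLc) (L := fun ω => (K ω).topologicalClosure)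
    (by simpa only [pj_closure] using hK)
  refine le_trans (le_of_eq ?_) h1
  unfold NN
  apply lintegral_congr_ae
  filter_upwards [hKL] with p hp
  apply tsum_congr
  intro y
  congr 3
  have h2 : (((K p.1).map (pj (L p.1) : Hs V →ₗ[ℝ] Hs V)).map
      (pj (K p.1).topologicalClosure : Hs V →ₗ[ℝ] Hs V)).topologicalClosure =
      (K p.1).topologicalClosure := by
    apply closure_map_pj_eq (Submodule.isClosed_topologicalClosure _)
    rw [eq_bot_iff, ← hp]
    rintro x ⟨hx1, hx2⟩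
    refine ⟨hx1, ?_⟩
    rw [SetLike.mem_coe, ← pj_eq_zero_iff]
    -- `x ⟂ pj L k` for all `k ∈ K`, hence for `x` itself
    have h3 : ∀ k ∈ (K p.1).topologicalClosure, (inner ℝ (pj (L p.1) k) x : ℝ) = 0 := by
      intro k hk
      have h4 := map_closure_le (K p.1) (pj (L p.1)) hk
      have h5 : x ∈ (((K p.1).map (pj (L p.1) : Hs V →ₗ[ℝ] Hs V)).topologicalClosure)ᗮ := by
        rw [Submodule.orthogonal_closure]; exact hx2
      exact (Submodule.mem_orthogonal _ _).1 h5 _ h4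
    have h6 := h3 x hx1
    rw [inner_pj_left, inner_pj_self] at h6
    have : ‖pj (L p.1) x‖ = 0 := by nlinarith [norm_nonneg (pj (L p.1) x)]
    exact norm_eq_zero.1 this
  have h7 := pj_congr (K := ((K p.1).map (pj (L p.1) : Hs V →ₗ[ℝ] Hs V)).map
      (pj (K p.1).topologicalClosure : Hs V →ₗ[ℝ] Hs V)) (L := K p.1) h2
  rw [h7]

/-- (A1) trace bound -/
theorem trace_bound {P : Measure (Ω × V)} (hP : MTP 𝒮 act P)
    {X : Ω → Submodule ℝ (Hs V)} {R T T' : Ω → Set (V × V)}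
    (hX : GoodOp 𝒮 act (fun ω => pj (X ω))) (hXc : ∀ ω, IsClosed (X ω : Set (Hs V)))
    (hR : GoodSet 𝒮 act R) (hT : GoodSet 𝒮 act T) (hT' : GoodSet 𝒮 act T') :
    ∫⁻ p, ∑' y, ENNReal.ofReal |qq (condSub (X p.1) (R p.1) (T p.1)) (p.2, y) -
        qq (condSub (X p.1) (R p.1) (T' p.1)) (p.2, y)| ∂P ≤
      ∫⁻ p, ∑' y, (symmDiff (T p.1) (T' p.1)).indicator 1 (p.2, y) ∂P := by
  have hD := hT.symmDiff hT'
  have hY0 : GoodOp 𝒮 act (fun ω => pj (X ω ⊓ coordSub (T ω ∩ T' ω)ᶜ)) :=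
    goodOp_inf hX (goodOp_coordSub (hT.inter hT').compl) hXc (fun ω => isClosed_coordSub _)
  have hY0c : ∀ ω, IsClosed ((X ω ⊓ coordSub (T ω ∩ T' ω)ᶜ : Submodule ℝ (Hs V)) : Set (Hs V)) :=
    fun ω => (hXc ω).inter (isClosed_coordSub _)
  have hK0 := goodOp_coordSub hD
  have hK1 := goodOp_map_pj hK0 hY0 hY0c
  have hRc := goodOp_coordSub hR.compl
  have hK2 := goodOp_map_pj hK1 hRc (fun ω => isClosed_coordSub _)
  have hL := goodOp_orthogonal (goodOp_condSub hX hXc hR (hT.union hT'))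
  rw [← NN_coordSub P (fun ω => _root_.symmDiff (T ω) (T' ω))]
  refine le_trans ?_ (NN_map_le hP hK0 hY0)
  refine le_trans ?_ (NN_map_le hP hK1 hRc)
  refine le_trans ?_ (NN_map_le hP hK2 hL)
  rw [NN_pj]
  apply lintegral_mono
  intro p
  apply ENNReal.tsum_le_tsum
  intro y
  apply ENNReal.ofReal_le_ofReal
  set ω := p.1
  have h1 : condSub (X ω) (R ω) (T ω ∪ T' ω) ≤ condSub (X ω) (R ω) (T ω ∩ T' ω) :=
    condSub_mono_T (fun i hi => Or.inl hi.1)
  have h2 := qq_inf_orthogonal (isClosed_condSub _ _ _) h1 (p.2, y)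
  have h3 := qq_mono (trace_incl (hXc ω) (R ω) (T ω) (T' ω)) (p.2, y)
  rw [h2] at h3
  have a1 := qq_mono (K := condSub (X ω) (R ω) (T ω))
    (L := condSub (X ω) (R ω) (T ω ∩ T' ω))
    ((condSub_mono_T (fun i hi => hi.1)).trans (Submodule.le_topologicalClosure _)) (p.2, y)
  have a2 := qq_mono (K := condSub (X ω) (R ω) (T' ω))
    (L := condSub (X ω) (R ω) (T ω ∩ T' ω))
    ((condSub_mono_T (fun i hi => hi.2)).trans (Submodule.le_topologicalClosure _)) (p.2, y)
  have b1 := qq_mono (K := condSub (X ω) (R ω) (T ω ∪ T' ω))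
    (L := condSub (X ω) (R ω) (T ω))
    ((condSub_mono_T (fun i hi => Or.inl hi)).trans (Submodule.le_topologicalClosure _)) (p.2, y)
  have b2 := qq_mono (K := condSub (X ω) (R ω) (T ω ∪ T' ω))
    (L := condSub (X ω) (R ω) (T' ω))
    ((condSub_mono_T (fun i hi => Or.inr hi)).trans (Submodule.le_topologicalClosure _)) (p.2, y)
  refine le_trans ?_ h3
  rw [abs_le]
  constructor <;> linarith

omit [Countable V] [MeasurableSpace V] [DiscreteMeasurableSpace V] in
theorem GoodOp.meas_qq {K : Ω → Submodule ℝ (Hs V)}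
    (hK : GoodOp 𝒮 act (fun ω => pj (K ω))) (i : V × V) :
    Measurable fun ω => qq (K ω) i := hK.meas i i

/-- (A2) dimension inequality -/
theorem dim_ineq {P : Measure (Ω × V)} (hP : MTP 𝒮 act P)
    {X : Ω → Submodule ℝ (Hs V)} {R T : Ω → Set (V × V)}
    (hX : GoodOp 𝒮 act (fun ω => pj (X ω))) (hXc : ∀ ω, IsClosed (X ω : Set (Hs V)))
    (hXa : ∀ ω, X ω ≤ antisym V)
    (hR : GoodSet 𝒮 act R) (hT : GoodSet 𝒮 act T)
    (hTs : ∀ ω a b, (a, b) ∈ T ω → (b, a) ∈ T ω)
    (hRf : ∫⁻ p, ∑' y, (R p.1).indicator 1 (p.2, y) ∂P < ⊤)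
    (hinj : ∀ᵐ p ∂P, X p.1 ⊓ coordSub (R p.1 \ T p.1) = ⊥) :
    ∃ g₁ g₂ : Ω → V × V → ℝ≥0∞,
      (∀ i, Measurable fun ω => g₁ ω i) ∧ (∀ i, Measurable fun ω => g₂ ω i) ∧
      (∀ ω i, ENNReal.ofReal (qq (X ω) i) + g₁ ω i =
        ENNReal.ofReal (qq (condSub (X ω) (R ω) (T ω)) i) + g₂ ω i) ∧
      (∫⁻ p, ∑' y, g₁ p.1 (p.2, y) ∂P < ⊤) ∧
      ∫⁻ p, ∑' y, g₂ p.1 (p.2, y) ∂P ≤
        (1 / 2) * ∫⁻ p, ∑' y, (T p.1).indicator 1 (p.2, y) ∂P +
          ∫⁻ p, ∑' y, g₁ p.1 (p.2, y) ∂P := by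
  have hY : GoodOp 𝒮 act (fun ω => pj (X ω ⊓ coordSub (T ω)ᶜ)) :=
    goodOp_inf hX (goodOp_coordSub hT.compl) hXc (fun ω => isClosed_coordSub _)
  have hYc : ∀ ω, IsClosed ((X ω ⊓ coordSub (T ω)ᶜ : Submodule ℝ (Hs V)) : Set (Hs V)) :=
    fun ω => (hXc ω).inter (isClosed_coordSub _)
  have hcR := goodOp_coordSub hR
  have hZ := goodOp_map_pj hcR hY hYc
  have hRc := goodOp_coordSub hR.compl
  have hW := goodOp_map_pj hZ hRc (fun ω => isClosed_coordSub _)
  have hXY : GoodOp 𝒮 act (fun ω => pj (X ω ⊓ (X ω ⊓ coordSub (T ω)ᶜ)ᗮ)) :=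
    goodOp_inf hX (goodOp_orthogonal hY) hXc (fun ω => Submodule.isClosed_orthogonal _)
  have hTa : GoodOp 𝒮 act (fun ω => pj (coordSub (T ω) ⊓ antisym V)) :=
    goodOp_inf (goodOp_coordSub hT) goodOp_antisym (fun ω => isClosed_coordSub _)
      (fun ω => isClosed_antisym)
  set Z : Ω → Submodule ℝ (Hs V) := fun ω =>
    (coordSub (R ω)).map (pj (X ω ⊓ coordSub (T ω)ᶜ) : Hs V →ₗ[ℝ] Hs V) with hZdef
  set W' : Ω → Submodule ℝ (Hs V) := fun ω =>
    (Z ω).map (pj (coordSub (R ω)ᶜ) : Hs V →ₗ[ℝ] Hs V) with hWdef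
  refine ⟨fun ω i => ENNReal.ofReal (qq (W' ω) i),
    fun ω i => ENNReal.ofReal (qq (X ω ⊓ (X ω ⊓ coordSub (T ω)ᶜ)ᗮ) i) +
      ENNReal.ofReal (qq (Z ω) i), ?_, ?_, ?_, ?_, ?_⟩
  · intro i
    exact (hW.meas_qq i).ennreal_ofReal
  · intro i
    exact ((hXY.meas_qq i).ennreal_ofReal).add ((hZ.meas_qq i).ennreal_ofReal)
  · intro ω i
    simp only
    rw [← ENNReal.ofReal_add (qq_nonneg _ _) (qq_nonneg _ _),
      ← ENNReal.ofReal_add (qq_nonneg _ _) (qq_nonneg _ _),
      ← ENNReal.ofReal_add (qq_nonneg _ _) (add_nonneg (qq_nonneg _ _) (qq_nonneg _ _))]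
    congr 1
    exact dim_decomp (hXc ω) i
  · have h1 := NN_map_le hP hZ hRc
    have h2 := NN_map_le hP hcR hY
    rw [NN_coordSub] at h2
    have h3 := lt_of_le_of_lt (h1.trans h2) hRf
    rwa [NN_pj] at h3
  · have hsplit : ∫⁻ p, ∑' y, (ENNReal.ofReal
        (qq (X p.1 ⊓ (X p.1 ⊓ coordSub (T p.1)ᶜ)ᗮ) (p.2, y)) +
        ENNReal.ofReal (qq (Z p.1) (p.2, y))) ∂P =
        NN P (fun ω => pj (X ω ⊓ (X ω ⊓ coordSub (T ω)ᶜ)ᗮ)) + NN P (fun ω => pj (Z ω)) := by
      rw [NN_pj, NN_pj, ← lintegral_add_left]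
      · apply lintegral_congr
        intro p
        rw [ENNReal.tsum_add]
      · have := hXY.meas_NN
        simpa only [qq_eq_norm_sq] using this
    rw [hsplit]
    refine add_le_add ?_ ?_
    · -- the part killed by deleting `T`
      have h1 := NN_map_le hP hTa hX
      have h2 : NN P (fun ω => pj (X ω ⊓ (X ω ⊓ coordSub (T ω)ᶜ)ᗮ)) ≤
          NN P (fun ω => pj ((coordSub (T ω) ⊓ antisym V).map
            (pj (X ω) : Hs V →ₗ[ℝ] Hs V))) := by
        rw [NN_pj, NN_pj]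
        apply lintegral_mono
        intro p
        apply ENNReal.tsum_le_tsum
        intro y
        apply ENNReal.ofReal_le_ofReal
        exact qq_mono (diff_incl (hXc p.1) (hXa p.1) (hTs p.1)) _
      refine h2.trans (h1.trans ?_)
      rw [NN_pj]
      have hmeas : Measurable fun p : Ω × V => ∑' y, (T p.1).indicator (1 : V × V → ℝ≥0∞)
          (p.2, y) := by
        refine meas_prod (f := fun ω v => ∑' y, (T ω).indicator (1 : V × V → ℝ≥0∞) (v, y)) ?_
        intro v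
        refine Measurable.ennreal_tsum fun y => ?_
        have : (fun ω => (T ω).indicator (1 : V × V → ℝ≥0∞) (v, y)) =
            {ω | (v, y) ∈ T ω}.indicator 1 := by
          funext ω
          by_cases h : (v, y) ∈ T ω
          · rw [Set.indicator_of_mem h, Set.indicator_of_mem (show ω ∈ {ω | (v, y) ∈ T ω} from h)]
            rfl
          · rw [Set.indicator_of_notMem h,
              Set.indicator_of_notMem (show ω ∉ {ω | (v, y) ∈ T ω} from h)]
        rw [this]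
        exact measurable_one.indicator (hT.meas _)
      rw [← lintegral_const_mul _ hmeas]
      apply lintegral_mono
      intro p
      simp only
      rw [← ENNReal.tsum_mul_left]
      apply ENNReal.tsum_le_tsum
      intro y
      by_cases h : (p.2, y) ∈ T p.1
      · rw [Set.indicator_of_mem h]
        have := qq_le_half (K := coordSub (T p.1) ⊓ antisym V) inf_le_right (p.2, y)
        calc ENNReal.ofReal (qq (coordSub (T p.1) ⊓ antisym V) (p.2, y))
            ≤ ENNReal.ofReal (1 / 2) := ENNReal.ofReal_le_ofReal this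
          _ = 1 / 2 * 1 := by
              rw [mul_one, ENNReal.ofReal_div_of_pos (by norm_num)]; simp
      · have h0 : qq (coordSub (T p.1) ⊓ antisym V) (p.2, y) = 0 := by
          apply qq_coordSub_eq_zero (R := (T p.1)ᶜ) _ h
          rw [compl_compl]
          exact inf_le_left
        rw [h0]; simp
    · have h1 := NN_le_map hP hZ hRc (fun ω => isClosed_coordSub _) ?_
      · rwa [NN_pj P W'] at h1
      · filter_upwards [hinj] with p hp
        rw [eq_bot_iff, ← hp]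
        rintro x ⟨hx1, hx2⟩
        have hx3 : x ∈ X p.1 ⊓ coordSub (T p.1)ᶜ := by
          have h5 : (Z p.1).topologicalClosure ≤ X p.1 ⊓ coordSub (T p.1)ᶜ :=
            closure_map_pj_le (hYc p.1)
          exact h5 hx1
        refine ⟨hx3.1, ?_⟩
        have hx4 : x ∈ coordSub (R p.1) := by
          have h6 := (mem_coordSub_compl_iff (D := (R p.1)ᶜ)).2 hx2
          rwa [compl_compl] at h6
        have hx5 : x ∈ coordSub (R p.1) ⊓ coordSub (T p.1)ᶜ := ⟨hx4, hx3.2⟩
        rw [coordSub_inf] at hx5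
        exact hx5

end

end Vale.Agent.P143
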