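import Vale.Agent.P143.Cyl
import Vale.Agent.P143.Trace3

/-!
# Semicontinuity of the conditional probabilities, and conditioning on infinite sets
-/

open MeasureTheory Filter Topology
open scoped unitInterval ENNReal

namespace Vale.Agent.P143

universe u

variable {V : Type u}

theorem norm_sub_pj_le {K : Submodule ℝ (Hs V)} {w : Hs V} (hw : w ∈ K.topologicalClosure)
    (x : Hs V) : ‖x - pj K x‖ ≤ ‖x - w‖ := by
  have h1 : (inner ℝ (x - pj K x) (pj K x - w) : ℝ) = 0 := by
    have h2 : pj K (pj K x - w) = pj K x - w := by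
      rw [map_sub, pj_pj, pj_eq_self hw]
    rw [← h2, ← inner_pj_left, map_sub, pj_pj, sub_self, inner_zero_left]
  have h3 : ‖x - w‖ ^ 2 = ‖x - pj K x‖ ^ 2 + ‖pj K x - w‖ ^ 2 := by
    have : x - w = (x - pj K x) + (pj K x - w) := by abel
    rw [this, norm_add_sq_real, h1]; ring
  have h4 := norm_nonneg (x - w)
  have h5 := norm_nonneg (x - pj K x)
  nlinarith [norm_nonneg (pj K x - w)]

theorem norm_sub_pj_sq (K : Submodule ℝ (Hs V)) (x : Hs V) :
    ‖x - pj K x‖ ^ 2 = ‖x‖ ^ 2 - ‖pj K x‖ ^ 2 := by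
  rw [norm_sub_sq_real, inner_pj_self]; ring

theorem qq_eq_one_sub (K : Submodule ℝ (Hs V)) (i : V × V) :
    qq K i = 1 - ‖dl i - pj K (dl i)‖ ^ 2 := by
  rw [norm_sub_pj_sq, norm_dl, qq_eq_norm_sq]; ring

open Classical in
theorem pj_coordSub_dl (A : Set (V × V)) (i : V × V) :
    pj (coordSub A) (dl i) = if i ∈ A then dl i else 0 := by
  apply Hs.ext'
  intro j
  rw [pj_coordSub_apply]
  by_cases hij : j = i
  · subst hij
    by_cases h : j ∈ A
    · rw [if_pos h, Set.indicator_of_mem h]
    · rw [if_neg h, Set.indicator_of_notMem h]; rfl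
  · have h0 : (dl i : Hs V) j = 0 := dl_apply_ne hij
    by_cases h : i ∈ A
    · rw [if_pos h, h0]
      by_cases h' : j ∈ A
      · rw [Set.indicator_of_mem h', h0]
      · rw [Set.indicator_of_notMem h']
    · rw [if_neg h]
      by_cases h' : j ∈ A
      · rw [Set.indicator_of_mem h', h0]; rfl
      · rw [Set.indicator_of_notMem h']; rfl

/-- continuity of coordinate projections under pointwise convergence of sets -/
theorem tendsto_pj_coordSub {ι : Type*} {l : Filter ι} {A : ι → Set (V × V)} {B : Set (V × V)}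
    (h : ∀ i, ∀ᶠ n in l, (i ∈ A n ↔ i ∈ B)) (x : Hs V) :
    Tendsto (fun n => pj (coordSub (A n)) x) l (𝓝 (pj (coordSub B) x)) := by
  classical
  rw [Metric.tendsto_nhds]
  intro ε hε
  have h1 := hasSum_smul_dl x
  have h2 := (Metric.tendsto_nhds.1 h1) (ε / 3) (by positivity)
  obtain ⟨s, hs⟩ := h2.exists
  have h3 : ∀ᶠ n in l, ∀ i ∈ s, (i ∈ A n ↔ i ∈ B) :=
    (Filter.eventually_all_finset s).2 fun i _ => h i
  filter_upwards [h3] with n hn
  set x' := ∑ i ∈ s, x i • (dl i : Hs V) with hx'
  have h4 : pj (coordSub (A n)) x' = pj (coordSub B) x' := by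
    rw [hx', map_sum, map_sum]
    apply Finset.sum_congr rfl
    intro i hi
    rw [map_smul, map_smul, pj_coordSub_dl, pj_coordSub_dl]
    congr 1
    simp only [hn i hi]
  rw [dist_eq_norm] at hs ⊢
  have h5 : pj (coordSub (A n)) x - pj (coordSub B) x =
      pj (coordSub (A n)) (x - x') - pj (coordSub B) (x - x') := by
    rw [map_sub, map_sub, h4]; abel
  have h6 := norm_pj_le (coordSub (A n)) (x - x')
  have h7 := norm_pj_le (coordSub B) (x - x')
  have h8 : ‖x - x'‖ < ε / 3 := by rw [norm_sub_rev]; exact hs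
  calc ‖pj (coordSub (A n)) x - pj (coordSub B) x‖
      ≤ ‖pj (coordSub (A n)) (x - x')‖ + ‖pj (coordSub B) (x - x')‖ := by
        rw [h5]; exact norm_sub_le _ _
    _ < ε := by linarith

/-- lower semicontinuity of the diagonal entries of the conditional subspaces -/
theorem lsc_qq {ι : Type*} {l : Filter ι} (X : Submodule ℝ (Hs V)) {R T : Set (V × V)}
    {Rn Tn : ι → Set (V × V)} (hT : ∀ n, Tn n ⊆ T) (hR : ∀ i, ∀ᶠ n in l, (i ∈ Rn n ↔ i ∈ R))
    (i : V × V) {ε : ℝ} (hε : 0 < ε) :
    ∀ᶠ n in l, qq (condSub X R T) i - ε < qq (condSub X (Rn n) (Tn n)) i := by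
  set δ := min 1 (ε / 4) with hδ
  have hδ0 : 0 < δ := by positivity
  have hδ1 : δ ≤ 1 := min_le_left _ _
  have hδ2 : δ ≤ ε / 4 := min_le_right _ _
  set w := pj (condSub X R T) (dl i) with hw
  have hwm : w ∈ condSub X R T := pj_mem_of_isClosed (isClosed_condSub X R T) _
  have hwm2 : w ∈ closure (((X ⊓ coordSub Tᶜ).map (pj (coordSub Rᶜ) : Hs V →ₗ[ℝ] Hs V) :
    Submodule ℝ (Hs V)) : Set (Hs V)) := hwm
  rw [Metric.mem_closure_iff] at hwm2
  obtain ⟨_, ⟨x, hx, rfl⟩, hxd⟩ := hwm2 (δ / 2) (by positivity)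
  have h1 := tendsto_pj_coordSub (l := l) (A := fun n => (Rn n)ᶜ) (B := Rᶜ)
    (fun i => by
      filter_upwards [hR i] with n hn
      exact not_congr hn) x
  have h2 := (Metric.tendsto_nhds.1 h1) (δ / 2) (by positivity)
  filter_upwards [h2] with n hn
  set y := pj (coordSub (Rn n)ᶜ) x with hy
  have hyK : y ∈ condSub X (Rn n) (Tn n) := by
    apply Submodule.le_topologicalClosure
    refine ⟨x, ⟨hx.1, ?_⟩, rfl⟩
    intro j hj
    apply hx.2 j
    intro hj'
    exact hj (fun h => hj' (hT n h))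
  have h3 : ‖dl i - pj (condSub X (Rn n) (Tn n)) (dl i)‖ ≤ ‖dl i - y‖ :=
    norm_sub_pj_le (Submodule.le_topologicalClosure _ hyK) _
  have h4 : ‖dl i - y‖ ≤ ‖dl i - w‖ + δ := by
    have e1 : dl i - y = (dl i - w) + ((w - pj (coordSub Rᶜ) x) + (pj (coordSub Rᶜ) x - y)) := by
      abel
    have e2 : ‖w - pj (coordSub Rᶜ) x‖ < δ / 2 := by
      rw [← dist_eq_norm]; exact hxd
    have e3 : ‖pj (coordSub Rᶜ) x - y‖ < δ / 2 := by
      rw [← dist_eq_norm, dist_comm]; exact hn
    calc ‖dl i - y‖ ≤ ‖dl i - w‖ + ‖(w - pj (coordSub Rᶜ) x) + (pj (coordSub Rᶜ) x - y)‖ := by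
          rw [e1]; exact norm_add_le _ _
      _ ≤ ‖dl i - w‖ + (‖w - pj (coordSub Rᶜ) x‖ + ‖pj (coordSub Rᶜ) x - y‖) := by
          gcongr; exact norm_add_le _ _
      _ ≤ ‖dl i - w‖ + δ := by linarith
  have h5 : ‖dl i - w‖ ≤ 1 := by
    have := norm_sub_pj_le (K := condSub X R T) (zero_mem _) (dl i)
    rw [sub_zero, norm_dl] at this
    exact this
  rw [qq_eq_one_sub, qq_eq_one_sub, ← hw]
  have h6 := norm_nonneg (dl i - pj (condSub X (Rn n) (Tn n)) (dl i))
  have h7 := norm_nonneg (dl i - w)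
  have h8 : ‖dl i - pj (condSub X (Rn n) (Tn n)) (dl i)‖ ^ 2 ≤ (‖dl i - w‖ + δ) ^ 2 := by
    apply pow_le_pow_left₀ h6 (h3.trans h4)
  nlinarith

theorem lsc_pe {ι : Type*} {l : Filter ι} (G : SimpleGraph V) {R η : Set (Sym2 V)}
    {Rn : ι → Set (Sym2 V)} (hsub : ∀ n, Rn n ⊆ R) (hR : ∀ e, ∀ᶠ n in l, (e ∈ Rn n ↔ e ∈ R))
    (e : Sym2 V) {ε : ℝ} (hε : 0 < ε) :
    ∀ᶠ n in l, pe G (Rn n) η e < pe G R η e + ε := by
  induction e using Sym2.ind with
  | _ a b =>
    simp only [pe_mk]
    unfold pei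
    by_cases h : s(a, b) ∈ G.edgeSet
    · simp only [h, if_true]
      have := lsc_qq (l := l) (dia G) (R := idx R) (T := idx (R \ η))
        (Rn := fun n => idx (Rn n)) (Tn := fun n => idx (Rn n \ η))
        (fun n j hj => ⟨hsub n hj.1, hj.2⟩) (fun j => hR _) (a, b) (half_pos hε)
      filter_upwards [this] with n hn
      linarith
    · simp only [h, if_false, zero_add]
      exact Eventually.of_forall fun _ => hε

theorem lsc_pe_ofReal {l : Filter ℕ} [l.NeBot] (G : SimpleGraph V) {R η : Set (Sym2 V)}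
    {Rn : ℕ → Set (Sym2 V)} (hsub : ∀ n, Rn n ⊆ R) (hR : ∀ e, ∀ᶠ n in l, (e ∈ Rn n ↔ e ∈ R))
    (e : Sym2 V) :
    ENNReal.ofReal (1 - pe G R η e) ≤
      liminf (fun n => ENNReal.ofReal (1 - pe G (Rn n) η e)) l := by
  apply le_of_forall_lt
  intro c hc
  have hc' : c ≠ ⊤ := ne_top_of_lt hc
  obtain ⟨d, hd1, hd2⟩ := exists_between hc
  have hd' : d ≠ ⊤ := ne_top_of_lt hd2
  refine lt_of_lt_of_le hd1 ?_
  refine le_liminf_of_le (by isBoundedDefault) ?_
  have hd3 : d.toReal < 1 - pe G R η e := by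
    have h0 : 0 < 1 - pe G R η e := by
      by_contra hneg
      rw [ENNReal.ofReal_of_nonpos (not_lt.1 hneg)] at hd2
      exact absurd hd2 (by simp)
    rw [← ENNReal.ofReal_toReal hd'] at hd2
    exact (ENNReal.ofReal_lt_ofReal_iff h0).1 hd2
  filter_upwards [lsc_pe (l := l) G (η := η) hsub hR e (ε := 1 - pe G R η e - d.toReal)
    (by linarith)] with n hn
  rw [← ENNReal.ofReal_toReal hd']
  apply ENNReal.ofReal_le_ofReal
  linarith

/-- if vectors of `K n` converge to a nonzero multiple of `χ = dl (a,b) - dl (b,a)` then the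
diagonal entries tend to `1/2` -/
theorem tendsto_qq_half {ι : Type*} {l : Filter ι} {K : ι → Submodule ℝ (Hs V)}
    (hK : ∀ n, K n ≤ antisym V) {a b : V} (hab : a ≠ b) {y : ι → Hs V} (hy : ∀ n, y n ∈ K n)
    {c : ℝ} (hc : c ≠ 0) (hlim : Tendsto y l (𝓝 (c • (dl (a, b) - dl (b, a))))) :
    Tendsto (fun n => qq (K n) (a, b)) l (𝓝 (1 / 2)) := by
  set χ : Hs V := dl (a, b) - dl (b, a) with hχ
  have h1 : Tendsto (fun n => c⁻¹ • y n) l (𝓝 χ) := by
    have := hlim.const_smul c⁻¹
    rwa [smul_smul, inv_mul_cancel₀ hc, one_smul] at this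
  have h2 : Tendsto (fun n => pj (K n) χ) l (𝓝 χ) := by
    rw [tendsto_iff_norm_sub_tendsto_zero]
    have h3 : Tendsto (fun n => ‖χ - c⁻¹ • y n‖) l (𝓝 0) := by
      have := (tendsto_iff_norm_sub_tendsto_zero.1 h1)
      simpa only [norm_sub_rev] using this
    refine squeeze_zero (fun n => norm_nonneg _) (fun n => ?_) h3
    rw [norm_sub_rev]
    exact norm_sub_pj_le (Submodule.le_topologicalClosure _ ((K n).smul_mem _ (hy n))) _
  have h4 : Tendsto (fun n => (1 / 4) * ‖pj (K n) χ‖ ^ 2) l (𝓝 ((1 / 4) * ‖χ‖ ^ 2)) :=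
    (((h2.norm).pow 2).const_mul _)
  have h5 : (1 / 4 : ℝ) * ‖χ‖ ^ 2 = 1 / 2 := by
    rw [hχ, norm_sq_dl_sub hab]; norm_num
  rw [h5] at h4
  refine h4.congr fun n => ?_
  rw [qq_eq_quarter (hK n)]

theorem exists_seq (E : Type u) [Countable E] :
    ∃ s : ℕ → Finset E, Tendsto s atTop atTop :=
  exists_seq_tendsto (atTop : Filter (Finset E))

theorem eventually_mem_seq {E : Type u} {s : ℕ → Finset E} (hs : Tendsto s atTop atTop) (e : E) :
    ∀ᶠ n in atTop, e ∈ s n := by
  have := hs.eventually (eventually_ge_atTop ({e} : Finset E))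
  filter_upwards [this] with n hn
  exact hn (Finset.mem_singleton_self e)

variable [Countable V] {G : SimpleGraph V} {μ : Measure (Set (Sym2 V))}

theorem IsCP.null_of_tendsto (hμ : IsCP G μ) (e : Sym2 V) {s : ℕ → Finset (Sym2 V)}
    (hs : ∀ n, e ∉ s n) :
    μ {η | e ∈ η ∧ Tendsto (fun n => pe G (s n) η e) atTop (𝓝 0)} = 0 := by
  have := hμ.prob
  have hB : ∀ (ε : ℝ) n, MeasurableSet {η : Set (Sym2 V) | e ∈ η ∧ pe G (s n) η e < ε} := by
    intro ε n
    exact (measurableSet_mem e).inter (measurableSet_lt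
      (measurable_pe measurable_const measurable_const measurable_id e) measurable_const)
  have hle : ∀ (ε : ℝ) n, μ {η : Set (Sym2 V) | e ∈ η ∧ pe G (s n) η e < ε} ≤
      ENNReal.ofReal ε := by
    intro ε n
    have h1 := hμ.fin (s n) (hs n) ({η : Set (Sym2 V) | pe G (s n) η e < ε}.indicator 1)
      (by
        intro η
        by_cases h : pe G (s n) η e < ε
        · rw [Set.indicator_of_mem (show η ∈ {η | pe G (s n) η e < ε} from h),
            Set.indicator_of_mem (by
              change pe G (s n) (η ∩ _) e < ε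
              rwa [pe_inter])]
          rfl
        · rw [Set.indicator_of_notMem (show η ∉ {η | pe G (s n) η e < ε} from h),
            Set.indicator_of_notMem (by
              change ¬ pe G (s n) (η ∩ _) e < ε
              rwa [pe_inter])])
    have hm : MeasurableSet {η : Set (Sym2 V) | pe G (s n) η e < ε} := measurableSet_lt
      (measurable_pe measurable_const measurable_const measurable_id e) measurable_const
    rw [lintegral_indicator_one hm, Measure.restrict_apply hm] at h1
    have h2 : {η : Set (Sym2 V) | e ∈ η ∧ pe G (s n) η e < ε} =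
        {η | pe G (s n) η e < ε} ∩ {η | e ∈ η} := by
      ext η; simp [and_comm]
    rw [h2, h1]
    calc ∫⁻ η, {η : Set (Sym2 V) | pe G (s n) η e < ε}.indicator 1 η *
        ENNReal.ofReal (pe G (s n) η e) ∂μ ≤ ∫⁻ η, ENNReal.ofReal ε ∂μ := by
          apply lintegral_mono
          intro η
          simp only
          by_cases h : pe G (s n) η e < ε
          · rw [Set.indicator_of_mem (show η ∈ {η | pe G (s n) η e < ε} from h)]
            simp only [Pi.one_apply, one_mul]
            exact ENNReal.ofReal_le_ofReal h.le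
          · rw [Set.indicator_of_notMem (show η ∉ {η | pe G (s n) η e < ε} from h), zero_mul]
            exact bot_le
      _ = ENNReal.ofReal ε := by simp
  have hfin : ∀ ε : ℝ, 0 < ε →
      μ {η | e ∈ η ∧ Tendsto (fun n => pe G (s n) η e) atTop (𝓝 0)} ≤ ENNReal.ofReal ε := by
    intro ε hε
    calc μ {η | e ∈ η ∧ Tendsto (fun n => pe G (s n) η e) atTop (𝓝 0)}
        ≤ ∫⁻ η, liminf (fun n =>
            {η : Set (Sym2 V) | e ∈ η ∧ pe G (s n) η e < ε}.indicator 1 η) atTop ∂μ := by
          apply meas_le_lintegral₀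
          · exact (Measurable.liminf fun n => measurable_one.indicator (hB ε n)).aemeasurable
          · rintro η ⟨h1, h2⟩
            have h3 : ∀ᶠ n in atTop, pe G (s n) η e < ε :=
              h2.eventually (eventually_lt_nhds hε)
            refine le_liminf_of_le (by isBoundedDefault) ?_
            filter_upwards [h3] with n hn
            rw [Set.indicator_of_mem
              (show η ∈ {η : Set (Sym2 V) | e ∈ η ∧ pe G (s n) η e < ε} from ⟨h1, hn⟩)]
            rfl
      _ ≤ liminf (fun n => ∫⁻ η,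
            {η : Set (Sym2 V) | e ∈ η ∧ pe G (s n) η e < ε}.indicator 1 η ∂μ) atTop :=
          lintegral_liminf_le fun n => measurable_one.indicator (hB ε n)
      _ ≤ ENNReal.ofReal ε := by
          refine liminf_le_of_le (by isBoundedDefault) ?_
          intro c hc
          obtain ⟨n, hn⟩ := hc.exists
          refine hn.trans ?_
          rw [lintegral_indicator_one (hB ε n)]
          exact hle ε n
  apply le_antisymm _ bot_le
  apply ENNReal.le_of_forall_pos_le_add
  intro ε hε _
  rw [bot_eq_zero, zero_add]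
  have := hfin ε (by exact_mod_cast hε)
  simpa using this

/-- a.s. no nonzero vector of `dia G` is supported on the forest -/
theorem IsCP.indep (hμ : IsCP G μ) : ∀ᵐ η ∂μ, dia G ⊓ coordSub (idx η) = ⊥ := by
  classical
  obtain ⟨s, hs⟩ := exists_seq (Sym2 V)
  have h1 : ∀ᵐ η ∂μ, ∀ e : Sym2 V, ¬ (e ∈ η ∧
      Tendsto (fun n => pe G ((s n).erase e : Finset (Sym2 V)) η e) atTop (𝓝 0)) := by
    rw [ae_all_iff]
    intro e
    have := hμ.null_of_tendsto e (s := fun n => (s n).erase e) (fun n => Finset.notMem_erase _ _)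
    rw [ae_iff]
    simpa using this
  filter_upwards [h1] with η hη
  rw [eq_bot_iff]
  rintro x ⟨hx1, hx2⟩
  rw [Submodule.mem_bot]
  apply Hs.ext'
  rintro ⟨a, b⟩
  by_contra hne
  have hx0 : x (a, b) ≠ 0 := hne
  have he : s(a, b) ∈ η := by
    by_contra h
    exact hx0 (hx2 (a, b) h)
  have hanti := dia_le_antisym G hx1
  have hab : a ≠ b := by
    rintro rfl
    have := hanti a a
    apply hx0; linarith
  have hG : s(a, b) ∈ G.edgeSet := by
    by_contra hG
    apply hx0
    have hcl : dia G ≤ coordSub (idx G.edgeSet) := by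
      apply Submodule.topologicalClosure_minimal _ _ (isClosed_coordSub _)
      rintro y ⟨_, _, hy, _⟩ ⟨c, d⟩ hcd
      exact hy c d hcd
    exact hcl hx1 (a, b) hG
  refine hη s(a, b) ⟨he, ?_⟩
  have hlim : Tendsto (fun n => qq (condSub (dia G)
      (idx ((s n).erase s(a, b) : Finset (Sym2 V)))
      (idx (((s n).erase s(a, b) : Finset (Sym2 V)) \ η))) (a, b)) atTop (𝓝 (1 / 2)) := by
    refine tendsto_qq_half (y := fun n => pj (coordSub
      (idx ((s n).erase s(a, b) : Finset (Sym2 V)))ᶜ) x) (c := x (a, b)) ?_ hab ?_ hx0 ?_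
    · intro n
      exact condSub_le_antisym (dia_le_antisym G) (symmSet_idx _) _
    · intro n
      apply Submodule.le_topologicalClosure
      refine ⟨x, ⟨hx1, ?_⟩, rfl⟩
      intro j hj
      apply hx2
      intro hj'
      apply hj
      intro hj2
      exact hj2.2 hj'
    · have h2 := tendsto_pj_coordSub (l := atTop)
        (A := fun n => (idx ((s n).erase s(a, b) : Finset (Sym2 V)))ᶜ)
        (B := idx {s(a, b)}) ?_ x
      · convert h2 using 2
        apply Hs.ext'
        rintro ⟨c, d⟩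
        rw [pj_coordSub_apply]
        by_cases hcd : (c, d) ∈ idx {s(a, b)}
        · rw [Set.indicator_of_mem hcd]
          have hcd' : s(c, d) = s(a, b) := hcd
          rw [Sym2.eq_iff] at hcd'
          rcases hcd' with ⟨rfl, rfl⟩ | ⟨rfl, rfl⟩
          · simp only [lp.coeFn_smul, lp.coeFn_sub, Pi.smul_apply, Pi.sub_apply, smul_eq_mul]
            rw [dl_apply_self, dl_apply_ne (show (c, d) ≠ (d, c) by
              intro h; exact hab (Prod.mk.inj h).1)]
            ring
          · simp only [lp.coeFn_smul, lp.coeFn_sub, Pi.smul_apply, Pi.sub_apply, smul_eq_mul]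
            rw [dl_apply_self, dl_apply_ne (show (c, d) ≠ (d, c) by
              intro h; exact hab (Prod.mk.inj h).2), hanti d c]
            ring
        · rw [Set.indicator_of_notMem hcd]
          have h3 : (c, d) ≠ (a, b) := by
            rintro h; apply hcd; rw [h]; rfl
          have h4 : (c, d) ≠ (b, a) := by
            rintro h; apply hcd; rw [h]; exact Sym2.eq_swap
          simp only [lp.coeFn_smul, lp.coeFn_sub, Pi.smul_apply, Pi.sub_apply, smul_eq_mul]
          rw [dl_apply_ne h3, dl_apply_ne h4]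
          ring
      · intro i
        filter_upwards [eventually_mem_seq hs s(i.1, i.2)] with n hn
        simp only [Set.mem_compl_iff, idx, Finset.coe_erase, Set.mem_ofPred_eq, Set.mem_diff,
          Finset.mem_coe, Set.mem_singleton_iff, not_and, not_not]
        constructor
        · intro h; exact h hn
        · intro h _; exact h
  have h5 : Tendsto (fun n => 1 - 2 * qq (condSub (dia G)
      (idx ((s n).erase s(a, b) : Finset (Sym2 V)))
      (idx (((s n).erase s(a, b) : Finset (Sym2 V)) \ η))) (a, b)) atTop (𝓝 0) := by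
    have := (hlim.const_mul 2).const_sub 1
    simpa using this
  refine h5.congr fun n => ?_
  rw [pe_mk]
  unfold pei
  rw [if_pos hG]

/-! ### conditioning on infinite sets -/

/-- Fatou inequality -/
theorem IsCP.fatou (hμ : IsCP G μ) {R : Set (Sym2 V)} {e : Sym2 V} (he : e ∉ R)
    {F : Finset (Sym2 V)} (hF : (F : Set (Sym2 V)) ⊆ R) {B : Set (Set (Sym2 V))}
    (hB : MeasurableSet B) (hBF : ∀ η : Set (Sym2 V), η ∈ B ↔ η ∩ (F : Set (Sym2 V)) ∈ B) :
    ∫⁻ η in B, ENNReal.ofReal (1 - pe G R η e) ∂μ ≤ μ (B ∩ {η | e ∉ η}) := by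
  classical
  obtain ⟨s, hs⟩ := exists_seq (Sym2 V)
  set Fn : ℕ → Finset (Sym2 V) := fun n => (s n).filter (fun f => f ∈ R) with hFn
  have hFnc : ∀ n, ((Fn n : Finset (Sym2 V)) : Set (Sym2 V)) = ((s n : Set (Sym2 V)) ∩ R) := by
    intro n; ext f; simp [hFn]
  calc ∫⁻ η in B, ENNReal.ofReal (1 - pe G R η e) ∂μ
      ≤ ∫⁻ η in B, liminf (fun n => ENNReal.ofReal (1 - pe G (Fn n) η e)) atTop ∂μ := by
        apply lintegral_mono
        intro η
        apply lsc_pe_ofReal
        · intro n
          rw [hFnc]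
          exact Set.inter_subset_right
        · intro f
          filter_upwards [eventually_mem_seq hs f] with n hn
          rw [hFnc]
          constructor
          · intro h; exact h.2
          · intro h; exact ⟨hn, h⟩
    _ ≤ liminf (fun n => ∫⁻ η in B, ENNReal.ofReal (1 - pe G (Fn n) η e) ∂μ) atTop := by
        apply lintegral_liminf_le
        intro n
        exact (measurable_const.sub
          (measurable_pe measurable_const measurable_const measurable_id e)).ennreal_ofReal
    _ ≤ μ (B ∩ {η | e ∉ η}) := by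
        refine liminf_le_of_le (by isBoundedDefault) ?_
        intro c hc
        have h1 : ∀ᶠ n in atTop, F ⊆ s n := hs.eventually (eventually_ge_atTop F)
        obtain ⟨n, hn1, hn2⟩ := (hc.and h1).exists
        refine hn1.trans (le_of_eq ?_)
        have hFs : F ⊆ Fn n := by
          intro f hf
          simp only [hFn, Finset.mem_filter]
          exact ⟨hn2 hf, hF hf⟩
        have heF : e ∉ Fn n := by
          simp only [hFn, Finset.mem_filter]
          rintro ⟨_, h⟩; exact he h
        have h2 := hμ.fin_compl (Fn n) heF (B.indicator 1) (by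
          intro η
          have h3 : η ∈ B ↔ η ∩ (Fn n : Set (Sym2 V)) ∈ B := by
            have h4 : (Fn n : Set (Sym2 V)) ∩ (F : Set (Sym2 V)) = F := by
              rw [Set.inter_eq_right]; exact_mod_cast hFs
            have h5 := hBF (η ∩ (Fn n : Set (Sym2 V)))
            rw [Set.inter_assoc, h4] at h5
            rw [h5]; exact hBF η
          by_cases h : η ∈ B
          · rw [Set.indicator_of_mem h, Set.indicator_of_mem (h3.1 h)]; rfl
          · rw [Set.indicator_of_notMem h, Set.indicator_of_notMem (fun h' => h (h3.2 h'))])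
        rw [lintegral_indicator_one hB, Measure.restrict_apply hB] at h2
        rw [h2, ← lintegral_indicator hB]
        apply lintegral_congr
        intro η
        by_cases h : η ∈ B
        · rw [Set.indicator_of_mem h, Set.indicator_of_mem h]; simp
        · rw [Set.indicator_of_notMem h, Set.indicator_of_notMem h]; simp

/-- the conditional probability of `e` given the configuration on the (infinite) set `R` is
given by `pe` -/
def CPinf (G : SimpleGraph V) (μ : Measure (Set (Sym2 V))) (R : Set (Sym2 V)) (e : Sym2 V) :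
    Prop :=
  ∀ (F : Finset (Sym2 V)) (A : Finset (Sym2 V)), (F : Set (Sym2 V)) ⊆ R →
    μ ({η : Set (Sym2 V) | η ∩ (F : Set (Sym2 V)) = A} ∩ {η | e ∉ η}) =
      ∫⁻ η in {η : Set (Sym2 V) | η ∩ (F : Set (Sym2 V)) = A},
        ENNReal.ofReal (1 - pe G R η e) ∂μ

theorem IsCP.cpinf_of_le (hμ : IsCP G μ) {R : Set (Sym2 V)} {e : Sym2 V} (he : e ∉ R)
    (h : μ {η | e ∉ η} ≤ ∫⁻ η, ENNReal.ofReal (1 - pe G R η e) ∂μ) : CPinf G μ R e := by
  intro F A hF
  have := hμ.prob
  set B : Set (Set (Sym2 V)) := {η : Set (Sym2 V) | η ∩ (F : Set (Sym2 V)) = A} with hB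
  have hBm : MeasurableSet B := measurableSet_cylE _ _
  have h1 := hμ.fatou he hF hBm (by
    intro η
    simp only [hB, Set.mem_ofPred_eq]
    rw [Set.inter_assoc, Set.inter_self])
  have h2 := hμ.fatou he hF hBm.compl (by
    intro η
    simp only [hB, Set.mem_compl_iff, Set.mem_ofPred_eq]
    rw [Set.inter_assoc, Set.inter_self])
  have h3 := lintegral_add_compl (μ := μ) (fun η => ENNReal.ofReal (1 - pe G R η e)) hBm
  have h4 := measure_inter_add_diff (μ := μ) {η : Set (Sym2 V) | e ∉ η} hBm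
  have h5 : {η : Set (Sym2 V) | e ∉ η} ∩ B = B ∩ {η | e ∉ η} := Set.inter_comm _ _
  have h6 : {η : Set (Sym2 V) | e ∉ η} \ B = Bᶜ ∩ {η | e ∉ η} := by
    rw [Set.diff_eq, Set.inter_comm]
  rw [h5, h6] at h4
  rw [← h3, ← h4] at h
  apply le_antisymm _ h1
  by_contra hlt
  rw [not_le] at hlt
  have h7 : μ (Bᶜ ∩ {η | e ∉ η}) ≠ ⊤ := measure_ne_top _ _
  have h8 := ENNReal.add_lt_add_of_lt_of_le (ne_top_of_le_ne_top h7 h2) hlt h2
  exact absurd h (not_le.2 h8)

theorem CPinf.map_eq [hp : IsProbabilityMeasure μ] {R : Set (Sym2 V)} {e : Sym2 V}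
    (h : CPinf G μ R e) :
    (μ.restrict {η | e ∉ η}).map (fun η => η ∩ R) =
      (μ.withDensity fun η => ENNReal.ofReal (1 - pe G R η e)).map (fun η => η ∩ R) := by
  classical
  have hm := measurable_inter_const R
  have : IsFiniteMeasure ((μ.restrict {η | e ∉ η}).map (fun η => η ∩ R)) := by
    infer_instance
  apply ext_cyl
  intro F A hA
  rw [Measure.map_apply hm (measurableSet_cylE _ _), Measure.map_apply hm (measurableSet_cylE _ _),
    Measure.restrict_apply (hm (measurableSet_cylE _ _)),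
    withDensity_apply _ (hm (measurableSet_cylE _ _))]
  have h1 : (fun η : Set (Sym2 V) => η ∩ R) ⁻¹' {η | η ∩ (F : Set (Sym2 V)) = A} =
      {η : Set (Sym2 V) | η ∩ ((F.filter (fun f => f ∈ R) : Finset (Sym2 V)) : Set (Sym2 V)) =
        A} := by
    ext η
    simp only [Set.mem_preimage, Set.mem_ofPred_eq]
    have : η ∩ ((F.filter (fun f => f ∈ R) : Finset (Sym2 V)) : Set (Sym2 V)) =
        η ∩ R ∩ (F : Set (Sym2 V)) := by
      ext f
      simp only [Finset.coe_filter, Set.mem_inter_iff, Set.mem_ofPred_eq, Finset.mem_coe]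
      tauto
    rw [this]
  rw [h1]
  obtain ⟨A', hA'⟩ : ∃ A' : Finset (Sym2 V), (A' : Set (Sym2 V)) = A :=
    ⟨(F.finite_toSet.subset hA).toFinset, by simp⟩
  rw [← hA']
  exact h _ A' (by intro f hf; simpa using (Finset.mem_filter.1 hf).2)

theorem CPinf.lint_compl [hp : IsProbabilityMeasure μ] {R : Set (Sym2 V)} {e : Sym2 V}
    (h : CPinf G μ R e) {f : Set (Sym2 V) → ℝ≥0∞} (hf : Measurable f)
    (hfR : ∀ η, f η = f (η ∩ R)) :
    ∫⁻ η in {η | e ∉ η}, f η ∂μ = ∫⁻ η, ENNReal.ofReal (1 - pe G R η e) * f η ∂μ := by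
  have hm := measurable_inter_const R
  have hd : Measurable fun η : Set (Sym2 V) => ENNReal.ofReal (1 - pe G R η e) :=
    (measurable_const.sub
      (measurable_pe measurable_const measurable_const measurable_id e)).ennreal_ofReal
  have h1 := congrArg (fun m => ∫⁻ η, f η ∂m) h.map_eq
  rw [lintegral_map hf hm, lintegral_map hf hm] at h1
  simp only [← hfR] at h1
  rw [h1, lintegral_withDensity_eq_lintegral_mul _ hd hf]
  rfl

theorem CPinf.lint [hp : IsProbabilityMeasure μ] {R : Set (Sym2 V)} {e : Sym2 V}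
    (h : CPinf G μ R e) {f : Set (Sym2 V) → ℝ≥0∞} (hf : Measurable f)
    (hfR : ∀ η, f η = f (η ∩ R)) :
    ∫⁻ η in {η | e ∈ η}, f η ∂μ = ∫⁻ η, ENNReal.ofReal (pe G R η e) * f η ∂μ := by
  have hm := measurable_inter_const R
  have hd : Measurable fun η : Set (Sym2 V) => ENNReal.ofReal (pe G R η e) :=
    (measurable_pe measurable_const measurable_const measurable_id e).ennreal_ofReal
  have hd' : Measurable fun η : Set (Sym2 V) => ENNReal.ofReal (1 - pe G R η e) :=
    (measurable_const.sub
      (measurable_pe measurable_const measurable_const measurable_id e)).ennreal_ofReal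
  have key : (μ.restrict {η | e ∈ η}).map (fun η => η ∩ R) =
      (μ.withDensity fun η => ENNReal.ofReal (pe G R η e)).map (fun η => η ∩ R) := by
    ext B hB
    rw [Measure.map_apply hm hB, Measure.map_apply hm hB,
      Measure.restrict_apply (hm hB), withDensity_apply _ (hm hB)]
    set B' := (fun η : Set (Sym2 V) => η ∩ R) ⁻¹' B with hB'
    have hBm : MeasurableSet B' := hm hB
    have h1 := congrArg (fun m => m B) h.map_eq
    rw [Measure.map_apply hm hB, Measure.map_apply hm hB,
      Measure.restrict_apply (hm hB), withDensity_apply _ (hm hB), ← hB'] at h1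
    have h2 := measure_inter_add_diff (μ := μ) B' (measurableSet_mem e)
    have h3 : B' \ {s | e ∈ s} = B' ∩ {η | e ∉ η} := rfl
    rw [h3, h1] at h2
    have h4 : ∫⁻ η in B', ENNReal.ofReal (pe G R η e) ∂μ +
        ∫⁻ η in B', ENNReal.ofReal (1 - pe G R η e) ∂μ = μ B' := by
      rw [← lintegral_add_left hd]
      have : ∀ η, ENNReal.ofReal (pe G R η e) + ENNReal.ofReal (1 - pe G R η e) = 1 := by
        intro η
        rw [← ENNReal.ofReal_add (pe_nonneg _ _ _ _) (by linarith [pe_le_one G R η e])]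
        simp
      simp only [this]
      simp
    rw [← h4] at h2
    have h5 : ∫⁻ η in B', ENNReal.ofReal (1 - pe G R η e) ∂μ ≠ ⊤ := by
      rw [← h1]; exact measure_ne_top _ _
    exact (ENNReal.add_left_inj h5).1 h2
  have h1 := congrArg (fun m => ∫⁻ η, f η ∂m) key
  rw [lintegral_map hf hm, lintegral_map hf hm] at h1
  simp only [← hfR] at h1
  rw [h1, lintegral_withDensity_eq_lintegral_mul _ hd hf]
  rfl

end Vale.Agent.P143
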