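import Vale.Agent.P143.Ext
import Vale.Agent.P143.Semicont

/-!
# Conditioning on the edges that arrived before a fixed time
-/

open MeasureTheory Filter Topology ProbabilityTheory
open scoped unitInterval ENNReal

namespace Vale.Agent.P143

universe u

variable {V : Type u}

/-! ### the expected number of edges arrived before time `t` -/

theorem labE_clock (e : Sym2 V) (S : Set ℝ) (hS : MeasurableSet S) :
    labE V {L | (L e).1 ∈ S} = (expMeasure 1) S := by
  have := isProb_lab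
  have i1 := isProb_exp
  have i2 := isProb_unif
  have h1 : (labE V).map (fun L => L e) = lab :=
    (measurePreserving_eval_infinitePi (fun _ : Sym2 V => lab) e).map_eq
  have h2 : labE V {L | (L e).1 ∈ S} = (labE V).map (fun L => L e) {x | x.1 ∈ S} := by
    rw [Measure.map_apply (measurable_pi_apply e) (measurable_fst hS)]; rfl
  rw [h2, h1]
  have h3 : {x : ℝ × ℝ | x.1 ∈ S} = S ×ˢ Set.univ := by ext x; simp
  rw [h3]
  unfold lab
  rw [Measure.prod_prod, measure_univ, mul_one]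

theorem RR_expect [Countable V] {G : SimpleGraph V} (hG : ∀ x, (G.neighborSet x).Finite) {t : ℝ}
    (ht : 0 ≤ t) (x : V) :
    ∫⁻ L, ∑' y, (idx (RR G L t)).indicator 1 (x, y) ∂(labE V) ≤ ENNReal.ofReal t := by
  classical
  have hm : ∀ y, MeasurableSet {L : Sym2 V → ℝ × ℝ | (x, y) ∈ idx (RR G L t)} := by
    intro y
    exact measurableSet_setOfPred.2 ((measurable_set_iff.1
      (measurable_RR (Gf := fun _ => G) measurable_const measurable_id measurable_const)) s(x, y))
  have hind : ∀ (L : Sym2 V → ℝ × ℝ) y, (idx (RR G L t)).indicator (1 : V × V → ℝ≥0∞) (x, y) =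
      {L : Sym2 V → ℝ × ℝ | (x, y) ∈ idx (RR G L t)}.indicator 1 L := by
    intro L y
    by_cases h : (x, y) ∈ idx (RR G L t)
    · rw [Set.indicator_of_mem h, Set.indicator_of_mem
        (show L ∈ {L : Sym2 V → ℝ × ℝ | (x, y) ∈ idx (RR G L t)} from h)]; rfl
    · rw [Set.indicator_of_notMem h, Set.indicator_of_notMem
        (show L ∉ {L : Sym2 V → ℝ × ℝ | (x, y) ∈ idx (RR G L t)} from h)]
  simp only [hind]
  rw [lintegral_tsum fun y => (measurable_one.indicator (hm y)).aemeasurable]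
  have h1 : ∀ y, ∫⁻ L, {L : Sym2 V → ℝ × ℝ | (x, y) ∈ idx (RR G L t)}.indicator 1 L ∂(labE V) ≤
      (G.neighborSet x).indicator (fun _ => ENNReal.ofReal (t / ((G.neighborSet x).ncard + 1))) y := by
    intro y
    rw [lintegral_indicator_one (hm y)]
    by_cases hy : y ∈ G.neighborSet x
    · rw [Set.indicator_of_mem hy]
      have hD := Dn_pos G s(x, y)
      have h2 : {L : Sym2 V → ℝ × ℝ | (x, y) ∈ idx (RR G L t)} =
          {L | (L s(x, y)).1 ∈ Set.Iio (t / Dn G s(x, y))} := by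
        ext L
        simp only [Set.mem_ofPred_eq, Set.mem_Iio]
        change (s(x, y) ∈ G.edgeSet ∧ (L s(x, y)).1 * Dn G s(x, y) < t) ↔ _
        rw [lt_div_iff₀ hD]
        exact ⟨fun h => h.2, fun h => ⟨hy, h⟩⟩
      rw [h2, labE_clock _ _ measurableSet_Iio]
      refine (expMeasure_lt_le (by positivity)).trans ?_
      apply ENNReal.ofReal_le_ofReal
      have h3 : ((G.neighborSet x).ncard : ℝ) + 1 ≤ Dn G s(x, y) := by
        rw [Dn_mk]
        have : (0 : ℝ) ≤ ((G.neighborSet y).ncard : ℝ) := Nat.cast_nonneg _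
        linarith
      gcongr
    · rw [Set.indicator_of_notMem hy]
      have h2 : {L : Sym2 V → ℝ × ℝ | (x, y) ∈ idx (RR G L t)} = ∅ := by
        ext L
        simp only [Set.mem_ofPred_eq, Set.mem_empty_iff_false, iff_false]
        rintro ⟨h3, _⟩
        exact hy h3
      rw [h2, measure_empty]
  refine (ENNReal.tsum_le_tsum h1).trans ?_
  rw [← tsum_subtype]
  have := (hG x).fintype
  rw [tsum_fintype, Finset.sum_const, Finset.card_univ, nsmul_eq_mul]
  have h4 : (Fintype.card (G.neighborSet x) : ℝ≥0∞) =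
      ENNReal.ofReal ((G.neighborSet x).ncard : ℝ) := by
    rw [ENNReal.ofReal_natCast]
    congr 1
    rw [← Nat.card_coe_set_eq, Nat.card_eq_fintype_card]
  rw [h4, ← ENNReal.ofReal_mul (Nat.cast_nonneg _)]
  apply ENNReal.ofReal_le_ofReal
  have h5 : (0 : ℝ) ≤ ((G.neighborSet x).ncard : ℝ) := Nat.cast_nonneg _
  rw [mul_div_assoc']
  rw [div_le_iff₀ (by linarith)]
  nlinarith

/-! ### measurability and equivariance of `CPinf` -/

section cpinf

variable [Countable V]

theorem measurableSet_CPinf {Ω : Type*} [MeasurableSpace Ω]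
    (κ : Kernel (SimpleGraph V) (Set (Sym2 V))) [IsMarkovKernel κ]
    {Gf : Ω → SimpleGraph V} (hG : Measurable Gf) {Rf : Ω → Set (Sym2 V)} (hR : Measurable Rf)
    (e : Sym2 V) : MeasurableSet {ω | CPinf (Gf ω) (κ (Gf ω)) (Rf ω) e} := by
  unfold CPinf
  rw [measurableSet_setOfPred]
  refine Measurable.forall fun F => Measurable.forall fun A => Measurable.imp ?_ ?_
  · exact Measurable.subset measurable_const hR
  · rw [← measurableSet_setOfPred]
    apply measurableSet_eq_fun
    · exact (Kernel.measurable_coe κ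
        ((measurableSet_cylE _ _).inter (measurableSet_notMem e))).comp hG
    · have h := Measurable.lintegral_kernel_prod_right (κ := κ.comap Gf hG)
        (f := fun ω η => {η : Set (Sym2 V) | η ∩ (F : Set (Sym2 V)) = A}.indicator
          (fun η => ENNReal.ofReal (1 - pe (Gf ω) (Rf ω) η e)) η) (by
            have h1 : (Function.uncurry fun ω (η : Set (Sym2 V)) =>
              {η : Set (Sym2 V) | η ∩ (F : Set (Sym2 V)) = A}.indicator
              (fun η => ENNReal.ofReal (1 - pe (Gf ω) (Rf ω) η e)) η) =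
              (Prod.snd ⁻¹' {η : Set (Sym2 V) | η ∩ (F : Set (Sym2 V)) = A}).indicator
              (fun q : Ω × Set (Sym2 V) =>
                ENNReal.ofReal (1 - pe (Gf q.1) (Rf q.1) q.2 e)) := by
              funext q
              rfl
            rw [h1]
            refine Measurable.indicator ?_ (measurable_snd (measurableSet_cylE _ _))
            exact (measurable_const.sub (measurable_pe (hG.comp measurable_fst)
              (hR.comp measurable_fst) measurable_snd e)).ennreal_ofReal)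
      simp only [Kernel.comap_apply] at h
      have h2 : ∀ ω, ∫⁻ η in {η : Set (Sym2 V) | η ∩ (F : Set (Sym2 V)) = A},
          ENNReal.ofReal (1 - pe (Gf ω) (Rf ω) η e) ∂(κ (Gf ω)) =
          ∫⁻ η, {η : Set (Sym2 V) | η ∩ (F : Set (Sym2 V)) = A}.indicator
          (fun η => ENNReal.ofReal (1 - pe (Gf ω) (Rf ω) η e)) η ∂(κ (Gf ω)) :=
        fun ω => (lintegral_indicator (measurableSet_cylE _ _) _).symm
      simp only [h2]
      exact h

theorem CPinf.perm {G : SimpleGraph V} {μ : Measure (Set (Sym2 V))} {R : Set (Sym2 V)}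
    {e : Sym2 V} (g : Equiv.Perm V) (h : CPinf G μ R e) :
    CPinf (permG g G) (μ.map (permE g)) (permE g R) (Sym2.map g e) := by
  classical
  intro F A hF
  have hm1 : MeasurableSet {η : Set (Sym2 V) | η ∩ (F : Set (Sym2 V)) = A} :=
    measurableSet_cylE _ _
  have hm2 : MeasurableSet ({η : Set (Sym2 V) | η ∩ (F : Set (Sym2 V)) = A} ∩
      {η | Sym2.map g e ∉ η}) := hm1.inter (measurableSet_notMem _)
  have himg : ∀ F : Finset (Sym2 V), ((F.image (Sym2.map g.symm) : Finset (Sym2 V)) :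
      Set (Sym2 V)) = permE g.symm F := by
    intro F
    ext f
    simp only [Finset.coe_image, Set.mem_image, mem_permE, Equiv.symm_symm, Finset.mem_coe]
    constructor
    · rintro ⟨f', hf', rfl⟩
      rwa [map_map_symm]
    · intro hf
      exact ⟨_, hf, map_symm_map g f⟩
  have e1 : permE g ⁻¹' {η : Set (Sym2 V) | η ∩ (F : Set (Sym2 V)) = A} =
      {η : Set (Sym2 V) | η ∩ ((F.image (Sym2.map g.symm) : Finset (Sym2 V)) : Set (Sym2 V)) =
        ((A.image (Sym2.map g.symm) : Finset (Sym2 V)) : Set (Sym2 V))} := by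
    rw [himg, himg]
    ext η
    simp only [Set.mem_preimage, Set.mem_ofPred_eq]
    constructor
    · intro h1
      rw [← h1, permE_inter, permE_symm']
    · intro h1
      have := congrArg (permE g) h1
      rwa [permE_inter, permE_symm, permE_symm] at this
  have e2 : permE g ⁻¹' ({η : Set (Sym2 V) | η ∩ (F : Set (Sym2 V)) = A} ∩
      {η | Sym2.map g e ∉ η}) =
      {η : Set (Sym2 V) | η ∩ ((F.image (Sym2.map g.symm) : Finset (Sym2 V)) : Set (Sym2 V)) =
        ((A.image (Sym2.map g.symm) : Finset (Sym2 V)) : Set (Sym2 V))} ∩ {η | e ∉ η} := by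
    rw [Set.preimage_inter, e1]
    congr 1
    ext η
    simp only [Set.mem_preimage, Set.mem_ofPred_eq, map_mem_permE]
  have hm3 : Measurable fun η : Set (Sym2 V) =>
      ENNReal.ofReal (1 - pe (permG g G) (permE g R) η (Sym2.map g e)) :=
    (measurable_const.sub
      (measurable_pe measurable_const measurable_const measurable_id _)).ennreal_ofReal
  rw [Measure.map_apply (measurable_permE g) hm2, e2,
    setLIntegral_map hm1 hm3 (measurable_permE g), e1, h _ _ ?_]
  · apply lintegral_congr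
    intro η
    rw [pe_perm]
  · rw [himg]
    intro f hf
    have h1 : Sym2.map g f ∈ permE g R := hF hf
    rwa [map_mem_permE] at h1

theorem CPinf.perm_iff {G : SimpleGraph V} {μ : Measure (Set (Sym2 V))} {R : Set (Sym2 V)}
    {e : Sym2 V} (g : Equiv.Perm V) :
    CPinf (permG g G) (μ.map (permE g)) (permE g R) (Sym2.map g e) ↔ CPinf G μ R e := by
  constructor
  · intro h
    have h1 := h.perm g.symm
    have e1 : permG g.symm (permG g G) = G := by
      ext a b; simp [permG]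
    have e2 : (μ.map (permE g)).map (permE g.symm) = μ := by
      rw [Measure.map_map (measurable_permE _) (measurable_permE _)]
      have : (permE g.symm ∘ permE g : Set (Sym2 V) → Set (Sym2 V)) = id := by
        funext F; exact permE_symm' g F
      rw [this, Measure.map_id]
    rw [e1, e2, permE_symm', map_symm_map] at h1
    exact h1
  · exact fun h => h.perm g

end cpinf

/-! ### the fixed time theorem -/

theorem condSub_empty {X : Submodule ℝ (Hs V)} (hX : IsClosed (X : Set (Hs V))) :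
    condSub X ∅ ∅ = X := by
  have h1 : coordSub (V := V) (∅ᶜ) = ⊤ := by
    rw [eq_top_iff]
    intro x _ i hi
    exact absurd (Set.notMem_empty i) hi
  unfold condSub
  rw [h1, inf_top_eq]
  have h2 : (X.map (pj (⊤ : Submodule ℝ (Hs V)) : Hs V →ₗ[ℝ] Hs V)) = X := by
    ext x
    simp only [Submodule.mem_map]
    constructor
    · rintro ⟨y, hy, rfl⟩
      have : pj (⊤ : Submodule ℝ (Hs V)) y = y :=
        pj_eq_self (Submodule.le_topologicalClosure _ Submodule.mem_top)
      change pj (⊤ : Submodule ℝ (Hs V)) y ∈ X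
      rwa [this]
    · intro hx
      exact ⟨x, hx, pj_eq_self (Submodule.le_topologicalClosure _ Submodule.mem_top)⟩
  rw [h2, topologicalClosure_eq_of_isClosed hX]

theorem dia_le_coordSub (G : SimpleGraph V) : dia G ≤ coordSub (idx G.edgeSet) := by
  apply Submodule.topologicalClosure_minimal _ _ (isClosed_coordSub _)
  rintro y ⟨_, _, hy, _⟩ ⟨c, d⟩ hcd
  exact hy c d hcd

theorem condSub_dia_le_coordSub (G : SimpleGraph V) (R T : Set (V × V)) :
    condSub (dia G) R T ≤ coordSub (idx G.edgeSet) := by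
  apply Submodule.topologicalClosure_minimal _ _ (isClosed_coordSub _)
  rintro _ ⟨x, hx, rfl⟩ i hi
  change (pj (coordSub Rᶜ) x : Hs V) i = 0
  classical
  rw [pj_coordSub_apply]
  have := dia_le_coordSub G hx.1 i hi
  by_cases h : i ∈ Rᶜ
  · rw [Set.indicator_of_mem h, this]
  · rw [Set.indicator_of_notMem h]

theorem ofReal_one_sub_pe {G : SimpleGraph V} {R η : Set (Sym2 V)} {a b : V}
    (h : s(a, b) ∈ G.edgeSet) :
    ENNReal.ofReal (1 - pe G R η s(a, b)) =
      2 * ENNReal.ofReal (qq (condSub (dia G) (idx R) (idx (R \ η))) (a, b)) := by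
  rw [pe_mk]
  unfold pei
  rw [if_pos h, sub_sub_cancel, ENNReal.ofReal_mul (by norm_num)]
  norm_num

theorem IsCP.measure_notMem [Countable V] {G : SimpleGraph V} {μ : Measure (Set (Sym2 V))}
    (hμ : IsCP G μ) {a b : V} (h : s(a, b) ∈ G.edgeSet) :
    μ {η | s(a, b) ∉ η} = 2 * ENNReal.ofReal (qq (dia G) (a, b)) := by
  have i1 := hμ.prob
  have h1 := hμ.cp_compl ∅ ∅ Set.finite_empty (Set.empty_subset _) s(a, b) (Set.notMem_empty _)
  simp only [Set.inter_empty, true_and, Set.ofPred_true, measure_univ, mul_one] at h1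
  rw [h1, ofReal_one_sub_pe h]
  have h2 : idx (∅ : Set (Sym2 V)) = ∅ := by ext i; simp [idx]
  have h3 : (∅ : Set (Sym2 V)) \ ∅ = ∅ := by simp
  rw [h3, h2, condSub_empty (isClosed_dia G)]

theorem eq_bot_iff_qq {K : Submodule ℝ (Hs V)} (hK : IsClosed (K : Set (Hs V))) :
    K = ⊥ ↔ ∀ i, qq K i = 0 := by
  constructor
  · rintro rfl i
    have : pj (⊥ : Submodule ℝ (Hs V)) (dl i) = 0 := by
      apply pj_eq_of (zero_mem _)
      intro w hw
      rw [(Submodule.mem_bot ℝ).1 hw, inner_zero_right]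
    unfold qq
    rw [this, inner_zero_right]
  · intro h
    rw [eq_bot_iff]
    intro x hx
    rw [Submodule.mem_bot]
    apply Hs.ext'
    intro i
    have h1 : pj K (dl i) = 0 := by
      have := h i
      rw [qq_eq_norm_sq] at this
      have h2 : ‖pj K (dl i)‖ = 0 := by nlinarith [norm_nonneg (pj K (dl i))]
      exact norm_eq_zero.1 h2
    rw [← inner_dl_left, ← pj_eq_self (Submodule.le_topologicalClosure _ hx), ← inner_pj_left, h1,
      inner_zero_left]
    rfl

section fixed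

variable [Countable V] [MeasurableSpace V] [DiscreteMeasurableSpace V]
  {P : Measure (SimpleGraph V × V)} {κ : Kernel (SimpleGraph V) (Set (Sym2 V))}
  [IsMarkovKernel κ] {𝒮 : Set (Equiv.Perm V)}

theorem goodOp_X : GoodOp 𝒮 actE (fun ω : Ext V => pj (dia ω.1)) :=
  goodOp_dia measurable_fst (fun _ _ _ => rfl)

theorem measurable_RRext {t : ℝ} : Measurable fun ω : Ext V => RR ω.1 ω.2.2 t :=
  measurable_RR measurable_fst (measurable_snd.comp measurable_snd) measurable_const

theorem goodSet_R (t : ℝ) : GoodSet 𝒮 actE (fun ω : Ext V => idx (RR ω.1 ω.2.2 t)) :=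
  goodSet_idx measurable_RRext (fun g _ ω => RR_perm g ω.1 ω.2.2 t)

theorem goodSet_T (t : ℝ) : GoodSet 𝒮 actE (fun ω : Ext V => idx (RR ω.1 ω.2.2 t \ ω.2.1)) := by
  refine goodSet_idx (measurable_sdiff' measurable_RRext (measurable_fst.comp measurable_snd)) ?_
  intro g _ ω
  change RR (permG g ω.1) (permL g ω.2.2) t \ permE g ω.2.1 = _
  rw [RR_perm, permE_sdiff]

theorem finite_R [IsProbabilityMeasure P] (hlf : ∀ᵐ p ∂P, ∀ x, (p.1.neighborSet x).Finite)
    {t : ℝ} (ht : 0 ≤ t) :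
    ∫⁻ p, ∑' y, (idx (RR p.1.1 p.1.2.2 t)).indicator 1 (p.2, y) ∂(Phat P κ) ≤
      ENNReal.ofReal t := by
  have hm : Measurable fun p : Ext V × V =>
      ∑' y, (idx (RR p.1.1 p.1.2.2 t)).indicator (1 : V × V → ℝ≥0∞) (p.2, y) := by
    refine meas_prod (f := fun (ω : Ext V) v =>
      ∑' y, (idx (RR ω.1 ω.2.2 t)).indicator (1 : V × V → ℝ≥0∞) (v, y)) ?_
    intro v
    refine Measurable.ennreal_tsum fun y => ?_
    have h := (goodSet_R (V := V) (𝒮 := Set.univ) t).meas (v, y)
    have h2 : (fun ω : Ext V => (idx (RR ω.1 ω.2.2 t)).indicator (1 : V × V → ℝ≥0∞) (v, y)) =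
        {ω : Ext V | (v, y) ∈ idx (RR ω.1 ω.2.2 t)}.indicator 1 := by
      funext ω
      by_cases h : (v, y) ∈ idx (RR ω.1 ω.2.2 t)
      · rw [Set.indicator_of_mem h, Set.indicator_of_mem
          (show ω ∈ {ω : Ext V | (v, y) ∈ idx (RR ω.1 ω.2.2 t)} from h)]; rfl
      · rw [Set.indicator_of_notMem h, Set.indicator_of_notMem
          (show ω ∉ {ω : Ext V | (v, y) ∈ idx (RR ω.1 ω.2.2 t)} from h)]
    rw [h2]
    exact measurable_one.indicator h
  rw [lintegral_Phat hm]
  calc ∫⁻ p, ∫⁻ q, ∑' y, (idx (RR p.1 q.2 t)).indicator 1 (p.2, y)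
        ∂((κ p.1).prod (labE V)) ∂P
      ≤ ∫⁻ _, ENNReal.ofReal t ∂P := by
        apply lintegral_mono_ae
        filter_upwards [hlf] with p hp
        have hm2 : Measurable fun q : Set (Sym2 V) × (Sym2 V → ℝ × ℝ) =>
            ∑' y, (idx (RR p.1 q.2 t)).indicator (1 : V × V → ℝ≥0∞) (p.2, y) :=
          hm.comp ((measurable_const.prodMk measurable_id).prodMk measurable_const)
        rw [lintegral_prod _ hm2.aemeasurable]
        calc ∫⁻ _, ∫⁻ L, ∑' y, (idx (RR p.1 L t)).indicator 1 (p.2, y) ∂(labE V) ∂(κ p.1)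
            ≤ ∫⁻ _, ENNReal.ofReal t ∂(κ p.1) := by
              apply lintegral_mono
              intro _
              exact RR_expect hp ht p.2
          _ = ENNReal.ofReal t := by simp
    _ = ENNReal.ofReal t := by simp

theorem inj_ae [IsProbabilityMeasure P] (hconn : ∀ᵐ p ∂P, p.1.Connected)
    (hκ : ∀ G : SimpleGraph V, G.Connected → IsCP G (κ G)) :
    ∀ᵐ p ∂(Phat P κ), dia p.1.1 ⊓ coordSub (idx p.1.2.1) = ⊥ := by
  have hcl : ∀ ω : Ext V, IsClosed ((dia ω.1 ⊓ coordSub (idx ω.2.1) : Submodule ℝ (Hs V)) :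
      Set (Hs V)) := fun ω => (isClosed_dia _).inter (isClosed_coordSub _)
  have hη : GoodSet (∅ : Set (Equiv.Perm V)) actE (fun ω : Ext V => idx ω.2.1) :=
    goodSet_idx (measurable_fst.comp measurable_snd) (by simp)
  have hgo : GoodOp (∅ : Set (Equiv.Perm V)) actE
      (fun ω : Ext V => pj (dia ω.1 ⊓ coordSub (idx ω.2.1))) :=
    goodOp_inf goodOp_X (goodOp_coordSub hη) (fun ω => isClosed_dia _)
      (fun ω => isClosed_coordSub _)
  have h1 : ∀ᵐ p ∂(Phat P κ), ∀ i, qq (dia p.1.1 ⊓ coordSub (idx p.1.2.1)) i = 0 := by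
    rw [ae_Phat]
    · filter_upwards [hconn] with p hp
      have h2 := (hκ p.1 hp).indep
      have h3 := (Measure.quasiMeasurePreserving_fst (μ := κ p.1) (ν := labE V)).ae h2
      filter_upwards [h3] with q hq i
      rw [hq]
      exact (eq_bot_iff_qq (K := ⊥) isClosed_singleton).1 rfl i
    · rw [measurableSet_setOfPred]
      refine Measurable.forall fun i => ?_
      rw [← measurableSet_setOfPred]
      exact measurableSet_eq_fun ((hgo.meas_qq i).comp measurable_fst) measurable_const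
  filter_upwards [h1] with p hp
  exact (eq_bot_iff_qq (hcl p.1)).2 hp

omit [MeasurableSpace V] [DiscreteMeasurableSpace V] in
/-- the identity between the diagonal entries, integrated over the forest -/
theorem key_identity {G : SimpleGraph V} {μ : Measure (Set (Sym2 V))} (hμ : IsCP G μ)
    (R : Set (Sym2 V)) (i : V × V) {g₁ g₂ : Set (Sym2 V) → ℝ≥0∞} (hg₁ : Measurable g₁)
    (hg₂ : Measurable g₂)
    (hsum : ∀ η, ENNReal.ofReal (qq (dia G) i) + g₁ η =
      ENNReal.ofReal (qq (condSub (dia G) (idx R) (idx (R \ η))) i) + g₂ η)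
    (hRG : R ⊆ G.edgeSet) :
    (1 / 2) * ∫⁻ η, (idx (R \ η)).indicator 1 i ∂μ +
      (idx R)ᶜ.indicator (fun _ => ENNReal.ofReal (qq (dia G) i) -
        ∫⁻ η, ENNReal.ofReal (qq (condSub (dia G) (idx R) (idx (R \ η))) i) ∂μ) i +
      ∫⁻ η, g₁ η ∂μ = ∫⁻ η, g₂ η ∂μ := by
  have i1 := hμ.prob
  obtain ⟨a, b⟩ := i
  have hqm : Measurable fun η : Set (Sym2 V) =>
      ENNReal.ofReal (qq (condSub (dia G) (idx R) (idx (R \ η))) (a, b)) := by
    have h1 : GoodOp (∅ : Set (Equiv.Perm V)) (fun _ (η : Set (Sym2 V)) => η)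
        (fun _ => pj (dia G)) := goodOp_dia (Gf := fun _ => G) measurable_const (by simp)
    have h2 : GoodSet (∅ : Set (Equiv.Perm V)) (fun _ (η : Set (Sym2 V)) => η)
        (fun _ => idx R) := goodSet_idx measurable_const (by simp)
    have h3 : GoodSet (∅ : Set (Equiv.Perm V)) (fun _ (η : Set (Sym2 V)) => η)
        (fun η => idx (R \ η)) :=
      goodSet_idx (measurable_sdiff' measurable_const measurable_id) (by simp)
    exact ((goodOp_condSub h1 (fun _ => isClosed_dia G) h2 h3).meas_qq (a, b)).ennreal_ofReal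
  have hint : ENNReal.ofReal (qq (dia G) (a, b)) + ∫⁻ η, g₁ η ∂μ =
      ∫⁻ η, ENNReal.ofReal (qq (condSub (dia G) (idx R) (idx (R \ η))) (a, b)) ∂μ +
        ∫⁻ η, g₂ η ∂μ := by
    rw [← lintegral_add_left hqm, ← lintegral_congr hsum, lintegral_add_right _ hg₁]
    simp
  by_cases hi : (a, b) ∈ idx R
  · -- the edge has been revealed
    have hE : s(a, b) ∈ G.edgeSet := hRG hi
    have h0 : ∀ η, qq (condSub (dia G) (idx R) (idx (R \ η))) (a, b) = 0 :=
      fun η => qq_condSub_of_mem _ _ hi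
    simp only [h0, ENNReal.ofReal_zero, lintegral_zero, zero_add] at hint
    rw [Set.indicator_of_notMem (show (a, b) ∉ (idx R)ᶜ from fun h => h hi), add_zero]
    rw [← hint]
    congr 1
    have h1 : ∀ η : Set (Sym2 V), (idx (R \ η)).indicator (1 : V × V → ℝ≥0∞) (a, b) =
        {η : Set (Sym2 V) | s(a, b) ∉ η}.indicator 1 η := by
      intro η
      by_cases h : s(a, b) ∉ η
      · rw [Set.indicator_of_mem (show η ∈ {η : Set (Sym2 V) | s(a, b) ∉ η} from h),
          Set.indicator_of_mem (show (a, b) ∈ idx (R \ η) from ⟨hi, h⟩)]; rfl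
      · rw [Set.indicator_of_notMem (show η ∉ {η : Set (Sym2 V) | s(a, b) ∉ η} from h),
          Set.indicator_of_notMem (show (a, b) ∉ idx (R \ η) from fun h' => h h'.2)]
    simp only [h1]
    rw [lintegral_indicator_one (measurableSet_notMem _), hμ.measure_notMem hE, ← mul_assoc]
    have h2 : (1 / 2 : ℝ≥0∞) * 2 = 1 := by
      rw [one_div, ENNReal.inv_mul_cancel (by norm_num) (by norm_num)]
    rw [h2, one_mul]
  · have h1 : ∀ η : Set (Sym2 V), (idx (R \ η)).indicator (1 : V × V → ℝ≥0∞) (a, b) = 0 := by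
      intro η
      exact Set.indicator_of_notMem (fun h => hi h.1) _
    simp only [h1, lintegral_zero, mul_zero, zero_add]
    rw [Set.indicator_of_mem (show (a, b) ∈ (idx R)ᶜ from hi)]
    set A := ENNReal.ofReal (qq (dia G) (a, b)) with hA
    set B := ∫⁻ η, ENNReal.ofReal (qq (condSub (dia G) (idx R) (idx (R \ η))) (a, b)) ∂μ with hB
    have hBA : B ≤ A := by
      by_cases hE : s(a, b) ∈ G.edgeSet
      · have h2 := hμ.fatou (R := R) (e := s(a, b)) (fun h => hi h) (F := ∅) (by simp)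
          (B := Set.univ) MeasurableSet.univ (by simp)
        rw [Set.univ_inter, Measure.restrict_univ, hμ.measure_notMem hE] at h2
        simp only [ofReal_one_sub_pe hE] at h2
        rw [lintegral_const_mul _ hqm] at h2
        exact (ENNReal.mul_le_mul_iff_right (by norm_num) (by norm_num)).1 h2
      · have h3 : ∀ η, qq (condSub (dia G) (idx R) (idx (R \ η))) (a, b) = 0 := by
          intro η
          apply qq_coordSub_eq_zero (R := (idx G.edgeSet)ᶜ) _ hE
          rw [compl_compl]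
          exact condSub_dia_le_coordSub _ _ _
        rw [hB]
        simp [h3]
    have hBt : B ≠ ⊤ := ne_top_of_le_ne_top ENNReal.ofReal_ne_top hBA
    have h4 : B + (A - B + ∫⁻ η, g₁ η ∂μ) = B + ∫⁻ η, g₂ η ∂μ := by
      rw [← add_assoc, add_tsub_cancel_of_le hBA]
      exact hint
    exact (ENNReal.add_right_inj hBt).1 h4

theorem lintegral_Phat_tsum [IsProbabilityMeasure P] {f : Ext V → V × V → ℝ≥0∞}
    (hf : ∀ i, Measurable fun ω => f ω i) :
    ∫⁻ p, ∑' y, f p.1 (p.2, y) ∂(Phat P κ) =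
      ∫⁻ p, ∫⁻ L, ∑' y, ∫⁻ η, f (p.1, (η, L)) (p.2, y) ∂(κ p.1) ∂(labE V) ∂P := by
  rw [lintegral_Phat (f := fun p => ∑' y, f p.1 (p.2, y))
    (meas_prod (f := fun ω v => ∑' y, f ω (v, y)) fun v =>
      Measurable.ennreal_tsum fun y => hf (v, y))]
  apply lintegral_congr
  intro p
  have hm : ∀ y, Measurable fun q : Set (Sym2 V) × (Sym2 V → ℝ × ℝ) => f (p.1, q) (p.2, y) :=
    fun y => (hf (p.2, y)).comp (measurable_const.prodMk measurable_id)
  rw [lintegral_prod_symm _ (Measurable.ennreal_tsum hm).aemeasurable]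
  apply lintegral_congr
  intro L
  rw [lintegral_tsum]
  intro y
  exact ((hm y).comp (measurable_id.prodMk measurable_const)).aemeasurable

/-- the defect of the martingale property at the pair `i` -/
noncomputable def defect (κ : Kernel (SimpleGraph V) (Set (Sym2 V))) (t : ℝ)
    (G : SimpleGraph V) (L : Sym2 V → ℝ × ℝ) (i : V × V) : ℝ≥0∞ :=
  (idx (RR G L t))ᶜ.indicator (fun _ => ENNReal.ofReal (qq (dia G) i) -
    ∫⁻ η, ENNReal.ofReal (qq (condSub (dia G) (idx (RR G L t)) (idx (RR G L t \ η))) i)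
      ∂(κ G)) i

omit [MeasurableSpace V] [DiscreteMeasurableSpace V] in
theorem measurable_defect (t : ℝ) (i : V × V) :
    Measurable fun q : SimpleGraph V × (Sym2 V → ℝ × ℝ) => defect κ t q.1 q.2 i := by
  unfold defect
  have hR : Measurable fun q : SimpleGraph V × (Sym2 V → ℝ × ℝ) => RR q.1 q.2 t :=
    measurable_RR measurable_fst measurable_snd measurable_const
  have h1 : (fun q : SimpleGraph V × (Sym2 V → ℝ × ℝ) =>
      (idx (RR q.1 q.2 t))ᶜ.indicator (fun _ => ENNReal.ofReal (qq (dia q.1) i) -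
      ∫⁻ η, ENNReal.ofReal (qq (condSub (dia q.1) (idx (RR q.1 q.2 t))
        (idx (RR q.1 q.2 t \ η))) i) ∂(κ q.1)) i) =
      {q : SimpleGraph V × (Sym2 V → ℝ × ℝ) | s(i.1, i.2) ∉ RR q.1 q.2 t}.indicator
      (fun q => ENNReal.ofReal (qq (dia q.1) i) -
      ∫⁻ η, ENNReal.ofReal (qq (condSub (dia q.1) (idx (RR q.1 q.2 t))
        (idx (RR q.1 q.2 t \ η))) i) ∂(κ q.1)) := by
    funext q
    by_cases h : i ∈ (idx (RR q.1 q.2 t))ᶜ
    · rw [Set.indicator_of_mem h, Set.indicator_of_mem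
        (show q ∈ {q : SimpleGraph V × (Sym2 V → ℝ × ℝ) | s(i.1, i.2) ∉ RR q.1 q.2 t} from h)]
    · rw [Set.indicator_of_notMem h, Set.indicator_of_notMem
        (show q ∉ {q : SimpleGraph V × (Sym2 V → ℝ × ℝ) | s(i.1, i.2) ∉ RR q.1 q.2 t} from h)]
  rw [h1]
  refine Measurable.indicator ?_ ?_
  · refine Measurable.sub ?_ ?_
    · have hd : GoodOp (∅ : Set (Equiv.Perm V)) (fun _ ω => ω)
          (fun q : SimpleGraph V × (Sym2 V → ℝ × ℝ) => pj (dia q.1)) :=
        goodOp_dia measurable_fst (by simp)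
      exact (hd.meas_qq i).ennreal_ofReal
    · have h := Measurable.lintegral_kernel_prod_right
        (κ := κ.comap (fun q : SimpleGraph V × (Sym2 V → ℝ × ℝ) => q.1) measurable_fst)
        (f := fun q η => ENNReal.ofReal (qq (condSub (dia q.1) (idx (RR q.1 q.2 t))
        (idx (RR q.1 q.2 t \ η))) i)) (by
          have hd : GoodOp (∅ : Set (Equiv.Perm V)) (fun _ ω => ω)
              (fun q : (SimpleGraph V × (Sym2 V → ℝ × ℝ)) × Set (Sym2 V) => pj (dia q.1.1)) :=
            goodOp_dia (measurable_fst.comp measurable_fst) (by simp)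
          have h2 : GoodSet (∅ : Set (Equiv.Perm V)) (fun _ ω => ω)
              (fun q : (SimpleGraph V × (Sym2 V → ℝ × ℝ)) × Set (Sym2 V) =>
                idx (RR q.1.1 q.1.2 t)) :=
            goodSet_idx (hR.comp measurable_fst) (by simp)
          have h3 : GoodSet (∅ : Set (Equiv.Perm V)) (fun _ ω => ω)
              (fun q : (SimpleGraph V × (Sym2 V → ℝ × ℝ)) × Set (Sym2 V) =>
                idx (RR q.1.1 q.1.2 t \ q.2)) :=
            goodSet_idx (measurable_sdiff' (hR.comp measurable_fst) measurable_snd) (by simp)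
          exact ((goodOp_condSub hd (fun _ => isClosed_dia _) h2 h3).meas_qq i).ennreal_ofReal)
      simpa only [Kernel.comap_apply] using h
  · exact measurableSet_setOfPred.2 ((measurable_set_iff.1 hR _).not)

theorem lint_combine {α : Type*} [MeasurableSpace α] {m : Measure α} {a b c d : α → ℝ≥0∞}
    (ha : Measurable a) (hb : Measurable b)
    (h : ∀ᵐ x ∂m, (1 / 2) * a x + b x + c x = d x) :
    (1 / 2) * ∫⁻ x, a x ∂m + ∫⁻ x, b x ∂m + ∫⁻ x, c x ∂m = ∫⁻ x, d x ∂m := by
  have h1 : Measurable fun x => (1 / 2) * a x := ha.const_mul _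
  have h2 : Measurable fun x => (1 / 2) * a x + b x := h1.add hb
  rw [← lintegral_const_mul _ ha, ← lintegral_add_left h1, ← lintegral_add_left h2]
  exact lintegral_congr_ae h

theorem measurable_tsum_lint {f : Ext V → V × V → ℝ≥0∞} (hf : ∀ i, Measurable fun ω => f ω i) :
    Measurable fun q : (SimpleGraph V × V) × (Sym2 V → ℝ × ℝ) =>
      ∑' y, ∫⁻ η, f (q.1.1, (η, q.2)) (q.1.2, y) ∂(κ q.1.1) := by
  refine Measurable.ennreal_tsum fun y => ?_
  have h := Measurable.lintegral_kernel_prod_right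
    (κ := κ.comap (fun q : (SimpleGraph V × V) × (Sym2 V → ℝ × ℝ) => q.1.1)
      (measurable_fst.comp measurable_fst))
    (f := fun q η => f (q.1.1, (η, q.2)) (q.1.2, y)) (by
      have h1 : Measurable fun p : Ext V × V => f p.1 (p.2, y) :=
        meas_prod (f := fun ω v => f ω (v, y)) fun v => hf (v, y)
      have h2 : Measurable fun q : ((SimpleGraph V × V) × (Sym2 V → ℝ × ℝ)) × Set (Sym2 V) =>
          (((q.1.1.1, (q.2, q.1.2)), q.1.1.2) : Ext V × V) := by fun_prop
      exact h1.comp h2)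
  simpa only [Kernel.comap_apply] using h

omit [IsMarkovKernel κ] in
theorem measurable_tsum_d {d : SimpleGraph V → (Sym2 V → ℝ × ℝ) → V × V → ℝ≥0∞}
    (hd : ∀ i, Measurable fun q : SimpleGraph V × (Sym2 V → ℝ × ℝ) => d q.1 q.2 i) :
    Measurable fun q : (SimpleGraph V × V) × (Sym2 V → ℝ × ℝ) =>
      ∑' y, d q.1.1 q.2 (q.1.2, y) := by
  refine Measurable.ennreal_tsum fun y => ?_
  have h1 : Measurable fun p : (SimpleGraph V × (Sym2 V → ℝ × ℝ)) × V =>
      d p.1.1 p.1.2 (p.2, y) :=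
    meas_prod (f := fun (q : SimpleGraph V × (Sym2 V → ℝ × ℝ)) v =>
      d q.1 q.2 (v, y)) fun v => hd (v, y)
  have h2 : Measurable fun q : (SimpleGraph V × V) × (Sym2 V → ℝ × ℝ) =>
      ((q.1.1, q.2), q.1.2) := by fun_prop
  exact h1.comp h2

theorem integrated [IsProbabilityMeasure P] {f g₁ g₂ : Ext V → V × V → ℝ≥0∞}
    {d : SimpleGraph V → (Sym2 V → ℝ × ℝ) → V × V → ℝ≥0∞}
    (hf : ∀ i, Measurable fun ω => f ω i) (hg₁ : ∀ i, Measurable fun ω => g₁ ω i)
    (hg₂ : ∀ i, Measurable fun ω => g₂ ω i)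
    (hd : ∀ i, Measurable fun q : SimpleGraph V × (Sym2 V → ℝ × ℝ) => d q.1 q.2 i)
    (hpt : ∀ᵐ p ∂P, ∀ (L : Sym2 V → ℝ × ℝ) (y : V),
      (1 / 2) * ∫⁻ η, f (p.1, (η, L)) (p.2, y) ∂(κ p.1) + d p.1 L (p.2, y) +
        ∫⁻ η, g₁ (p.1, (η, L)) (p.2, y) ∂(κ p.1) =
      ∫⁻ η, g₂ (p.1, (η, L)) (p.2, y) ∂(κ p.1)) :
    (1 / 2) * ∫⁻ p, ∑' y, f p.1 (p.2, y) ∂(Phat P κ) +
      ∫⁻ p, ∫⁻ L, ∑' y, d p.1 L (p.2, y) ∂(labE V) ∂P +
      ∫⁻ p, ∑' y, g₁ p.1 (p.2, y) ∂(Phat P κ) =
      ∫⁻ p, ∑' y, g₂ p.1 (p.2, y) ∂(Phat P κ) := by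
  rw [lintegral_Phat_tsum hf, lintegral_Phat_tsum hg₁, lintegral_Phat_tsum hg₂]
  have m1 := measurable_tsum_lint (κ := κ) hf
  have m2 := measurable_tsum_d hd
  refine lint_combine m1.lintegral_prod_right' m2.lintegral_prod_right' ?_
  filter_upwards [hpt] with p hp
  have m1' := m1.comp (measurable_const (a := p).prodMk measurable_id)
  have m2' := m2.comp (measurable_const (a := p).prodMk measurable_id)
  refine lint_combine m1' m2' (ae_of_all _ fun L => ?_)
  rw [← ENNReal.tsum_mul_left, ← ENNReal.tsum_add, ← ENNReal.tsum_add]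
  exact tsum_congr fun y => hp L y

theorem inj_ae' [IsProbabilityMeasure P] (hconn : ∀ᵐ p ∂P, p.1.Connected)
    (hκ : ∀ G : SimpleGraph V, G.Connected → IsCP G (κ G)) (t : ℝ) :
    ∀ᵐ p ∂(Phat P κ), dia p.1.1 ⊓ coordSub (idx (RR p.1.1 p.1.2.2 t) \
      idx (RR p.1.1 p.1.2.2 t \ p.1.2.1)) = ⊥ := by
  filter_upwards [inj_ae hconn hκ] with p hp
  rw [eq_bot_iff, ← hp]
  apply inf_le_inf_left
  intro x hx i hi
  apply hx i
  rintro ⟨h1, h2⟩
  apply hi
  by_contra h3
  exact h2 ⟨h1, h3⟩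

theorem measurable_T_ind (t : ℝ) (i : V × V) : Measurable fun ω : Ext V =>
    (idx (RR ω.1 ω.2.2 t \ ω.2.1)).indicator (1 : V × V → ℝ≥0∞) i := by
  have h := (goodSet_T (V := V) (𝒮 := Set.univ) t).meas i
  have h2 : (fun ω : Ext V => (idx (RR ω.1 ω.2.2 t \ ω.2.1)).indicator
      (1 : V × V → ℝ≥0∞) i) =
      {ω : Ext V | i ∈ idx (RR ω.1 ω.2.2 t \ ω.2.1)}.indicator 1 := by
    funext ω
    by_cases h : i ∈ idx (RR ω.1 ω.2.2 t \ ω.2.1)
    · rw [Set.indicator_of_mem h, Set.indicator_of_mem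
        (show ω ∈ {ω : Ext V | i ∈ idx (RR ω.1 ω.2.2 t \ ω.2.1)} from h)]; rfl
    · rw [Set.indicator_of_notMem h, Set.indicator_of_notMem
        (show ω ∉ {ω : Ext V | i ∈ idx (RR ω.1 ω.2.2 t \ ω.2.1)} from h)]
  rw [h2]
  exact measurable_one.indicator h

theorem finite_T [IsProbabilityMeasure P] (hlf : ∀ᵐ p ∂P, ∀ x, (p.1.neighborSet x).Finite)
    {t : ℝ} (ht : 0 ≤ t) :
    ∫⁻ p, ∑' y, (idx (RR p.1.1 p.1.2.2 t \ p.1.2.1)).indicator 1 (p.2, y)
      ∂(Phat P κ) < ⊤ := by
  refine lt_of_le_of_lt (lintegral_mono fun p => ENNReal.tsum_le_tsum fun y => ?_)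
    (lt_of_le_of_lt (finite_R (κ := κ) hlf ht) ENNReal.ofReal_lt_top)
  apply Set.indicator_le_indicator_of_subset
  · intro i hi; exact hi.1
  · intro _; exact bot_le

theorem defect_int [IsProbabilityMeasure P] (hP : MTP 𝒮 permG P)
    (hconn : ∀ᵐ p ∂P, p.1.Connected) (hlf : ∀ᵐ p ∂P, ∀ x, (p.1.neighborSet x).Finite)
    (hκ : ∀ G : SimpleGraph V, G.Connected → IsCP G (κ G)) {t : ℝ} (ht : 0 ≤ t) :
    ∫⁻ p, ∫⁻ L, ∑' y, defect κ t p.1 L (p.2, y) ∂(labE V) ∂P = 0 := by
  obtain ⟨g₁, g₂, hg₁, hg₂, hsum, hg1fin, hineq⟩ := dim_ineq (mtp_Phat (κ := κ) hP hconn hκ)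
    (X := fun ω : Ext V => dia ω.1)
    (R := fun ω => idx (RR ω.1 ω.2.2 t)) (T := fun ω => idx (RR ω.1 ω.2.2 t \ ω.2.1))
    goodOp_X (fun ω => isClosed_dia _) (fun ω => dia_le_antisym _) (goodSet_R t) (goodSet_T t)
    (fun ω => symmSet_idx _) (lt_of_le_of_lt (finite_R (κ := κ) hlf ht) ENNReal.ofReal_lt_top)
    (inj_ae' hconn hκ t)
  have hmη : ∀ (f : Ext V → V × V → ℝ≥0∞), (∀ i, Measurable fun ω => f ω i) →
      ∀ (p : SimpleGraph V × V) (L : Sym2 V → ℝ × ℝ) (y : V),
      Measurable fun η => f (p.1, (η, L)) (p.2, y) := by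
    intro f hf p L y
    exact (hf (p.2, y)).comp (measurable_const.prodMk (measurable_id.prodMk measurable_const))
  have hI := integrated (P := P) (κ := κ)
    (f := fun (ω : Ext V) i => (idx (RR ω.1 ω.2.2 t \ ω.2.1)).indicator (1 : V × V → ℝ≥0∞) i)
    (d := defect κ t) (measurable_T_ind t) hg₁ hg₂ (measurable_defect t) (by
      filter_upwards [hconn] with p hp L y
      exact key_identity (hκ p.1 hp) (RR p.1 L t) (p.2, y) (hmη g₁ hg₁ p L y)
        (hmη g₂ hg₂ p L y) (fun η => hsum (p.1, (η, L)) (p.2, y)) (fun f hf => hf.1))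
  have hTfin := finite_T (κ := κ) hlf ht
  rw [← hI] at hineq
  generalize (∫⁻ p, ∑' y, (idx (RR p.1.1 p.1.2.2 t \ p.1.2.1)).indicator
    (1 : V × V → ℝ≥0∞) (p.2, y) ∂(Phat P κ)) = a at hineq hTfin
  generalize (∫⁻ p, ∑' y, g₁ p.1 (p.2, y) ∂(Phat P κ)) = c at hineq hg1fin
  generalize (∫⁻ p, ∫⁻ L, ∑' y, defect κ t p.1 L (p.2, y) ∂(labE V) ∂P) = b at hineq
  have hat : (1 / 2) * a ≠ ⊤ := ENNReal.mul_ne_top (by simp) hTfin.ne
  have hct : c ≠ ⊤ := hg1fin.ne
  have h1 : (1 / 2) * a + c + b ≤ (1 / 2) * a + c + 0 := by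
    rw [add_zero]
    calc (1 / 2) * a + c + b = (1 / 2) * a + b + c := by ring
      _ ≤ (1 / 2) * a + c := hineq
  have h2 := (ENNReal.add_le_add_iff_left (ENNReal.add_ne_top.2 ⟨hat, hct⟩)).1 h1
  exact le_antisymm h2 bot_le

theorem ae_of_lint_zero {α β : Type*} [MeasurableSpace α] [MeasurableSpace β] {m : Measure α}
    {n : Measure β} [SFinite n] {D : α → β → ℝ≥0∞} (hD : Measurable (Function.uncurry D))
    (h : ∫⁻ p, ∫⁻ L, D p L ∂n ∂m = 0) : ∀ᵐ p ∂m, ∀ᵐ L ∂n, D p L = 0 := by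
  have hm1 : Measurable fun p => ∫⁻ L, D p L ∂n := hD.lintegral_prod_right'
  rw [lintegral_eq_zero_iff' hm1.aemeasurable] at h
  filter_upwards [h] with p hp
  have hp' : ∫⁻ L, D p L ∂n = 0 := hp
  have hm2 : Measurable fun L => D p L := hD.comp (measurable_const.prodMk measurable_id)
  rw [lintegral_eq_zero_iff' hm2.aemeasurable] at hp'
  filter_upwards [hp'] with L hL
  exact hL

/-- the defect vanishes at the root -/
theorem defect_root [IsProbabilityMeasure P] (hP : MTP 𝒮 permG P)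
    (hconn : ∀ᵐ p ∂P, p.1.Connected) (hlf : ∀ᵐ p ∂P, ∀ x, (p.1.neighborSet x).Finite)
    (hκ : ∀ G : SimpleGraph V, G.Connected → IsCP G (κ G)) {t : ℝ} (ht : 0 ≤ t) :
    ∀ᵐ p ∂P, ∀ᵐ L ∂(labE V), ∀ y, defect κ t p.1 L (p.2, y) = 0 := by
  have hzero := defect_int hP hconn hlf hκ ht
  have h1 := ae_of_lint_zero (m := P) (n := labE V)
    (D := fun p L => ∑' y, defect κ t p.1 L (p.2, y))
    (measurable_tsum_d (d := defect κ t) (measurable_defect t)) hzero
  filter_upwards [h1] with p hp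
  filter_upwards [hp] with L hL y
  exact ENNReal.tsum_eq_zero.1 hL y

omit [MeasurableSpace V] [DiscreteMeasurableSpace V] in
theorem cpinf_of_defect {G : SimpleGraph V} (hμ : IsCP G (κ G)) {t : ℝ} {L : Sym2 V → ℝ × ℝ}
    {a b : V} (h0 : defect κ t G L (a, b) = 0) (he : s(a, b) ∉ RR G L t) :
    CPinf G (κ G) (RR G L t) s(a, b) := by
  have i1 := hμ.prob
  apply hμ.cpinf_of_le he
  by_cases hE : s(a, b) ∈ G.edgeSet
  · rw [hμ.measure_notMem hE]
    simp only [ofReal_one_sub_pe hE]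
    unfold defect at h0
    rw [Set.indicator_of_mem (show (a, b) ∈ (idx (RR G L t))ᶜ from he)] at h0
    have h1 := tsub_eq_zero_iff_le.1 h0
    rw [lintegral_const_mul']
    · gcongr
    · norm_num
  · simp only [pe_of_notMem hE, sub_zero, ENNReal.ofReal_one, lintegral_one]
    exact measure_mono (Set.subset_univ _)

/-- conditioning on the edges that arrived before a fixed time -/
theorem fixed_time [IsProbabilityMeasure P] (hP : MTP 𝒮 permG P)
    (hconn : ∀ᵐ p ∂P, p.1.Connected) (hlf : ∀ᵐ p ∂P, ∀ x, (p.1.neighborSet x).Finite)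
    (hκ : ∀ G : SimpleGraph V, G.Connected → IsCP G (κ G)) {t : ℝ} (ht : 0 ≤ t) :
    ∀ᵐ p ∂P, ∀ᵐ L ∂(labE V), ∀ e, e ∉ RR p.1 L t → CPinf p.1 (κ p.1) (RR p.1 L t) e := by
  have hM := mtp_Phat (κ := κ) hP hconn hκ
  have hmeas : ∀ x y, Measurable fun ω : Ext V =>
      (s(x, y) ∉ RR ω.1 ω.2.2 t → CPinf ω.1 (κ ω.1) (RR ω.1 ω.2.2 t) s(x, y)) := by
    intro x y
    refine Measurable.imp ?_ ?_
    · exact ((measurable_set_iff.1 measurable_RRext) _).not
    · exact measurableSet_setOfPred.1 (measurableSet_CPinf κ measurable_fst measurable_RRext _)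
  have hmeas2 : ∀ x, Measurable fun ω : Ext V => (ω.1.Connected → ∀ y,
      s(x, y) ∉ RR ω.1 ω.2.2 t → CPinf ω.1 (κ ω.1) (RR ω.1 ω.2.2 t) s(x, y)) := by
    intro x
    refine Measurable.imp ?_ (Measurable.forall fun y => hmeas x y)
    exact (measurableSet_setOfPred.1 measurableSet_connected).comp measurable_fst
  have hroot : ∀ᵐ p ∂(Phat P κ), (p.1.1.Connected → ∀ y,
      s(p.2, y) ∉ RR p.1.1 p.1.2.2 t →
        CPinf p.1.1 (κ p.1.1) (RR p.1.1 p.1.2.2 t) s(p.2, y)) := by
    rw [ae_Phat]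
    · filter_upwards [defect_root (κ := κ) hP hconn hlf hκ ht] with p hp
      have h1 := (Measure.quasiMeasurePreserving_snd (μ := κ p.1) (ν := labE V)).ae hp
      filter_upwards [h1] with q hq hc y hy
      exact cpinf_of_defect (hκ _ hc) (hq y) hy
    · rw [measurableSet_setOfPred]
      exact meas_prod (f := fun (ω : Ext V) v => (ω.1.Connected → ∀ y,
        s(v, y) ∉ RR ω.1 ω.2.2 t → CPinf ω.1 (κ ω.1) (RR ω.1 ω.2.2 t) s(v, y))) hmeas2
  have hall := hM.all (Pr := fun (ω : Ext V) v => (ω.1.Connected → ∀ y,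
        s(v, y) ∉ RR ω.1 ω.2.2 t → CPinf ω.1 (κ ω.1) (RR ω.1 ω.2.2 t) s(v, y)))
    (fun x => measurableSet_setOfPred.2 (hmeas2 x)) ?_ hroot
  · rw [ae_Phat] at hall
    · filter_upwards [hall, hconn] with p hp hc
      have h1 := Measure.ae_ae_of_ae_prod hp
      obtain ⟨η, hη⟩ := h1.exists
      filter_upwards [hη] with L hL e he
      induction e using Sym2.ind with
      | _ a b => exact hL a hc b he
    · rw [measurableSet_setOfPred]
      refine Measurable.forall fun x => ?_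
      exact (hmeas2 x).comp measurable_fst
  · intro g hg ω x
    have e1 : (actE g ω).1 = permG g ω.1 := rfl
    have e2 : (actE g ω).2.2 = permL g ω.2.2 := rfl
    rw [e1, e2, connected_permG, RR_perm]
    constructor
    · intro h hc y hy
      have hκg : κ (permG g ω.1) = (κ ω.1).map (permE g) :=
        (hκ _ (connected_permG.2 hc)).unique ((hκ ω.1 hc).perm g)
      have h2 := h hc (g y)
      have e3 : s(g x, g y) = Sym2.map g s(x, y) := rfl
      rw [e3, map_mem_permE, hκg, CPinf.perm_iff] at h2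
      exact h2 hy
    · intro h hc y hy
      have hκg : κ (permG g ω.1) = (κ ω.1).map (permE g) :=
        (hκ _ (connected_permG.2 hc)).unique ((hκ ω.1 hc).perm g)
      have e3 : s(g x, y) = Sym2.map g s(x, g.symm y) := by simp
      rw [e3, map_mem_permE] at hy
      rw [e3, hκg, CPinf.perm_iff]
      exact h hc _ hy

end fixed

end Vale.Agent.P143
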