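import Vale.Agent.P143.Semicont
import Vale.Agent.P143.Times
import Vale.Agent.P143.Resample

/-!
# The law of the derived labels
-/

open MeasureTheory Filter Topology ProbabilityTheory
open scoped unitInterval ENNReal

namespace Vale.Agent.P143

universe u

variable {V : Type u} [Countable V] {G : SimpleGraph V} {μ : Measure (Set (Sym2 V))}

omit [Countable V] in
theorem measurable_update_pair [DecidableEq (Sym2 V)] (e : Sym2 V) :
    Measurable fun q : (Sym2 V → ℝ × ℝ) × ℝ × ℝ => Function.update q.1 e q.2 := by
  refine measurable_pi_lambda _ fun f => ?_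
  by_cases h : f = e
  · subst h
    simp only [Function.update_self]
    exact measurable_snd
  · simp only [Function.update_of_ne h]
    exact (measurable_pi_apply f).comp measurable_fst

omit [Countable V] in
/-- resample only the mark of `e` -/
theorem lintegral_update_snd [DecidableEq (Sym2 V)] (e : Sym2 V)
    {H : (Sym2 V → ℝ × ℝ) → ℝ≥0∞} (hH : Measurable H) :
    ∫⁻ L, H L ∂(Measure.infinitePi fun _ : Sym2 V => lab) =
      ∫⁻ L, (∫⁻ z in Set.Ioo (0 : ℝ) 1, H (Function.update L e ((L e).1, z)))
        ∂(Measure.infinitePi fun _ : Sym2 V => lab) := by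
  have := isProb_lab
  have := isProb_exp
  have := isProb_unif
  have hup := measurable_update_pair (V := V) e
  have hK : Measurable fun L : Sym2 V → ℝ × ℝ =>
      ∫⁻ z in Set.Ioo (0 : ℝ) 1, H (Function.update L e ((L e).1, z)) := by
    refine Measurable.lintegral_prod_right'
      (f := fun q : (Sym2 V → ℝ × ℝ) × ℝ => H (Function.update q.1 e ((q.1 e).1, q.2))) ?_
    refine hH.comp (hup.comp (measurable_fst.prodMk (Measurable.prodMk ?_ measurable_snd)))
    exact measurable_fst.comp ((measurable_pi_apply e).comp measurable_fst)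
  rw [lintegral_update lab e hH, lintegral_update lab e hK]
  refine lintegral_congr fun L => ?_
  simp only [Function.update_self, Function.update_idem]
  have h1 : Measurable fun x : ℝ × ℝ => H (Function.update L e x) :=
    hH.comp (hup.comp (measurable_const.prodMk measurable_id))
  have h2 : Measurable fun x : ℝ × ℝ =>
      ∫⁻ z in Set.Ioo (0 : ℝ) 1, H (Function.update L e (x.1, z)) := by
    refine Measurable.lintegral_prod_right'
      (f := fun q : (ℝ × ℝ) × ℝ => H (Function.update L e (q.1.1, q.2))) ?_
    exact h1.comp ((measurable_fst.comp measurable_fst).prodMk measurable_snd)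
  unfold lab
  rw [lintegral_prod _ h1.aemeasurable, lintegral_prod _ h2.aemeasurable]
  refine lintegral_congr fun w => ?_
  simp

omit [Countable V] in
theorem tm_update_snd [DecidableEq (Sym2 V)] (G : SimpleGraph V) (L : Sym2 V → ℝ × ℝ)
    (e : Sym2 V) (z : ℝ) (f : Sym2 V) :
    tm G (Function.update L e ((L e).1, z)) f = tm G L f := by
  unfold tm
  by_cases h : f = e
  · subst h; rw [Function.update_self]
  · rw [Function.update_of_ne h]

omit [Countable V] in
theorem RR_update_snd [DecidableEq (Sym2 V)] (G : SimpleGraph V) (L : Sym2 V → ℝ × ℝ)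
    (e : Sym2 V) (z t : ℝ) :
    RR G (Function.update L e ((L e).1, z)) t = RR G L t := by
  ext f
  rw [mem_RR, mem_RR, tm_update_snd]

/-- (CU) the recovered mark of `e` is uniform and independent of the past of `e` -/
theorem lint_lhat [DecidableEq (Sym2 V)] (hμ : IsCP G μ) (e : Sym2 V)
    (hF : ∀ᵐ L ∂(Measure.infinitePi fun _ : Sym2 V => lab), CPinf G μ (RR G L (tm G L e)) e)
    {h : (Sym2 V → ℝ × ℝ) → Set (Sym2 V) → ℝ → ℝ≥0∞}
    (hm : Measurable fun q : (Sym2 V → ℝ × ℝ) × Set (Sym2 V) × ℝ => h q.1 q.2.1 q.2.2)
    (dep1 : ∀ L η v, h L η v = h L (η ∩ RR G L (tm G L e)) v)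
    (dep2 : ∀ L η v z, h (Function.update L e ((L e).1, z)) η v = h L η v) :
    ∫⁻ L, ∫⁻ η, h L η (lhat G η L e).2 ∂μ ∂(Measure.infinitePi fun _ : Sym2 V => lab) =
      ∫⁻ L, ∫⁻ η, (∫⁻ v in Set.Ioo (0 : ℝ) 1, h L η v) ∂μ
        ∂(Measure.infinitePi fun _ : Sym2 V => lab) := by
  classical
  have := hμ.prob
  have hlh : Measurable fun q : (Sym2 V → ℝ × ℝ) × Set (Sym2 V) => (lhat G q.2 q.1 e).2 :=
    measurable_snd.comp ((measurable_pi_apply e).comp
      (measurable_lhat measurable_const measurable_snd measurable_fst))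
  have hF1 : Measurable fun L : Sym2 V → ℝ × ℝ => ∫⁻ η, h L η (lhat G η L e).2 ∂μ := by
    refine Measurable.lintegral_prod_right'
      (f := fun q : (Sym2 V → ℝ × ℝ) × Set (Sym2 V) => h q.1 q.2 (lhat G q.2 q.1 e).2) ?_
    exact hm.comp (measurable_fst.prodMk (measurable_snd.prodMk hlh))
  rw [lintegral_update_snd e hF1]
  refine lintegral_congr_ae ?_
  filter_upwards [hF] with L hL
  set R := RR G L (tm G L e) with hR
  have e1 : ∀ z η, h (Function.update L e ((L e).1, z)) η
      (lhat G η (Function.update L e ((L e).1, z)) e).2 = h L η (vv (e ∈ η) (pe G R η e) z) := by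
    intro z η
    rw [dep2]
    unfold lhat
    simp only [tm_update_snd, RR_update_snd, Function.update_self]
    rw [hR]
  simp only [e1]
  have hp : Measurable fun η : Set (Sym2 V) => pe G R η e :=
    measurable_pe measurable_const measurable_const measurable_id e
  have hvv : Measurable fun q : ℝ × Set (Sym2 V) => vv (e ∈ q.2) (pe G R q.2 e) q.1 := by
    unfold vv
    refine Measurable.ite ?_ ?_ ?_
    · exact (measurableSet_setOfPred.2 (measurable_set_mem e)).preimage measurable_snd
    · exact measurable_fst.mul (hp.comp measurable_snd)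
    · exact (hp.comp measurable_snd).add
        ((measurable_const.sub (hp.comp measurable_snd)).mul measurable_fst)
  have hmL : Measurable fun q : Set (Sym2 V) × ℝ => h L q.1 q.2 :=
    hm.comp (measurable_const.prodMk measurable_id)
  rw [lintegral_lintegral_swap]
  · have hset : MeasurableSet {η : Set (Sym2 V) | e ∈ η} :=
      measurableSet_setOfPred.2 (measurable_set_mem e)
    have e2 : ∀ η, ∫⁻ z in Set.Ioo (0 : ℝ) 1, h L η (vv (e ∈ η) (pe G R η e) z) =
        {η : Set (Sym2 V) | e ∈ η}.indicator
          (fun η => ∫⁻ z in Set.Ioo (0 : ℝ) 1, h L η (z * pe G R η e)) η +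
        {η : Set (Sym2 V) | e ∉ η}.indicator
          (fun η => ∫⁻ z in Set.Ioo (0 : ℝ) 1, h L η (pe G R η e + (1 - pe G R η e) * z)) η := by
      intro η
      by_cases he : e ∈ η
      · rw [Set.indicator_of_mem (show η ∈ {η : Set (Sym2 V) | e ∈ η} from he),
          Set.indicator_of_notMem (show η ∉ {η : Set (Sym2 V) | e ∉ η} from fun h => h he),
          add_zero]
        simp only [vv, he, if_true]
      · rw [Set.indicator_of_notMem (show η ∉ {η : Set (Sym2 V) | e ∈ η} from he),
          Set.indicator_of_mem (show η ∈ {η : Set (Sym2 V) | e ∉ η} from he), zero_add]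
        simp only [vv, he, if_false]
    simp only [e2]
    have hf1 : Measurable fun η : Set (Sym2 V) =>
        ∫⁻ z in Set.Ioo (0 : ℝ) 1, h L η (z * pe G R η e) := by
      refine Measurable.lintegral_prod_right'
        (f := fun q : Set (Sym2 V) × ℝ => h L q.1 (q.2 * pe G R q.1 e)) ?_
      exact hmL.comp (measurable_fst.prodMk (measurable_snd.mul (hp.comp measurable_fst)))
    have hf2 : Measurable fun η : Set (Sym2 V) =>
        ∫⁻ z in Set.Ioo (0 : ℝ) 1, h L η (pe G R η e + (1 - pe G R η e) * z) := by
      refine Measurable.lintegral_prod_right'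
        (f := fun q : Set (Sym2 V) × ℝ => h L q.1 (pe G R q.1 e + (1 - pe G R q.1 e) * q.2)) ?_
      exact hmL.comp (measurable_fst.prodMk ((hp.comp measurable_fst).add
        ((measurable_const.sub (hp.comp measurable_fst)).mul measurable_snd)))
    have hpf : Measurable fun η : Set (Sym2 V) => ENNReal.ofReal (pe G R η e) *
        ∫⁻ z in Set.Ioo (0 : ℝ) 1, h L η (z * pe G R η e) := hp.ennreal_ofReal.mul hf1
    rw [lintegral_add_left (hf1.indicator hset), lintegral_indicator hset,
      lintegral_indicator (show MeasurableSet {η : Set (Sym2 V) | e ∉ η} from hset.compl),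
      hL.lint hf1, hL.lint_compl hf2, ← lintegral_add_left hpf]
    · refine lintegral_congr fun η => ?_
      exact lintegral_unif (pe_nonneg _ _ _ _) (pe_le_one _ _ _ _)
        (hmL.comp (measurable_const.prodMk measurable_id))
    · intro η
      simp only [pe_inter]
      exact lintegral_congr fun z => dep1 _ _ _
    · intro η
      simp only [pe_inter]
      exact lintegral_congr fun z => dep1 _ _ _
  · exact (hmL.comp (measurable_snd.prodMk hvv)).aemeasurable

/-! ### The law of the derived labels -/

open Classical in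
/-- the derived labels on `s`, the labels elsewhere -/
noncomputable def hyb (G : SimpleGraph V) (s : Finset (Sym2 V)) (η : Set (Sym2 V))
    (L : Sym2 V → ℝ × ℝ) (f : Sym2 V) : ℝ × ℝ :=
  if f ∈ s then lhat G η L f else L f

omit [Countable V] in
theorem hyb_fst (G : SimpleGraph V) (s : Finset (Sym2 V)) (η : Set (Sym2 V))
    (L : Sym2 V → ℝ × ℝ) (f : Sym2 V) : (hyb G s η L f).1 = (L f).1 := by
  unfold hyb
  split_ifs
  · rfl
  · rfl

omit [Countable V] in
theorem tm_hyb (G : SimpleGraph V) (s : Finset (Sym2 V)) (η : Set (Sym2 V))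
    (L : Sym2 V → ℝ × ℝ) (f : Sym2 V) : tm G (hyb G s η L) f = tm G L f := by
  unfold tm
  rw [hyb_fst]

theorem measurable_hyb (G : SimpleGraph V) (s : Finset (Sym2 V)) :
    Measurable fun q : (Sym2 V → ℝ × ℝ) × Set (Sym2 V) => hyb G s q.2 q.1 := by
  classical
  refine measurable_pi_lambda _ fun f => ?_
  unfold hyb
  by_cases h : f ∈ s
  · simp only [h, if_true]
    exact (measurable_pi_apply f).comp
      (measurable_lhat measurable_const measurable_snd measurable_fst)
  · simp only [h, if_false]
    exact (measurable_pi_apply f).comp measurable_fst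

omit [Countable V] in
theorem lhat_update_snd [DecidableEq (Sym2 V)] (G : SimpleGraph V) (η : Set (Sym2 V))
    (L : Sym2 V → ℝ × ℝ) {e f : Sym2 V} (hfe : f ≠ e) (z : ℝ) :
    lhat G η (Function.update L e ((L e).1, z)) f = lhat G η L f := by
  unfold lhat
  rw [tm_update_snd, RR_update_snd, Function.update_of_ne hfe]

/-- the labels for which `e` arrives last among `s` -/
def lastSet (G : SimpleGraph V) (s : Finset (Sym2 V)) (e : Sym2 V) : Set (Sym2 V → ℝ × ℝ) :=
  {L | ∀ f ∈ s, f ≠ e → tm G L f < tm G L e}

theorem measurableSet_lastSet (G : SimpleGraph V) (s : Finset (Sym2 V)) (e : Sym2 V) :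
    MeasurableSet (lastSet G s e) := by
  have : lastSet G s e = ⋂ f ∈ s, {L : Sym2 V → ℝ × ℝ | f ≠ e → tm G L f < tm G L e} := by
    ext L
    simp [lastSet]
  rw [this]
  refine Finset.measurableSet_biInter s fun f _ => ?_
  by_cases h : f = e
  · simp [h]
  · simp only [ne_eq, h, not_false_eq_true, true_implies]
    exact measurableSet_lt (measurable_tm measurable_const measurable_id f)
      (measurable_tm measurable_const measurable_id e)

theorem ae_no_ties (G : SimpleGraph V) :
    ∀ᵐ L ∂(Measure.infinitePi fun _ : Sym2 V => lab), ∀ e f : Sym2 V, e ≠ f →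
      tm G L e ≠ tm G L f := by
  rw [ae_all_iff]
  intro e
  rw [ae_all_iff]
  intro f
  by_cases h : e = f
  · exact Eventually.of_forall fun L h' => absurd h h'
  · have : ∀ᵐ L ∂(Measure.infinitePi fun _ : Sym2 V => lab), tm G L e ≠ tm G L f := by
      rw [ae_iff]
      have h1 := lab_no_ties (E := Sym2 V) h (c := Dn G e) (d := Dn G f) (Dn_pos G e).ne'
      simpa [tm] using h1
    filter_upwards [this] with L hL _
    exact hL

theorem sum_lastSet {s : Finset (Sym2 V)} (hs : s.Nonempty) {L : Sym2 V → ℝ × ℝ}
    (hL : ∀ e f : Sym2 V, e ≠ f → tm G L e ≠ tm G L f) :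
    ∑ e ∈ s, (lastSet G s e).indicator (1 : (Sym2 V → ℝ × ℝ) → ℝ≥0∞) L = 1 := by
  classical
  obtain ⟨e, he, hmax⟩ := s.exists_max_image (fun f => tm G L f) hs
  rw [Finset.sum_eq_single_of_mem e he]
  · rw [Set.indicator_of_mem]
    · rfl
    · intro f hf hfe
      exact lt_of_le_of_ne (hmax f hf) (hL f e hfe)
  · intro f hf hfe
    rw [Set.indicator_of_notMem]
    intro h
    exact absurd (h e he hfe.symm) (not_lt.2 (hmax f hf))

theorem claim_hyb (hμ : IsCP G μ)
    (hF : ∀ e, ∀ᵐ L ∂(Measure.infinitePi fun _ : Sym2 V => lab),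
      CPinf G μ (RR G L (tm G L e)) e) (n : ℕ) :
    ∀ (s : Finset (Sym2 V)), s.card = n → ∀ φ : (Sym2 V → ℝ × ℝ) → ℝ≥0∞, Measurable φ →
    ∫⁻ L, ∫⁻ η, φ (hyb G s η L) ∂μ ∂(Measure.infinitePi fun _ : Sym2 V => lab) =
      ∫⁻ L, φ L ∂(Measure.infinitePi fun _ : Sym2 V => lab) := by
  classical
  have := hμ.prob
  induction n with
  | zero =>
    intro s hs φ hφ
    rw [Finset.card_eq_zero] at hs
    subst hs
    have : ∀ (η : Set (Sym2 V)) (L : Sym2 V → ℝ × ℝ), hyb G ∅ η L = L := fun η L => by
      funext f; simp [hyb]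
    simp only [this]
    simp
  | succ n ih =>
    intro s hs φ hφ
    have hne : s.Nonempty := by
      rw [← Finset.card_pos, hs]; exact Nat.succ_pos n
    set ν := (Measure.infinitePi fun _ : Sym2 V => lab) with hν
    -- decomposition according to the last arrival
    have hind : ∀ e, Measurable ((lastSet G s e).indicator
        (1 : (Sym2 V → ℝ × ℝ) → ℝ≥0∞)) := fun e =>
      measurable_one.indicator (measurableSet_lastSet G s e)
    have step : ∀ e ∈ s, ∫⁻ L, ∫⁻ η, (lastSet G s e).indicator 1 L * φ (hyb G s η L) ∂μ ∂ν =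
        ∫⁻ L, (lastSet G s e).indicator 1 L * φ L ∂ν := by
      intro e he
      let h : (Sym2 V → ℝ × ℝ) → Set (Sym2 V) → ℝ → ℝ≥0∞ := fun L η v =>
        (lastSet G s e).indicator 1 L *
          φ (Function.update (hyb G (s.erase e) (η ∩ G.edgeSet) L) e ((L e).1, v))
      have hup := measurable_update_pair (V := V) e
      have hinter : Measurable fun η : Set (Sym2 V) => η ∩ G.edgeSet := measurable_inter_const _
      have hhm : Measurable fun q : (Sym2 V → ℝ × ℝ) × Set (Sym2 V) × ℝ => h q.1 q.2.1 q.2.2 := by
        refine ((hind e).comp measurable_fst).mul (hφ.comp (hup.comp (Measurable.prodMk ?_ ?_)))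
        · exact (measurable_hyb G (s.erase e)).comp
            (measurable_fst.prodMk (hinter.comp (measurable_fst.comp measurable_snd)))
        · exact ((measurable_fst.comp ((measurable_pi_apply e).comp measurable_fst)).prodMk
            (measurable_snd.comp measurable_snd))
      have dep1 : ∀ L η v, h L η v = h L (η ∩ RR G L (tm G L e)) v := by
        intro L η v
        simp only [h]
        by_cases hL : L ∈ lastSet G s e
        · congr 3
          funext f
          by_cases hf : f ∈ s.erase e
          · simp only [hyb, hf, if_true]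
            have hlt : tm G L f < tm G L e :=
              hL f (Finset.mem_of_mem_erase hf) (Finset.ne_of_mem_erase hf)
            by_cases hfG : f ∈ G.edgeSet
            · have hag : Agree G L L (tm G L e) := fun _ _ _ => rfl
              refine lhat_dep hag ?_ (show f ∈ RR G L (tm G L e) from ⟨hfG, hlt⟩)
              ext x
              simp only [Set.mem_inter_iff, mem_RR]
              tauto
            · unfold lhat
              have h1 : f ∉ η ∩ G.edgeSet := fun h => hfG h.2
              have h2 : f ∉ η ∩ RR G L (tm G L e) ∩ G.edgeSet := fun h => hfG h.2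
              rw [pe_of_notMem hfG, pe_of_notMem hfG]
              simp only [h1, h2]
          · simp only [hyb, hf, if_false]
        · rw [Set.indicator_of_notMem hL, zero_mul, zero_mul]
      have hlast : ∀ (L : Sym2 V → ℝ × ℝ) (z : ℝ),
          (Function.update L e ((L e).1, z) ∈ lastSet G s e) ↔ L ∈ lastSet G s e := by
        intro L z
        simp only [lastSet, Set.mem_ofPred_eq, tm_update_snd]
      have dep2 : ∀ L η v z, h (Function.update L e ((L e).1, z)) η v = h L η v := by
        intro L η v z
        simp only [h]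
        congr 1
        · by_cases hL : L ∈ lastSet G s e
          · rw [Set.indicator_of_mem hL, Set.indicator_of_mem ((hlast L z).2 hL)]; rfl
          · rw [Set.indicator_of_notMem hL,
              Set.indicator_of_notMem (fun h' => hL ((hlast L z).1 h'))]
        · congr 1
          funext f
          by_cases hfe : f = e
          · subst hfe; simp
          · rw [Function.update_of_ne hfe, Function.update_of_ne hfe]
            unfold hyb
            rw [lhat_update_snd G _ L hfe, Function.update_of_ne hfe]
      have hcu := lint_lhat hμ e (hF e) hhm dep1 dep2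
      -- left side
      have hleft : ∫⁻ L, ∫⁻ η, (lastSet G s e).indicator 1 L * φ (hyb G s η L) ∂μ ∂ν =
          ∫⁻ L, ∫⁻ η, h L η (lhat G η L e).2 ∂μ ∂ν := by
        refine lintegral_congr fun L => lintegral_congr_ae ?_
        filter_upwards [hμ.sub] with η hη
        simp only [h]
        congr 2
        rw [Set.inter_eq_left.2 hη]
        funext f
        by_cases hfe : f = e
        · subst hfe
          rw [Function.update_self]
          simp only [hyb, he, if_true]
          rfl
        · rw [Function.update_of_ne hfe]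
          unfold hyb
          simp only [Finset.mem_erase, ne_eq, hfe, not_false_eq_true, true_and]
      have hHm : Measurable fun L : Sym2 V → ℝ × ℝ => ∫⁻ η, h L η (L e).2 ∂μ := by
        refine Measurable.lintegral_prod_right'
          (f := fun q : (Sym2 V → ℝ × ℝ) × Set (Sym2 V) => h q.1 q.2 (q.1 e).2) ?_
        exact hhm.comp (measurable_fst.prodMk (measurable_snd.prodMk
          (measurable_snd.comp ((measurable_pi_apply e).comp measurable_fst))))
      have hright : ∫⁻ L, ∫⁻ η, (∫⁻ v in Set.Ioo (0 : ℝ) 1, h L η v) ∂μ ∂ν =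
          ∫⁻ L, ∫⁻ η, h L η (L e).2 ∂μ ∂ν := by
        rw [hν, lintegral_update_snd e hHm]
        refine lintegral_congr fun L => ?_
        simp only [dep2, Function.update_self]
        rw [lintegral_lintegral_swap]
        exact (hhm.comp (measurable_const.prodMk measurable_id)).aemeasurable
      have hψ : Measurable fun L : Sym2 V → ℝ × ℝ => (lastSet G s e).indicator 1 L * φ L :=
        (hind e).mul hφ
      have hlast2 : ∀ (L : Sym2 V → ℝ × ℝ) (η : Set (Sym2 V)),
          (hyb G (s.erase e) η L ∈ lastSet G s e) ↔ L ∈ lastSet G s e := by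
        intro L η
        simp only [lastSet, Set.mem_ofPred_eq, tm_hyb]
      have hfin : ∫⁻ L, ∫⁻ η, h L η (L e).2 ∂μ ∂ν =
          ∫⁻ L, ∫⁻ η, (fun L => (lastSet G s e).indicator 1 L * φ L)
            (hyb G (s.erase e) η L) ∂μ ∂ν := by
        refine lintegral_congr fun L => lintegral_congr_ae ?_
        filter_upwards [hμ.sub] with η hη
        simp only [h]
        rw [Set.inter_eq_left.2 hη]
        congr 1
        · by_cases hL : L ∈ lastSet G s e
          · rw [Set.indicator_of_mem hL, Set.indicator_of_mem ((hlast2 L η).2 hL)]; rfl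
          · rw [Set.indicator_of_notMem hL,
              Set.indicator_of_notMem (fun h' => hL ((hlast2 L η).1 h'))]
        · congr 1
          funext f
          by_cases hfe : f = e
          · subst hfe
            rw [Function.update_self]
            simp [hyb]
          · rw [Function.update_of_ne hfe]
      rw [hleft, hν, hcu, ← hν, hright, hfin]
      exact ih (s.erase e) (by rw [Finset.card_erase_of_mem he, hs]; rfl) _ hψ
    have hφ2 : Measurable fun q : (Sym2 V → ℝ × ℝ) × Set (Sym2 V) => φ (hyb G s q.2 q.1) :=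
      hφ.comp (measurable_hyb G s)
    have hties : ∀ᵐ L ∂ν, ∀ e f : Sym2 V, e ≠ f → tm G L e ≠ tm G L f := ae_no_ties G
    have hm1 : ∀ e ∈ s, Measurable fun L : Sym2 V → ℝ × ℝ =>
        ∫⁻ η, (lastSet G s e).indicator 1 L * φ (hyb G s η L) ∂μ := by
      intro e _
      refine Measurable.lintegral_prod_right'
        (f := fun q : (Sym2 V → ℝ × ℝ) × Set (Sym2 V) =>
          (lastSet G s e).indicator 1 q.1 * φ (hyb G s q.2 q.1)) ?_
      exact ((hind e).comp measurable_fst).mul hφ2
    calc ∫⁻ L, ∫⁻ η, φ (hyb G s η L) ∂μ ∂ν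
        = ∫⁻ L, ∑ e ∈ s, ∫⁻ η, (lastSet G s e).indicator 1 L * φ (hyb G s η L) ∂μ ∂ν := by
          refine lintegral_congr_ae ?_
          filter_upwards [hties] with L hL
          have hmL : Measurable fun η : Set (Sym2 V) => φ (hyb G s η L) :=
            hφ2.comp (measurable_const.prodMk measurable_id)
          have h1 : ∀ e ∈ s, ∫⁻ η, (lastSet G s e).indicator 1 L * φ (hyb G s η L) ∂μ =
              (lastSet G s e).indicator 1 L * ∫⁻ η, φ (hyb G s η L) ∂μ := fun e _ =>
            lintegral_const_mul _ hmL
          rw [Finset.sum_congr rfl h1, ← Finset.sum_mul, sum_lastSet hne hL, one_mul]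
      _ = ∑ e ∈ s, ∫⁻ L, ∫⁻ η, (lastSet G s e).indicator 1 L * φ (hyb G s η L) ∂μ ∂ν :=
          lintegral_finsetSum' _ fun e he => (hm1 e he).aemeasurable
      _ = ∑ e ∈ s, ∫⁻ L, (lastSet G s e).indicator 1 L * φ L ∂ν := Finset.sum_congr rfl step
      _ = ∫⁻ L, ∑ e ∈ s, (lastSet G s e).indicator 1 L * φ L ∂ν := by
          rw [lintegral_finsetSum']
          exact fun e _ => ((hind e).mul hφ).aemeasurable
      _ = ∫⁻ L, φ L ∂ν := by
          refine lintegral_congr_ae ?_
          filter_upwards [hties] with L hL
          rw [← Finset.sum_mul, sum_lastSet hne hL, one_mul]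

/-- the derived labels have the same law as the labels -/
theorem law_lhat (hμ : IsCP G μ)
    (hF : ∀ e, ∀ᵐ L ∂(Measure.infinitePi fun _ : Sym2 V => lab),
      CPinf G μ (RR G L (tm G L e)) e) :
    Measure.map (fun p : Set (Sym2 V) × (Sym2 V → ℝ × ℝ) => lhat G p.1 p.2)
      (μ.prod (Measure.infinitePi fun _ : Sym2 V => lab)) =
        Measure.infinitePi fun _ : Sym2 V => lab := by
  classical
  have := hμ.prob
  have := isProb_lab
  refine Measure.eq_infinitePi _ fun s t ht => ?_
  have hbox : MeasurableSet (Set.pi (s : Set (Sym2 V)) t) :=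
    .pi s.countable_toSet fun _ _ => ht _
  have hm : Measurable fun p : Set (Sym2 V) × (Sym2 V → ℝ × ℝ) => lhat G p.1 p.2 :=
    measurable_lhat measurable_const measurable_fst measurable_snd
  rw [Measure.map_apply hm hbox]
  have h1 := claim_hyb hμ hF s.card s rfl ((Set.pi (s : Set (Sym2 V)) t).indicator 1)
    (measurable_one.indicator hbox)
  rw [lintegral_indicator_one hbox, Measure.infinitePi_pi _ (fun i _ => ht i)] at h1
  rw [← h1, Measure.prod_apply_symm (hm hbox)]
  refine lintegral_congr fun L => ?_
  have h2 : ∀ η : Set (Sym2 V), (Set.pi (s : Set (Sym2 V)) t).indicator 1 (hyb G s η L) =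
      ((fun η : Set (Sym2 V) => (η, L)) ⁻¹' ((fun p : Set (Sym2 V) × (Sym2 V → ℝ × ℝ) =>
        lhat G p.1 p.2) ⁻¹' Set.pi (s : Set (Sym2 V)) t)).indicator
          (1 : Set (Sym2 V) → ℝ≥0∞) η := by
    intro η
    have h3 : hyb G s η L ∈ Set.pi (s : Set (Sym2 V)) t ↔
        lhat G η L ∈ Set.pi (s : Set (Sym2 V)) t := by
      simp only [Set.mem_pi, Finset.mem_coe]
      refine forall₂_congr fun f hf => ?_
      simp only [hyb, hf, if_true]
    by_cases h : lhat G η L ∈ Set.pi (s : Set (Sym2 V)) t
    · rw [Set.indicator_of_mem (h3.2 h), Set.indicator_of_mem (by exact h)]; rfl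
    · rw [Set.indicator_of_notMem (fun h' => h (h3.1 h')), Set.indicator_of_notMem (by exact h)]
  rw [lintegral_congr h2, lintegral_indicator_one]
  exact (measurable_id.prodMk measurable_const) (hm hbox)

end Vale.Agent.P143
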