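import Vale.Agent.P143.FixedTime
import Vale.Agent.P143.LawL

/-!
# Conditioning on the edges that arrived before a given edge
-/

open MeasureTheory Filter Topology ProbabilityTheory
open scoped unitInterval ENNReal

namespace Vale.Agent.P143

universe u

variable {V : Type u} [Countable V]

theorem lintegral_lab_fst {h : ℝ → ℝ≥0∞} (hh : Measurable h) :
    ∫⁻ x, h x.1 ∂lab = ∫⁻ w, h w ∂(expMeasure 1) := by
  have i2 := isProb_exp
  have i3 := isProb_unif
  unfold lab
  have hm : Measurable fun x : ℝ × ℝ => h x.1 := hh.comp measurable_fst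
  rw [lintegral_prod _ hm.aemeasurable]
  apply lintegral_congr
  intro w
  simp

omit [Countable V] in
theorem tm_update_self [DecidableEq (Sym2 V)] (G : SimpleGraph V) (L : Sym2 V → ℝ × ℝ)
    (e : Sym2 V) (x : ℝ × ℝ) : tm G (Function.update L e x) e = x.1 * Dn G e := by
  unfold tm
  rw [Function.update_self]

/-- the hazard rate of every edge is at most one -/
theorem hazard [DecidableEq (Sym2 V)] (G : SimpleGraph V) (e : Sym2 V)
    {K : (Sym2 V → ℝ × ℝ) → ℝ → ℝ≥0∞} (hK : Measurable (Function.uncurry K))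
    (hdep : ∀ L t x, t ≤ tm G L e → t ≤ x.1 * Dn G e →
      K (Function.update L e x) t = K L t) :
    ∫⁻ L, K L (tm G L e) ∂(labE V) ≤
      ∫⁻ t in Set.Ici (0 : ℝ), (∫⁻ L, {L | t < tm G L e}.indicator (fun L => K L t) L
        ∂(labE V)) := by
  have i1 := isProb_lab
  have i2 := isProb_exp
  have i3 := isProb_unif
  set D := Dn G e with hDdef
  have hD1 : 1 ≤ D := one_le_Dn G e
  have hD0 : 0 < D := Dn_pos G e
  have hdiv : ∀ t : ℝ, t / D * D = t := fun t => div_mul_cancel₀ t hD0.ne'
  have hcond : ∀ (L : Sym2 V → ℝ × ℝ) (x : ℝ × ℝ) (t : ℝ), t ≤ x.1 * D →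
      K (Function.update L e x) t = K (Function.update L e (t / D, 0)) t := by
    intro L x t ht
    have h := hdep (Function.update L e x) t (t / D, 0)
      (by rw [tm_update_self]; exact ht) (hdiv t).ge
    rw [Function.update_idem] at h
    exact h.symm
  have htm : Measurable fun L : Sym2 V → ℝ × ℝ => tm G L e :=
    measurable_tm measurable_const measurable_id e
  have hup := measurable_update_pair (V := V) e
  -- joint measurability of `(L, t) ↦ K (update L e (t / D, 0)) t`
  have hH : Measurable fun q : (Sym2 V → ℝ × ℝ) × ℝ =>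
      K (Function.update q.1 e (q.2 / D, 0)) q.2 := by
    have h1 : Measurable fun q : (Sym2 V → ℝ × ℝ) × ℝ =>
        ((Function.update q.1 e (q.2 / D, 0), q.2) : (Sym2 V → ℝ × ℝ) × ℝ) := by
      refine Measurable.prodMk ?_ measurable_snd
      have h2 : Measurable fun q : (Sym2 V → ℝ × ℝ) × ℝ =>
          ((q.1, (q.2 / D, (0 : ℝ))) : (Sym2 V → ℝ × ℝ) × ℝ × ℝ) := by fun_prop
      exact hup.comp h2
    exact hK.comp h1
  have hHL : ∀ L : Sym2 V → ℝ × ℝ, Measurable fun t : ℝ =>
      K (Function.update L e (t / D, 0)) t := fun L =>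
    hH.comp (measurable_const.prodMk measurable_id)
  have hHt : ∀ t : ℝ, Measurable fun L : Sym2 V → ℝ × ℝ =>
      K (Function.update L e (t / D, 0)) t := fun t =>
    hH.comp (measurable_id.prodMk measurable_const)
  -- left hand side
  have hleft : ∫⁻ L, K L (tm G L e) ∂(labE V) ≤
      ∫⁻ L, (∫⁻ t in Set.Ici (0 : ℝ), (expMeasure 1) {w | t < w * D} *
        K (Function.update L e (t / D, 0)) t) ∂(labE V) := by
    have h1 := lintegral_update lab e (H := fun L => K L (tm G L e))
      (hK.comp (measurable_id.prodMk htm))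
    refine (le_of_eq h1).trans ?_
    apply lintegral_mono
    intro L
    have h2 : ∀ x : ℝ × ℝ, K (Function.update L e x) (tm G (Function.update L e x) e) =
        (fun w => K (Function.update L e (w * D / D, 0)) (w * D)) x.1 := by
      intro x
      rw [tm_update_self]
      exact hcond L x (x.1 * D) le_rfl
    simp only [h2]
    rw [lintegral_lab_fst (h := fun w => K (Function.update L e (w * D / D, 0)) (w * D))
      ((hHL L).comp (measurable_id.mul_const D))]
    exact lintegral_exp_hazard hD1 (hHL L)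
  refine hleft.trans ?_
  have hcdf : Measurable fun t : ℝ => (expMeasure 1) {w | t < w * D} := by
    have h1 : MeasurableSet {q : ℝ × ℝ | q.1 < q.2 * D} :=
      measurableSet_lt measurable_fst (measurable_snd.mul_const D)
    exact measurable_measure_prodMk_left h1
  rw [lintegral_lintegral_swap]
  · apply lintegral_mono
    intro t
    have h1 := lintegral_update lab e
      (H := fun L => {L | t < tm G L e}.indicator (fun L => K L t) L)
      ((hK.comp (measurable_id.prodMk measurable_const)).indicator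
        (measurableSet_lt measurable_const htm))
    refine le_trans (le_of_eq ?_) (le_of_eq h1.symm)
    apply lintegral_congr
    intro L
    have h2 : ∀ x : ℝ × ℝ, {L | t < tm G L e}.indicator (fun L => K L t)
        (Function.update L e x) =
        (fun w => {w : ℝ | t < w * D}.indicator
          (fun _ => K (Function.update L e (t / D, 0)) t) w) x.1 := by
      intro x
      by_cases hx : t < x.1 * D
      · rw [Set.indicator_of_mem (show Function.update L e x ∈ {L | t < tm G L e} by
          change t < tm G (Function.update L e x) e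
          rw [tm_update_self]; exact hx)]
        simp only
        rw [Set.indicator_of_mem (show x.1 ∈ {w : ℝ | t < w * D} from hx)]
        exact hcond L x t hx.le
      · rw [Set.indicator_of_notMem (show Function.update L e x ∉ {L | t < tm G L e} by
          change ¬ t < tm G (Function.update L e x) e
          rw [tm_update_self]; exact hx)]
        simp only
        rw [Set.indicator_of_notMem (show x.1 ∉ {w : ℝ | t < w * D} from hx)]
    simp only [h2]
    have hms : MeasurableSet {w : ℝ | t < w * D} :=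
      measurableSet_lt measurable_const (measurable_id.mul_const D)
    have h3 := lintegral_lab_fst (h := fun w => {w : ℝ | t < w * D}.indicator
      (fun _ => K (Function.update L e (t / D, 0)) t) w) (measurable_const.indicator hms)
    refine Eq.trans ?_ h3.symm
    rw [lintegral_indicator_const hms, mul_comm]
  · apply Measurable.aemeasurable
    exact (hcdf.comp measurable_snd).mul hH

section rt

variable [MeasurableSpace V] [DiscreteMeasurableSpace V]
  {P : Measure (SimpleGraph V × V)} {κ : Kernel (SimpleGraph V) (Set (Sym2 V))}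
  [IsMarkovKernel κ] {𝒮 : Set (Equiv.Perm V)}

/-- failure of the conditional-probability property, as an indicator -/
noncomputable def badK (κ : Kernel (SimpleGraph V) (Set (Sym2 V))) (G : SimpleGraph V)
    (e : Sym2 V) (L : Sym2 V → ℝ × ℝ) (t : ℝ) : ℝ≥0∞ :=
  {t : ℝ | ¬ CPinf G (κ G) (RR G L t \ {e}) e}.indicator 1 t

omit [MeasurableSpace V] [DiscreteMeasurableSpace V] [Countable V] [IsMarkovKernel κ] in
open Classical in
theorem badK_eq_ite (G : SimpleGraph V) (e : Sym2 V) (L : Sym2 V → ℝ × ℝ) (t : ℝ) :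
    badK κ G e L t = if CPinf G (κ G) (RR G L t \ {e}) e then 0 else 1 := by
  unfold badK
  rw [Set.indicator_apply]
  by_cases h : CPinf G (κ G) (RR G L t \ {e}) e
  · simp [h]
  · simp [h]

omit [MeasurableSpace V] [DiscreteMeasurableSpace V] in
theorem measurable_badK (e : Sym2 V) :
    Measurable fun q : (SimpleGraph V × (Sym2 V → ℝ × ℝ)) × ℝ =>
      badK κ q.1.1 e q.1.2 q.2 := by
  have hG : Measurable fun q : (SimpleGraph V × (Sym2 V → ℝ × ℝ)) × ℝ => q.1.1 :=
    measurable_fst.comp measurable_fst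
  have hR : Measurable fun q : (SimpleGraph V × (Sym2 V → ℝ × ℝ)) × ℝ =>
      RR q.1.1 q.1.2 q.2 \ {e} :=
    measurable_sdiff' (measurable_RR hG (measurable_snd.comp measurable_fst) measurable_snd)
      measurable_const
  have h1 := (measurableSet_CPinf κ hG hR e).compl
  have h2 : (fun q : (SimpleGraph V × (Sym2 V → ℝ × ℝ)) × ℝ => badK κ q.1.1 e q.1.2 q.2) =
      ({q : (SimpleGraph V × (Sym2 V → ℝ × ℝ)) × ℝ |
        CPinf q.1.1 (κ q.1.1) (RR q.1.1 q.1.2 q.2 \ {e}) e}ᶜ).indicator 1 := by
    funext q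
    rfl
  rw [h2]
  exact measurable_one.indicator h1

theorem fixed_bad [IsProbabilityMeasure P] (hP : MTP 𝒮 permG P)
    (hconn : ∀ᵐ p ∂P, p.1.Connected) (hlf : ∀ᵐ p ∂P, ∀ x, (p.1.neighborSet x).Finite)
    (hκ : ∀ G : SimpleGraph V, G.Connected → IsCP G (κ G)) (e : Sym2 V) {t : ℝ} (ht : 0 ≤ t) :
    ∫⁻ p, ∫⁻ L, {L | t < tm p.1 L e}.indicator (fun L => badK κ p.1 e L t) L
      ∂(labE V) ∂P = 0 := by
  have h0 : ∀ᵐ p ∂P, ∫⁻ L, {L | t < tm p.1 L e}.indicator (fun L => badK κ p.1 e L t) L
      ∂(labE V) = 0 := by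
    filter_upwards [fixed_time (κ := κ) hP hconn hlf hκ ht] with p hp
    have h1 : ∀ᵐ L ∂(labE V),
        {L | t < tm p.1 L e}.indicator (fun L => badK κ p.1 e L t) L = 0 := by
      filter_upwards [hp] with L hL
      by_cases h : t < tm p.1 L e
      · rw [Set.indicator_of_mem (show L ∈ {L | t < tm p.1 L e} from h)]
        have he : e ∉ RR p.1 L t := fun h2 => absurd h2.2 (not_lt.2 h.le)
        unfold badK
        apply Set.indicator_of_notMem
        intro h3
        apply h3
        rw [Set.diff_singleton_eq_self he]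
        exact hL e he
      · exact Set.indicator_of_notMem (show L ∉ {L | t < tm p.1 L e} from h) _
    rw [lintegral_congr_ae h1]
    simp
  rw [lintegral_congr_ae h0]
  simp

/-- conditioning on the edges that arrived before the edge `e` -/
theorem random_time [IsProbabilityMeasure P] (hP : MTP 𝒮 permG P)
    (hconn : ∀ᵐ p ∂P, p.1.Connected) (hlf : ∀ᵐ p ∂P, ∀ x, (p.1.neighborSet x).Finite)
    (hκ : ∀ G : SimpleGraph V, G.Connected → IsCP G (κ G)) :
    ∀ᵐ p ∂P, ∀ e, ∀ᵐ L ∂(labE V), CPinf p.1 (κ p.1) (RR p.1 L (tm p.1 L e)) e := by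
  classical
  rw [ae_all_iff]
  intro e
  -- joint measurability
  have hm1 : Measurable fun q : ((SimpleGraph V × V) × ℝ) × (Sym2 V → ℝ × ℝ) =>
      badK κ q.1.1.1 e q.2 q.1.2 := by
    have h1 : Measurable fun q : ((SimpleGraph V × V) × ℝ) × (Sym2 V → ℝ × ℝ) =>
        (((q.1.1.1, q.2), q.1.2) : (SimpleGraph V × (Sym2 V → ℝ × ℝ)) × ℝ) := by fun_prop
    have h2 := (measurable_badK (κ := κ) e).comp h1
    simp only [Function.comp_def] at h2
    exact h2
  have hm2 : Measurable fun q : ((SimpleGraph V × V) × ℝ) × (Sym2 V → ℝ × ℝ) =>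
      {L | q.1.2 < tm q.1.1.1 L e}.indicator (fun L => badK κ q.1.1.1 e L q.1.2) q.2 := by
    have h3 : (fun q : ((SimpleGraph V × V) × ℝ) × (Sym2 V → ℝ × ℝ) =>
      {L | q.1.2 < tm q.1.1.1 L e}.indicator (fun L => badK κ q.1.1.1 e L q.1.2) q.2) =
      {q : ((SimpleGraph V × V) × ℝ) × (Sym2 V → ℝ × ℝ) | q.1.2 < tm q.1.1.1 q.2 e}.indicator
      (fun q => badK κ q.1.1.1 e q.2 q.1.2) := by
      funext q
      rfl
    rw [h3]
    refine hm1.indicator ?_
    exact measurableSet_lt (measurable_snd.comp measurable_fst)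
      (measurable_tm (measurable_fst.comp (measurable_fst.comp measurable_fst))
        measurable_snd e)
  have hm3 : Measurable fun q : (SimpleGraph V × V) × ℝ =>
      ∫⁻ L, {L | q.2 < tm q.1.1 L e}.indicator (fun L => badK κ q.1.1 e L q.2) L
        ∂(labE V) := hm2.lintegral_prod_right'
  have hzero : ∫⁻ p, (∫⁻ t in Set.Ici (0 : ℝ), ∫⁻ L,
      {L | t < tm p.1 L e}.indicator (fun L => badK κ p.1 e L t) L ∂(labE V)) ∂P = 0 := by
    rw [lintegral_lintegral_swap hm3.aemeasurable]
    have h1 : ∀ᵐ t ∂((volume : Measure ℝ).restrict (Set.Ici 0)),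
        ∫⁻ p, ∫⁻ L, {L | t < tm p.1 L e}.indicator (fun L => badK κ p.1 e L t) L
          ∂(labE V) ∂P = 0 := by
      filter_upwards [ae_restrict_mem measurableSet_Ici] with t ht
      exact fixed_bad hP hconn hlf hκ e ht
    rw [lintegral_congr_ae h1]
    simp
  have hm4 : Measurable fun p : SimpleGraph V × V => ∫⁻ t in Set.Ici (0 : ℝ), ∫⁻ L,
      {L | t < tm p.1 L e}.indicator (fun L => badK κ p.1 e L t) L ∂(labE V) :=
    hm3.lintegral_prod_right'
  rw [lintegral_eq_zero_iff' hm4.aemeasurable] at hzero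
  filter_upwards [hzero] with p hp
  have hp' : ∫⁻ t in Set.Ici (0 : ℝ), ∫⁻ L,
      {L | t < tm p.1 L e}.indicator (fun L => badK κ p.1 e L t) L ∂(labE V) = 0 := hp
  have hKm : Measurable (Function.uncurry (badK κ p.1 e)) := by
    have h1 : Measurable fun q : (Sym2 V → ℝ × ℝ) × ℝ =>
        (((p.1, q.1), q.2) : (SimpleGraph V × (Sym2 V → ℝ × ℝ)) × ℝ) := by fun_prop
    have h2 := (measurable_badK (κ := κ) e).comp h1
    simp only [Function.comp_def] at h2
    exact h2
  have hhz := hazard p.1 e hKm (by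
    intro L t x _ _
    rw [badK_eq_ite, badK_eq_ite]
    have h1 : RR p.1 (Function.update L e x) t \ {e} = RR p.1 L t \ {e} := by
      ext f
      simp only [Set.mem_diff, Set.mem_singleton_iff, mem_RR]
      constructor
      · rintro ⟨⟨h1, h2⟩, h3⟩
        refine ⟨⟨h1, ?_⟩, h3⟩
        unfold tm at h2 ⊢
        rwa [Function.update_of_ne h3] at h2
      · rintro ⟨⟨h1, h2⟩, h3⟩
        refine ⟨⟨h1, ?_⟩, h3⟩
        unfold tm at h2 ⊢
        rwa [Function.update_of_ne h3]
    rw [h1])
  rw [hp'] at hhz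
  have h2 : ∫⁻ L, badK κ p.1 e L (tm p.1 L e) ∂(labE V) = 0 := le_antisymm hhz bot_le
  have hm5 : Measurable fun L : Sym2 V → ℝ × ℝ => badK κ p.1 e L (tm p.1 L e) :=
    hKm.comp (measurable_id.prodMk (measurable_tm measurable_const measurable_id e))
  rw [lintegral_eq_zero_iff' hm5.aemeasurable] at h2
  filter_upwards [h2] with L hL
  by_contra hne
  have he : e ∉ RR p.1 L (tm p.1 L e) := fun h => absurd h.2 (lt_irrefl _)
  have h3 : badK κ p.1 e L (tm p.1 L e) = 1 := by
    unfold badK
    rw [Set.indicator_of_mem]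
    · rfl
    · change ¬ CPinf p.1 (κ p.1) (RR p.1 L (tm p.1 L e) \ {e}) e
      rw [Set.diff_singleton_eq_self he]
      exact hne
  rw [h3] at hL
  exact absurd hL (by simp)

end rt

end Vale.Agent.P143
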