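import Vale.Agent.P143.FixedTime
import Vale.Agent.P143.LawL
import Vale.Agent.P143.RandomTime

/-!
# The Gronwall estimate for the Picard iteration
-/

open MeasureTheory Filter Topology ProbabilityTheory
open scoped unitInterval ENNReal

namespace Vale.Agent.P143

universe u

variable {V : Type u}

/-- difference of the conditional probabilities at time `t` computed from the Picard iteration and
from the forest -/
noncomputable def pdiff (G : SimpleGraph V) (k : ℕ) (e : Sym2 V) (L : Sym2 V → ℝ × ℝ) (t : ℝ)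
    (η : Set (Sym2 V)) : ℝ :=
  |pe G (RR G L t) (pic G (lhat G η L) k) e - pe G (RR G L t) η e|

theorem pe_pic_dep {G : SimpleGraph V} {L L' : Sym2 V → ℝ × ℝ} {η η' : Set (Sym2 V)} {t : ℝ}
    (h : Agree G L L' t) (hη : η ∩ RR G L t = η' ∩ RR G L t) (k : ℕ) (e : Sym2 V) :
    pe G (RR G L t) (pic G (lhat G η L) k) e =
      pe G (RR G L' t) (pic G (lhat G η' L') k) e := by
  rw [← h.RR_eq]
  exact pe_congr (pic_lhat_dep h hη k) e

theorem pe_dep {G : SimpleGraph V} {L L' : Sym2 V → ℝ × ℝ} {η η' : Set (Sym2 V)} {t : ℝ}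
    (h : Agree G L L' t) (hη : η ∩ RR G L t = η' ∩ RR G L t) (e : Sym2 V) :
    pe G (RR G L t) η e = pe G (RR G L' t) η' e := by
  rw [← h.RR_eq]
  exact pe_congr hη e

theorem pdiff_dep {G : SimpleGraph V} {L L' : Sym2 V → ℝ × ℝ} {η η' : Set (Sym2 V)} {t : ℝ}
    (h : Agree G L L' t) (hη : η ∩ RR G L t = η' ∩ RR G L t) (k : ℕ) (e : Sym2 V) :
    pdiff G k e L t η = pdiff G k e L' t η' := by
  unfold pdiff
  rw [pe_pic_dep h hη k e, pe_dep h hη e]

theorem agree_refl (G : SimpleGraph V) (L : Sym2 V → ℝ × ℝ) (t : ℝ) : Agree G L L t :=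
  fun _ _ _ => rfl

section meas

variable [Countable V] {Ω : Type*} [MeasurableSpace Ω] {Gf : Ω → SimpleGraph V}
  {Lf : Ω → Sym2 V → ℝ × ℝ} {ηf : Ω → Set (Sym2 V)} {tf : Ω → ℝ}

theorem measurable_pe_pic (hG : Measurable Gf) (hL : Measurable Lf) (hη : Measurable ηf)
    (ht : Measurable tf) (k : ℕ) (e : Sym2 V) :
    Measurable fun ω => pe (Gf ω) (RR (Gf ω) (Lf ω) (tf ω))
      (pic (Gf ω) (lhat (Gf ω) (ηf ω) (Lf ω)) k) e :=
  measurable_pe hG (measurable_RR hG hL ht) (measurable_pic hG (measurable_lhat hG hη hL) k) e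

theorem measurable_pe_RR (hG : Measurable Gf) (hL : Measurable Lf) (hη : Measurable ηf)
    (ht : Measurable tf) (e : Sym2 V) :
    Measurable fun ω => pe (Gf ω) (RR (Gf ω) (Lf ω) (tf ω)) (ηf ω) e :=
  measurable_pe hG (measurable_RR hG hL ht) hη e

theorem measurable_pdiff (hG : Measurable Gf) (hL : Measurable Lf) (hη : Measurable ηf)
    (ht : Measurable tf) (k : ℕ) (e : Sym2 V) :
    Measurable fun ω => pdiff (Gf ω) k e (Lf ω) (tf ω) (ηf ω) := by
  unfold pdiff
  have h := (measurable_pe_pic hG hL hη ht k e).sub (measurable_pe_RR hG hL hη ht e)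
  exact continuous_abs.measurable.comp h

end meas

variable [Countable V] {G : SimpleGraph V} {μ : Measure (Set (Sym2 V))}

/-- a.s. the forest is recovered from the marks -/
theorem ae_recover (hμ : IsCP G μ) (e : Sym2 V)
    (hF : ∀ᵐ L ∂(labE V), CPinf G μ (RR G L (tm G L e)) e) :
    ∀ᵐ L ∂(labE V), ∀ᵐ η ∂μ,
      (e ∈ η ↔ (lhat G η L e).2 < pe G (RR G L (tm G L e)) η e) := by
  have i1 := hμ.prob
  have := isProb_lab
  have i2 := isProb_exp
  have i3 := isProb_unif
  have hz : ∀ᵐ L ∂(labE V), (L e).2 ∈ Set.Ioo (0 : ℝ) 1 := by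
    have h1 : (labE V).map (fun L => L e) = lab :=
      (measurePreserving_eval_infinitePi (fun _ : Sym2 V => lab) e).map_eq
    have h2 : ∀ᵐ x ∂lab, x.2 ∈ Set.Ioo (0 : ℝ) 1 := by
      unfold lab
      have h3 : ∀ᵐ z ∂((volume : Measure ℝ).restrict (Set.Ioo 0 1)), z ∈ Set.Ioo (0 : ℝ) 1 :=
        ae_restrict_mem measurableSet_Ioo
      exact Measure.quasiMeasurePreserving_snd.ae h3
    rw [← h1] at h2
    exact ae_of_ae_map (measurable_pi_apply e).aemeasurable h2
  filter_upwards [hF, hz] with L hL hzL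
  set R := RR G L (tm G L e) with hR
  have hpm : Measurable fun η : Set (Sym2 V) => pe G R η e :=
    measurable_pe measurable_const measurable_const measurable_id e
  have hnull : ∀ᵐ η ∂μ, e ∈ η → pe G R η e ≠ 0 := by
    have h1 := hL.lint (f := fun η => {η : Set (Sym2 V) | pe G R η e = 0}.indicator 1 η)
      (measurable_one.indicator (measurableSet_eq_fun hpm measurable_const)) (by
        intro η
        by_cases h : pe G R η e = 0
        · rw [Set.indicator_of_mem (show η ∈ {η : Set (Sym2 V) | pe G R η e = 0} from h),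
            Set.indicator_of_mem (by
              change pe G R (η ∩ R) e = 0
              rwa [pe_inter])]
          rfl
        · rw [Set.indicator_of_notMem (show η ∉ {η : Set (Sym2 V) | pe G R η e = 0} from h),
            Set.indicator_of_notMem (by
              change ¬ pe G R (η ∩ R) e = 0
              rwa [pe_inter])])
    have h2 : ∀ η : Set (Sym2 V), ENNReal.ofReal (pe G R η e) *
        {η : Set (Sym2 V) | pe G R η e = 0}.indicator 1 η = 0 := by
      intro η
      by_cases h : pe G R η e = 0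
      · rw [h]; simp
      · rw [Set.indicator_of_notMem (show η ∉ {η : Set (Sym2 V) | pe G R η e = 0} from h),
          mul_zero]
    simp only [h2, lintegral_zero] at h1
    have hms : MeasurableSet {η : Set (Sym2 V) | pe G R η e = 0} :=
      measurableSet_eq_fun hpm measurable_const
    rw [lintegral_indicator_one hms, Measure.restrict_apply hms] at h1
    rw [ae_iff]
    convert h1 using 2
    ext η
    simp only [ne_eq, Classical.not_imp, not_not, Set.mem_ofPred_eq, Set.mem_inter_iff]
    tauto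
  filter_upwards [hnull] with η hη
  change e ∈ η ↔ vv (e ∈ η) (pe G R η e) (L e).2 < pe G R η e
  unfold vv
  by_cases h : e ∈ η
  · have h1 := hη h
    have h2 : 0 < pe G R η e := lt_of_le_of_ne (pe_nonneg _ _ _ _) (Ne.symm h1)
    simp only [h, if_true, true_iff]
    nlinarith [hzL.2]
  · simp only [h, if_false, false_iff, not_lt]
    have h3 := pe_le_one G R η e
    nlinarith [hzL.1]

/-- the function to which the resampling identity is applied -/
noncomputable def hfun (G : SimpleGraph V) (k : ℕ) (e : Sym2 V) (T : ℝ) (L : Sym2 V → ℝ × ℝ)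
    (η : Set (Sym2 V)) (v : ℝ) : ℝ≥0∞ :=
  {v : ℝ | tm G L e < T ∧
    ¬ (v < pe G (RR G L (tm G L e)) (pic G (lhat G η L) k) e ↔
      v < pe G (RR G L (tm G L e)) η e)}.indicator 1 v

theorem measurable_hfun (k : ℕ) (e : Sym2 V) (T : ℝ) :
    Measurable fun q : (Sym2 V → ℝ × ℝ) × Set (Sym2 V) × ℝ => hfun G k e T q.1 q.2.1 q.2.2 := by
  have htm : Measurable fun q : (Sym2 V → ℝ × ℝ) × Set (Sym2 V) × ℝ => tm G q.1 e :=
    measurable_tm measurable_const measurable_fst e
  have h1 : Measurable fun q : (Sym2 V → ℝ × ℝ) × Set (Sym2 V) × ℝ =>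
      pe G (RR G q.1 (tm G q.1 e)) (pic G (lhat G q.2.1 q.1) k) e :=
    measurable_pe_pic measurable_const measurable_fst (measurable_fst.comp measurable_snd) htm k e
  have h2 : Measurable fun q : (Sym2 V → ℝ × ℝ) × Set (Sym2 V) × ℝ =>
      pe G (RR G q.1 (tm G q.1 e)) q.2.1 e :=
    measurable_pe_RR measurable_const measurable_fst (measurable_fst.comp measurable_snd) htm e
  have h3 : Measurable fun q : (Sym2 V → ℝ × ℝ) × Set (Sym2 V) × ℝ => q.2.2 :=
    measurable_snd.comp measurable_snd
  have hset : MeasurableSet {q : (Sym2 V → ℝ × ℝ) × Set (Sym2 V) × ℝ | tm G q.1 e < T ∧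
      ¬ (q.2.2 < pe G (RR G q.1 (tm G q.1 e)) (pic G (lhat G q.2.1 q.1) k) e ↔
      q.2.2 < pe G (RR G q.1 (tm G q.1 e)) q.2.1 e)} := by
    rw [measurableSet_setOfPred]
    refine Measurable.and ?_ (Measurable.not (Measurable.iff ?_ ?_))
    · exact measurableSet_setOfPred.1 (measurableSet_lt htm measurable_const)
    · exact measurableSet_setOfPred.1 (measurableSet_lt h3 h1)
    · exact measurableSet_setOfPred.1 (measurableSet_lt h3 h2)
  have : (fun q : (Sym2 V → ℝ × ℝ) × Set (Sym2 V) × ℝ => hfun G k e T q.1 q.2.1 q.2.2) =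
      {q : (Sym2 V → ℝ × ℝ) × Set (Sym2 V) × ℝ | tm G q.1 e < T ∧
      ¬ (q.2.2 < pe G (RR G q.1 (tm G q.1 e)) (pic G (lhat G q.2.1 q.1) k) e ↔
      q.2.2 < pe G (RR G q.1 (tm G q.1 e)) q.2.1 e)}.indicator 1 := by
    funext q
    rfl
  rw [this]
  exact measurable_one.indicator hset

omit [Countable V] in
theorem volume_between (a b : ℝ) :
    volume {v : ℝ | ¬ (v < a ↔ v < b)} ≤ ENNReal.ofReal |a - b| := by
  have h : {v : ℝ | ¬ (v < a ↔ v < b)} ⊆ Set.Icc (min a b) (max a b) := by
    intro v hv
    simp only [Set.mem_ofPred_eq, not_iff] at hv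
    simp only [Set.mem_Icc, min_le_iff, le_max_iff]
    by_cases h1 : v < a
    · have h2 : ¬ v < b := fun h2 => (hv.2 h2) h1
      rw [not_lt] at h2
      exact ⟨Or.inr h2, Or.inl h1.le⟩
    · have h2 : v < b := hv.1 h1
      rw [not_lt] at h1
      exact ⟨Or.inl h1, Or.inr h2.le⟩
  refine (measure_mono h).trans (le_of_eq ?_)
  rw [Real.volume_Icc, max_sub_min_eq_abs']

omit [Countable V] in
theorem lint_hfun_le (k : ℕ) (e : Sym2 V) (T : ℝ) (L : Sym2 V → ℝ × ℝ) (η : Set (Sym2 V)) :
    ∫⁻ v in Set.Ioo (0 : ℝ) 1, hfun G k e T L η v ≤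
      {L | tm G L e < T}.indicator
        (fun L => ENNReal.ofReal (pdiff G k e L (tm G L e) η)) L := by
  by_cases h : tm G L e < T
  · rw [Set.indicator_of_mem (show L ∈ {L | tm G L e < T} from h)]
    unfold pdiff
    refine le_trans ?_ (volume_between _ _)
    calc ∫⁻ v in Set.Ioo (0 : ℝ) 1, hfun G k e T L η v ≤ ∫⁻ v, hfun G k e T L η v :=
          setLIntegral_le_lintegral _ _
      _ ≤ ∫⁻ v, {v : ℝ | ¬ (v < pe G (RR G L (tm G L e)) (pic G (lhat G η L) k) e ↔
          v < pe G (RR G L (tm G L e)) η e)}.indicator 1 v := by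
          apply lintegral_mono
          intro v
          unfold hfun
          apply Set.indicator_le_indicator_of_subset
          · intro v hv; exact hv.2
          · intro _; exact bot_le
      _ ≤ _ := lintegral_indicator_one_le _
  · have h0 : ∀ v, hfun G k e T L η v = 0 := by
      intro v
      unfold hfun
      apply Set.indicator_of_notMem
      intro hv
      exact h hv.1
    simp [h0]

/-- first step: the probability that the iteration and the forest disagree at `e` -/
theorem step_one (hμ : IsCP G μ) (k : ℕ) (e : Sym2 V) (T : ℝ)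
    (hF : ∀ᵐ L ∂(labE V), CPinf G μ (RR G L (tm G L e)) e) :
    ∫⁻ L, ∫⁻ η, {η : Set (Sym2 V) | e ∈ RR G L T ∧
        e ∈ symmDiff (pic G (lhat G η L) (k + 1)) η}.indicator 1 η ∂μ ∂(labE V) ≤
      ∫⁻ L, {L | tm G L e < T}.indicator
        (fun L => ∫⁻ η, ENNReal.ofReal (pdiff G k e L (tm G L e) η) ∂μ) L ∂(labE V) := by
  classical
  have i1 := hμ.prob
  have key := lint_lhat hμ e hF (h := hfun G k e T) (measurable_hfun k e T)
    (by
      intro L η v
      have h1 : η ∩ RR G L (tm G L e) = (η ∩ RR G L (tm G L e)) ∩ RR G L (tm G L e) := by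
        rw [Set.inter_assoc, Set.inter_self]
      unfold hfun
      rw [← pe_pic_dep (agree_refl G L _) h1 k e, ← pe_dep (agree_refl G L _) h1 e])
    (by
      intro L η v z
      unfold hfun
      have htm : tm G (Function.update L e ((L e).1, z)) e = tm G L e := tm_update_snd G L e z e
      have hag : Agree G L (Function.update L e ((L e).1, z)) (tm G L e) :=
        agree_update le_rfl le_rfl
      rw [htm, ← pe_pic_dep hag (η := η) (η' := η) rfl k e,
        ← pe_dep hag (η := η) (η' := η) rfl e])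
  calc ∫⁻ L, ∫⁻ η, {η : Set (Sym2 V) | e ∈ RR G L T ∧
        e ∈ symmDiff (pic G (lhat G η L) (k + 1)) η}.indicator 1 η ∂μ ∂(labE V)
      ≤ ∫⁻ L, ∫⁻ η, hfun G k e T L η (lhat G η L e).2 ∂μ ∂(labE V) := by
        apply lintegral_mono_ae
        filter_upwards [ae_recover hμ e hF] with L hL
        apply lintegral_mono_ae
        filter_upwards [hL] with η hη
        by_cases h : e ∈ RR G L T ∧ e ∈ symmDiff (pic G (lhat G η L) (k + 1)) η
        · have h1 : (lhat G η L e).2 ∈ {v : ℝ | tm G L e < T ∧
              ¬ (v < pe G (RR G L (tm G L e)) (pic G (lhat G η L) k) e ↔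
              v < pe G (RR G L (tm G L e)) η e)} := by
            refine ⟨h.1.2, ?_⟩
            rw [← hη]
            intro h2
            have h3 : e ∈ pic G (lhat G η L) (k + 1) ↔ e ∈ η := by
              rw [mem_pic_succ, tm_lhat, RR_lhat]
              constructor
              · intro h4; exact h2.1 h4.2
              · intro h4; exact ⟨h.1.1, h2.2 h4⟩
            rcases h.2 with h4 | h4
            · exact h4.2 (h3.1 h4.1)
            · exact h4.2 (h3.2 h4.1)
          unfold hfun
          rw [Set.indicator_of_mem h1]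
          exact Set.indicator_le_self' (fun _ _ => bot_le) _
        · rw [Set.indicator_of_notMem (show η ∉ {η : Set (Sym2 V) | e ∈ RR G L T ∧
            e ∈ symmDiff (pic G (lhat G η L) (k + 1)) η} from h)]
          exact bot_le
    _ = ∫⁻ L, ∫⁻ η, (∫⁻ v in Set.Ioo (0 : ℝ) 1, hfun G k e T L η v) ∂μ ∂(labE V) := key
    _ ≤ _ := by
        apply lintegral_mono
        intro L
        calc ∫⁻ η, (∫⁻ v in Set.Ioo (0 : ℝ) 1, hfun G k e T L η v) ∂μ
            ≤ ∫⁻ η, {L | tm G L e < T}.indicator
              (fun L => ENNReal.ofReal (pdiff G k e L (tm G L e) η)) L ∂μ :=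
              lintegral_mono fun η => lint_hfun_le k e T L η
          _ ≤ _ := by
              by_cases h : tm G L e < T
              · simp only [Set.indicator_of_mem (show L ∈ {L | tm G L e < T} from h)]
                exact le_rfl
              · simp only [Set.indicator_of_notMem (show L ∉ {L | tm G L e < T} from h)]
                simp

/-- second step: the hazard inequality -/
theorem step_two [IsProbabilityMeasure μ] (k : ℕ) (e : Sym2 V) (T : ℝ) :
    ∫⁻ L, {L | tm G L e < T}.indicator
        (fun L => ∫⁻ η, ENNReal.ofReal (pdiff G k e L (tm G L e) η) ∂μ) L ∂(labE V) ≤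
      ∫⁻ t in Set.Ico (0 : ℝ) T,
        (∫⁻ L, ∫⁻ η, ENNReal.ofReal (pdiff G k e L t η) ∂μ ∂(labE V)) := by
  classical
  have hm0 : Measurable fun q : ((Sym2 V → ℝ × ℝ) × ℝ) × Set (Sym2 V) =>
      ENNReal.ofReal (pdiff G k e q.1.1 q.1.2 q.2) :=
    (measurable_pdiff measurable_const (measurable_fst.comp measurable_fst) measurable_snd
      (measurable_snd.comp measurable_fst) k e).ennreal_ofReal
  have hm1 : Measurable fun q : (Sym2 V → ℝ × ℝ) × ℝ =>
      ∫⁻ η, ENNReal.ofReal (pdiff G k e q.1 q.2 η) ∂μ := hm0.lintegral_prod_right'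
  have hK : Measurable (Function.uncurry fun (L : Sym2 V → ℝ × ℝ) (t : ℝ) =>
      (Set.Iio T).indicator (fun t => ∫⁻ η, ENNReal.ofReal (pdiff G k e L t η) ∂μ) t) := by
    have : (Function.uncurry fun (L : Sym2 V → ℝ × ℝ) (t : ℝ) =>
      (Set.Iio T).indicator (fun t => ∫⁻ η, ENNReal.ofReal (pdiff G k e L t η) ∂μ) t) =
      (Prod.snd ⁻¹' (Set.Iio T)).indicator (fun q : (Sym2 V → ℝ × ℝ) × ℝ =>
      ∫⁻ η, ENNReal.ofReal (pdiff G k e q.1 q.2 η) ∂μ) := by
      funext q
      rfl
    rw [this]
    exact hm1.indicator (measurable_snd measurableSet_Iio)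
  have h := hazard G e hK (by
    intro L t x h1 h2
    by_cases ht : t ∈ Set.Iio T
    · simp only [Set.indicator_of_mem ht]
      apply lintegral_congr
      intro η
      rw [pdiff_dep (agree_update h1 h2) (η := η) (η' := η) rfl k e]
    · simp only [Set.indicator_of_notMem ht])
  refine le_trans (le_of_eq ?_) (h.trans ?_)
  · apply lintegral_congr
    intro L
    by_cases hL : tm G L e < T
    · rw [Set.indicator_of_mem (show L ∈ {L | tm G L e < T} from hL),
        Set.indicator_of_mem (show tm G L e ∈ Set.Iio T from hL)]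
    · rw [Set.indicator_of_notMem (show L ∉ {L | tm G L e < T} from hL),
        Set.indicator_of_notMem (show tm G L e ∉ Set.Iio T from hL)]
  · rw [← lintegral_indicator measurableSet_Ici, ← lintegral_indicator measurableSet_Ico]
    apply lintegral_mono
    intro t
    simp only
    by_cases h1 : t ∈ Set.Ici (0 : ℝ)
    · rw [Set.indicator_of_mem h1]
      by_cases h2 : t ∈ Set.Iio T
      · rw [Set.indicator_of_mem (show t ∈ Set.Ico 0 T from ⟨h1, h2⟩)]
        apply lintegral_mono
        intro L
        refine (Set.indicator_le_self' (fun _ _ => bot_le) _).trans ?_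
        simp only [Set.indicator_of_mem h2]
        exact le_rfl
      · simp only [Set.indicator_of_notMem h2]
        refine le_trans (le_of_eq ?_) bot_le
        simp
    · rw [Set.indicator_of_notMem h1]
      exact bot_le

end Vale.Agent.P143
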