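import Vale.Agent.P143.Gronwall

/-!
# Convergence of the Picard iteration to the forest
-/

open MeasureTheory Filter Topology ProbabilityTheory
open scoped unitInterval ENNReal

namespace Vale.Agent.P143

universe u

variable {V : Type u}

/-- Picard iteration on the extended space -/
noncomputable def pk (k : ℕ) (ω : Ext V) : Set (Sym2 V) := pic ω.1 (lhat ω.1 ω.2.1 ω.2.2) k

/-- edges arrived before `T` at which the iteration and the forest disagree -/
noncomputable def errSet (k : ℕ) (T : ℝ) (ω : Ext V) : Set (V × V) :=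
  idx (RR ω.1 ω.2.2 T ∩ symmDiff (pk k ω) ω.2.1)

theorem mem_errSet {k : ℕ} {T : ℝ} {ω : Ext V} {x y : V} :
    (x, y) ∈ errSet k T ω ↔ s(x, y) ∈ RR ω.1 ω.2.2 T ∧ s(x, y) ∈ symmDiff (pk k ω) ω.2.1 :=
  Iff.rfl

theorem pk_act (k : ℕ) (g : Equiv.Perm V) (ω : Ext V) : pk k (actE g ω) = permE g (pk k ω) := by
  unfold pk
  change pic (permG g ω.1) (lhat (permG g ω.1) (permE g ω.2.1) (permL g ω.2.2)) k = _
  rw [lhat_perm, pic_perm]

variable [Countable V]

theorem measurable_pk (k : ℕ) : Measurable (pk k : Ext V → Set (Sym2 V)) :=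
  measurable_pic measurable_fst (measurable_lhat measurable_fst
    (measurable_fst.comp measurable_snd) (measurable_snd.comp measurable_snd)) k

theorem goodSet_Tpk {𝒮 : Set (Equiv.Perm V)} (k : ℕ) (t : ℝ) :
    GoodSet 𝒮 actE (fun ω : Ext V => idx (RR ω.1 ω.2.2 t \ pk k ω)) := by
  have hR : Measurable fun ω : Ext V => RR ω.1 ω.2.2 t :=
    measurable_RR measurable_fst (measurable_snd.comp measurable_snd) measurable_const
  refine goodSet_idx (measurable_sdiff' hR (measurable_pk k)) ?_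
  intro g _ ω
  rw [pk_act]
  change RR (permG g ω.1) (permL g ω.2.2) t \ permE g (pk k ω) = _
  rw [RR_perm, permE_sdiff]

theorem measurable_mem_errSet (k : ℕ) (T : ℝ) (i : V × V) :
    Measurable fun ω : Ext V => i ∈ errSet k T ω := by
  have hR : Measurable fun ω : Ext V => RR ω.1 ω.2.2 T :=
    measurable_RR measurable_fst (measurable_snd.comp measurable_snd) measurable_const
  have hη : Measurable fun ω : Ext V => ω.2.1 := measurable_fst.comp measurable_snd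
  unfold errSet idx
  refine Measurable.and ?_ (Measurable.or (Measurable.and ?_ (Measurable.not ?_))
    (Measurable.and ?_ (Measurable.not ?_)))
  · exact measurable_set_iff.1 hR _
  · exact measurable_set_iff.1 (measurable_pk k) _
  · exact measurable_set_iff.1 hη _
  · exact measurable_set_iff.1 hη _
  · exact measurable_set_iff.1 (measurable_pk k) _

theorem measurable_err_ind (k : ℕ) (T : ℝ) (i : V × V) :
    Measurable fun ω : Ext V => (errSet k T ω).indicator (1 : V × V → ℝ≥0∞) i := by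
  have h2 : (fun ω : Ext V => (errSet k T ω).indicator (1 : V × V → ℝ≥0∞) i) =
      {ω : Ext V | i ∈ errSet k T ω}.indicator 1 := by
    funext ω
    by_cases h : i ∈ errSet k T ω
    · rw [Set.indicator_of_mem h, Set.indicator_of_mem
        (show ω ∈ {ω : Ext V | i ∈ errSet k T ω} from h)]; rfl
    · rw [Set.indicator_of_notMem h, Set.indicator_of_notMem
        (show ω ∉ {ω : Ext V | i ∈ errSet k T ω} from h)]
  rw [h2]
  exact measurable_one.indicator (measurableSet_setOfPred.2 (measurable_mem_errSet k T i))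

variable [MeasurableSpace V] [DiscreteMeasurableSpace V]
  {P : Measure (SimpleGraph V × V)} {κ : Kernel (SimpleGraph V) (Set (Sym2 V))}
  [IsMarkovKernel κ] {𝒮 : Set (Equiv.Perm V)}

/-- expected number of disagreements at the root -/
noncomputable def DD (P : Measure (SimpleGraph V × V))
    (κ : Kernel (SimpleGraph V) (Set (Sym2 V))) (k : ℕ) (T : ℝ) : ℝ≥0∞ :=
  ∫⁻ p, ∑' y, (errSet k T p.1).indicator 1 (p.2, y) ∂(Phat P κ)

theorem lintegral_Phat_tsum' [IsProbabilityMeasure P] {f : Ext V → V × V → ℝ≥0∞}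
    (hf : ∀ i, Measurable fun ω => f ω i) :
    ∫⁻ p, ∑' y, f p.1 (p.2, y) ∂(Phat P κ) =
      ∫⁻ p, ∑' y, ∫⁻ L, ∫⁻ η, f (p.1, (η, L)) (p.2, y) ∂(κ p.1) ∂(labE V) ∂P := by
  rw [lintegral_Phat_tsum hf]
  apply lintegral_congr
  intro p
  rw [lintegral_tsum]
  intro y
  apply Measurable.aemeasurable
  have h1 : Measurable fun q : (Sym2 V → ℝ × ℝ) × Set (Sym2 V) =>
      f (p.1, (q.2, q.1)) (p.2, y) :=
    (hf (p.2, y)).comp (measurable_const.prodMk (measurable_snd.prodMk measurable_fst))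
  exact h1.lintegral_prod_right'

omit [Countable V] [MeasurableSpace V] [DiscreteMeasurableSpace V] in
theorem ofReal_pdiff_le (G : SimpleGraph V) (k : ℕ) (a b : V) (L : Sym2 V → ℝ × ℝ) (t : ℝ)
    (η : Set (Sym2 V)) :
    ENNReal.ofReal (pdiff G k s(a, b) L t η) ≤
      2 * ENNReal.ofReal |qq (condSub (dia G) (idx (RR G L t))
        (idx (RR G L t \ pic G (lhat G η L) k))) (a, b) -
        qq (condSub (dia G) (idx (RR G L t)) (idx (RR G L t \ η))) (a, b)| := by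
  unfold pdiff
  by_cases h : s(a, b) ∈ G.edgeSet
  · rw [pe_mk, pe_mk]
    unfold pei
    rw [if_pos h, if_pos h]
    have e1 : (2 : ℝ≥0∞) = ENNReal.ofReal 2 := by norm_num
    rw [e1, ← ENNReal.ofReal_mul (by norm_num)]
    apply ENNReal.ofReal_le_ofReal
    rw [show ∀ x y : ℝ, 1 - 2 * x - (1 - 2 * y) = 2 * (y - x) by intro x y; ring, abs_mul,
      abs_of_pos (by norm_num : (0 : ℝ) < 2), abs_sub_comm]
  · rw [pe_of_notMem h, pe_of_notMem h]
    simp

/-- the trace bound applied at the time `t` -/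
theorem trace_at [IsProbabilityMeasure P] (hM : MTP 𝒮 actE (Phat P κ)) (k : ℕ) (t : ℝ) :
    ∫⁻ p, ∑' y, ENNReal.ofReal (pdiff p.1.1 k s(p.2, y) p.1.2.2 t p.1.2.1) ∂(Phat P κ) ≤
      2 * DD P κ k t := by
  have h := trace_bound hM (X := fun ω : Ext V => dia ω.1) (R := fun ω => idx (RR ω.1 ω.2.2 t))
    (T := fun ω => idx (RR ω.1 ω.2.2 t \ pk k ω)) (T' := fun ω => idx (RR ω.1 ω.2.2 t \ ω.2.1))
    goodOp_X (fun ω => isClosed_dia _) (goodSet_R t) (goodSet_Tpk k t) (goodSet_T t)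
  have hset : ∀ ω : Ext V, symmDiff (idx (RR ω.1 ω.2.2 t \ pk k ω))
      (idx (RR ω.1 ω.2.2 t \ ω.2.1)) = errSet k t ω := by
    intro ω
    ext i
    simp only [Set.mem_symmDiff]
    change ((s(i.1, i.2) ∈ RR ω.1 ω.2.2 t ∧ s(i.1, i.2) ∉ pk k ω) ∧
      ¬ (s(i.1, i.2) ∈ RR ω.1 ω.2.2 t ∧ s(i.1, i.2) ∉ ω.2.1) ∨
      (s(i.1, i.2) ∈ RR ω.1 ω.2.2 t ∧ s(i.1, i.2) ∉ ω.2.1) ∧
      ¬ (s(i.1, i.2) ∈ RR ω.1 ω.2.2 t ∧ s(i.1, i.2) ∉ pk k ω)) ↔
      (s(i.1, i.2) ∈ RR ω.1 ω.2.2 t ∧ (s(i.1, i.2) ∈ pk k ω ∧ s(i.1, i.2) ∉ ω.2.1 ∨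
      s(i.1, i.2) ∈ ω.2.1 ∧ s(i.1, i.2) ∉ pk k ω))
    tauto
  simp only [hset] at h
  unfold DD
  have hm : Measurable fun p : Ext V × V => ∑' y,
      (errSet k t p.1).indicator (1 : V × V → ℝ≥0∞) (p.2, y) :=
    meas_prod (f := fun ω v => ∑' y, (errSet k t ω).indicator (1 : V × V → ℝ≥0∞) (v, y))
      fun v => Measurable.ennreal_tsum fun y => measurable_err_ind k t (v, y)
  calc ∫⁻ p, ∑' y, ENNReal.ofReal (pdiff p.1.1 k s(p.2, y) p.1.2.2 t p.1.2.1) ∂(Phat P κ)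
      ≤ ∫⁻ p, 2 * ∑' y, ENNReal.ofReal |qq (condSub (dia p.1.1) (idx (RR p.1.1 p.1.2.2 t))
        (idx (RR p.1.1 p.1.2.2 t \ pk k p.1))) (p.2, y) -
        qq (condSub (dia p.1.1) (idx (RR p.1.1 p.1.2.2 t))
          (idx (RR p.1.1 p.1.2.2 t \ p.1.2.1))) (p.2, y)| ∂(Phat P κ) := by
        apply lintegral_mono
        intro p
        simp only
        rw [← ENNReal.tsum_mul_left]
        exact ENNReal.tsum_le_tsum fun y => ofReal_pdiff_le _ _ _ _ _ _ _
    _ = 2 * ∫⁻ p, ∑' y, ENNReal.ofReal |qq (condSub (dia p.1.1) (idx (RR p.1.1 p.1.2.2 t))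
        (idx (RR p.1.1 p.1.2.2 t \ pk k p.1))) (p.2, y) -
        qq (condSub (dia p.1.1) (idx (RR p.1.1 p.1.2.2 t))
          (idx (RR p.1.1 p.1.2.2 t \ p.1.2.1))) (p.2, y)| ∂(Phat P κ) :=
        lintegral_const_mul' _ _ (by norm_num)
    _ ≤ 2 * ∫⁻ p, ∑' y, (errSet k t p.1).indicator 1 (p.2, y) ∂(Phat P κ) := by
        gcongr

/-- expected difference of the conditional probabilities at time `t` -/
noncomputable def FF (κ : Kernel (SimpleGraph V) (Set (Sym2 V))) (k : ℕ)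
    (p : SimpleGraph V × V) (y : V) (t : ℝ) : ℝ≥0∞ :=
  ∫⁻ L, ∫⁻ η, ENNReal.ofReal (pdiff p.1 k s(p.2, y) L t η) ∂(κ p.1) ∂(labE V)

theorem measurable_FF1 (k : ℕ) (y : V) :
    Measurable fun q : (((SimpleGraph V × V) × ℝ) × (Sym2 V → ℝ × ℝ)) ×
      Set (Sym2 V) => ENNReal.ofReal
        (pdiff q.1.1.1.1 k s(q.1.1.1.2, y) q.1.2 q.1.1.2 q.2) := by
  have h1 : Measurable fun r : (SimpleGraph V × ℝ × (Sym2 V → ℝ × ℝ) × Set (Sym2 V)) × V =>
      ENNReal.ofReal (pdiff r.1.1 k s(r.2, y) r.1.2.2.1 r.1.2.1 r.1.2.2.2) := by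
    refine meas_prod (f := fun (ω : SimpleGraph V × ℝ × (Sym2 V → ℝ × ℝ) × Set (Sym2 V)) v =>
      ENNReal.ofReal (pdiff ω.1 k s(v, y) ω.2.2.1 ω.2.1 ω.2.2.2)) ?_
    intro v
    exact (measurable_pdiff measurable_fst
      (measurable_fst.comp (measurable_snd.comp measurable_snd))
      (measurable_snd.comp (measurable_snd.comp measurable_snd))
      (measurable_fst.comp measurable_snd) k s(v, y)).ennreal_ofReal
  have h2 : Measurable fun q : (((SimpleGraph V × V) × ℝ) × (Sym2 V → ℝ × ℝ)) ×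
      Set (Sym2 V) => (((q.1.1.1.1, q.1.1.2, q.1.2, q.2), q.1.1.1.2) :
        (SimpleGraph V × ℝ × (Sym2 V → ℝ × ℝ) × Set (Sym2 V)) × V) := by fun_prop
  have h := h1.comp h2
  simp only [Function.comp_def] at h
  exact h

theorem measurable_FF2 (k : ℕ) (y : V) :
    Measurable fun q : ((SimpleGraph V × V) × ℝ) × (Sym2 V → ℝ × ℝ) =>
      ∫⁻ η, ENNReal.ofReal (pdiff q.1.1.1 k s(q.1.1.2, y) q.2 q.1.2 η) ∂(κ q.1.1.1) := by
  have h := Measurable.lintegral_kernel_prod_right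
    (κ := κ.comap (fun q : ((SimpleGraph V × V) × ℝ) × (Sym2 V → ℝ × ℝ) => q.1.1.1)
      (measurable_fst.comp (measurable_fst.comp measurable_fst)))
    (f := fun q η => ENNReal.ofReal (pdiff q.1.1.1 k s(q.1.1.2, y) q.2 q.1.2 η))
    (measurable_FF1 k y)
  simpa only [Kernel.comap_apply] using h

theorem measurable_FF (k : ℕ) (y : V) :
    Measurable fun q : (SimpleGraph V × V) × ℝ => FF κ k q.1 y q.2 :=
  (measurable_FF2 (κ := κ) k y).lintegral_prod_right'

omit [DiscreteMeasurableSpace V] [IsMarkovKernel κ] in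
theorem fubini_step [SFinite P] {F : SimpleGraph V × V → V → ℝ → ℝ≥0∞}
    (hF : ∀ y, Measurable fun q : (SimpleGraph V × V) × ℝ => F q.1 y q.2) (T : ℝ) :
    ∫⁻ p, ∑' y, (∫⁻ t in Set.Ico (0 : ℝ) T, F p y t) ∂P =
      ∫⁻ t in Set.Ico (0 : ℝ) T, (∫⁻ p, ∑' y, F p y t ∂P) := by
  calc ∫⁻ p, ∑' y, (∫⁻ t in Set.Ico (0 : ℝ) T, F p y t) ∂P
      = ∫⁻ p, (∫⁻ t in Set.Ico (0 : ℝ) T, ∑' y, F p y t) ∂P := by
        apply lintegral_congr
        intro p
        rw [lintegral_tsum]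
        intro y
        exact ((hF y).comp (measurable_const.prodMk measurable_id)).aemeasurable
    _ = ∫⁻ t in Set.Ico (0 : ℝ) T, (∫⁻ p, ∑' y, F p y t ∂P) := by
        rw [lintegral_lintegral_swap]
        exact (Measurable.ennreal_tsum hF).aemeasurable

theorem lint_FF [IsProbabilityMeasure P] (k : ℕ) (t : ℝ) :
    ∫⁻ p, ∑' y, FF κ k p y t ∂P =
      ∫⁻ p, ∑' y, ENNReal.ofReal (pdiff p.1.1 k s(p.2, y) p.1.2.2 t p.1.2.1) ∂(Phat P κ) := by
  symm
  refine lintegral_Phat_tsum' (f := fun (ω : Ext V) (i : V × V) =>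
    ENNReal.ofReal (pdiff ω.1 k s(i.1, i.2) ω.2.2 t ω.2.1)) ?_
  intro i
  exact (measurable_pdiff measurable_fst (measurable_snd.comp measurable_snd)
    (measurable_fst.comp measurable_snd) measurable_const k _).ennreal_ofReal

theorem lint_err [IsProbabilityMeasure P] (k : ℕ) (T : ℝ) :
    DD P κ k T = ∫⁻ p, ∑' y, ∫⁻ L, ∫⁻ η, (errSet k T (p.1, (η, L))).indicator 1 (p.2, y)
        ∂(κ p.1) ∂(labE V) ∂P := lintegral_Phat_tsum' (measurable_err_ind k T)

theorem err_le_FF {p : SimpleGraph V × V} (hμ : IsCP p.1 (κ p.1)) (k : ℕ) (T : ℝ) (y : V)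
    (hF : ∀ᵐ L ∂(labE V), CPinf p.1 (κ p.1) (RR p.1 L (tm p.1 L s(p.2, y))) s(p.2, y)) :
    ∫⁻ L, ∫⁻ η, (errSet (k + 1) T (p.1, (η, L))).indicator 1 (p.2, y) ∂(κ p.1) ∂(labE V) ≤
      ∫⁻ t in Set.Ico (0 : ℝ) T, FF κ k p y t := by
  have i1 := hμ.prob
  refine le_trans (le_of_eq ?_) ((step_one hμ k s(p.2, y) T hF).trans
    (step_two k s(p.2, y) T))
  apply lintegral_congr
  intro L
  apply lintegral_congr
  intro η
  by_cases h : (p.2, y) ∈ errSet (k + 1) T (p.1, (η, L))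
  · rw [Set.indicator_of_mem h, Set.indicator_of_mem (show η ∈ {η : Set (Sym2 V) |
      s(p.2, y) ∈ RR p.1 L T ∧
      s(p.2, y) ∈ symmDiff (pic p.1 (lhat p.1 η L) (k + 1)) η} from h)]
    rfl
  · rw [Set.indicator_of_notMem h, Set.indicator_of_notMem (show η ∉ {η : Set (Sym2 V) |
      s(p.2, y) ∈ RR p.1 L T ∧
      s(p.2, y) ∈ symmDiff (pic p.1 (lhat p.1 η L) (k + 1)) η} from h)]

/-- Gronwall recursion -/
theorem DD_succ [IsProbabilityMeasure P] (hM : MTP 𝒮 actE (Phat P κ))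
    (hconn : ∀ᵐ p ∂P, p.1.Connected)
    (hκ : ∀ G : SimpleGraph V, G.Connected → IsCP G (κ G))
    (hRT : ∀ᵐ p ∂P, ∀ e, ∀ᵐ L ∂(labE V), CPinf p.1 (κ p.1) (RR p.1 L (tm p.1 L e)) e)
    (k : ℕ) (T : ℝ) :
    DD P κ (k + 1) T ≤ ∫⁻ t in Set.Ico (0 : ℝ) T, 2 * DD P κ k t := by
  calc DD P κ (k + 1) T
      ≤ ∫⁻ p, ∑' y, (∫⁻ t in Set.Ico (0 : ℝ) T, FF κ k p y t) ∂P := by
        rw [lint_err]
        apply lintegral_mono_ae
        filter_upwards [hconn, hRT] with p hp hF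
        exact ENNReal.tsum_le_tsum fun y => err_le_FF (hκ p.1 hp) k T y (hF _)
    _ = ∫⁻ t in Set.Ico (0 : ℝ) T, (∫⁻ p, ∑' y, FF κ k p y t ∂P) :=
        fubini_step (measurable_FF k) T
    _ ≤ ∫⁻ t in Set.Ico (0 : ℝ) T, 2 * DD P κ k t := by
        apply lintegral_mono
        intro t
        exact (le_of_eq (lint_FF k t)).trans (trace_at hM k t)

theorem DD_zero_le [IsProbabilityMeasure P] (hlf : ∀ᵐ p ∂P, ∀ x, (p.1.neighborSet x).Finite)
    {T : ℝ} (hT : 0 ≤ T) : DD P κ 0 T ≤ ENNReal.ofReal T := by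
  refine le_trans ?_ (finite_R (κ := κ) hlf hT)
  apply lintegral_mono
  intro p
  apply ENNReal.tsum_le_tsum
  intro y
  apply Set.indicator_le_indicator_of_subset
  · intro i hi; exact hi.1
  · intro _; exact bot_le

omit [Countable V] [MeasurableSpace V] [DiscreteMeasurableSpace V] in
theorem lintegral_bd (k : ℕ) {T : ℝ} (hT : 0 ≤ T) :
    ∫⁻ t in Set.Ico (0 : ℝ) T, 2 * ENNReal.ofReal (2 ^ k * t ^ (k + 1) / (k + 1).factorial) =
      ENNReal.ofReal (2 ^ (k + 1) * T ^ (k + 2) / (k + 2).factorial) := by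
  have e1 : ∀ t : ℝ, 2 * ENNReal.ofReal (2 ^ k * t ^ (k + 1) / (k + 1).factorial) =
      ENNReal.ofReal (2 ^ (k + 1) / (k + 1).factorial * t ^ (k + 1)) := by
    intro t
    have : (2 : ℝ≥0∞) = ENNReal.ofReal 2 := by norm_num
    rw [this, ← ENNReal.ofReal_mul (by norm_num)]
    congr 1
    ring
  simp only [e1]
  have hcont : Continuous fun t : ℝ => 2 ^ (k + 1) / ((k + 1).factorial : ℝ) * t ^ (k + 1) := by
    fun_prop
  rw [← ofReal_integral_eq_lintegral_ofReal]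
  · congr 1
    rw [integral_Ico_eq_integral_Ioc, ← intervalIntegral.integral_of_le hT,
      intervalIntegral.integral_const_mul, integral_pow]
    have h2 : (((k + 2).factorial : ℕ) : ℝ) = ((k : ℝ) + 2) * ((k + 1).factorial : ℝ) := by
      rw [Nat.factorial_succ (k + 1)]; push_cast; ring
    rw [h2]
    have h3 : ((k + 1).factorial : ℝ) ≠ 0 := by positivity
    have h4 : (k : ℝ) + 2 ≠ 0 := by positivity
    have h5 : ((k + 1 : ℕ) : ℝ) + 1 = (k : ℝ) + 2 := by push_cast; ring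
    rw [h5]
    field_simp
    ring
  · exact (hcont.integrableOn_Icc).mono_set Set.Ico_subset_Icc_self
  · filter_upwards [ae_restrict_mem measurableSet_Ico] with t ht
    have := ht.1
    positivity

theorem DD_le [IsProbabilityMeasure P] (hM : MTP 𝒮 actE (Phat P κ))
    (hconn : ∀ᵐ p ∂P, p.1.Connected) (hlf : ∀ᵐ p ∂P, ∀ x, (p.1.neighborSet x).Finite)
    (hκ : ∀ G : SimpleGraph V, G.Connected → IsCP G (κ G))
    (hRT : ∀ᵐ p ∂P, ∀ e, ∀ᵐ L ∂(labE V), CPinf p.1 (κ p.1) (RR p.1 L (tm p.1 L e)) e)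
    (k : ℕ) {T : ℝ} (hT : 0 ≤ T) :
    DD P κ k T ≤ ENNReal.ofReal (2 ^ k * T ^ (k + 1) / (k + 1).factorial) := by
  induction k generalizing T with
  | zero => simpa using DD_zero_le hlf hT
  | succ k ih =>
    refine (DD_succ hM hconn hκ hRT k T).trans ?_
    rw [← lintegral_bd k hT]
    apply setLIntegral_mono' measurableSet_Ico
    intro t ht
    gcongr
    exact ih ht.1

theorem tsum_DD_lt [IsProbabilityMeasure P] (hM : MTP 𝒮 actE (Phat P κ))
    (hconn : ∀ᵐ p ∂P, p.1.Connected) (hlf : ∀ᵐ p ∂P, ∀ x, (p.1.neighborSet x).Finite)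
    (hκ : ∀ G : SimpleGraph V, G.Connected → IsCP G (κ G))
    (hRT : ∀ᵐ p ∂P, ∀ e, ∀ᵐ L ∂(labE V), CPinf p.1 (κ p.1) (RR p.1 L (tm p.1 L e)) e)
    {T : ℝ} (hT : 0 ≤ T) : ∑' k, DD P κ k T < ⊤ := by
  have hs : Summable fun k : ℕ => 2 ^ k * T ^ (k + 1) / ((k + 1).factorial : ℝ) := by
    have h1 := (Real.summable_pow_div_factorial (2 * T)).mul_left T
    refine Summable.of_nonneg_of_le (fun k => by positivity) (fun k => ?_) h1
    have h2 : ((k.factorial : ℕ) : ℝ) ≤ ((k + 1).factorial : ℕ) := by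
      exact_mod_cast Nat.factorial_le (Nat.le_succ k)
    have h3 : (0 : ℝ) < (k.factorial : ℕ) := by positivity
    calc 2 ^ k * T ^ (k + 1) / ((k + 1).factorial : ℝ)
        ≤ 2 ^ k * T ^ (k + 1) / (k.factorial : ℝ) := by gcongr
      _ = T * ((2 * T) ^ k / (k.factorial : ℝ)) := by rw [mul_pow]; ring
  calc ∑' k, DD P κ k T
      ≤ ∑' k, ENNReal.ofReal (2 ^ k * T ^ (k + 1) / (k + 1).factorial) :=
        ENNReal.tsum_le_tsum fun k => DD_le hM hconn hlf hκ hRT k hT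
    _ = ENNReal.ofReal (∑' k : ℕ, 2 ^ k * T ^ (k + 1) / ((k + 1).factorial : ℝ)) :=
        (ENNReal.ofReal_tsum_of_nonneg (fun k => by positivity) hs).symm
    _ < ⊤ := ENNReal.ofReal_lt_top

/-- at the root the iteration converges to the forest -/
theorem root_conv [IsProbabilityMeasure P] (hM : MTP 𝒮 actE (Phat P κ))
    (hconn : ∀ᵐ p ∂P, p.1.Connected) (hlf : ∀ᵐ p ∂P, ∀ x, (p.1.neighborSet x).Finite)
    (hκ : ∀ G : SimpleGraph V, G.Connected → IsCP G (κ G))
    (hRT : ∀ᵐ p ∂P, ∀ e, ∀ᵐ L ∂(labE V), CPinf p.1 (κ p.1) (RR p.1 L (tm p.1 L e)) e) :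
    ∀ᵐ p ∂(Phat P κ), ∀ y, s(p.2, y) ∈ p.1.1.edgeSet →
      ∀ᶠ k in atTop, (s(p.2, y) ∈ pk k p.1 ↔ s(p.2, y) ∈ p.1.2.1) := by
  have h1 : ∀ n : ℕ, ∀ᵐ p ∂(Phat P κ),
      ∑' k, ∑' y, (errSet k (n : ℝ) p.1).indicator (1 : V × V → ℝ≥0∞) (p.2, y) < ⊤ := by
    intro n
    have hm : ∀ k, Measurable fun p : Ext V × V => ∑' y,
        (errSet k (n : ℝ) p.1).indicator (1 : V × V → ℝ≥0∞) (p.2, y) := fun k =>
      meas_prod (f := fun ω v => ∑' y,
        (errSet k (n : ℝ) ω).indicator (1 : V × V → ℝ≥0∞) (v, y))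
        fun v => Measurable.ennreal_tsum fun y => measurable_err_ind k n (v, y)
    apply ae_lt_top (Measurable.ennreal_tsum hm)
    rw [lintegral_tsum fun k => (hm k).aemeasurable]
    exact (tsum_DD_lt hM hconn hlf hκ hRT (Nat.cast_nonneg n)).ne
  filter_upwards [ae_all_iff.2 h1] with p hp y hy
  obtain ⟨n, hn⟩ := exists_nat_gt (tm p.1.1 p.1.2.2 s(p.2, y))
  have h2 : ∑' k, (errSet k (n : ℝ) p.1).indicator (1 : V × V → ℝ≥0∞) (p.2, y) ≠ ⊤ := by
    refine ne_top_of_le_ne_top (hp n).ne (ENNReal.tsum_le_tsum fun k => ?_)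
    exact ENNReal.le_tsum y
  have h3 := ENNReal.tendsto_atTop_zero_of_tsum_ne_top h2
  have h4 := h3.eventually (eventually_lt_nhds (show (0 : ℝ≥0∞) < 1 by norm_num))
  filter_upwards [h4] with k hk
  have h5 : (p.2, y) ∉ errSet k (n : ℝ) p.1 := by
    intro h6
    rw [Set.indicator_of_mem h6] at hk
    exact absurd hk (by simp)
  rw [mem_errSet] at h5
  have h6 : s(p.2, y) ∈ RR p.1.1 p.1.2.2 n := ⟨hy, hn⟩
  have h7 : ¬ (s(p.2, y) ∈ symmDiff (pk k p.1) p.1.2.1) := fun h => h5 ⟨h6, h⟩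
  rw [Set.mem_symmDiff] at h7
  tauto

/-- the iteration converges to the forest everywhere -/
theorem all_conv [IsProbabilityMeasure P] (hM : MTP 𝒮 actE (Phat P κ))
    (hconn : ∀ᵐ p ∂P, p.1.Connected) (hlf : ∀ᵐ p ∂P, ∀ x, (p.1.neighborSet x).Finite)
    (hκ : ∀ G : SimpleGraph V, G.Connected → IsCP G (κ G))
    (hRT : ∀ᵐ p ∂P, ∀ e, ∀ᵐ L ∂(labE V), CPinf p.1 (κ p.1) (RR p.1 L (tm p.1 L e)) e) :
    ∀ᵐ p ∂P, ∀ᵐ q ∂((κ p.1).prod (labE V)), ph p.1 (lhat p.1 q.1 q.2) = q.1 := by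
  have hη : Measurable fun ω : Ext V => ω.2.1 := measurable_fst.comp measurable_snd
  have hmeas : ∀ x, Measurable fun ω : Ext V => ∀ y, s(x, y) ∈ ω.1.edgeSet →
      ∀ᶠ k in atTop, (s(x, y) ∈ pk k ω ↔ s(x, y) ∈ ω.2.1) := by
    intro x
    refine Measurable.forall fun y => Measurable.imp ?_ ?_
    · exact (measurable_set_iff.1 SimpleGraph.measurable_edgeSet _).comp measurable_fst
    · simp only [eventually_atTop]
      refine Measurable.exists fun n => Measurable.forall fun k =>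
        Measurable.imp measurable_const (Measurable.iff ?_ ?_)
      · exact measurable_set_iff.1 (measurable_pk k) _
      · exact measurable_set_iff.1 hη _
  have hall := hM.all (Pr := fun (ω : Ext V) x => ∀ y, s(x, y) ∈ ω.1.edgeSet →
      ∀ᶠ k in atTop, (s(x, y) ∈ pk k ω ↔ s(x, y) ∈ ω.2.1))
    (fun x => measurableSet_setOfPred.2 (hmeas x)) ?_ (root_conv hM hconn hlf hκ hRT)
  · rw [ae_Phat] at hall
    · filter_upwards [hall, hconn] with p hp hc
      have hsub := (Measure.quasiMeasurePreserving_fst (μ := κ p.1) (ν := labE V)).ae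
        (hκ p.1 hc).sub
      filter_upwards [hp, hsub] with q hq hs
      ext e
      induction e using Sym2.ind with
      | _ a b =>
        by_cases he : s(a, b) ∈ p.1.edgeSet
        · have h1 := hq a b he
          change (∀ᶠ k in atTop, s(a, b) ∈ pk k (p.1, q)) ↔ s(a, b) ∈ q.1
          constructor
          · intro h2
            obtain ⟨k, hk1, hk2⟩ := (h1.and h2).exists
            exact hk1.1 hk2
          · intro h2
            filter_upwards [h1] with k hk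
            exact hk.2 h2
        · constructor
          · intro h2
            have h3 : ∀ᶠ k in atTop, s(a, b) ∈ pk k (p.1, q) := h2
            obtain ⟨k, hk⟩ := h3.exists
            exact absurd (pic_subset _ _ _ hk) he
          · intro h2
            exact absurd (hs h2) he
    · rw [measurableSet_setOfPred]
      refine Measurable.forall fun x => ?_
      exact (hmeas x).comp measurable_fst
  · intro g _ ω x
    have e1 : (actE g ω).1 = permG g ω.1 := rfl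
    have e2 : (actE g ω).2.1 = permE g ω.2.1 := rfl
    simp only [pk_act, e1, e2]
    constructor
    · intro h y hy
      have h1 := h (g y)
      have e3 : s(g x, g y) = Sym2.map g s(x, y) := rfl
      rw [e3, mem_edgeSet_permG] at h1
      simp only [map_mem_permE] at h1
      exact h1 hy
    · intro h y hy
      have e3 : s(g x, y) = Sym2.map g s(x, g.symm y) := by simp
      rw [e3, mem_edgeSet_permG] at hy
      rw [e3]
      simp only [map_mem_permE]
      exact h _ hy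

end Vale.Agent.P143
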