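import Vale.Agent.P143.Basic

/-!
# Elementary facts about the Hilbert space objects
-/

open MeasureTheory Filter Topology
open scoped unitInterval ENNReal

namespace Vale.Agent.P143

universe u

variable {V : Type u}

theorem inner_dl_left (i : V × V) (x : Hs V) : (inner ℝ (dl i) x : ℝ) = x i := by
  classical
  simp only [dl]
  rw [lp.inner_single_left]
  simp

theorem inner_dl_right (i : V × V) (x : Hs V) : (inner ℝ x (dl i) : ℝ) = x i := by
  rw [real_inner_comm, inner_dl_left]

theorem dl_apply_self (i : V × V) : (dl i : Hs V) i = 1 := by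
  classical
  simp [dl]

theorem dl_apply_ne {i j : V × V} (h : j ≠ i) : (dl i : Hs V) j = 0 := by
  classical
  simp [dl, Pi.single_eq_of_ne h]

theorem norm_dl (i : V × V) : ‖(dl i : Hs V)‖ = 1 := by
  have : (inner ℝ (dl i : Hs V) (dl i) : ℝ) = 1 := by rw [inner_dl_left, dl_apply_self]
  rw [real_inner_self_eq_norm_sq] at this
  nlinarith [norm_nonneg (dl i : Hs V)]

theorem isClosed_coordSub (T : Set (V × V)) : IsClosed (coordSub T : Set (Hs V)) := by
  have : (coordSub T : Set (Hs V)) = ⋂ i ∈ Tᶜ, {x | (inner ℝ (dl i) x : ℝ) = 0} := by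
    ext x
    simp only [Set.mem_iInter, Set.mem_ofPred_eq, inner_dl_left]
    rfl
  rw [this]
  refine isClosed_biInter fun i _ => ?_
  exact isClosed_eq (by fun_prop) continuous_const

theorem isClosed_antisym : IsClosed (antisym V : Set (Hs V)) := by
  have : (antisym V : Set (Hs V)) =
      ⋂ a : V, ⋂ b : V, {x | (inner ℝ (dl (a, b)) x : ℝ) = - inner ℝ (dl (b, a)) x} := by
    ext x
    simp only [Set.mem_iInter, Set.mem_ofPred_eq, inner_dl_left]
    rfl
  rw [this]
  refine isClosed_iInter fun a => isClosed_iInter fun b => ?_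
  exact isClosed_eq (by fun_prop) (by fun_prop)

theorem pj_mem (K : Submodule ℝ (Hs V)) (x : Hs V) : pj K x ∈ K.topologicalClosure := by
  exact Submodule.starProjection_apply_mem _ x

theorem topologicalClosure_eq_of_isClosed {K : Submodule ℝ (Hs V)}
    (h : IsClosed (K : Set (Hs V))) : K.topologicalClosure = K :=
  IsClosed.submodule_topologicalClosure_eq h

theorem pj_mem_of_isClosed {K : Submodule ℝ (Hs V)} (h : IsClosed (K : Set (Hs V))) (x : Hs V) :
    pj K x ∈ K := by
  have := pj_mem K x
  rwa [topologicalClosure_eq_of_isClosed h] at this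

theorem pj_eq_self {K : Submodule ℝ (Hs V)} {x : Hs V} (h : x ∈ K.topologicalClosure) :
    pj K x = x :=
  Submodule.starProjection_eq_self_iff.2 h

theorem inner_pj_left (K : Submodule ℝ (Hs V)) (x y : Hs V) :
    (inner ℝ (pj K x) y : ℝ) = inner ℝ x (pj K y) :=
  Submodule.inner_starProjection_left_eq_right _ x y

theorem pj_pj (K : Submodule ℝ (Hs V)) (x : Hs V) : pj K (pj K x) = pj K x :=
  pj_eq_self (pj_mem K x)

theorem inner_pj_self (K : Submodule ℝ (Hs V)) (x : Hs V) :
    (inner ℝ x (pj K x) : ℝ) = ‖pj K x‖ ^ 2 := by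
  rw [← real_inner_self_eq_norm_sq, inner_pj_left, pj_pj]

theorem qq_eq_norm_sq (K : Submodule ℝ (Hs V)) (i : V × V) : qq K i = ‖pj K (dl i)‖ ^ 2 :=
  inner_pj_self K (dl i)

theorem qq_nonneg (K : Submodule ℝ (Hs V)) (i : V × V) : 0 ≤ qq K i := by
  rw [qq_eq_norm_sq]; positivity

theorem norm_pj_le (K : Submodule ℝ (Hs V)) (x : Hs V) : ‖pj K x‖ ≤ ‖x‖ :=
  Submodule.norm_starProjection_apply_le _ x

theorem qq_le_one (K : Submodule ℝ (Hs V)) (i : V × V) : qq K i ≤ 1 := by
  rw [qq_eq_norm_sq]
  have := norm_pj_le K (dl i)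
  rw [norm_dl] at this
  nlinarith [norm_nonneg (pj K (dl i))]

theorem pj_eq_of {K : Submodule ℝ (Hs V)} {x u : Hs V} (hu : u ∈ K.topologicalClosure)
    (h : ∀ w ∈ K, (inner ℝ (x - u) w : ℝ) = 0) : pj K x = u := by
  refine Submodule.eq_starProjection_of_mem_of_inner_eq_zero hu ?_
  intro w hw
  have hcl : IsClosed {w : Hs V | (inner ℝ (x - u) w : ℝ) = 0} :=
    isClosed_eq (by fun_prop) continuous_const
  exact (closure_minimal (s := (K : Set (Hs V))) (fun w hw => h w hw) hcl) hw

/-- projections are monotone on diagonal entries -/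
theorem inner_pj_mono {K L : Submodule ℝ (Hs V)} (h : K ≤ L.topologicalClosure) (x : Hs V) :
    (inner ℝ x (pj K x) : ℝ) ≤ inner ℝ x (pj L x) := by
  rw [inner_pj_self, inner_pj_self]
  have h1 : K.topologicalClosure ≤ L.topologicalClosure :=
    Submodule.topologicalClosure_minimal _ h (Submodule.isClosed_topologicalClosure _)
  have h2 : pj K x = pj K (pj L x) := by
    refine pj_eq_of (pj_mem K _) ?_
    intro w hw
    have hwL : w ∈ L.topologicalClosure := h hw
    have e1 : (inner ℝ (pj K (pj L x)) w : ℝ) = inner ℝ x w := by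
      rw [inner_pj_left, pj_eq_self (Submodule.le_topologicalClosure K hw), inner_pj_left,
        pj_eq_self hwL]
    rw [inner_sub_left, e1, sub_self]
  rw [h2]
  have := norm_pj_le K (pj L x)
  have h0 := norm_nonneg (pj K (pj L x))
  nlinarith

theorem qq_mono {K L : Submodule ℝ (Hs V)} (h : K ≤ L.topologicalClosure) (i : V × V) :
    qq K i ≤ qq L i := inner_pj_mono h _

theorem qq_closure (K : Submodule ℝ (Hs V)) (i : V × V) : qq K.topologicalClosure i = qq K i := by
  unfold qq pj
  congr 2
  have : K.topologicalClosure.topologicalClosure = K.topologicalClosure :=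
    topologicalClosure_eq_of_isClosed (Submodule.isClosed_topologicalClosure _)
  simp_rw [this]

/-- multiplication by an indicator -/
theorem pj_coordSub_apply (T : Set (V × V)) (x : Hs V) (i : V × V) :
    (pj (coordSub T) x : Hs V) i = T.indicator (x : V × V → ℝ) i := by
  classical
  by_cases hi : i ∈ T
  · rw [Set.indicator_of_mem hi]
    have h1 : pj (coordSub T) (dl i) = dl i := by
      apply pj_eq_self
      apply Submodule.le_topologicalClosure
      intro j hj
      exact dl_apply_ne (fun h => hj (h ▸ hi))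
    rw [← inner_dl_left, ← inner_pj_left, h1, inner_dl_left]
  · rw [Set.indicator_of_notMem hi]
    exact pj_mem_of_isClosed (isClosed_coordSub T) x i hi

theorem mem_coordSub {T : Set (V × V)} {x : Hs V} : x ∈ coordSub T ↔ ∀ i ∉ T, x i = 0 := Iff.rfl

theorem mem_antisym {x : Hs V} : x ∈ antisym V ↔ ∀ a b, x (a, b) = - x (b, a) := Iff.rfl

theorem Hs.ext' {x y : Hs V} (h : ∀ i, x i = y i) : x = y := by
  apply lp.ext
  funext i
  exact h i

end Vale.Agent.P143
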