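import Vale.Agent.P143.Conv

/-!
# Measurability of `pe` in the graph, for a finite set of conditioned edges
-/

open Filter Topology MeasureTheory

namespace Vale.Agent.P143

universe u

variable {V : Type u}

/-- restriction of a graph to a set of vertices -/
def gRes (s : Set V) (G : SimpleGraph V) : SimpleGraph V where
  Adj x y := G.Adj x y ∧ x ∈ s ∧ y ∈ s
  symm := ⟨fun _ _ h => ⟨h.1.symm, h.2.2, h.2.1⟩⟩
  loopless := ⟨fun _ h => h.1.ne rfl⟩

theorem measurable_comp_of_countable {α β γ : Type*} [MeasurableSpace α] [MeasurableSpace γ]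
    (g : α → β) (hr : (Set.range g).Countable) (hg : ∀ b, MeasurableSet (g ⁻¹' {b}))
    (F : β → γ) : Measurable (fun x => F (g x)) := by
  intro B _
  have : (fun x => F (g x)) ⁻¹' B = ⋃ b ∈ {b ∈ Set.range g | F b ∈ B}, g ⁻¹' {b} := by
    ext x
    simp only [Set.mem_preimage, Set.mem_iUnion, Set.mem_ofPred_eq, Set.mem_singleton_iff,
      exists_prop]
    constructor
    · intro h
      exact ⟨g x, ⟨⟨x, rfl⟩, h⟩, rfl⟩
    · rintro ⟨b, ⟨_, h⟩, rfl⟩
      exact h
  rw [this]
  exact MeasurableSet.biUnion (hr.mono (fun b hb => hb.1)) (fun b _ => hg b)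

theorem measurableSet_adj (x y : V) : MeasurableSet {G : SimpleGraph V | G.Adj x y} := by
  have h : Measurable fun G : SimpleGraph V => G.Adj x y := by fun_prop
  exact measurableSet_setOfPred.2 h

theorem measurableSet_mem_edgeSet (e : Sym2 V) :
    MeasurableSet {G : SimpleGraph V | e ∈ G.edgeSet} := by
  induction e using Sym2.ind with
  | _ a b => exact measurableSet_adj a b

theorem finite_range_gRes {s : Set V} (hs : s.Finite) : (Set.range (gRes s)).Finite := by
  have hfin : ((fun p : V × V => s(p.1, p.2)) '' (s ×ˢ s)).Finite := (hs.prod hs).image _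
  refine (hfin.finite_subsets.preimage (SimpleGraph.edgeSet_injective.injOn)).subset ?_
  rintro _ ⟨G, rfl⟩ e
  induction e using Sym2.ind with
  | _ a b =>
    intro h
    exact ⟨(a, b), ⟨h.2.1, h.2.2⟩, rfl⟩

theorem measurableSet_preimage_gRes [Countable V] (s : Set V) (K : SimpleGraph V) :
    MeasurableSet (gRes s ⁻¹' {K}) := by
  have : gRes s ⁻¹' {K} = ⋂ x : V, ⋂ y : V, {G | (gRes s G).Adj x y ↔ K.Adj x y} := by
    ext G
    simp only [Set.mem_preimage, Set.mem_singleton_iff, Set.mem_iInter, Set.mem_ofPred_eq]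
    constructor
    · rintro rfl x y
      exact Iff.rfl
    · intro h
      ext x y
      exact h x y
  rw [this]
  refine MeasurableSet.iInter fun x => MeasurableSet.iInter fun y => ?_
  have h1 : MeasurableSet {G : SimpleGraph V | (gRes s G).Adj x y} := by
    have : {G : SimpleGraph V | (gRes s G).Adj x y} =
        {G : SimpleGraph V | G.Adj x y} ∩ {_G : SimpleGraph V | x ∈ s ∧ y ∈ s} := by
      ext G; rfl
    rw [this]
    exact (measurableSet_adj x y).inter (MeasurableSet.const _)
  have h2 : MeasurableSet {_G : SimpleGraph V | K.Adj x y} := MeasurableSet.const _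
  have : {G : SimpleGraph V | (gRes s G).Adj x y ↔ K.Adj x y} =
      ({G : SimpleGraph V | (gRes s G).Adj x y} ∩ {_G : SimpleGraph V | K.Adj x y}) ∪
      ({G : SimpleGraph V | (gRes s G).Adj x y}ᶜ ∩ {_G : SimpleGraph V | K.Adj x y}ᶜ) := by
    ext G
    simp only [Set.mem_ofPred_eq, Set.mem_union, Set.mem_inter_iff, Set.mem_compl_iff]
    tauto
  rw [this]
  exact (h1.inter h2).union (h1.compl.inter h2.compl)

/-- the first `n` vertices -/
theorem exists_exh_verts (V : Type u) [Countable V] :
    ∃ s : ℕ → Set V, Monotone s ∧ (∀ n, (s n).Finite) ∧ ∀ x, ∃ n, x ∈ s n := by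
  obtain ⟨f, hf⟩ := exists_injective_nat V
  refine ⟨fun n => f ⁻¹' Set.Iio n, ?_, ?_, ?_⟩
  · intro n m h x hx
    exact lt_of_lt_of_le hx h
  · intro n
    exact (Set.finite_Iio n).preimage hf.injOn
  · intro x
    exact ⟨f x + 1, Nat.lt_succ_self _⟩

theorem measurable_qq [Countable V] (R : Set (V × V)) {T : Set (V × V)} (hT : T.Finite)
    (i : V × V) : Measurable fun G : SimpleGraph V => qq (condSub (dia G) R T) i := by
  obtain ⟨s, hsm, hsf, hs⟩ := exists_exh_verts V
  refine measurable_of_tendsto_metrizable (f := fun n G => qq (condSub (cyc (gRes (s n) G)) R T) i)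
    (fun n => ?_) ?_
  · exact measurable_comp_of_countable (gRes (s n)) (finite_range_gRes (hsf n)).countable
      (measurableSet_preimage_gRes (s n)) (fun K => qq (condSub (cyc K) R T) i)
  · rw [tendsto_pi_nhds]
    intro G
    refine tendsto_qq ?_ ?_ ?_ R hT i
    · intro n m h x y hxy
      exact ⟨hxy.1, hsm h hxy.2.1, hsm h hxy.2.2⟩
    · intro n x y hxy
      exact hxy.1
    · intro a b hab
      obtain ⟨n, hn⟩ := hs a
      obtain ⟨m, hm⟩ := hs b
      exact ⟨max n m, hab, hsm (le_max_left _ _) hn, hsm (le_max_right _ _) hm⟩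

theorem idx_finite {R : Set (Sym2 V)} (hR : R.Finite) : (idx R).Finite := by
  have h : ∀ e : Sym2 V, {i : V × V | s(i.1, i.2) = e}.Finite := by
    intro e
    induction e using Sym2.ind with
    | _ a b =>
      refine (Set.toFinite {(a, b), (b, a)}).subset ?_
      rintro ⟨c, d⟩ hcd
      rcases Sym2.eq_iff.1 hcd with ⟨rfl, rfl⟩ | ⟨rfl, rfl⟩
      · exact Or.inl rfl
      · exact Or.inr rfl
  have : idx R = ⋃ e ∈ R, {i : V × V | s(i.1, i.2) = e} := by
    ext i
    simp [idx]
  rw [this]
  exact hR.biUnion fun e _ => h e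

theorem measurable_pe_fin [Countable V] {R : Set (Sym2 V)} (hR : R.Finite) (η : Set (Sym2 V))
    (e : Sym2 V) : Measurable fun G : SimpleGraph V => pe G R η e := by
  classical
  unfold pe pei
  refine Measurable.ite (measurableSet_mem_edgeSet _) ?_ measurable_const
  exact measurable_const.sub ((measurable_qq _ (idx_finite (hR.subset Set.sdiff_subset)) _).const_mul
    _)

end Vale.Agent.P143
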