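import Vale.Agent.P143.Tree
import Vale.Agent.P143.Conv

/-!
# Cylinder probabilities of uniform spanning trees and their limits
-/

open Filter Topology MeasureTheory

namespace Vale.Agent.P143

universe u

variable {V : Type u}

theorem subset_edgeSet_of_mem {G : SimpleGraph V} {H : G.Subgraph} {T : Set (Sym2 V)}
    (hT : T ∈ spanningTrees H) : T ⊆ H.edgeSet := by
  obtain ⟨K, hK, _, _, rfl⟩ := hT
  exact SimpleGraph.Subgraph.edgeSet_mono hK

theorem spanningTrees_finite {G : SimpleGraph V} {H : G.Subgraph} (hfin : H.verts.Finite) :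
    (spanningTrees H).Finite := by
  have h := edgeSet_finite hfin
  rw [SimpleGraph.Subgraph.edgeSet_spanningCoe] at h
  exact h.finite_subsets.subset (fun T hT => subset_edgeSet_of_mem hT)

theorem spanningTrees_nonempty {G : SimpleGraph V} {H : G.Subgraph} (hc : H.Connected) :
    (spanningTrees H).Nonempty := by
  obtain ⟨K, hK, hac, hr⟩ := H.spanningCoe.exists_isAcyclic_reachable_eq_le
  rw [spanningTrees_eq hc]
  refine ⟨K.edgeSet, K, ⟨hK, hac, ?_⟩, rfl⟩
  intro x hx y hy
  rw [hr]
  have := hc.coe.preconnected ⟨x, hx⟩ ⟨y, hy⟩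
  exact this.map (⟨fun x => x.1, fun h => h⟩ : H.coe →g H.spanningCoe)

theorem ustProb_empty {G : SimpleGraph V} {H : G.Subgraph} (hfin : H.verts.Finite)
    (hc : H.Connected) : ustProb H ∅ ∅ = 1 := by
  unfold ustProb
  have e : {T ∈ spanningTrees H | T ∩ ∅ = ∅} = spanningTrees H := by
    ext T; simp
  rw [e]
  have h : ((spanningTrees H).ncard : ℝ) ≠ 0 := by
    have := (Set.ncard_pos (spanningTrees_finite hfin)).2 (spanningTrees_nonempty hc)
    exact_mod_cast this.ne'
  exact div_self h

theorem inter_insert_iff {F A : Set (Sym2 V)} (hAF : A ⊆ F) {e : Sym2 V} (he : e ∉ F)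
    (T : Set (Sym2 V)) : T ∩ insert e F = insert e A ↔ T ∩ F = A ∧ e ∈ T := by
  constructor
  · intro h
    have he' : e ∈ T := by
      have : e ∈ T ∩ insert e F := by rw [h]; exact Set.mem_insert _ _
      exact this.1
    refine ⟨?_, he'⟩
    ext x
    constructor
    · rintro ⟨h1, h2⟩
      have : x ∈ insert e A := by rw [← h]; exact ⟨h1, Set.mem_insert_of_mem _ h2⟩
      rcases this with rfl | h3
      · exact absurd h2 he
      · exact h3
    · intro hx
      have : x ∈ T ∩ insert e F := by rw [h]; exact Set.mem_insert_of_mem _ hx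
      exact ⟨this.1, hAF hx⟩
  · rintro ⟨h1, h2⟩
    ext x
    constructor
    · rintro ⟨h3, rfl | h4⟩
      · exact Set.mem_insert _ _
      · right; rw [← h1]; exact ⟨h3, h4⟩
    · rintro (rfl | h3)
      · exact ⟨h2, Set.mem_insert _ _⟩
      · rw [← h1] at h3
        exact ⟨h3.1, Set.mem_insert_of_mem _ h3.2⟩

theorem inter_insert_iff' {F A : Set (Sym2 V)} (hAF : A ⊆ F) {e : Sym2 V} (he : e ∉ F)
    (T : Set (Sym2 V)) : T ∩ insert e F = A ↔ T ∩ F = A ∧ e ∉ T := by
  constructor
  · intro h
    have he' : e ∉ T := by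
      intro h'
      have : e ∈ T ∩ insert e F := ⟨h', Set.mem_insert _ _⟩
      rw [h] at this
      exact he (hAF this)
    refine ⟨?_, he'⟩
    ext x
    constructor
    · rintro ⟨h1, h2⟩
      rw [← h]; exact ⟨h1, Set.mem_insert_of_mem _ h2⟩
    · intro hx
      have : x ∈ T ∩ insert e F := by rw [h]; exact hx
      exact ⟨this.1, hAF hx⟩
  · rintro ⟨h1, h2⟩
    ext x
    constructor
    · rintro ⟨h3, rfl | h4⟩
      · exact absurd h3 h2
      · rw [← h1]; exact ⟨h3, h4⟩
    · intro h3
      rw [← h1] at h3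
      exact ⟨h3.1, Set.mem_insert_of_mem _ h3.2⟩

theorem ustProb_split {G : SimpleGraph V} {H : G.Subgraph} (hfin : H.verts.Finite)
    {F A : Set (Sym2 V)} (hAF : A ⊆ F) {e : Sym2 V} (he : e ∉ F) :
    ustProb H F A = ustProb H (insert e F) A + ustProb H (insert e F) (insert e A) := by
  unfold ustProb
  rw [← add_div]
  congr 1
  have f1 : {T ∈ spanningTrees H | T ∩ insert e F = A}.Finite :=
    (spanningTrees_finite hfin).subset (fun T h => h.1)
  have f2 : {T ∈ spanningTrees H | T ∩ insert e F = insert e A}.Finite :=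
    (spanningTrees_finite hfin).subset (fun T h => h.1)
  have d : Disjoint {T ∈ spanningTrees H | T ∩ insert e F = A}
      {T ∈ spanningTrees H | T ∩ insert e F = insert e A} := by
    rw [Set.disjoint_left]
    rintro T ⟨_, h1⟩ ⟨_, h2⟩
    rw [inter_insert_iff' hAF he] at h1
    rw [inter_insert_iff hAF he] at h2
    exact h1.2 h2.2
  rw [← Nat.cast_add, ← Set.ncard_union_eq d f1 f2]
  congr 2
  ext T
  simp only [Set.mem_ofPred_eq, Set.mem_union, inter_insert_iff hAF he, inter_insert_iff' hAF he]
  tauto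

theorem ustProb_eq_zero {G : SimpleGraph V} (H : G.Subgraph) {F A : Set (Sym2 V)} (h : ¬ A ⊆ F) :
    ustProb H F A = 0 := by
  unfold ustProb
  have : {T ∈ spanningTrees H | T ∩ F = A} = ∅ := by
    ext T
    simp only [Set.mem_ofPred_eq, Set.mem_empty_iff_false, iff_false, not_and]
    rintro _ rfl
    exact h Set.inter_subset_right
  rw [this]
  simp

theorem ustProb_insert {G : SimpleGraph V} {H : G.Subgraph} (hfin : H.verts.Finite)
    (hc : H.Connected) {F A : Set (Sym2 V)} (hAF : A ⊆ F) {e : Sym2 V} (he : e ∉ F)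
    (heH : e ∈ H.edgeSet) :
    ustProb H (insert e F) (insert e A) =
      (1 - 2 * qq (condSub (cyc H.spanningCoe) (idx F) (idx (F \ A))) (Quot.out e)) *
        ustProb H F A := by
  have h1 : s((Quot.out e).1, (Quot.out e).2) = e := Quot.out_eq e
  have h2 : H.Adj (Quot.out e).1 (Quot.out e).2 := by
    have : s((Quot.out e).1, (Quot.out e).2) ∈ H.edgeSet := by rw [h1]; exact heH
    exact this
  have h := tree_formula H hfin hc F A hAF _ _ h2 (by rw [h1]; exact he)
  rw [h1] at h
  unfold ustProb
  simp only [inter_insert_iff hAF he]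
  rw [h, mul_div_assoc]

theorem ustProb_insert_of_notMem {G : SimpleGraph V} {H : G.Subgraph}
    {F A : Set (Sym2 V)} {e : Sym2 V} (heH : e ∉ H.edgeSet) :
    ustProb H (insert e F) (insert e A) = 0 := by
  unfold ustProb
  have : {T ∈ spanningTrees H | T ∩ insert e F = insert e A} = ∅ := by
    ext T
    simp only [Set.mem_ofPred_eq, Set.mem_empty_iff_false, iff_false, not_and]
    intro hT h
    have : e ∈ T ∩ insert e F := by rw [h]; exact Set.mem_insert _ _
    exact heH (subset_edgeSet_of_mem hT this.1)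
  rw [this]
  simp

theorem mem_edgeSet_of_exh {G : SimpleGraph V} {H : ℕ → G.Subgraph} (hH : IsExhaustion G H)
    {a b : V} (hab : G.Adj a b) : ∃ n, (H n).Adj a b := by
  have h : (⨆ n, H n).Adj a b := by
    rw [hH.iSup_eq_top]
    exact hab
  rw [SimpleGraph.Subgraph.iSup_adj] at h
  exact h

theorem tendsto_ustProb_insert {G : SimpleGraph V} {H : ℕ → G.Subgraph} (hH : IsExhaustion G H)
    {F A : Set (Sym2 V)} (hF : F.Finite) (hAF : A ⊆ F) {e : Sym2 V} (he : e ∉ F) {c : ℝ}
    (h : Tendsto (fun n => ustProb (H n) F A) atTop (𝓝 c)) :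
    Tendsto (fun n => ustProb (H n) (insert e F) (insert e A)) atTop (𝓝 (pe G F A e * c)) := by
  by_cases heG : e ∈ G.edgeSet
  · have hout : s((Quot.out e).1, (Quot.out e).2) = e := Quot.out_eq e
    have hadj : G.Adj (Quot.out e).1 (Quot.out e).2 := by
      have : s((Quot.out e).1, (Quot.out e).2) ∈ G.edgeSet := by rw [hout]; exact heG
      exact this
    obtain ⟨N, hN⟩ := mem_edgeSet_of_exh hH hadj
    have hpe : pe G F A e = 1 - 2 * qq (condSub (dia G) (idx F) (idx (F \ A))) (Quot.out e) := by
      unfold pe pei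
      rw [if_pos (by rw [hout]; exact heG)]
    have hmono : Monotone fun n => (H n).spanningCoe := by
      intro n m hnm x y hxy
      exact (hH.mono hnm).2 hxy
    have hq := tendsto_qq (G := G) hmono (fun n x y hxy => (H n).adj_sub hxy)
      (fun a b hab => mem_edgeSet_of_exh hH hab) (idx F)
      (T := idx (F \ A)) (by
        have h : ∀ e : Sym2 V, {i : V × V | s(i.1, i.2) = e}.Finite := by
          intro e
          induction e using Sym2.ind with
          | _ a b =>
            refine (Set.toFinite {(a, b), (b, a)}).subset ?_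
            rintro ⟨c, d⟩ hcd
            rcases Sym2.eq_iff.1 hcd with ⟨rfl, rfl⟩ | ⟨rfl, rfl⟩
            · exact Or.inl rfl
            · exact Or.inr rfl
        have : idx (F \ A) = ⋃ e ∈ F \ A, {i : V × V | s(i.1, i.2) = e} := by
          ext i
          simp [idx]
        rw [this]
        exact (hF.subset Set.sdiff_subset).biUnion fun e _ => h e) (Quot.out e)
    have h1 : Tendsto (fun n => (1 - 2 * qq (condSub (cyc (H n).spanningCoe) (idx F)
        (idx (F \ A))) (Quot.out e)) * ustProb (H n) F A) atTop (𝓝 (pe G F A e * c)) := by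
      rw [hpe]
      exact ((hq.const_mul 2).const_sub 1).mul h
    refine h1.congr' ?_
    filter_upwards [eventually_ge_atTop N] with n hn
    symm
    refine ustProb_insert (hH.finite n) (hH.connected n) hAF he ?_
    have : (H n).Adj (Quot.out e).1 (Quot.out e).2 := (hH.mono hn).2 hN
    have h3 : s((Quot.out e).1, (Quot.out e).2) ∈ (H n).edgeSet := this
    rwa [hout] at h3
  · rw [pe_of_notMem heG, zero_mul]
    have : ∀ n, ustProb (H n) (insert e F) (insert e A) = 0 := fun n =>
      ustProb_insert_of_notMem (fun h => heG ((H n).edgeSet_subset h))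
    simp only [this]
    exact tendsto_const_nhds

end Vale.Agent.P143
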