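import Vale.Agent.P143.Basic

/-!
# Edge labels from vertex labels
-/

open MeasureTheory Filter Topology ProbabilityTheory
open scoped unitInterval ENNReal

namespace Vale.Agent.P143

universe u

variable {V : Type u}

/-- labels -/
abbrev Lab : Type := I × I

/-- rank of `y` among the neighbours of `x` -/
noncomputable def rk (G : SimpleGraph V) (a : V → Lab) (x y : V) : ℕ :=
  {z | G.Adj x z ∧ (a z).1 < (a y).1}.ncard

open Classical in
/-- the label of the edge `xy` -/
noncomputable def labXY (G : SimpleGraph V) (a : V → Lab) (b : V × ℕ → Lab) (x y : V) : Lab :=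
  if (a x).1 < (a y).1 then b (x, rk G a x y)
  else if (a y).1 < (a x).1 then b (y, rk G a y x) else (0, 0)

theorem labXY_symm (G : SimpleGraph V) (a : V → Lab) (b : V × ℕ → Lab) (x y : V) :
    labXY G a b x y = labXY G a b y x := by
  unfold labXY
  rcases lt_trichotomy (a x).1 (a y).1 with h | h | h
  · simp [h, h.not_gt]
  · simp [h]
  · simp [h, h.not_gt]

/-- the label of an edge -/
noncomputable def edgLab (G : SimpleGraph V) (a : V → Lab) (b : V × ℕ → Lab) (e : Sym2 V) : Lab :=
  Sym2.lift ⟨labXY G a b, labXY_symm G a b⟩ e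

theorem edgLab_mk (G : SimpleGraph V) (a : V → Lab) (b : V × ℕ → Lab) (x y : V) :
    edgLab G a b s(x, y) = labXY G a b x y := rfl

/-! ### Equivariance -/

theorem rk_perm (g : Equiv.Perm V) (G : SimpleGraph V) (a : V → Lab) (x y : V) :
    rk (permG g G) (fun z => a (g.symm z)) x y = rk G a (g.symm x) (g.symm y) := by
  unfold rk
  have : {z | (permG g G).Adj x z ∧ (a (g.symm z)).1 < (a (g.symm y)).1} =
      g '' {z | G.Adj (g.symm x) z ∧ (a z).1 < (a (g.symm y)).1} := by
    ext z
    simp only [Set.mem_ofPred_eq, Set.mem_image]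
    constructor
    · intro h
      exact ⟨g.symm z, h, g.apply_symm_apply z⟩
    · rintro ⟨w, h, rfl⟩
      have e : g.symm (g w) = w := g.symm_apply_apply w
      refine ⟨?_, ?_⟩
      · change G.Adj (g.symm x) (g.symm (g w))
        rw [e]; exact h.1
      · rw [e]; exact h.2
  rw [this, Set.ncard_image_of_injective _ g.injective]

theorem edgLab_perm (g : Equiv.Perm V) (G : SimpleGraph V) (a : V → Lab) (b : V × ℕ → Lab)
    (e : Sym2 V) :
    edgLab (permG g G) (fun z => a (g.symm z)) (fun p => b (g.symm p.1, p.2)) e =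
      edgLab G a b (Sym2.map g.symm e) := by
  induction e using Sym2.ind with
  | _ x y =>
    rw [Sym2.map_mk, edgLab_mk, edgLab_mk]
    unfold labXY
    simp only [rk_perm]

/-! ### Measurability -/

theorem measurable_eval_nat {Ω : Type*} [MeasurableSpace Ω] {β : Type*} [MeasurableSpace β]
    {f : Ω → ℕ → β} (hf : ∀ n, Measurable fun ω => f ω n) {r : Ω → ℕ} (hr : Measurable r) :
    Measurable fun ω => f ω (r ω) := by
  intro B hB
  have : (fun ω => f ω (r ω)) ⁻¹' B = ⋃ n, (r ⁻¹' {n}) ∩ ((fun ω => f ω n) ⁻¹' B) := by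
    ext ω
    simp
  rw [this]
  exact MeasurableSet.iUnion fun n => (hr (measurableSet_singleton n)).inter (hf n hB)

theorem measurable_rk [Countable V] {Ω : Type*} [MeasurableSpace Ω] {Gf : Ω → SimpleGraph V}
    {a : Ω → V → Lab} (hG : Measurable Gf) (ha : Measurable a) (x y : V) :
    Measurable fun ω => rk (Gf ω) (a ω) x y := by
  refine measurable_ncard.comp ?_
  rw [measurable_set_iff]
  intro z
  rw [← measurableSet_setOfPred]
  have h1 : MeasurableSet {ω | (Gf ω).Adj x z} :=
    measurableSet_setOfPred.2 ((SimpleGraph.measurable_iff_adj.1 hG) x z)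
  have h2 : MeasurableSet {ω | (a ω z).1 < (a ω y).1} :=
    measurableSet_lt (measurable_fst.comp ((measurable_pi_apply z).comp ha))
      (measurable_fst.comp ((measurable_pi_apply y).comp ha))
  exact h1.inter h2

theorem measurable_edgLab [Countable V] {Ω : Type*} [MeasurableSpace Ω] {Gf : Ω → SimpleGraph V}
    {a : Ω → V → Lab} {b : Ω → V × ℕ → Lab} (hG : Measurable Gf) (ha : Measurable a)
    (hb : Measurable b) (e : Sym2 V) : Measurable fun ω => edgLab (Gf ω) (a ω) (b ω) e := by
  classical
  induction e using Sym2.ind with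
  | _ x y =>
    simp only [edgLab_mk]
    unfold labXY
    have hlt : ∀ x y, MeasurableSet {ω | (a ω x).1 < (a ω y).1} := fun x y =>
      measurableSet_lt (measurable_fst.comp ((measurable_pi_apply x).comp ha))
        (measurable_fst.comp ((measurable_pi_apply y).comp ha))
    have hbb : ∀ x y, Measurable fun ω => b ω (x, rk (Gf ω) (a ω) x y) := fun x y =>
      measurable_eval_nat (f := fun ω n => b ω (x, n))
        (fun n => (measurable_pi_apply (x, n)).comp hb) (measurable_rk hG ha x y)
    exact Measurable.ite (hlt x y) (hbb x y) (Measurable.ite (hlt y x) (hbb y x) measurable_const)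

/-! ### The law -/

theorem null_eq {x y : V} (h : x ≠ y) :
    Measure.infinitePi (fun _ : V => (volume : Measure Lab)) {a | (a x).1 = (a y).1} = 0 := by
  have h1 := Measure.infinitePi_map_eval_prod (P := fun _ : V => (volume : Measure Lab)) h
  have hm : MeasurableSet {p : Lab × Lab | p.1.1 = p.2.1} :=
    measurableSet_eq_fun (measurable_fst.comp measurable_fst) (measurable_fst.comp measurable_snd)
  have h2 : {a : V → Lab | (a x).1 = (a y).1} =
      (fun a : V → Lab => (a x, a y)) ⁻¹' {p : Lab × Lab | p.1.1 = p.2.1} := rfl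
  rw [h2, ← Measure.map_apply (by fun_prop) hm, h1, Measure.prod_apply hm]
  rw [lintegral_eq_zero_iff (measurable_measure_prodMk_left hm)]
  refine Eventually.of_forall fun p => ?_
  have h3 : Prod.mk p ⁻¹' {q : Lab × Lab | q.1.1 = q.2.1} = ({p.1} : Set I) ×ˢ Set.univ := by
    ext q
    simp [eq_comm]
  change (volume : Measure Lab) (Prod.mk p ⁻¹' {q : Lab × Lab | q.1.1 = q.2.1}) = 0
  rw [h3, Measure.volume_eq_prod, Measure.prod_prod]
  simp

theorem ae_injective [Countable V] :
    ∀ᵐ a ∂(Measure.infinitePi fun _ : V => (volume : Measure Lab)),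
      Function.Injective fun x => (a x).1 := by
  have h : ∀ᵐ a ∂(Measure.infinitePi fun _ : V => (volume : Measure Lab)),
      ∀ x y : V, x ≠ y → (a x).1 ≠ (a y).1 := by
    rw [ae_all_iff]
    intro x
    rw [ae_all_iff]
    intro y
    by_cases hxy : x = y
    · exact Eventually.of_forall fun a h => absurd hxy h
    · have : ∀ᵐ a ∂(Measure.infinitePi fun _ : V => (volume : Measure Lab)),
          (a x).1 ≠ (a y).1 := by
        rw [ae_iff]
        simpa using null_eq hxy
      filter_upwards [this] with a ha _
      exact ha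
  filter_upwards [h] with a ha x y hxy
  by_contra hne
  exact ha x y hne hxy

/-- the index of the label of an edge -/
theorem exists_index (G : SimpleGraph V) (hG : ∀ x, (G.neighborSet x).Finite) (a : V → Lab)
    (ha : Function.Injective fun x => (a x).1) :
    ∃ φ : G.edgeSet → V × ℕ, Function.Injective φ ∧
      ∀ (b : V × ℕ → Lab) (e : G.edgeSet), edgLab G a b e = b (φ e) := by
  have key : ∀ e : G.edgeSet, ∃ p : V × V, (e : Sym2 V) = s(p.1, p.2) ∧ G.Adj p.1 p.2 ∧
      (a p.1).1 < (a p.2).1 := by
    rintro ⟨e, he⟩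
    induction e using Sym2.ind with
    | _ x y =>
      have hadj : G.Adj x y := he
      rcases lt_trichotomy (a x).1 (a y).1 with h | h | h
      · exact ⟨(x, y), rfl, hadj, h⟩
      · exact absurd (ha h) hadj.ne
      · exact ⟨(y, x), Sym2.eq_swap, hadj.symm, h⟩
  choose p hp1 hp2 hp3 using key
  refine ⟨fun e => ((p e).1, rk G a (p e).1 (p e).2), ?_, ?_⟩
  · intro e e' h
    obtain ⟨h1, h2⟩ := Prod.mk.inj h
    have hlt : ∀ x y y', G.Adj x y → G.Adj x y' → (a y).1 < (a y').1 →
        rk G a x y < rk G a x y' := by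
      intro x y y' hy _ hlt
      refine Set.ncard_lt_ncard ?_ ((hG x).subset fun z hz => hz.1)
      refine ⟨fun z hz => ⟨hz.1, hz.2.trans hlt⟩, fun hcon => ?_⟩
      exact lt_irrefl _ (hcon (show y ∈ {z | G.Adj x z ∧ (a z).1 < (a y').1} from ⟨hy, hlt⟩)).2
    have h3 : (p e).2 = (p e').2 := by
      have ha1 := hp2 e
      have ha2 := hp2 e'
      rw [← h1] at ha2 h2
      rcases lt_trichotomy (a (p e).2).1 (a (p e').2).1 with h | h | h
      · exact absurd h2 (hlt _ _ _ ha1 ha2 h).ne
      · exact ha h
      · exact absurd h2 (hlt _ _ _ ha2 ha1 h).ne'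
    apply Subtype.ext
    rw [hp1 e, hp1 e', h1, h3]
  · intro b e
    rw [hp1 e, edgLab_mk]
    unfold labXY
    rw [if_pos (hp3 e)]

theorem law_labE [Countable V] (G : SimpleGraph V) (hG : ∀ x, (G.neighborSet x).Finite) :
    Measure.map (fun (q : (V → Lab) × (V × ℕ → Lab)) (e : G.edgeSet) => edgLab G q.1 q.2 e)
      ((Measure.infinitePi fun _ : V => (volume : Measure Lab)).prod
        (Measure.infinitePi fun _ : V × ℕ => (volume : Measure Lab))) =
      Measure.infinitePi fun _ : G.edgeSet => (volume : Measure Lab) := by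
  have hm : Measurable (fun (q : (V → Lab) × (V × ℕ → Lab)) (e : G.edgeSet) =>
      edgLab G q.1 q.2 e) :=
    measurable_pi_lambda _ fun e =>
      measurable_edgLab measurable_const measurable_fst measurable_snd _
  ext B hB
  rw [Measure.map_apply hm hB, Measure.prod_apply (hm hB)]
  have h : ∀ᵐ a ∂(Measure.infinitePi fun _ : V => (volume : Measure Lab)),
      (Measure.infinitePi fun _ : V × ℕ => (volume : Measure Lab))
        (Prod.mk a ⁻¹' ((fun (q : (V → Lab) × (V × ℕ → Lab)) (e : G.edgeSet) =>
          edgLab G q.1 q.2 e) ⁻¹' B)) =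
      (Measure.infinitePi fun _ : G.edgeSet => (volume : Measure Lab)) B := by
    filter_upwards [ae_injective] with a ha
    obtain ⟨φ, hφ, hlab⟩ := exists_index G hG a ha
    have h1 : (Prod.mk a ⁻¹' ((fun (q : (V → Lab) × (V × ℕ → Lab)) (e : G.edgeSet) =>
        edgLab G q.1 q.2 e) ⁻¹' B)) = (fun (b : V × ℕ → Lab) (e : G.edgeSet) => b (φ e)) ⁻¹' B := by
      ext b
      simp only [Set.mem_preimage, hlab]
    rw [h1, ← Measure.map_apply (by fun_prop) hB,
      Measure.map_infinitePi_infinitePi_of_inj (P := fun _ : V × ℕ => (volume : Measure Lab)) hφ]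
  rw [lintegral_congr_ae h]
  simp

theorem split_law (s : I → ℕ → Lab) (hs : Measurable s)
    (hs' : Measure.map s volume = Measure.infinitePi fun _ : ℕ => (volume : Measure Lab)) :
    Measure.map (fun (U : V → I) => ((fun x => s (U x) 0), (fun p : V × ℕ => s (U p.1) (p.2 + 1))))
      (Measure.infinitePi fun _ : V => (volume : Measure I)) =
      (Measure.infinitePi fun _ : V => (volume : Measure Lab)).prod
        (Measure.infinitePi fun _ : V × ℕ => (volume : Measure Lab)) := by
  set μ : Measure (V → I) := Measure.infinitePi fun _ : V => (volume : Measure I) with hμ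
  have hs0 : ∀ n, Measurable fun t => s t n := fun n => (measurable_pi_apply n).comp hs
  have hYm : ∀ p : V × ℕ, Measurable fun U : V → I => s (U p.1) p.2 := fun p =>
    (hs0 p.2).comp (measurable_pi_apply p.1)
  have hY : Measure.map (fun (U : V → I) (p : V × ℕ) => s (U p.1) p.2) μ =
      Measure.infinitePi fun _ : V × ℕ => (volume : Measure Lab) := by
    have h1 : Measure.map (fun (U : V → I) (x : V) => s (U x)) μ =
        Measure.infinitePi fun _ : V => Measure.infinitePi fun _ : ℕ => (volume : Measure Lab) := by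
      rw [hμ, Measure.infinitePi_map_pi (μ := fun _ : V => (volume : Measure I))
        (f := fun _ => s) (fun _ => hs)]
      simp only [hs']
    have h2 := Measure.infinitePi_map_curry_symm (ι := V) (κ := ℕ) (X := Lab)
      (fun _ _ => (volume : Measure Lab))
    rw [← h2, ← h1, Measure.map_map (by fun_prop) (by fun_prop)]
    rfl
  have hlaw : ∀ p : V × ℕ, Measure.map (fun U : V → I => s (U p.1) p.2) μ = volume := by
    intro p
    have h1 := Measure.infinitePi_map_eval (fun _ : V × ℕ => (volume : Measure Lab)) p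
    rw [← hY, Measure.map_map (by fun_prop) (measurable_pi_lambda _ hYm)] at h1
    exact h1
  have hind : iIndepFun (fun (p : V × ℕ) (U : V → I) => s (U p.1) p.2) μ := by
    rw [iIndepFun_iff_map_fun_eq_infinitePi_map hYm, hY]
    simp only [hlaw]
  have hf : Measurable fun (U : V → I) (x : V) => s (U x) 0 :=
    measurable_pi_lambda _ fun x => hYm (x, 0)
  have hg : Measurable fun (U : V → I) (p : V × ℕ) => s (U p.1) (p.2 + 1) :=
    measurable_pi_lambda _ fun p => hYm (p.1, p.2 + 1)
  have hfg : IndepFun (fun (U : V → I) (x : V) => s (U x) 0)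
      (fun (U : V → I) (p : V × ℕ) => s (U p.1) (p.2 + 1)) μ := by
    have h := indep_iSup_of_disjoint (fun p => (hYm p).comap_le) hind
      (S := {p : V × ℕ | p.2 = 0}) (T := {p : V × ℕ | p.2 ≠ 0})
      (by rw [Set.disjoint_left]; intro p h1 h2; exact h2 h1)
    refine indep_of_indep_of_le_left (indep_of_indep_of_le_right h ?_) ?_
    · rw [MeasurableSpace.pi, MeasurableSpace.comap_iSup]
      refine iSup_le fun p => ?_
      rw [MeasurableSpace.comap_comp]
      exact le_iSup₂_of_le (p.1, p.2 + 1) (Nat.succ_ne_zero _) le_rfl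
    · rw [MeasurableSpace.pi, MeasurableSpace.comap_iSup]
      refine iSup_le fun x => ?_
      rw [MeasurableSpace.comap_comp]
      exact le_iSup₂_of_le (x, 0) rfl le_rfl
  rw [hfg.map_prod_eq_prod_map_map hf.aemeasurable hg.aemeasurable]
  congr 1
  · have h := Measure.map_infinitePi_infinitePi_of_inj
      (P := fun _ : V × ℕ => (volume : Measure Lab)) (f := fun x : V => (x, 0))
      (fun x y h => (Prod.mk.inj h).1)
    rw [← hY, Measure.map_map (by fun_prop) (measurable_pi_lambda _ hYm)] at h
    exact h
  · have h := Measure.map_infinitePi_infinitePi_of_inj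
      (P := fun _ : V × ℕ => (volume : Measure Lab)) (f := fun p : V × ℕ => (p.1, p.2 + 1))
      (fun p q h => Prod.ext (Prod.mk.inj h).1 (Nat.succ_injective (Prod.mk.inj h).2))
    refine Eq.trans ?_ h
    rw [← hY, Measure.map_map (by fun_prop) (measurable_pi_lambda _ hYm)]
    rfl

theorem exists_edge_labels (V : Type u) [Countable V] :
    ∃ Ψ : SimpleGraph V → (V → I) → (Sym2 V → I × I),
      Measurable (fun p : SimpleGraph V × (V → I) => Ψ p.1 p.2) ∧
      (∀ (g : Equiv.Perm V) G U, Ψ (permG g G) (fun x => U (g.symm x)) = permL g (Ψ G U)) ∧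
      ∀ G : SimpleGraph V, (∀ x, (G.neighborSet x).Finite) →
        Measure.map (fun U (e : G.edgeSet) => Ψ G U e)
            (Measure.infinitePi fun _ : V => (volume : Measure I)) =
          Measure.infinitePi fun _ : G.edgeSet => (volume : Measure (I × I)) := by
  obtain ⟨s, hs, hs'⟩ := MeasureTheory.Measure.exists_measurable_map_eq
    (Measure.infinitePi fun _ : ℕ => (volume : Measure Lab))
  have hs0 : ∀ n, Measurable fun t => s t n := fun n => (measurable_pi_apply n).comp hs
  refine ⟨fun G U e => edgLab G (fun x => s (U x) 0) (fun p => s (U p.1) (p.2 + 1)) e, ?_, ?_, ?_⟩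
  · refine measurable_pi_lambda _ fun e => ?_
    refine measurable_edgLab measurable_fst ?_ ?_ e
    · exact measurable_pi_lambda _ fun x =>
        (hs0 0).comp ((measurable_pi_apply x).comp measurable_snd)
    · exact measurable_pi_lambda _ fun p =>
        (hs0 (p.2 + 1)).comp ((measurable_pi_apply p.1).comp measurable_snd)
  · intro g G U
    funext e
    exact edgLab_perm g G (fun x => s (U x) 0) (fun p => s (U p.1) (p.2 + 1)) e
  · intro G hG
    have h1 := split_law (V := V) s hs hs'
    have h2 := law_labE G hG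
    rw [← h1, Measure.map_map] at h2
    · exact h2
    · exact measurable_pi_lambda _ fun e =>
        measurable_edgLab measurable_const measurable_fst measurable_snd _
    · refine Measurable.prodMk ?_ ?_
      · exact measurable_pi_lambda _ fun x => (hs0 0).comp (measurable_pi_apply x)
      · exact measurable_pi_lambda _ fun p => (hs0 (p.2 + 1)).comp (measurable_pi_apply p.1)

end Vale.Agent.P143
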