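import Vale.Agent.P143.Field

/-!
# Measurability of the conditional probabilities `pe`
-/

open MeasureTheory Filter Topology
open scoped unitInterval ENNReal

namespace Vale.Agent.P143

universe u

variable {V : Type u}

/-- a function factoring through a measurable map into a discrete space is measurable -/
theorem measurable_of_factors {α β γ : Type*} [MeasurableSpace α] [MeasurableSpace β]
    [DiscreteMeasurableSpace β] [MeasurableSpace γ] (r : α → β) (hr : Measurable r) (f : α → γ)
    (h : ∀ x y, r x = r y → f x = f y) : Measurable f := by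
  intro A _
  have : f ⁻¹' A = r ⁻¹' (r '' (f ⁻¹' A)) := by
    ext x
    constructor
    · intro hx; exact ⟨x, hx, rfl⟩
    · rintro ⟨y, hy, hxy⟩
      have := h y x hxy
      rw [Set.mem_preimage] at hy ⊢
      rwa [← this]
  rw [this]
  exact hr (MeasurableSet.of_discrete)

/-- strong convergence of the projections onto an increasing family of subspaces -/
theorem tendsto_pj_iSup {ι : Type*} [Preorder ι] (U : ι → Submodule ℝ (Hs V))
    (hU : Monotone U) {K : Submodule ℝ (Hs V)}
    (hK : (⨆ i, U i).topologicalClosure = K.topologicalClosure) (x : Hs V) :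
    Tendsto (fun i => pj (U i) x) atTop (𝓝 (pj K x)) := by
  have hmono : Monotone fun i => (U i).topologicalClosure := fun i j h =>
    Submodule.topologicalClosure_mono (hU h)
  have h := Submodule.starProjection_tendsto_closure_iSup (fun i => (U i).topologicalClosure)
    hmono x
  have hcl : (⨆ i, (U i).topologicalClosure).topologicalClosure = K.topologicalClosure := by
    rw [← hK]
    apply le_antisymm
    · apply Submodule.topologicalClosure_minimal _ _ (Submodule.isClosed_topologicalClosure _)
      apply iSup_le
      intro i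
      exact Submodule.topologicalClosure_mono (le_iSup U i)
    · apply Submodule.topologicalClosure_mono
      apply iSup_mono
      intro i
      exact Submodule.le_topologicalClosure _
  simp_rw [hcl] at h
  exact h

theorem goodOp_cyc_fin {Ω : Type*} [MeasurableSpace Ω] {Gf : Ω → SimpleGraph V}
    (hG : Measurable Gf)
    (s : Finset (V × V)) (i j : V × V) :
    Measurable fun ω => (inner ℝ (dl i)
      (pj (cyc (Gf ω) ⊓ coordSub (s : Set (V × V))) (dl j)) : ℝ) := by
  refine Measurable.comp (g := fun G : SimpleGraph V => (inner ℝ (dl i)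
      (pj (cyc G ⊓ coordSub (s : Set (V × V))) (dl j)) : ℝ)) ?_ hG
  refine measurable_of_factors (β := s → Prop)
    (fun G : SimpleGraph V => fun p : s => G.Adj p.1.1 p.1.2) ?_ _ ?_
  · rw [measurable_pi_iff]
    intro p
    exact (SimpleGraph.measurable_iff_adj.1 measurable_id) _ _
  · intro G G' h
    have hsub : ∀ G G' : SimpleGraph V,
        ((fun p : s => G.Adj p.1.1 p.1.2) = fun p : s => G'.Adj p.1.1 p.1.2) →
        cyc G ⊓ coordSub (s : Set (V × V)) ≤ cyc G' ⊓ coordSub (s : Set (V × V)) := by
      intro G G' h x hx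
      obtain ⟨⟨h1, h2, h3, h4⟩, h5⟩ := hx
      refine ⟨⟨h1, h2, ?_, h4⟩, h5⟩
      intro a b hab
      by_cases hs : (a, b) ∈ (s : Set (V × V))
      · apply h3
        have := congrFun h ⟨(a, b), hs⟩
        simp only at this
        rw [this]; exact hab
      · exact h5 _ hs
    have : cyc G ⊓ coordSub (s : Set (V × V)) = cyc G' ⊓ coordSub (s : Set (V × V)) :=
      le_antisymm (hsub G G' h) (hsub G' G h.symm)
    rw [this]

/-- the projection onto the closure of the finite cycles is a good field -/
theorem goodOp_dia [Countable V] {Ω : Type*} [MeasurableSpace Ω] {𝒮 : Set (Equiv.Perm V)}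
    {act : Equiv.Perm V → Ω → Ω} {Gf : Ω → SimpleGraph V} (hG : Measurable Gf)
    (hact : ∀ g ∈ 𝒮, ∀ ω, Gf (act g ω) = permG g (Gf ω)) :
    GoodOp 𝒮 act (fun ω => pj (dia (Gf ω))) := by
  refine ⟨fun i j => ?_, fun g hg ω i j => ?_⟩
  · refine measurable_of_tendsto_metrizable' (atTop : Filter (Finset (V × V)))
      (f := fun (s : Finset (V × V)) ω => (inner ℝ (dl i)
      (pj (cyc (Gf ω) ⊓ coordSub (s : Set (V × V))) (dl j)) : ℝ)) ?_ ?_
    · intro s
      exact goodOp_cyc_fin hG s i j
    · rw [tendsto_pi_nhds]
      intro ω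
      refine ((innerSL ℝ (dl i)).continuous.tendsto _).comp ?_
      apply tendsto_pj_iSup (fun s : Finset (V × V) => cyc (Gf ω) ⊓ coordSub (s : Set (V × V)))
      · intro s t hst
        apply inf_le_inf_left
        intro x hx i hi
        exact hx i (fun h => hi (hst h))
      · unfold dia
        rw [topologicalClosure_eq_of_isClosed (K := (cyc (Gf ω)).topologicalClosure)
          (Submodule.isClosed_topologicalClosure _)]
        congr 1
        apply le_antisymm
        · exact iSup_le fun s => inf_le_left
        · intro x hx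
          have hfin := hx.1
          refine (le_iSup (fun s : Finset (V × V) => cyc (Gf ω) ⊓ coordSub (s : Set (V × V)))
            hfin.toFinset) ⟨hx, ?_⟩
          intro i hi
          by_contra hne
          apply hi
          simpa using hne
  · rw [hact g hg, dia_permG]
    exact inner_pj_mapW g _ i j

theorem goodSet_idx {Ω : Type*} [MeasurableSpace Ω] {𝒮 : Set (Equiv.Perm V)}
    {act : Equiv.Perm V → Ω → Ω} {R : Ω → Set (Sym2 V)} (hR : Measurable R)
    (hact : ∀ g ∈ 𝒮, ∀ ω, R (act g ω) = permE g (R ω)) :
    GoodSet 𝒮 act (fun ω => idx (R ω)) := by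
  refine ⟨fun i => ?_, fun g hg ω i => ?_⟩
  · exact measurableSet_setOfPred.2 ((measurable_set_iff.1 hR) s(i.1, i.2))
  · rw [hact g hg, idx_permE, mem_setW]
    simp

theorem measurable_sdiff' {Ω α : Type*} [MeasurableSpace Ω] {R η : Ω → Set α}
    (hR : Measurable R) (hη : Measurable η) : Measurable fun ω => R ω \ η ω := by
  rw [measurable_set_iff] at hR hη ⊢
  intro e
  exact (hR e).and (hη e).not

theorem measurable_pei [Countable V] {Ω : Type*} [MeasurableSpace Ω] {Gf : Ω → SimpleGraph V}
    {R η : Ω → Set (Sym2 V)} (hG : Measurable Gf) (hR : Measurable R) (hη : Measurable η)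
    (i : V × V) : Measurable fun ω => pei (Gf ω) (R ω) (η ω) i := by
  unfold pei
  have h1 : GoodOp (∅ : Set (Equiv.Perm V)) (fun _ ω => ω) (fun ω => pj (dia (Gf ω))) :=
    goodOp_dia hG (by simp)
  have h2 : GoodSet (∅ : Set (Equiv.Perm V)) (fun _ ω => ω) (fun ω => idx (R ω)) :=
    goodSet_idx hR (by simp)
  have h3 : GoodSet (∅ : Set (Equiv.Perm V)) (fun _ ω => ω) (fun ω => idx (R ω \ η ω)) :=
    goodSet_idx (measurable_sdiff' hR hη) (by simp)
  have h4 := goodOp_condSub h1 (fun ω => isClosed_dia _) h2 h3
  refine Measurable.ite ?_ ?_ measurable_const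
  · exact measurableSet_setOfPred.2
      ((measurable_set_iff.1 SimpleGraph.measurable_edgeSet s(i.1, i.2)).comp hG)
  · exact measurable_const.sub ((h4.meas i i).const_mul 2)

theorem measurable_pe [Countable V] {Ω : Type*} [MeasurableSpace Ω] {Gf : Ω → SimpleGraph V}
    {R η : Ω → Set (Sym2 V)} (hG : Measurable Gf) (hR : Measurable R) (hη : Measurable η)
    (e : Sym2 V) : Measurable fun ω => pe (Gf ω) (R ω) (η ω) e :=
  measurable_pei hG hR hη _

end Vale.Agent.P143
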