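import Vale.Agent.P143.HilbBasic

/-!
# Properties of the conditional probabilities `pe`
-/

open MeasureTheory Filter Topology
open scoped unitInterval ENNReal

namespace Vale.Agent.P143

universe u

variable {V : Type u}

theorem closure_le_antisym {K : Submodule ℝ (Hs V)} (h : K ≤ antisym V) :
    K.topologicalClosure ≤ antisym V :=
  Submodule.topologicalClosure_minimal _ h isClosed_antisym

theorem pj_dl_swap {K : Submodule ℝ (Hs V)} (h : K ≤ antisym V) (a b : V) :
    pj K (dl (a, b)) = - pj K (dl (b, a)) := by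
  rw [eq_neg_iff_add_eq_zero, ← map_add]
  apply pj_eq_of (zero_mem _)
  intro w hw
  rw [sub_zero, inner_add_left, inner_dl_left, inner_dl_left, mem_antisym.1 (h hw) a b]
  ring

theorem qq_swap {K : Submodule ℝ (Hs V)} (h : K ≤ antisym V) (a b : V) :
    qq K (a, b) = qq K (b, a) := by
  rw [qq_eq_norm_sq, qq_eq_norm_sq, pj_dl_swap h, norm_neg]

theorem inner_dl_dl {i j : V × V} (h : i ≠ j) : (inner ℝ (dl i : Hs V) (dl j) : ℝ) = 0 := by
  rw [inner_dl_left, dl_apply_ne h]

theorem pj_dl_eq_half {K : Submodule ℝ (Hs V)} (h : K ≤ antisym V) (a b : V) :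
    pj K (dl (a, b)) = (1 / 2 : ℝ) • pj K (dl (a, b) - dl (b, a)) := by
  rw [map_sub, pj_dl_swap h b a, sub_neg_eq_add, smul_add, ← add_smul]
  norm_num

theorem norm_sq_dl_sub {a b : V} (hab : a ≠ b) :
    ‖(dl (a, b) - dl (b, a) : Hs V)‖ ^ 2 = 2 := by
  rw [norm_sub_sq_real, norm_dl, norm_dl, inner_dl_dl (by simp [hab])]
  norm_num

theorem qq_eq_quarter {K : Submodule ℝ (Hs V)} (h : K ≤ antisym V) (a b : V) :
    qq K (a, b) = (1 / 4) * ‖pj K (dl (a, b) - dl (b, a))‖ ^ 2 := by
  rw [qq_eq_norm_sq, pj_dl_eq_half h, norm_smul, mul_pow]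
  norm_num

theorem qq_diag {K : Submodule ℝ (Hs V)} (h : K ≤ antisym V) (a : V) : qq K (a, a) = 0 := by
  rw [qq_eq_quarter h, sub_self, map_zero, norm_zero]; norm_num

theorem qq_le_half {K : Submodule ℝ (Hs V)} (h : K ≤ antisym V) (i : V × V) :
    qq K i ≤ 1 / 2 := by
  obtain ⟨a, b⟩ := i
  by_cases hab : a = b
  · subst hab; rw [qq_diag h]; norm_num
  · rw [qq_eq_quarter h]
    have h1 := norm_pj_le K (dl (a, b) - dl (b, a))
    have h2 := norm_sq_dl_sub (V := V) hab
    have h3 := norm_nonneg (pj K (dl (a, b) - dl (b, a)))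
    nlinarith

/-- if `χ = dl (a,b) - dl (b,a)` lies in the closure of `K` then the entry is `1/2` -/
theorem qq_eq_half_of_mem {K : Submodule ℝ (Hs V)} (h : K ≤ antisym V) {a b : V} (hab : a ≠ b)
    (hm : (dl (a, b) - dl (b, a) : Hs V) ∈ K.topologicalClosure) : qq K (a, b) = 1 / 2 := by
  rw [qq_eq_quarter h, pj_eq_self hm, norm_sq_dl_sub hab]; norm_num

theorem cyc_le_antisym (G : SimpleGraph V) : cyc G ≤ antisym V := fun _ hx => hx.2.1

theorem dia_le_antisym (G : SimpleGraph V) : dia G ≤ antisym V :=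
  closure_le_antisym (cyc_le_antisym G)

theorem isClosed_dia (G : SimpleGraph V) : IsClosed (dia G : Set (Hs V)) :=
  Submodule.isClosed_topologicalClosure _

theorem isClosed_condSub (X : Submodule ℝ (Hs V)) (R T : Set (V × V)) :
    IsClosed (condSub X R T : Set (Hs V)) :=
  Submodule.isClosed_topologicalClosure _

/-- symmetric subsets of `V × V` -/
def SymmSet (R : Set (V × V)) : Prop := ∀ a b, (a, b) ∈ R → (b, a) ∈ R

theorem symmSet_idx (R : Set (Sym2 V)) : SymmSet (idx R) := by
  intro a b h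
  have : s(b, a) = s(a, b) := Sym2.eq_swap
  change s(b, a) ∈ R
  rw [this]; exact h

theorem SymmSet.compl {R : Set (V × V)} (h : SymmSet R) : SymmSet Rᶜ := by
  intro a b hab hba
  exact hab (h _ _ hba)

theorem pj_coordSub_antisym {R : Set (V × V)} (hR : SymmSet R) {x : Hs V} (hx : x ∈ antisym V) :
    pj (coordSub R) x ∈ antisym V := by
  classical
  intro a b
  rw [pj_coordSub_apply, pj_coordSub_apply]
  by_cases h : (a, b) ∈ R
  · rw [Set.indicator_of_mem h, Set.indicator_of_mem (hR _ _ h)]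
    exact hx a b
  · have h' : (b, a) ∉ R := fun h2 => h (hR _ _ h2)
    rw [Set.indicator_of_notMem h, Set.indicator_of_notMem h']
    simp

theorem condSub_le_antisym {X : Submodule ℝ (Hs V)} (hX : X ≤ antisym V) {R : Set (V × V)}
    (hR : SymmSet R) (T : Set (V × V)) : condSub X R T ≤ antisym V := by
  apply closure_le_antisym
  rintro _ ⟨x, hx, rfl⟩
  exact pj_coordSub_antisym hR.compl (hX hx.1)

theorem condSub_le_coordSub (X : Submodule ℝ (Hs V)) (R T : Set (V × V)) :
    condSub X R T ≤ coordSub Rᶜ := by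
  apply Submodule.topologicalClosure_minimal _ _ (isClosed_coordSub _)
  rintro _ ⟨x, hx, rfl⟩
  exact pj_mem_of_isClosed (isClosed_coordSub _) x

theorem qq_coordSub_eq_zero {K : Submodule ℝ (Hs V)} {R : Set (V × V)} (h : K ≤ coordSub Rᶜ)
    {i : V × V} (hi : i ∈ R) : qq K i = 0 := by
  have : pj K (dl i) = 0 := by
    apply pj_eq_of (zero_mem _)
    intro w hw
    rw [sub_zero, inner_dl_left]
    exact h hw i (by simpa using hi)
  unfold qq
  rw [this, inner_zero_right]

theorem qq_condSub_of_mem (X : Submodule ℝ (Hs V)) {R : Set (V × V)} (T : Set (V × V))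
    {i : V × V} (hi : i ∈ R) : qq (condSub X R T) i = 0 :=
  qq_coordSub_eq_zero (condSub_le_coordSub X R T) hi

theorem condSub_mono_T {X : Submodule ℝ (Hs V)} {R T T' : Set (V × V)} (h : T ⊆ T') :
    condSub X R T' ≤ condSub X R T := by
  apply Submodule.topologicalClosure_mono
  apply Submodule.map_mono
  apply inf_le_inf_left
  intro x hx i hi
  exact hx i (fun h' => hi (fun h'' => h' (h h'')))

/-- ### the probabilities `pei`, `pe` -/
theorem pei_swap (G : SimpleGraph V) (R η : Set (Sym2 V)) (a b : V) :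
    pei G R η (a, b) = pei G R η (b, a) := by
  unfold pei
  have h : s(a, b) = s(b, a) := Sym2.eq_swap
  simp only
  rw [h, qq_swap (condSub_le_antisym (dia_le_antisym G) (symmSet_idx R) _)]

theorem pe_mk (G : SimpleGraph V) (R η : Set (Sym2 V)) (a b : V) :
    pe G R η s(a, b) = pei G R η (a, b) := by
  unfold pe
  have h : s((Quot.out s(a, b)).1, (Quot.out s(a, b)).2) = s(a, b) := by
    exact Quot.out_eq _
  rw [Sym2.eq_iff] at h
  rcases h with ⟨h1, h2⟩ | ⟨h1, h2⟩
  · have : (Quot.out s(a, b) : V × V) = (a, b) := Prod.ext h1 h2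
    rw [this]
  · have : (Quot.out s(a, b) : V × V) = (b, a) := Prod.ext h1 h2
    rw [this, pei_swap]

theorem pei_nonneg (G : SimpleGraph V) (R η : Set (Sym2 V)) (i : V × V) : 0 ≤ pei G R η i := by
  unfold pei
  split_ifs
  · have := qq_le_half (condSub_le_antisym (dia_le_antisym G) (symmSet_idx R) (idx (R \ η))) i
    linarith
  · exact le_rfl

theorem pei_le_one (G : SimpleGraph V) (R η : Set (Sym2 V)) (i : V × V) : pei G R η i ≤ 1 := by
  unfold pei
  split_ifs
  · have := qq_nonneg (condSub (dia G) (idx R) (idx (R \ η))) i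
    linarith
  · norm_num

theorem pe_nonneg (G : SimpleGraph V) (R η : Set (Sym2 V)) (e : Sym2 V) : 0 ≤ pe G R η e :=
  pei_nonneg _ _ _ _

theorem pe_le_one (G : SimpleGraph V) (R η : Set (Sym2 V)) (e : Sym2 V) : pe G R η e ≤ 1 :=
  pei_le_one _ _ _ _

theorem pe_congr {G : SimpleGraph V} {R η η' : Set (Sym2 V)} (h : η ∩ R = η' ∩ R) (e : Sym2 V) :
    pe G R η e = pe G R η' e := by
  have : R \ η = R \ η' := by
    ext f
    constructor
    · rintro ⟨h1, h2⟩
      refine ⟨h1, fun h3 => h2 ?_⟩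
      have : f ∈ η' ∩ R := ⟨h3, h1⟩
      rw [← h] at this; exact this.1
    · rintro ⟨h1, h2⟩
      refine ⟨h1, fun h3 => h2 ?_⟩
      have : f ∈ η ∩ R := ⟨h3, h1⟩
      rw [h] at this; exact this.1
  unfold pe pei
  rw [this]

theorem pe_of_notMem {G : SimpleGraph V} {R η : Set (Sym2 V)} {e : Sym2 V}
    (h : e ∉ G.edgeSet) : pe G R η e = 0 := by
  induction e using Sym2.ind with
  | _ a b => rw [pe_mk]; unfold pei; rw [if_neg h]

end Vale.Agent.P143
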