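import Vale.Agent.P143.Pe

/-!
# Action of permutations of the vertices
-/

open MeasureTheory Filter Topology
open scoped unitInterval ENNReal

namespace Vale.Agent.P143

universe u

variable {V : Type u}

/-- the permutation of `V × V` induced by a permutation of `V` -/
def pp (g : Equiv.Perm V) : Equiv.Perm (V × V) := Equiv.prodCongr g g

@[simp] theorem pp_apply (g : Equiv.Perm V) (i : V × V) : pp g i = (g i.1, g i.2) := rfl

theorem pp_symm_apply (g : Equiv.Perm V) (i : V × V) :
    (pp g).symm i = (g.symm i.1, g.symm i.2) := rfl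

theorem memℓp_comp (p : Equiv.Perm (V × V)) (x : Hs V) :
    Memℓp (fun i => x (p.symm i)) 2 := by
  have h := lp.memℓp x
  have h2 : (0 : ℝ) < (2 : ℝ≥0∞).toReal := by norm_num
  rw [memℓp_gen_iff h2] at h ⊢
  exact (p.symm.summable_iff (f := fun i => ‖x i‖ ^ (2 : ℝ≥0∞).toReal)).2 h

/-- the permutation operator on `Hs V` -/
noncomputable def Wl (g : Equiv.Perm V) : Hs V →ₗ[ℝ] Hs V where
  toFun x := ⟨fun i => x ((pp g).symm i), memℓp_comp (pp g) x⟩
  map_add' x y := by apply Hs.ext'; intro i; rfl
  map_smul' c x := by apply Hs.ext'; intro i; rfl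

theorem Wl_apply (g : Equiv.Perm V) (x : Hs V) (i : V × V) :
    Wl g x i = x (g.symm i.1, g.symm i.2) := rfl

theorem norm_sq_eq_tsum (x : Hs V) : ‖x‖ ^ 2 = ∑' i, x i ^ 2 := by
  rw [← real_inner_self_eq_norm_sq, lp.inner_eq_tsum]
  apply tsum_congr
  intro i
  simp [pow_two]

/-- the permutation operator on `Hs V`, as a linear isometry equivalence -/
noncomputable def W (g : Equiv.Perm V) : Hs V ≃ₗᵢ[ℝ] Hs V where
  toLinearEquiv := LinearEquiv.ofLinearMap (Wl g) (Wl g.symm)
    (by
      apply LinearMap.ext; intro x; apply Hs.ext'; intro i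
      simp [Wl_apply])
    (by
      apply LinearMap.ext; intro x; apply Hs.ext'; intro i
      simp [Wl_apply])
  norm_map' := by
    intro x
    have h : ‖Wl g x‖ ^ 2 = ‖x‖ ^ 2 := by
      rw [norm_sq_eq_tsum, norm_sq_eq_tsum]
      exact (pp g).symm.tsum_eq (fun i => x i ^ 2)
    have h1 := norm_nonneg (Wl g x)
    have h2 := norm_nonneg x
    change ‖Wl g x‖ = ‖x‖
    exact (pow_left_inj₀ h1 h2 two_ne_zero).1 h

theorem W_apply (g : Equiv.Perm V) (x : Hs V) (i : V × V) :
    W g x i = x (g.symm i.1, g.symm i.2) := rfl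

theorem W_symm_apply (g : Equiv.Perm V) (x : Hs V) (i : V × V) :
    (W g).symm x i = x (g i.1, g i.2) := rfl

theorem W_dl (g : Equiv.Perm V) (i : V × V) : W g (dl i) = dl (g i.1, g i.2) := by
  apply Hs.ext'
  intro j
  rw [W_apply]
  by_cases h : j = (g i.1, g i.2)
  · subst h; simp [dl_apply_self]
  · rw [dl_apply_ne h, dl_apply_ne]
    intro h'
    apply h
    rw [← h']; simp

/-- image of a subspace -/
noncomputable def mapW (g : Equiv.Perm V) (K : Submodule ℝ (Hs V)) : Submodule ℝ (Hs V) :=
  K.map ((W g).toLinearEquiv : Hs V →ₗ[ℝ] Hs V)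

theorem mem_mapW {g : Equiv.Perm V} {K : Submodule ℝ (Hs V)} {x : Hs V} :
    x ∈ mapW g K ↔ (W g).symm x ∈ K := by
  unfold mapW
  rw [Submodule.mem_map]
  constructor
  · rintro ⟨y, hy, rfl⟩
    have : (W g).symm ((W g).toLinearEquiv y) = y := (W g).symm_apply_apply y
    simpa [this] using hy
  · intro h
    exact ⟨(W g).symm x, h, (W g).apply_symm_apply x⟩

theorem mapW_closure (g : Equiv.Perm V) (K : Submodule ℝ (Hs V)) :
    mapW g K.topologicalClosure = (mapW g K).topologicalClosure := by
  apply SetLike.coe_injective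
  have h1 : ((mapW g K.topologicalClosure : Submodule ℝ (Hs V)) : Set (Hs V)) =
      (W g).toHomeomorph '' (closure (K : Set (Hs V))) := by
    unfold mapW
    rw [Submodule.map_coe, Submodule.topologicalClosure_coe]; rfl
  have h2 : ((mapW g K : Submodule ℝ (Hs V)) : Set (Hs V)) =
      (W g).toHomeomorph '' (K : Set (Hs V)) := by
    unfold mapW
    rw [Submodule.map_coe]; rfl
  rw [h1, Submodule.topologicalClosure_coe, h2, Homeomorph.image_closure]

theorem pj_mapW (g : Equiv.Perm V) (K : Submodule ℝ (Hs V)) (x : Hs V) :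
    pj (mapW g K) (W g x) = W g (pj K x) := by
  apply pj_eq_of
  · rw [← mapW_closure, mem_mapW, LinearIsometryEquiv.symm_apply_apply]
    exact pj_mem K x
  · intro w hw
    rw [mem_mapW] at hw
    rw [← map_sub]
    have : w = W g ((W g).symm w) := ((W g).apply_symm_apply w).symm
    rw [this, LinearIsometryEquiv.inner_map_map, inner_sub_left, inner_pj_left,
      pj_eq_self (Submodule.le_topologicalClosure K hw), sub_self]

theorem inner_pj_mapW (g : Equiv.Perm V) (K : Submodule ℝ (Hs V)) (i j : V × V) :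
    (inner ℝ (dl (g i.1, g i.2)) (pj (mapW g K) (dl (g j.1, g j.2))) : ℝ) =
      inner ℝ (dl i) (pj K (dl j)) := by
  rw [← W_dl g i, ← W_dl g j, pj_mapW, LinearIsometryEquiv.inner_map_map]

theorem qq_mapW (g : Equiv.Perm V) (K : Submodule ℝ (Hs V)) (i : V × V) :
    qq (mapW g K) (g i.1, g i.2) = qq K i := inner_pj_mapW g K i i

theorem mapW_inf (g : Equiv.Perm V) (K L : Submodule ℝ (Hs V)) :
    mapW g (K ⊓ L) = mapW g K ⊓ mapW g L := by
  ext x
  simp only [mem_mapW, Submodule.mem_inf]

/-- image of a set of pairs -/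
def setW (g : Equiv.Perm V) (T : Set (V × V)) : Set (V × V) := (pp g).symm ⁻¹' T

theorem mem_setW {g : Equiv.Perm V} {T : Set (V × V)} {i : V × V} :
    i ∈ setW g T ↔ (g.symm i.1, g.symm i.2) ∈ T := Iff.rfl

theorem mapW_coordSub (g : Equiv.Perm V) (T : Set (V × V)) :
    mapW g (coordSub T) = coordSub (setW g T) := by
  ext x
  rw [mem_mapW, mem_coordSub, mem_coordSub]
  constructor
  · intro h i hi
    have := h (g.symm i.1, g.symm i.2) hi
    rw [W_symm_apply] at this
    simpa using this
  · intro h i hi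
    rw [W_symm_apply]
    apply h
    rw [mem_setW]
    simpa using hi

theorem mapW_map_pj (g : Equiv.Perm V) (K L : Submodule ℝ (Hs V)) :
    mapW g (K.map (pj L : Hs V →ₗ[ℝ] Hs V)) =
      (mapW g K).map (pj (mapW g L) : Hs V →ₗ[ℝ] Hs V) := by
  ext x
  rw [mem_mapW, Submodule.mem_map, Submodule.mem_map]
  constructor
  · rintro ⟨y, hy, hyx⟩
    refine ⟨W g y, ?_, ?_⟩
    · rw [mem_mapW, LinearIsometryEquiv.symm_apply_apply]; exact hy
    · change pj (mapW g L) (W g y) = x
      rw [pj_mapW]
      have : pj L y = (W g).symm x := hyx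
      rw [this, LinearIsometryEquiv.apply_symm_apply]
  · rintro ⟨y, hy, hyx⟩
    rw [mem_mapW] at hy
    refine ⟨(W g).symm y, hy, ?_⟩
    change pj L ((W g).symm y) = (W g).symm x
    have h1 : pj (mapW g L) y = x := hyx
    have h2 := pj_mapW g L ((W g).symm y)
    rw [LinearIsometryEquiv.apply_symm_apply] at h2
    rw [← h1, h2, LinearIsometryEquiv.symm_apply_apply]

theorem setW_compl (g : Equiv.Perm V) (T : Set (V × V)) : setW g Tᶜ = (setW g T)ᶜ := rfl

theorem condSub_mapW (g : Equiv.Perm V) (X : Submodule ℝ (Hs V)) (R T : Set (V × V)) :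
    condSub (mapW g X) (setW g R) (setW g T) = mapW g (condSub X R T) := by
  unfold condSub
  rw [mapW_closure, mapW_map_pj, mapW_inf, mapW_coordSub, mapW_coordSub, setW_compl, setW_compl]

theorem idx_permE (g : Equiv.Perm V) (R : Set (Sym2 V)) : idx (permE g R) = setW g (idx R) := by
  ext i
  rfl

theorem cyc_permG (g : Equiv.Perm V) (G : SimpleGraph V) : cyc (permG g G) = mapW g (cyc G) := by
  ext x
  rw [mem_mapW]
  constructor
  · rintro ⟨h1, h2, h3, h4⟩
    refine ⟨?_, ?_, ?_, ?_⟩
    · have : (Function.support ((W g).symm x : V × V → ℝ)) = (pp g) ⁻¹' (Function.support x) := by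
        ext i; rfl
      rw [this]
      exact h1.preimage (pp g).injective.injOn
    · intro a b
      rw [W_symm_apply, W_symm_apply]; exact h2 _ _
    · intro a b hab
      rw [W_symm_apply]
      apply h3
      simpa [permG] using hab
    · intro a
      have h5 := h4 (g a)
      rw [← h5]
      exact finsum_comp_equiv (f := fun b => x (g a, b)) g
  · rintro ⟨h1, h2, h3, h4⟩
    refine ⟨?_, ?_, ?_, ?_⟩
    · have : (Function.support (x : V × V → ℝ)) =
          (pp g).symm ⁻¹' (Function.support ((W g).symm x : V × V → ℝ)) := by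
        ext i
        simp only [Set.mem_preimage, Function.mem_support, W_symm_apply, pp_symm_apply]
        simp
      rw [this]
      exact h1.preimage (pp g).symm.injective.injOn
    · intro a b
      have := h2 (g.symm a) (g.symm b)
      rw [W_symm_apply, W_symm_apply] at this
      simpa using this
    · intro a b hab
      have := h3 (g.symm a) (g.symm b) (by simpa [permG] using hab)
      rw [W_symm_apply] at this
      simpa using this
    · intro a
      have h5 := h4 (g.symm a)
      rw [← h5]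
      have := finsum_comp_equiv (f := fun b => x (a, b)) g
      rw [← this]
      apply finsum_congr
      intro b
      rw [W_symm_apply]
      simp

theorem dia_permG (g : Equiv.Perm V) (G : SimpleGraph V) : dia (permG g G) = mapW g (dia G) := by
  unfold dia
  rw [cyc_permG, mapW_closure]

theorem permE_sdiff (g : Equiv.Perm V) (R η : Set (Sym2 V)) :
    permE g R \ permE g η = permE g (R \ η) := rfl

theorem mem_edgeSet_permG (g : Equiv.Perm V) (G : SimpleGraph V) (e : Sym2 V) :
    Sym2.map g e ∈ (permG g G).edgeSet ↔ e ∈ G.edgeSet := by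
  induction e using Sym2.ind with
  | _ a b =>
    simp [permG]

theorem pei_perm (g : Equiv.Perm V) (G : SimpleGraph V) (R η : Set (Sym2 V)) (i : V × V) :
    pei (permG g G) (permE g R) (permE g η) (g i.1, g i.2) = pei G R η i := by
  unfold pei
  have h1 : s(g i.1, g i.2) ∈ (permG g G).edgeSet ↔ s(i.1, i.2) ∈ G.edgeSet := by
    simp [permG]
  rw [dia_permG, permE_sdiff, idx_permE, idx_permE, condSub_mapW, qq_mapW]
  by_cases h : s(i.1, i.2) ∈ G.edgeSet
  · rw [if_pos h, if_pos (h1.2 h)]
  · rw [if_neg h, if_neg (fun h' => h (h1.1 h'))]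

theorem pe_perm (g : Equiv.Perm V) (G : SimpleGraph V) (R η : Set (Sym2 V)) (e : Sym2 V) :
    pe (permG g G) (permE g R) (permE g η) (Sym2.map g e) = pe G R η e := by
  induction e using Sym2.ind with
  | _ a b =>
    rw [Sym2.map_mk, pe_mk, pe_mk]
    exact pei_perm g G R η (a, b)

end Vale.Agent.P143
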