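import Vale.Agent.P143.Trace

/-!
# The dimension inequality `dim closure (P ran Q) ≤ dim Q`
-/

open MeasureTheory Filter Topology
open scoped unitInterval ENNReal

namespace Vale.Agent.P143

universe u

variable {V : Type u}

theorem pj_adjoint (K : Submodule ℝ (Hs V)) :
    ContinuousLinearMap.adjoint (pj K) = pj K := by
  symm
  rw [ContinuousLinearMap.eq_adjoint_iff]
  intro x y
  exact inner_pj_left K x y

section ops

variable (K L : Submodule ℝ (Hs V))

/-- `T = P Q P`, with `P = pj L`, `Q = pj K` -/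
noncomputable def opT : Hs V →L[ℝ] Hs V := (pj L * pj K) * (pj K * pj L)

theorem mul_clm_apply (A B : Hs V →L[ℝ] Hs V) (x : Hs V) : (A * B) x = A (B x) := rfl

theorem opT_apply (x : Hs V) : opT K L x = pj L (pj K (pj L x)) := by
  unfold opT
  change pj L (pj K (pj K (pj L x))) = _
  rw [pj_pj]

theorem inner_opT (x : Hs V) : (inner ℝ x (opT K L x) : ℝ) = ‖pj K (pj L x)‖ ^ 2 := by
  rw [opT_apply, ← inner_pj_left, inner_pj_self]

theorem opT_sa (x y : Hs V) : (inner ℝ (opT K L x) y : ℝ) = inner ℝ x (opT K L y) := by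
  rw [opT_apply, opT_apply, inner_pj_left, inner_pj_left, inner_pj_left]

theorem norm_pj_pj_le (x : Hs V) : ‖pj K (pj L x)‖ ≤ ‖x‖ :=
  (norm_pj_le K _).trans (norm_pj_le L _)

theorem inner_one_sub_opT (x : Hs V) : (0 : ℝ) ≤ inner ℝ x ((1 - opT K L) x) := by
  change (0 : ℝ) ≤ inner ℝ x (x - opT K L x)
  rw [inner_sub_right, inner_opT, real_inner_self_eq_norm_sq]
  have := norm_pj_pj_le K L x
  have h := norm_nonneg (pj K (pj L x))
  nlinarith

theorem one_sub_opT_sa (x y : Hs V) :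
    (inner ℝ ((1 - opT K L) x) y : ℝ) = inner ℝ x ((1 - opT K L) y) := by
  change (inner ℝ (x - opT K L x) y : ℝ) = inner ℝ x (y - opT K L y)
  rw [inner_sub_left, inner_sub_right, opT_sa]

theorem norm_one_sub_opT_le : ‖1 - opT K L‖ ≤ 1 := by
  apply ContinuousLinearMap.opNorm_le_bound _ zero_le_one
  intro x
  rw [one_mul]
  change ‖x - opT K L x‖ ≤ ‖x‖
  have h1 : ‖x - opT K L x‖ ^ 2 ≤ ‖x‖ ^ 2 := by
    rw [norm_sub_sq_real, inner_opT]
    have h2 : ‖opT K L x‖ ≤ ‖pj K (pj L x)‖ := by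
      rw [opT_apply]; exact norm_pj_le L _
    have h3 := norm_nonneg (opT K L x)
    nlinarith
  exact (pow_le_pow_iff_left₀ (norm_nonneg _) (norm_nonneg _) two_ne_zero).1 h1

theorem inner_pow_one_sub (j : ℕ) (x : Hs V) : (0 : ℝ) ≤ inner ℝ x (((1 - opT K L) ^ j) x) :=
  inner_pow_nonneg (one_sub_opT_sa K L) (inner_one_sub_opT K L) j x

theorem norm_pow_one_sub_le (j : ℕ) (x : Hs V) : ‖((1 - opT K L) ^ j) x‖ ≤ ‖x‖ := by
  induction j with
  | zero => simp
  | succ j ih =>
    rw [pow_succ']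
    change ‖(1 - opT K L) (((1 - opT K L) ^ j) x)‖ ≤ ‖x‖
    calc _ ≤ ‖1 - opT K L‖ * ‖((1 - opT K L) ^ j) x‖ := ContinuousLinearMap.le_opNorm _ _
      _ ≤ 1 * ‖x‖ := by
        gcongr
        exact norm_one_sub_opT_le K L
      _ = ‖x‖ := one_mul _

/-- `(1-T)^j P Q = P Q (1-S)^j` -/
theorem pow_mul_comm (j : ℕ) :
    (1 - opT K L) ^ j * (pj L * pj K) = (pj L * pj K) * (1 - opT L K) ^ j := by
  have h : SemiconjBy (pj L * pj K) (1 - opT L K) (1 - opT K L) := by
    unfold SemiconjBy opT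
    noncomm_ring
  exact (h.pow_right j).eq.symm

/-- `(1-T)^j T = P Q (1-S)^j Q P` -/
theorem pow_mul_opT (j : ℕ) :
    (1 - opT K L) ^ j * opT K L = (pj L * pj K) * ((1 - opT L K) ^ j * (pj K * pj L)) := by
  unfold opT at *
  rw [← mul_assoc, ← mul_assoc ((1 - _) ^ j)]
  have := pow_mul_comm K L j
  unfold opT at this
  rw [← mul_assoc ((1 - _) ^ j)] at this
  rw [this, mul_assoc]

/-- `S (1-S)^j = (1 - S)^j S` -/
theorem opT_mul_pow (j : ℕ) :
    (1 - opT K L) ^ j * opT K L = opT K L * (1 - opT K L) ^ j := by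
  have h : Commute (1 - opT K L) (opT K L) :=
    (Commute.one_left _).sub_left (Commute.refl _)
  exact (h.pow_left j).eq

theorem adjoint_pj_mul : ContinuousLinearMap.adjoint (pj K * pj L) = pj L * pj K := by
  change ContinuousLinearMap.adjoint ((pj K).comp (pj L)) = _
  rw [ContinuousLinearMap.adjoint_comp, pj_adjoint, pj_adjoint]; rfl

theorem adjoint_pow_one_sub (j : ℕ) :
    ContinuousLinearMap.adjoint ((1 - opT K L) ^ j) = (1 - opT K L) ^ j := by
  symm
  rw [ContinuousLinearMap.eq_adjoint_iff]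
  induction j with
  | zero => intro x y; simp
  | succ m ih =>
    intro x y
    rw [pow_succ]
    change (inner ℝ (((1 - opT K L) ^ m) ((1 - opT K L) x)) y : ℝ) =
      inner ℝ x (((1 - opT K L) ^ m) ((1 - opT K L) y))
    rw [ih, one_sub_opT_sa]
    have : (1 - opT K L) (((1 - opT K L) ^ m) y) = ((1 - opT K L) ^ m) ((1 - opT K L) y) := by
      change ((1 - opT K L) * (1 - opT K L) ^ m) y = ((1 - opT K L) ^ m * (1 - opT K L)) y
      rw [← pow_succ, ← pow_succ']
    rw [this]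

/-- the approximants of the projection onto the closure of the range of `T` -/
noncomputable def bn (n : ℕ) : Hs V →L[ℝ] Hs V :=
  (n : ℝ)⁻¹ • ∑ k ∈ Finset.range n, ∑ j ∈ Finset.range k, (1 - opT K L) ^ j * opT K L

theorem bn_eq {n : ℕ} (hn : 0 < n) :
    bn K L n = 1 - (n : ℝ)⁻¹ • ∑ k ∈ Finset.range n, (1 - opT K L) ^ k := by
  unfold bn
  have h : ∀ k, ∑ j ∈ Finset.range k, (1 - opT K L) ^ j * opT K L = 1 - (1 - opT K L) ^ k := by
    intro k
    rw [← Finset.sum_mul]
    have := geom_sum_mul_neg (1 - opT K L) k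
    rw [sub_sub_cancel] at this
    exact this
  simp only [h]
  rw [Finset.sum_sub_distrib, smul_sub]
  congr 1
  rw [Finset.sum_const, Finset.card_range, ← Nat.cast_smul_eq_nsmul ℝ, smul_smul,
    inv_mul_cancel₀ (by positivity), one_smul]

/-- `T x = 0` iff `x` is orthogonal to `P K` -/
theorem opT_eq_zero_iff (x : Hs V) :
    opT K L x = 0 ↔ x ∈ (K.map (pj L : Hs V →ₗ[ℝ] Hs V))ᗮ := by
  rw [Submodule.mem_orthogonal]
  constructor
  · intro h
    have h1 : pj K (pj L x) = 0 := by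
      have := inner_opT K L x
      rw [h, inner_zero_right] at this
      have h2 : ‖pj K (pj L x)‖ = 0 := by nlinarith [norm_nonneg (pj K (pj L x))]
      exact norm_eq_zero.1 h2
    rintro _ ⟨k, hk, rfl⟩
    change (inner ℝ (pj L k) x : ℝ) = 0
    rw [inner_pj_left]
    have h3 : k = pj K k := (pj_eq_self (Submodule.le_topologicalClosure K hk)).symm
    rw [h3, inner_pj_left, h1, inner_zero_right]
  · intro h
    have h1 : pj K (pj L x) = 0 := by
      apply pj_eq_of (zero_mem _)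
      intro w hw
      rw [sub_zero, inner_pj_left, real_inner_comm]
      exact h _ ⟨w, hw, rfl⟩
    rw [opT_apply, h1, map_zero]

theorem tendsto_bn (x : Hs V) :
    Tendsto (fun n => bn K L n x) atTop (𝓝 (pj (K.map (pj L : Hs V →ₗ[ℝ] Hs V)) x)) := by
  have h := tendsto_avg (1 - opT K L) (norm_one_sub_opT_le K L)
    (K := (K.map (pj L : Hs V →ₗ[ℝ] Hs V))ᗮ) (Submodule.isClosed_orthogonal _) (by
      intro y
      rw [← opT_eq_zero_iff]
      change _ ↔ y - opT K L y = y
      constructor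
      · intro h; rw [h, sub_zero]
      · intro h
        have := congrArg (fun z => y - z) h
        simpa using this) x
  have h2 : Tendsto (fun n : ℕ => x - ((n : ℝ)⁻¹ • ∑ k ∈ Finset.range n, (1 - opT K L) ^ k) x)
      atTop (𝓝 (x - pj (K.map (pj L : Hs V →ₗ[ℝ] Hs V))ᗮ x)) := h.const_sub x
  rw [pj_orthogonal] at h2
  have h3 : x - (1 - pj (K.map (pj L : Hs V →ₗ[ℝ] Hs V))) x =
      pj (K.map (pj L : Hs V →ₗ[ℝ] Hs V)) x := by
    change x - (x - pj (K.map (pj L : Hs V →ₗ[ℝ] Hs V)) x) = _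
    rw [sub_sub_cancel]
  rw [h3] at h2
  refine h2.congr' ?_
  filter_upwards [eventually_gt_atTop 0] with n hn
  rw [bn_eq K L hn]; rfl

/-- entries of `b_n` -/
theorem inner_bn (n : ℕ) (x : Hs V) :
    (inner ℝ x (bn K L n x) : ℝ) =
      (n : ℝ)⁻¹ * ∑ k ∈ Finset.range n, ∑ j ∈ Finset.range k,
        inner ℝ x (((1 - opT K L) ^ j * opT K L) x) := by
  unfold bn
  rw [ContinuousLinearMap.smul_apply, inner_smul_right]
  congr 1
  rw [ContinuousLinearMap.sum_apply, inner_sum]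
  apply Finset.sum_congr rfl
  intro k _
  rw [ContinuousLinearMap.sum_apply, inner_sum]

theorem inner_pow_mul_opT (j : ℕ) (x : Hs V) :
    (inner ℝ x (((1 - opT K L) ^ j * opT K L) x) : ℝ) =
      inner ℝ (pj K (pj L x)) (((1 - opT L K) ^ j) (pj K (pj L x))) := by
  rw [pow_mul_opT]
  change (inner ℝ x (pj L (pj K (((1 - opT L K) ^ j) (pj K (pj L x))))) : ℝ) = _
  rw [← inner_pj_left, ← inner_pj_left]

theorem inner_pow_mul_opT' (j : ℕ) (x : Hs V) :
    (inner ℝ x (((1 - opT K L) ^ j * opT K L) x) : ℝ) =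
      inner ℝ (pj K (pj L x)) (pj K (pj L (((1 - opT K L) ^ j) x))) := by
  rw [opT_mul_pow, mul_clm_apply, opT_apply, ← inner_pj_left, inner_pj_left K, pj_pj]

theorem inner_pow_mul_opT_nonneg (j : ℕ) (x : Hs V) :
    (0 : ℝ) ≤ inner ℝ x (((1 - opT K L) ^ j * opT K L) x) := by
  rw [inner_pow_mul_opT]
  exact inner_pow_one_sub L K j _

theorem inner_bn_nonneg (n : ℕ) (x : Hs V) : (0 : ℝ) ≤ inner ℝ x (bn K L n x) := by
  rw [inner_bn]
  apply mul_nonneg (by positivity)
  exact Finset.sum_nonneg fun k _ => Finset.sum_nonneg fun j _ => inner_pow_mul_opT_nonneg K L j x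

/-- `S`-side: `⟨x, c_n x⟩ ≤ ‖Q x‖²` where `Q = pj L` is the outer projection -/
theorem inner_bn_le (n : ℕ) (x : Hs V) :
    (inner ℝ x (bn K L n x) : ℝ) ≤ ‖pj L x‖ ^ 2 := by
  rcases Nat.eq_zero_or_pos n with rfl | hn
  · unfold bn; simp
  have h : ∀ k : ℕ, (inner ℝ x ((1 - (1 - opT K L) ^ k : Hs V →L[ℝ] Hs V) x) : ℝ) ≤
      ‖pj L x‖ ^ 2 := by
    intro k
    have hker : ∀ y : Hs V, pj L y = 0 → ((1 - opT K L) ^ k) y = y := by
      intro y hy
      induction k with
      | zero => simp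
      | succ k ih =>
        rw [pow_succ]
        change ((1 - opT K L) ^ k) ((1 - opT K L) y) = y
        have : (1 - opT K L) y = y := by
          change y - opT K L y = y
          rw [opT_apply, hy, map_zero, map_zero, sub_zero]
        rw [this, ih]
    have hy0 : pj L (x - pj L x) = 0 := by rw [map_sub, pj_pj, sub_self]
    have e1 : ((1 - opT K L) ^ k) x = ((1 - opT K L) ^ k) (pj L x) + (x - pj L x) := by
      conv_lhs => rw [show x = pj L x + (x - pj L x) by abel]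
      rw [map_add, hker _ hy0]
    have hsa : ∀ y z : Hs V, (inner ℝ (((1 - opT K L) ^ k) y) z : ℝ) =
        inner ℝ y (((1 - opT K L) ^ k) z) := by
      intro y z
      rw [← ContinuousLinearMap.adjoint_inner_right, adjoint_pow_one_sub]
    have e2 : (inner ℝ x (((1 - opT K L) ^ k) (pj L x)) : ℝ) =
        inner ℝ (pj L x) (((1 - opT K L) ^ k) (pj L x)) := by
      conv_lhs => rw [show x = pj L x + (x - pj L x) by abel]
      rw [inner_add_left, ← hsa (x - pj L x), map_add, map_add]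
      rw [hker _ hy0, hy0, add_zero, pj_pj]
      simp only [map_zero, add_zero]
      have : (inner ℝ (x - pj L x) (pj L x) : ℝ) = 0 := by
        rw [← inner_pj_left, hy0, inner_zero_left]
      rw [this, add_zero]
    change (inner ℝ x (x - ((1 - opT K L) ^ k) x) : ℝ) ≤ _
    rw [inner_sub_right, e1, inner_add_right, e2, inner_sub_right, inner_pj_self]
    have h3 := inner_pow_one_sub K L k (pj L x)
    linarith
  have h4 : (inner ℝ x (bn K L n x) : ℝ) =
      (n : ℝ)⁻¹ * ∑ k ∈ Finset.range n,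
        inner ℝ x ((1 - (1 - opT K L) ^ k : Hs V →L[ℝ] Hs V) x) := by
    rw [bn_eq K L hn]
    have : (1 - (n : ℝ)⁻¹ • ∑ k ∈ Finset.range n, (1 - opT K L) ^ k) =
        (n : ℝ)⁻¹ • ∑ k ∈ Finset.range n, (1 - (1 - opT K L) ^ k) := by
      rw [Finset.sum_sub_distrib, smul_sub]
      congr 1
      rw [Finset.sum_const, Finset.card_range, ← Nat.cast_smul_eq_nsmul ℝ, smul_smul,
        inv_mul_cancel₀ (by positivity), one_smul]
    rw [this, ContinuousLinearMap.smul_apply, inner_smul_right, ContinuousLinearMap.sum_apply,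
      inner_sum]
  rw [h4]
  calc (n : ℝ)⁻¹ * ∑ k ∈ Finset.range n,
        (inner ℝ x ((1 - (1 - opT K L) ^ k : Hs V →L[ℝ] Hs V) x) : ℝ)
      ≤ (n : ℝ)⁻¹ * ∑ k ∈ Finset.range n, ‖pj L x‖ ^ 2 := by
        gcongr with k _
        exact h k
    _ = ‖pj L x‖ ^ 2 := by
        rw [Finset.sum_const, Finset.card_range, nsmul_eq_mul, ← mul_assoc,
          inv_mul_cancel₀ (by positivity), one_mul]

end ops

section

variable {Ω : Type*} [MeasurableSpace Ω] {𝒮 : Set (Equiv.Perm V)} {act : Equiv.Perm V → Ω → Ω}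
variable [Countable V] [MeasurableSpace V] [DiscreteMeasurableSpace V]

theorem goodOp_opT {K L : Ω → Submodule ℝ (Hs V)}
    (hK : GoodOp 𝒮 act (fun ω => pj (K ω))) (hL : GoodOp 𝒮 act (fun ω => pj (L ω))) :
    GoodOp 𝒮 act (fun ω => opT (K ω) (L ω)) :=
  (hL.mul hK).mul (hK.mul hL)

theorem goodOp_bn {K L : Ω → Submodule ℝ (Hs V)}
    (hK : GoodOp 𝒮 act (fun ω => pj (K ω))) (hL : GoodOp 𝒮 act (fun ω => pj (L ω))) (n : ℕ) :
    GoodOp 𝒮 act (fun ω => bn (K ω) (L ω) n) := by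
  unfold bn
  exact (GoodOp.sum _ fun k _ => GoodOp.sum _ fun j _ =>
    ((GoodOp.const_one.sub (goodOp_opT hK hL)).pow j).mul (goodOp_opT hK hL)).smul _

theorem trace_pow_eq {P : Measure (Ω × V)} (hP : MTP 𝒮 act P) {K L : Ω → Submodule ℝ (Hs V)}
    (hK : GoodOp 𝒮 act (fun ω => pj (K ω))) (hL : GoodOp 𝒮 act (fun ω => pj (L ω)))
    (hfin : NN P (fun ω => pj (K ω)) ≠ ⊤) (j : ℕ) :
    ∫⁻ p, ∑' y, ENNReal.ofReal (inner ℝ (dl (p.2, y))
      (((1 - opT (K p.1) (L p.1)) ^ j * opT (K p.1) (L p.1)) (dl (p.2, y)))) ∂P =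
    ∫⁻ p, ∑' y, ENNReal.ofReal (inner ℝ (dl (p.2, y))
      (((1 - opT (L p.1) (K p.1)) ^ j * opT (L p.1) (K p.1)) (dl (p.2, y)))) ∂P := by
  have hA : GoodOp 𝒮 act (fun ω => pj (K ω) * pj (L ω)) := hK.mul hL
  have hB : GoodOp 𝒮 act (fun ω => (1 - opT (L ω) (K ω)) ^ j * (pj (K ω) * pj (L ω))) :=
    ((GoodOp.const_one.sub (goodOp_opT hL hK)).pow j).mul hA
  have hadjA : ∀ ω, ContinuousLinearMap.adjoint (pj (K ω) * pj (L ω)) = pj (L ω) * pj (K ω) :=
    fun ω => adjoint_pj_mul _ _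
  have hadjB : ∀ ω, ContinuousLinearMap.adjoint
      ((1 - opT (L ω) (K ω)) ^ j * (pj (K ω) * pj (L ω))) =
      pj (L ω) * pj (K ω) * (1 - opT (L ω) (K ω)) ^ j := by
    intro ω
    change ContinuousLinearMap.adjoint
      (((1 - opT (L ω) (K ω)) ^ j).comp (pj (K ω) * pj (L ω))) = _
    rw [ContinuousLinearMap.adjoint_comp, adjoint_pow_one_sub, hadjA]; rfl
  have hNA : NN P (fun ω => pj (K ω) * pj (L ω)) ≤ NN P (fun ω => pj (K ω)) := by
    rw [← NN_adjoint hP hA]
    simp only [hadjA]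
    exact NN_mono fun ω i => norm_pj_le (L ω) _
  have hsub : NN P (fun ω => pj (K ω) * pj (L ω) -
      (1 - opT (L ω) (K ω)) ^ j * (pj (K ω) * pj (L ω))) ≠ ⊤ := by
    have h1 : NN P (fun ω => pj (K ω) * pj (L ω) -
        (1 - opT (L ω) (K ω)) ^ j * (pj (K ω) * pj (L ω))) ≤
        4 * NN P (fun ω => pj (K ω) * pj (L ω)) := by
      unfold NN
      rw [← lintegral_const_mul _ hA.meas_NN]
      apply lintegral_mono
      intro p
      simp only
      rw [← ENNReal.tsum_mul_left]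
      apply ENNReal.tsum_le_tsum
      intro y
      have e1 : (4 : ℝ≥0∞) = ENNReal.ofReal 4 := by norm_num
      rw [e1, ← ENNReal.ofReal_mul (by norm_num)]
      apply ENNReal.ofReal_le_ofReal
      set z := (pj (K p.1) * pj (L p.1)) (dl (p.2, y))
      have h2 : ‖(pj (K p.1) * pj (L p.1) -
        (1 - opT (L p.1) (K p.1)) ^ j * (pj (K p.1) * pj (L p.1))) (dl (p.2, y))‖ ≤ 2 * ‖z‖ := by
        change ‖z - ((1 - opT (L p.1) (K p.1)) ^ j) z‖ ≤ 2 * ‖z‖
        have := norm_sub_le z (((1 - opT (L p.1) (K p.1)) ^ j) z)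
        have h3 := norm_pow_one_sub_le (L p.1) (K p.1) j z
        linarith
      have h4 := norm_nonneg ((pj (K p.1) * pj (L p.1) -
        (1 - opT (L p.1) (K p.1)) ^ j * (pj (K p.1) * pj (L p.1))) (dl (p.2, y)))
      nlinarith
    refine ne_top_of_le_ne_top ?_ h1
    exact ENNReal.mul_ne_top (by norm_num) (ne_top_of_le_ne_top hfin hNA)
  have key := polarization hP hA hB hsub
    (by
      intro ω i
      change (0 : ℝ) ≤ inner ℝ (pj (K ω) (pj (L ω) (dl i)))
        (((1 - opT (L ω) (K ω)) ^ j) (pj (K ω) (pj (L ω) (dl i))))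
      exact inner_pow_one_sub _ _ _ _)
    (by
      intro ω i
      rw [hadjA, hadjB]
      change (0 : ℝ) ≤ inner ℝ (pj (L ω) (pj (K ω) (dl i)))
        (pj (L ω) (pj (K ω) (((1 - opT (L ω) (K ω)) ^ j) (dl i))))
      rw [← inner_pow_mul_opT']
      exact inner_pow_mul_opT_nonneg _ _ _ _)
  refine Eq.trans ?_ (key.trans ?_)
  · apply lintegral_congr
    intro p
    apply tsum_congr
    intro y
    rw [inner_pow_mul_opT]; rfl
  · apply lintegral_congr
    intro p
    apply tsum_congr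
    intro y
    rw [hadjA, hadjB, inner_pow_mul_opT']; rfl

/-- (I1): `dim closure (P ran Q) ≤ dim Q` -/
theorem NN_map_le {P : Measure (Ω × V)} (hP : MTP 𝒮 act P) {K L : Ω → Submodule ℝ (Hs V)}
    (hK : GoodOp 𝒮 act (fun ω => pj (K ω))) (hL : GoodOp 𝒮 act (fun ω => pj (L ω))) :
    NN P (fun ω => pj ((K ω).map (pj (L ω) : Hs V →ₗ[ℝ] Hs V))) ≤ NN P (fun ω => pj (K ω)) := by
  by_cases hfin : NN P (fun ω => pj (K ω)) = ⊤
  · rw [hfin]; exact le_top
  -- pointwise limit
  have hlim : ∀ ω i, Tendsto (fun n => ENNReal.ofReal (inner ℝ (dl i) (bn (K ω) (L ω) n (dl i))))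
      atTop (𝓝 (ENNReal.ofReal (‖pj ((K ω).map (pj (L ω) : Hs V →ₗ[ℝ] Hs V)) (dl i)‖ ^ 2))) := by
    intro ω i
    refine (ENNReal.continuous_ofReal.tendsto _).comp ?_
    rw [← inner_pj_self]
    exact ((innerSL ℝ (dl i)).continuous.tendsto _).comp (tendsto_bn (K ω) (L ω) (dl i))
  have hmeasb : ∀ n, Measurable fun p : Ω × V => ∑' y, ENNReal.ofReal
      (inner ℝ (dl (p.2, y)) (bn (K p.1) (L p.1) n (dl (p.2, y)))) := by
    intro n
    refine meas_prod (f := fun ω v => ∑' y, ENNReal.ofReal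
      (inner ℝ (dl (v, y)) (bn (K ω) (L ω) n (dl (v, y))))) ?_
    intro v
    exact Measurable.ennreal_tsum fun y => ((goodOp_bn hK hL n).meas _ _).ennreal_ofReal
  -- trace of b_n equals trace of c_n
  have htr : ∀ n, ∫⁻ p, ∑' y, ENNReal.ofReal
      (inner ℝ (dl (p.2, y)) (bn (K p.1) (L p.1) n (dl (p.2, y)))) ∂P =
      ∫⁻ p, ∑' y, ENNReal.ofReal
      (inner ℝ (dl (p.2, y)) (bn (L p.1) (K p.1) n (dl (p.2, y)))) ∂P := by
    intro n
    have hgen : ∀ (K L : Ω → Submodule ℝ (Hs V)), GoodOp 𝒮 act (fun ω => pj (K ω)) →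
        GoodOp 𝒮 act (fun ω => pj (L ω)) →
        ∫⁻ p, ∑' y, ENNReal.ofReal
          (inner ℝ (dl (p.2, y)) (bn (K p.1) (L p.1) n (dl (p.2, y)))) ∂P =
        ENNReal.ofReal (n : ℝ)⁻¹ * ∑ k ∈ Finset.range n, ∑ j ∈ Finset.range k,
          ∫⁻ p, ∑' y, ENNReal.ofReal (inner ℝ (dl (p.2, y))
          (((1 - opT (K p.1) (L p.1)) ^ j * opT (K p.1) (L p.1) : Hs V →L[ℝ] Hs V)
            (dl (p.2, y)))) ∂P := by
      intro K L hK hL
      have hm : ∀ j : ℕ, Measurable fun p : Ω × V => ∑' y, ENNReal.ofReal (inner ℝ (dl (p.2, y))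
          (((1 - opT (K p.1) (L p.1)) ^ j * opT (K p.1) (L p.1)) (dl (p.2, y)))) := by
        intro j
        refine meas_prod (f := fun ω v => ∑' y, ENNReal.ofReal (inner ℝ (dl (v, y))
          (((1 - opT (K ω) (L ω)) ^ j * opT (K ω) (L ω)) (dl (v, y))))) ?_
        intro v
        exact Measurable.ennreal_tsum fun y =>
          ((((GoodOp.const_one.sub (goodOp_opT hK hL)).pow j).mul (goodOp_opT hK hL)).meas
            _ _).ennreal_ofReal
      have e : ∀ k ∈ Finset.range n, ∑ j ∈ Finset.range k,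
          ∫⁻ p, ∑' y, ENNReal.ofReal (inner ℝ (dl (p.2, y))
          (((1 - opT (K p.1) (L p.1)) ^ j * opT (K p.1) (L p.1)) (dl (p.2, y)))) ∂P =
          ∫⁻ p, ∑ j ∈ Finset.range k, ∑' y, ENNReal.ofReal (inner ℝ (dl (p.2, y))
          (((1 - opT (K p.1) (L p.1)) ^ j * opT (K p.1) (L p.1)) (dl (p.2, y)))) ∂P := by
        intro k _
        rw [lintegral_finset_sum _ fun j _ => hm j]
      rw [Finset.sum_congr rfl e, ← lintegral_finset_sum _ fun k _ =>
        Finset.measurable_sum _ fun j _ => hm j, ← lintegral_const_mul _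
        (Finset.measurable_sum _ fun k _ => Finset.measurable_sum _ fun j _ => hm j)]
      apply lintegral_congr
      intro p
      have e2 : ∀ y, ENNReal.ofReal
          (inner ℝ (dl (p.2, y)) (bn (K p.1) (L p.1) n (dl (p.2, y)))) =
          ENNReal.ofReal (n : ℝ)⁻¹ * ∑ k ∈ Finset.range n, ∑ j ∈ Finset.range k,
          ENNReal.ofReal (inner ℝ (dl (p.2, y))
          (((1 - opT (K p.1) (L p.1)) ^ j * opT (K p.1) (L p.1)) (dl (p.2, y)))) := by
        intro y
        rw [inner_bn, ENNReal.ofReal_mul (by positivity)]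
        congr 1
        rw [ENNReal.ofReal_sum_of_nonneg fun k _ => Finset.sum_nonneg fun j _ =>
          inner_pow_mul_opT_nonneg _ _ _ _]
        apply Finset.sum_congr rfl
        intro k _
        rw [ENNReal.ofReal_sum_of_nonneg fun j _ => inner_pow_mul_opT_nonneg _ _ _ _]
      simp only [e2]
      rw [ENNReal.tsum_mul_left]
      congr 1
      rw [Summable.tsum_finsetSum fun _ _ => ENNReal.summable]
      apply Finset.sum_congr rfl
      intro k _
      rw [Summable.tsum_finsetSum fun _ _ => ENNReal.summable]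
    rw [hgen K L hK hL, hgen L K hL hK]
    congr 1
    apply Finset.sum_congr rfl
    intro k _
    apply Finset.sum_congr rfl
    intro j _
    exact trace_pow_eq hP hK hL hfin j
  -- bound
  have hle : ∀ n, ∫⁻ p, ∑' y, ENNReal.ofReal
      (inner ℝ (dl (p.2, y)) (bn (L p.1) (K p.1) n (dl (p.2, y)))) ∂P ≤
      NN P (fun ω => pj (K ω)) := by
    intro n
    unfold NN
    apply lintegral_mono
    intro p
    apply ENNReal.tsum_le_tsum
    intro y
    exact ENNReal.ofReal_le_ofReal (inner_bn_le _ _ _ _)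
  -- Fatou twice
  calc NN P (fun ω => pj ((K ω).map (pj (L ω) : Hs V →ₗ[ℝ] Hs V)))
      ≤ ∫⁻ p, liminf (fun n => ∑' y, ENNReal.ofReal
          (inner ℝ (dl (p.2, y)) (bn (K p.1) (L p.1) n (dl (p.2, y))))) atTop ∂P := by
        unfold NN
        apply lintegral_mono
        intro p
        have h1 : ∀ y, ENNReal.ofReal
            (‖pj ((K p.1).map (pj (L p.1) : Hs V →ₗ[ℝ] Hs V)) (dl (p.2, y))‖ ^ 2) =
            liminf (fun n => ENNReal.ofReal
              (inner ℝ (dl (p.2, y)) (bn (K p.1) (L p.1) n (dl (p.2, y))))) atTop :=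
          fun y => ((hlim p.1 (p.2, y)).liminf_eq).symm
        simp only [h1]
        have h2 := lintegral_liminf_le (μ := (Measure.count : Measure V)) (u := atTop)
          (f := fun (n : ℕ) y =>
          ENNReal.ofReal (inner ℝ (dl (p.2, y)) (bn (K p.1) (L p.1) n (dl (p.2, y)))))
          (fun n => Measurable.of_discrete)
        simp only [lintegral_count] at h2
        exact h2
    _ ≤ liminf (fun n => ∫⁻ p, ∑' y, ENNReal.ofReal
          (inner ℝ (dl (p.2, y)) (bn (K p.1) (L p.1) n (dl (p.2, y)))) ∂P) atTop :=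
        lintegral_liminf_le hmeasb
    _ ≤ NN P (fun ω => pj (K ω)) := by
        simp only [htr]
        refine liminf_le_of_le (by isBoundedDefault) ?_
        intro b hb
        obtain ⟨n, hn⟩ := hb.exists
        exact hn.trans (hle n)

end

end Vale.Agent.P143
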