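import Vale.Agent.P143.Pe

/-!
# The conditional transfer-current formula for uniform spanning trees
-/

open Filter Topology

namespace Vale.Agent.P143

universe u

variable {V : Type u}

/-! ### Flows of walks -/

open Classical in
/-- The signed number of passages of a walk along a dart. -/
noncomputable def wf {K : SimpleGraph V} : {a b : V} → K.Walk a b → V × V → ℝ
  | _, _, SimpleGraph.Walk.nil => fun _ => 0
  | _, _, @SimpleGraph.Walk.cons _ _ x y _ _ p => fun i =>
      (if i = (x, y) then 1 else 0) - (if i = (y, x) then 1 else 0) + wf p i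

theorem wf_antisymm {K : SimpleGraph V} {a b : V} (p : K.Walk a b) (c d : V) :
    wf p (c, d) = - wf p (d, c) := by
  classical
  induction p with
  | nil => simp [wf]
  | @cons x y z h p ih =>
    simp only [wf, ih, Prod.mk.injEq]
    have h1 : (d = x ∧ c = y) ↔ (c = y ∧ d = x) := and_comm
    have h2 : (d = y ∧ c = x) ↔ (c = x ∧ d = y) := and_comm
    simp only [h1, h2]
    ring

theorem wf_eq_zero {K : SimpleGraph V} {a b : V} (p : K.Walk a b) {c d : V} (h : ¬ K.Adj c d) :
    wf p (c, d) = 0 := by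
  classical
  induction p with
  | nil => simp [wf]
  | @cons x y z h' p ih =>
    simp only [wf, ih, Prod.mk.injEq]
    have h1 : ¬ (c = x ∧ d = y) := by rintro ⟨rfl, rfl⟩; exact h h'
    have h2 : ¬ (c = y ∧ d = x) := by rintro ⟨rfl, rfl⟩; exact h h'.symm
    simp [h1, h2]

open Classical in
theorem wf_div {K : SimpleGraph V} {a b : V} (p : K.Walk a b) (s : Finset V)
    (hs : ∀ c d, K.Adj c d → d ∈ s) (c : V) :
    ∑ d ∈ s, wf p (c, d) = (if c = a then 1 else 0) - (if c = b then 1 else 0) := by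
  induction p with
  | nil => simp [wf]
  | @cons x y z h' p ih =>
    simp only [wf, Finset.sum_add_distrib, Finset.sum_sub_distrib, ih, Prod.mk.injEq]
    have hx : x ∈ s := hs _ _ h'.symm
    have hy : y ∈ s := hs _ _ h'
    have e1 : ∑ d ∈ s, (if c = x ∧ d = y then (1 : ℝ) else 0) = if c = x then 1 else 0 := by
      by_cases hc : c = x
      · simp [hc, hy]
      · simp [hc]
    have e2 : ∑ d ∈ s, (if c = y ∧ d = x then (1 : ℝ) else 0) = if c = y then 1 else 0 := by
      by_cases hc : c = y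
      · simp [hc, hx]
      · simp [hc]
    rw [e1, e2]
    ring

open Classical in
theorem wf_cut {K : SimpleGraph V} {a b : V} (p : K.Walk a b) {S : Set V} {c d : V}
    (hc : c ∈ S) (hd : d ∉ S) (hcut : ∀ x y, K.Adj x y → x ∈ S → y ∉ S → x = c ∧ y = d) :
    wf p (c, d) = (if a ∈ S then 1 else 0) - (if b ∈ S then 1 else 0) := by
  induction p with
  | nil => simp [wf]
  | @cons x y z h' p ih =>
    simp only [wf, ih, Prod.mk.injEq]
    by_cases hx : x ∈ S <;> by_cases hy : y ∈ S
    · have h1 : ¬ (c = x ∧ d = y) := by rintro ⟨rfl, rfl⟩; exact hd hy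
      have h2 : ¬ (c = y ∧ d = x) := by rintro ⟨rfl, rfl⟩; exact hd hx
      simp [h1, h2, hx, hy]
    · obtain ⟨rfl, rfl⟩ := hcut x y h' hx hy
      have h2 : ¬ (x = y ∧ y = x) := fun h => h'.ne h.1
      simp [h2, hx, hy]
      ring
    · obtain ⟨rfl, rfl⟩ := hcut y x h'.symm hy hx
      have h2 : ¬ (y = x ∧ x = y) := fun h => h'.ne h.2
      simp [h2, hx, hy]
      ring
    · have h1 : ¬ (c = x ∧ d = y) := by rintro ⟨rfl, rfl⟩; exact hx hc
      have h2 : ¬ (c = y ∧ d = x) := by rintro ⟨rfl, rfl⟩; exact hy hc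
      simp [h1, h2, hx, hy]

/-! ### Flows in trees -/

open Classical in
/-- indicator of the component of `c` after the deletion of the edge `cd` -/
noncomputable def cutInd (K : SimpleGraph V) (c d x : V) : ℝ :=
  if (K.deleteEdges {s(c, d)}).Reachable c x then 1 else 0

open Classical in
/-- the unit flow from `a` to `b` in the tree `K` -/
noncomputable def flw (K : SimpleGraph V) (a b : V) (i : V × V) : ℝ :=
  if K.Adj i.1 i.2 then cutInd K i.1 i.2 a - cutInd K i.1 i.2 b else 0

theorem flw_eq_wf {K : SimpleGraph V} (hK : K.IsAcyclic) {a b : V} (p : K.Walk a b) (i : V × V) :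
    flw K a b i = wf p i := by
  classical
  obtain ⟨c, d⟩ := i
  unfold flw
  by_cases h : K.Adj c d
  · rw [if_pos h]
    have hb : ¬ (K.deleteEdges {s(c, d)}).Reachable c d :=
      SimpleGraph.isBridge_iff.1 (SimpleGraph.isAcyclic_iff_forall_isBridge.1 hK h)
    symm
    have := wf_cut p (S := {x | (K.deleteEdges {s(c, d)}).Reachable c x}) (c := c) (d := d)
      (SimpleGraph.Reachable.refl _) hb ?_
    · simpa [cutInd] using this
    · intro x y hxy hx hy
      by_contra hne
      have h1 : s(x, y) ≠ s(c, d) := by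
        intro h2
        rcases Sym2.eq_iff.1 h2 with ⟨rfl, rfl⟩ | ⟨rfl, rfl⟩
        · exact hne ⟨rfl, rfl⟩
        · exact hb hx
      have h3 : (K.deleteEdges {s(c, d)}).Adj x y := by
        rw [SimpleGraph.deleteEdges_adj]
        exact ⟨hxy, by simpa using h1⟩
      exact hy (SimpleGraph.Reachable.trans hx h3.reachable)
  · rw [if_neg h, wf_eq_zero p h]

theorem bridge_of_acyclic {K : SimpleGraph V} (hK : K.IsAcyclic) {a b : V} (h : K.Adj a b) :
    ¬ (K.deleteEdges {s(a, b)}).Reachable a b :=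
  SimpleGraph.isBridge_iff.1 (SimpleGraph.isAcyclic_iff_forall_isBridge.1 hK h)

theorem flw_self {K : SimpleGraph V} (hK : K.IsAcyclic) {a b : V} (h : K.Adj a b) :
    flw K a b (a, b) = 1 := by
  have := bridge_of_acyclic hK h
  simp [flw, h, cutInd, this]

theorem flw_of_adj {K : SimpleGraph V} {a b c d : V} (h : K.Adj a b) (hne : s(a, b) ≠ s(c, d)) :
    flw K a b (c, d) = 0 := by
  classical
  unfold flw
  split_ifs with h'
  · have h1 : (K.deleteEdges {s(c, d)}).Adj a b := by
      rw [SimpleGraph.deleteEdges_adj]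
      exact ⟨h, by simpa using hne⟩
    have h2 : (K.deleteEdges {s(c, d)}).Reachable c a ↔ (K.deleteEdges {s(c, d)}).Reachable c b :=
      ⟨fun h => h.trans h1.reachable, fun h => h.trans h1.symm.reachable⟩
    simp [cutInd, h2]
  · rfl

/-! ### Spanning trees as graphs -/

/-- spanning trees of `H` as graphs on `V` -/
def treesOf {G : SimpleGraph V} (H : G.Subgraph) : Set (SimpleGraph V) :=
  {K | K ≤ H.spanningCoe ∧ K.IsAcyclic ∧ ∀ x ∈ H.verts, ∀ y ∈ H.verts, K.Reachable x y}

theorem mem_verts_of_adj {G : SimpleGraph V} {H : G.Subgraph} {K : SimpleGraph V}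
    (hK : K ≤ H.spanningCoe) {x y : V} (h : K.Adj x y) : x ∈ H.verts :=
  H.edge_vert (hK h)

theorem reachable_comap {L : SimpleGraph V} {S : Set V} (hL : ∀ x y, L.Adj x y → y ∈ S) {x y : V}
    (hx : x ∈ S) (p : L.Walk x y) :
    ∃ hy : y ∈ S, (L.comap (Subtype.val : S → V)).Reachable ⟨x, hx⟩ ⟨y, hy⟩ := by
  induction p with
  | nil => exact ⟨hx, SimpleGraph.Reachable.refl _⟩
  | @cons x y z h p ih =>
    have hy : y ∈ S := hL _ _ h
    obtain ⟨hz, hr⟩ := ih hy
    have h1 : (L.comap (Subtype.val : S → V)).Adj ⟨x, hx⟩ ⟨y, hy⟩ := h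
    exact ⟨hz, h1.reachable.trans hr⟩

theorem coe_eq_comap {G : SimpleGraph V} (K : G.Subgraph) :
    K.coe = K.spanningCoe.comap (Subtype.val : K.verts → V) := rfl

theorem isAcyclic_of_comap {L : SimpleGraph V} {S : Set V} (hL : ∀ x y, L.Adj x y → y ∈ S)
    (h : (L.comap (Subtype.val : S → V)).IsAcyclic) : L.IsAcyclic := by
  rw [SimpleGraph.isAcyclic_iff_forall_isBridge]
  intro e
  induction e with | h x y
  intro he hr
  have he' : L.Adj x y := he
  have hx : x ∈ S := hL _ _ he'.symm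
  have hy : y ∈ S := hL _ _ he'
  have hadj : (L.comap (Subtype.val : S → V)).Adj ⟨x, hx⟩ ⟨y, hy⟩ := he'
  apply bridge_of_acyclic h hadj
  obtain ⟨p⟩ := hr
  obtain ⟨_, hr'⟩ := reachable_comap (L := L.deleteEdges {s(x, y)}) (S := S)
    (fun a b hab => hL a b (L.deleteEdges_le _ hab)) hx p
  refine hr'.mono ?_
  intro a b hab
  simp only [SimpleGraph.comap_adj, SimpleGraph.deleteEdges_adj, Set.mem_singleton_iff] at hab ⊢
  refine ⟨hab.1, fun h => hab.2 ?_⟩
  have := congrArg (Sym2.map Subtype.val) h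
  simpa using this

theorem spanningTrees_eq {G : SimpleGraph V} {H : G.Subgraph} (hc : H.Connected) :
    spanningTrees H = SimpleGraph.edgeSet '' treesOf H := by
  ext T
  constructor
  · rintro ⟨K, hKH, hv, hK, rfl⟩
    refine ⟨K.spanningCoe, ⟨?_, ?_, ?_⟩, ?_⟩
    · intro x y h
      exact hKH.2 h
    · refine isAcyclic_of_comap (S := K.verts) (fun x y h => K.edge_vert (K.symm.symm _ _ h)) ?_
      exact hK.isAcyclic
    · intro x hx y hy
      rw [← hv] at hx hy
      have := hK.connected.preconnected ⟨x, hx⟩ ⟨y, hy⟩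
      exact this.map (⟨fun x => x.1, fun h => h⟩ : K.coe →g K.spanningCoe)
    · exact K.edgeSet_spanningCoe
  · rintro ⟨K, ⟨hle, hac, hr⟩, rfl⟩
    have hadj : ∀ x y, K.Adj x y → H.Adj x y := fun x y h => hle h
    let K' : G.Subgraph :=
      { verts := H.verts
        Adj := K.Adj
        adj_sub := fun h => H.adj_sub (hadj _ _ h)
        edge_vert := fun h => H.edge_vert (hadj _ _ h)
        symm := K.symm }
    have e : K'.coe = K.comap (Subtype.val : H.verts → V) := rfl
    have hS : ∀ x y, K.Adj x y → y ∈ H.verts := fun x y h => H.edge_vert (hadj _ _ h.symm)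
    refine ⟨K', ⟨le_rfl, hadj⟩, rfl, ?_, ?_⟩
    · rw [e]
      have : Nonempty K'.verts := hc.coe.nonempty
      have h1 : (K.comap (Subtype.val : H.verts → V)).Preconnected := by
        intro x y
        obtain ⟨p⟩ := hr x.1 x.2 y.1 y.2
        obtain ⟨_, h⟩ := reachable_comap hS x.2 p
        exact h
      exact ⟨⟨h1⟩, hac.comap ⟨Subtype.val, fun h => h⟩ Subtype.val_injective⟩
    · ext e
      induction e with | h x y
      rfl

/-! ### Exchange of edges -/

/-- replace the edge `cd` by the edge `ab` -/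
def exch (K : SimpleGraph V) (c d a b : V) : SimpleGraph V :=
  K.deleteEdges {s(c, d)} ⊔ SimpleGraph.edge a b

theorem tree_split {G : SimpleGraph V} {H : G.Subgraph} {K : SimpleGraph V} (hK : K ∈ treesOf H)
    {c d x : V} (h : K.Adj c d) (hx : x ∈ H.verts) :
    (K.deleteEdges {s(c, d)}).Reachable c x ∨ (K.deleteEdges {s(c, d)}).Reachable d x := by
  obtain ⟨p⟩ := hK.2.2 x hx c (mem_verts_of_adj hK.1 h)
  induction p with
  | nil => exact Or.inl (SimpleGraph.Reachable.refl _)
  | @cons x y z h' p ih =>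
    have hy : y ∈ H.verts := mem_verts_of_adj hK.1 h'.symm
    by_cases hne : s(x, y) = s(z, d)
    · rcases Sym2.eq_iff.1 hne with ⟨rfl, rfl⟩ | ⟨rfl, rfl⟩
      · exact Or.inl (SimpleGraph.Reachable.refl _)
      · exact Or.inr (SimpleGraph.Reachable.refl _)
    · have h1 : (K.deleteEdges {s(z, d)}).Adj y x := by
        rw [SimpleGraph.deleteEdges_adj]
        exact ⟨h'.symm, by simpa [Sym2.eq_swap] using hne⟩
      rcases ih h hy with h2 | h2
      · exact Or.inl (h2.trans h1.reachable)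
      · exact Or.inr (h2.trans h1.reachable)

theorem exch_facts {G : SimpleGraph V} {H : G.Subgraph} {K : SimpleGraph V} (hK : K ∈ treesOf H)
    {a b c d : V} (hcd : K.Adj c d) (hab : H.Adj a b) (hne : flw K a b (c, d) ≠ 0) :
    exch K c d a b ∈ treesOf H ∧ (exch K c d a b).Adj a b ∧
      (exch K c d a b).deleteEdges {s(a, b)} = K.deleteEdges {s(c, d)} ∧
      flw (exch K c d a b) c d (a, b) = flw K a b (c, d) ∧
      (exch K c d a b).edgeSet = (K.edgeSet \ {s(c, d)}) ∪ {s(a, b)} := by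
  classical
  set L := K.deleteEdges {s(c, d)} with hL
  have ha : a ∈ H.verts := H.edge_vert hab
  have hb : b ∈ H.verts := H.edge_vert (H.symm.symm _ _ hab)
  have hc : c ∈ H.verts := mem_verts_of_adj hK.1 hcd
  have hd : d ∈ H.verts := mem_verts_of_adj hK.1 hcd.symm
  have hbr : ¬ L.Reachable c d := bridge_of_acyclic hK.2.1 hcd
  have hfl : flw K a b (c, d) = (if L.Reachable c a then 1 else 0)
      - (if L.Reachable c b then 1 else 0) := by
    simp [flw, hcd, cutInd, hL]
  have hsa := tree_split hK hcd ha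
  have hsb := tree_split hK hcd hb
  rw [← hL] at hsa hsb
  have hcase : (L.Reachable c a ∧ ¬ L.Reachable c b) ∨ (¬ L.Reachable c a ∧ L.Reachable c b) := by
    by_cases h1 : L.Reachable c a <;> by_cases h2 : L.Reachable c b
    · exact absurd (by rw [hfl]; simp [h1, h2]) hne
    · exact Or.inl ⟨h1, h2⟩
    · exact Or.inr ⟨h1, h2⟩
    · exact absurd (by rw [hfl]; simp [h1, h2]) hne
  have hnab : ¬ L.Reachable a b := by
    intro h
    rcases hcase with ⟨h1, h2⟩ | ⟨h1, h2⟩
    · exact h2 (h1.trans h)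
    · exact h1 (h2.trans h.symm)
  have hnadj : ¬ L.Adj a b := fun h => hnab h.reachable
  have hneab : a ≠ b := fun h => hnab (h ▸ SimpleGraph.Reachable.refl _)
  have hadj : (exch K c d a b).Adj a b := by
    unfold exch
    rw [SimpleGraph.sup_adj, SimpleGraph.edge_adj]
    exact Or.inr ⟨Or.inl ⟨rfl, rfl⟩, hneab⟩
  have hdel : (exch K c d a b).deleteEdges {s(a, b)} = L := by
    unfold exch
    rw [← hL]
    ext x y
    simp only [SimpleGraph.deleteEdges_adj, SimpleGraph.sup_adj, SimpleGraph.edge_adj,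
      Set.mem_singleton_iff]
    constructor
    · rintro ⟨h1 | h1, h2⟩
      · exact h1
      · exact absurd (by rcases h1.1 with ⟨rfl, rfl⟩ | ⟨rfl, rfl⟩ <;> simp [Sym2.eq_swap]) h2
    · intro h
      refine ⟨Or.inl h, fun h2 => ?_⟩
      rcases Sym2.eq_iff.1 h2 with ⟨rfl, rfl⟩ | ⟨rfl, rfl⟩
      · exact hnadj h
      · exact hnadj h.symm
  have hreach : (exch K c d a b).Reachable c d := by
    have hle : L ≤ exch K c d a b := le_sup_left
    rcases hcase with ⟨h1, h2⟩ | ⟨h1, h2⟩
    · exact ((h1.mono hle).trans hadj.reachable).trans ((hsb.resolve_left h2).symm.mono hle)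
    · exact ((h2.mono hle).trans hadj.symm.reachable).trans ((hsa.resolve_left h1).symm.mono hle)
  refine ⟨⟨?_, ?_, ?_⟩, hadj, hdel, ?_, ?_⟩
  · unfold exch
    refine sup_le ((SimpleGraph.deleteEdges_le _).trans hK.1) ?_
    intro x y h
    rw [SimpleGraph.edge_adj] at h
    rcases h.1 with ⟨rfl, rfl⟩ | ⟨rfl, rfl⟩
    · exact hab
    · exact H.symm.symm _ _ hab
  · exact (hK.2.1.anti (SimpleGraph.deleteEdges_le _)).sup_edge_of_not_reachable hnab
  · have hle : L ≤ exch K c d a b := le_sup_left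
    have key : ∀ x ∈ H.verts, (exch K c d a b).Reachable c x := by
      intro x hx
      rcases tree_split hK hcd hx with h | h
      · exact h.mono hle
      · exact hreach.trans (h.mono hle)
    intro x hx y hy
    exact (key x hx).symm.trans (key y hy)
  · rw [hfl]
    simp only [flw, hadj, if_true, cutInd, hdel]
    rcases hcase with ⟨h1, h2⟩ | ⟨h1, h2⟩
    · have h3 : L.Reachable a c := h1.symm
      have h4 : ¬ L.Reachable a d := fun h => hbr (h1.trans h)
      simp [h1, h2, h3, h4]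
    · have h3 : ¬ L.Reachable a c := fun h => h1 h.symm
      have h4 : L.Reachable a d := (hsa.resolve_left h1).symm
      simp [h1, h2, h3, h4]
  · ext e
    induction e with | h x y
    simp only [exch, SimpleGraph.mem_edgeSet, SimpleGraph.sup_adj, SimpleGraph.deleteEdges_adj,
      SimpleGraph.edge_adj, Set.mem_union, Set.mem_sdiff, Set.mem_singleton_iff]
    constructor
    · rintro (h | h)
      · exact Or.inl h
      · right
        rcases h.1 with ⟨rfl, rfl⟩ | ⟨rfl, rfl⟩
        · rfl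
        · exact Sym2.eq_swap
    · rintro (h | h)
      · exact Or.inl h
      · right
        rcases Sym2.eq_iff.1 h with ⟨rfl, rfl⟩ | ⟨rfl, rfl⟩
        · exact ⟨Or.inl ⟨rfl, rfl⟩, hneab⟩
        · exact ⟨Or.inr ⟨rfl, rfl⟩, hneab.symm⟩

theorem exch_exch {G : SimpleGraph V} {H : G.Subgraph} {K : SimpleGraph V} (hK : K ∈ treesOf H)
    {a b c d : V} (hcd : K.Adj c d) (hab : H.Adj a b) (hne : flw K a b (c, d) ≠ 0) :
    exch (exch K c d a b) a b c d = K := by
  have h := (exch_facts hK hcd hab hne).2.2.1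
  unfold exch at h ⊢
  rw [h]
  ext x y
  simp only [SimpleGraph.sup_adj, SimpleGraph.deleteEdges_adj, SimpleGraph.edge_adj,
    Set.mem_singleton_iff]
  constructor
  · rintro (h | h)
    · exact h.1
    · rcases h.1 with ⟨rfl, rfl⟩ | ⟨rfl, rfl⟩
      · exact hcd
      · exact hcd.symm
  · intro h
    by_cases he : s(x, y) = s(c, d)
    · right
      refine ⟨?_, h.ne⟩
      rcases Sym2.eq_iff.1 he with ⟨rfl, rfl⟩ | ⟨rfl, rfl⟩
      · exact Or.inl ⟨rfl, rfl⟩
      · exact Or.inr ⟨rfl, rfl⟩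
    · exact Or.inl ⟨h, he⟩

/-- trees with prescribed trace on `F` -/
def condTrees {G : SimpleGraph V} (H : G.Subgraph) (F A : Set (Sym2 V)) : Set (SimpleGraph V) :=
  {K ∈ treesOf H | K.edgeSet ∩ F = A}

theorem exch_cond {G : SimpleGraph V} {H : G.Subgraph} {F A : Set (Sym2 V)} {K : SimpleGraph V}
    (hK : K ∈ condTrees H F A) {a b c d : V} (hcd : K.Adj c d) (hab : H.Adj a b)
    (hne : flw K a b (c, d) ≠ 0) (hFab : s(a, b) ∉ F) (hFcd : s(c, d) ∉ F) :
    exch K c d a b ∈ condTrees H F A := by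
  obtain ⟨h1, _, _, _, h5⟩ := exch_facts hK.1 hcd hab hne
  refine ⟨h1, ?_⟩
  rw [h5, ← hK.2]
  ext e
  simp only [Set.mem_inter_iff, Set.mem_union, Set.mem_sdiff, Set.mem_singleton_iff]
  constructor
  · rintro ⟨h | h, hF⟩
    · exact ⟨h.1, hF⟩
    · exact absurd (h ▸ hF) hFab
  · rintro ⟨h, hF⟩
    exact ⟨Or.inl ⟨h, fun h' => hFcd (h' ▸ hF)⟩, hF⟩

theorem adj_of_flw_ne {K : SimpleGraph V} {a b c d : V} (h : flw K a b (c, d) ≠ 0) :
    K.Adj c d := by
  by_contra h'
  exact h (by simp [flw, h'])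

theorem flw_sum_symm {G : SimpleGraph V} {H : G.Subgraph} {F A : Set (Sym2 V)}
    (s : Finset (SimpleGraph V)) (hs : ∀ K, K ∈ s ↔ K ∈ condTrees H F A) {a b c d : V}
    (hab : H.Adj a b) (hcd : H.Adj c d) (hFab : s(a, b) ∉ F) (hFcd : s(c, d) ∉ F) :
    ∑ K ∈ s, flw K a b (c, d) = ∑ K ∈ s, flw K c d (a, b) := by
  refine Finset.sum_bij_ne_zero (fun K _ _ => exch K c d a b) ?_ ?_ ?_ ?_
  · intro K hK hne
    exact (hs _).2 (exch_cond ((hs _).1 hK) (adj_of_flw_ne hne) hab hne hFab hFcd)
  · intro K hK hne K' hK' hne' heq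
    rw [← exch_exch ((hs _).1 hK).1 (adj_of_flw_ne hne) hab hne,
      ← exch_exch ((hs _).1 hK').1 (adj_of_flw_ne hne') hab hne', heq]
  · intro K hK hne
    have hK' := (hs _).1 hK
    have hadj := adj_of_flw_ne hne
    have hf := exch_facts hK'.1 hadj hcd hne
    refine ⟨exch K a b c d, (hs _).2 (exch_cond hK' hadj hcd hne hFcd hFab), ?_, ?_⟩
    · rw [hf.2.2.2.1]; exact hne
    · exact exch_exch hK'.1 hadj hcd hne
  · intro K hK hne
    exact (exch_facts ((hs _).1 hK).1 (adj_of_flw_ne hne) hab hne).2.2.2.1.symm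

theorem edgeSet_finite {G : SimpleGraph V} {H : G.Subgraph} (hfin : H.verts.Finite) :
    H.spanningCoe.edgeSet.Finite := by
  refine ((hfin.prod hfin).image (fun p : V × V => s(p.1, p.2))).subset ?_
  intro e
  induction e with | h x y
  intro he
  exact ⟨(x, y), ⟨H.edge_vert he, H.edge_vert (H.symm.symm _ _ he)⟩, rfl⟩

theorem treesOf_finite {G : SimpleGraph V} {H : G.Subgraph} (hfin : H.verts.Finite) :
    (treesOf H).Finite := by
  refine ((edgeSet_finite hfin).finite_subsets.preimage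
    (SimpleGraph.edgeSet_injective.injOn)).subset ?_
  intro K hK
  exact SimpleGraph.edgeSet_mono hK.1

/-! ### The Hilbert space computation -/

/-- a finitely supported function as an element of the Hilbert space -/
noncomputable def ofFin (f : V × V → ℝ) (hf : (Function.support f).Finite) : Hs V :=
  ⟨f, (memℓp_zero hf).of_exponent_ge zero_le⟩

theorem ofFin_apply (f : V × V → ℝ) (hf : (Function.support f).Finite) (i : V × V) :
    ofFin f hf i = f i := rfl

theorem inner_eq_sum (x y : Hs V) (s : Finset (V × V)) (h : ∀ i ∉ s, x i = 0) :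
    (inner ℝ x y : ℝ) = ∑ i ∈ s, x i * y i := by
  rw [lp.inner_eq_tsum, tsum_eq_sum (s := s)]
  · refine Finset.sum_congr rfl fun i _ => ?_
    simp [mul_comm]
  · intro i hi
    simp [h i hi]

theorem flw_support_finite {G : SimpleGraph V} {H : G.Subgraph} (hfin : H.verts.Finite)
    {K : SimpleGraph V} (hK : K ∈ treesOf H) (a b : V) :
    (Function.support (flw K a b)).Finite := by
  refine (hfin.prod hfin).subset ?_
  rintro ⟨c, d⟩ h
  have h' := adj_of_flw_ne h
  exact ⟨mem_verts_of_adj hK.1 h', mem_verts_of_adj hK.1 h'.symm⟩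

theorem flw_antisymm {G : SimpleGraph V} {H : G.Subgraph} {K : SimpleGraph V} (hK : K ∈ treesOf H)
    {a b : V} (ha : a ∈ H.verts) (hb : b ∈ H.verts) (c d : V) :
    flw K a b (c, d) = - flw K a b (d, c) := by
  obtain ⟨p⟩ := hK.2.2 a ha b hb
  rw [flw_eq_wf hK.2.1 p, flw_eq_wf hK.2.1 p, wf_antisymm]

open Classical in
theorem flw_div {G : SimpleGraph V} {H : G.Subgraph} {K : SimpleGraph V} (hK : K ∈ treesOf H)
    {a b : V} (ha : a ∈ H.verts) (hb : b ∈ H.verts) (s : Finset V) (hs : ∀ x ∈ H.verts, x ∈ s)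
    (c : V) :
    ∑ d ∈ s, flw K a b (c, d) = (if c = a then 1 else 0) - (if c = b then 1 else 0) := by
  obtain ⟨p⟩ := hK.2.2 a ha b hb
  simp only [flw_eq_wf hK.2.1 p]
  exact wf_div p s (fun x y h => hs y (mem_verts_of_adj hK.1 h.symm)) c

/-- a cycle is orthogonal to the coefficients of the flows -/
theorem cycle_flw {G : SimpleGraph V} {H : G.Subgraph} (K : SimpleGraph V) (s : Finset V)
    (hs : ∀ x ∈ H.verts, x ∈ s) {z : Hs V} (hz : z ∈ cyc H.spanningCoe) (a b : V) :
    ∑ i ∈ s ×ˢ s, z i * flw K i.1 i.2 (a, b) = 0 := by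
  classical
  by_cases hab : K.Adj a b
  · have hdiv : ∀ c, ∑ d ∈ s, z (c, d) = 0 := by
      intro c
      rw [← hz.2.2.2 c]
      symm
      apply finsum_eq_sum_of_support_subset
      intro d hd
      by_contra hds
      apply hd
      apply hz.2.2.1
      intro h
      exact hds (hs d (H.edge_vert (H.symm.symm _ _ h)))
    have hdiv' : ∀ d, ∑ c ∈ s, z (c, d) = 0 := by
      intro d
      have : ∑ c ∈ s, z (c, d) = - ∑ c ∈ s, z (d, c) := by
        rw [← Finset.sum_neg_distrib]
        exact Finset.sum_congr rfl fun c _ => hz.2.1 c d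
      rw [this, hdiv, neg_zero]
    simp only [flw, hab, if_true]
    rw [Finset.sum_product]
    simp only [mul_sub, Finset.sum_sub_distrib]
    have e1 : ∑ c ∈ s, ∑ d ∈ s, z (c, d) * cutInd K a b c = 0 := by
      refine Finset.sum_eq_zero fun c _ => ?_
      rw [← Finset.sum_mul, hdiv, zero_mul]
    have e2 : ∑ c ∈ s, ∑ d ∈ s, z (c, d) * cutInd K a b d = 0 := by
      rw [Finset.sum_comm]
      refine Finset.sum_eq_zero fun d _ => ?_
      rw [← Finset.sum_mul, hdiv', zero_mul]
    rw [e1, e2, sub_zero]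
  · refine Finset.sum_eq_zero fun i _ => ?_
    simp [flw, hab]

theorem ncard_trees {G : SimpleGraph V} {H : G.Subgraph} (hc : H.Connected)
    (s : Finset (SimpleGraph V)) (q : Set (Sym2 V) → Prop)
    (hs : ∀ K, K ∈ s ↔ K ∈ treesOf H ∧ q K.edgeSet) :
    {T ∈ spanningTrees H | q T}.ncard = s.card := by
  have : {T ∈ spanningTrees H | q T} = SimpleGraph.edgeSet '' (s : Set (SimpleGraph V)) := by
    rw [spanningTrees_eq hc]
    ext T
    constructor
    · rintro ⟨⟨K, hK, rfl⟩, h⟩
      exact ⟨K, (hs K).2 ⟨hK, h⟩, rfl⟩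
    · rintro ⟨K, hK, rfl⟩
      have := (hs K).1 hK
      exact ⟨⟨K, this.1, rfl⟩, this.2⟩
  rw [this, Set.ncard_image_of_injective _ SimpleGraph.edgeSet_injective, Set.ncard_coe_finset]

theorem chi_apply {a b : V} (hab : a ≠ b) (i : V × V) [Decidable (i = (a, b))]
    [Decidable (i = (b, a))] :
    (dl (a, b) - dl (b, a) : Hs V) i = (if i = (a, b) then 1 else 0) -
      (if i = (b, a) then 1 else 0) := by
  have h0 : (dl (a, b) - dl (b, a) : Hs V) i = (dl (a, b) : Hs V) i - (dl (b, a) : Hs V) i := rfl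
  rw [h0]
  by_cases h1 : i = (a, b)
  · have h2 : (a, b) ≠ (b, a) := fun h => hab (Prod.mk.inj h).1
    subst h1
    rw [dl_apply_self, dl_apply_ne h2]
    simp [h2]
  · by_cases h2 : i = (b, a)
    · subst h2
      rw [dl_apply_self, dl_apply_ne h1]
      simp [h1]
    · rw [dl_apply_ne h1, dl_apply_ne h2]
      simp [h1, h2]

theorem tree_formula {G : SimpleGraph V} (H : G.Subgraph) (hfin : H.verts.Finite)
    (hc : H.Connected) (F A : Set (Sym2 V)) (hAF : A ⊆ F) (a b : V) (hab : H.Adj a b)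
    (hF : s(a, b) ∉ F) :
    ({T ∈ spanningTrees H | T ∩ F = A ∧ s(a, b) ∈ T}.ncard : ℝ) =
      (1 - 2 * qq (condSub (cyc H.spanningCoe) (idx F) (idx (F \ A))) (a, b)) *
        ({T ∈ spanningTrees H | T ∩ F = A}.ncard : ℝ) := by
  classical
  have hfinT : (condTrees H F A).Finite := (treesOf_finite hfin).subset (fun K h => h.1)
  obtain ⟨S, hS⟩ : ∃ S : Finset (SimpleGraph V), ∀ K, K ∈ S ↔ K ∈ condTrees H F A :=
    ⟨hfinT.toFinset, fun K => hfinT.mem_toFinset⟩
  obtain ⟨s, hs⟩ : ∃ s : Finset V, ∀ x, x ∈ s ↔ x ∈ H.verts :=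
    ⟨hfin.toFinset, fun x => hfin.mem_toFinset⟩
  have c1 : {T ∈ spanningTrees H | T ∩ F = A}.ncard = S.card :=
    ncard_trees hc S (fun T => T ∩ F = A) hS
  have c2 : {T ∈ spanningTrees H | T ∩ F = A ∧ s(a, b) ∈ T}.ncard =
      (S.filter (fun K => K.Adj a b)).card := by
    refine ncard_trees hc _ (fun T => T ∩ F = A ∧ s(a, b) ∈ T) (fun K => ?_)
    rw [Finset.mem_filter, hS]
    exact and_assoc
  rw [c1, c2]
  by_cases hn : S.card = 0
  · have : S = ∅ := Finset.card_eq_zero.1 hn
    simp [this]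
  have hn' : (S.card : ℝ) ≠ 0 := by exact_mod_cast hn
  have ha : a ∈ H.verts := H.edge_vert hab
  have hb : b ∈ H.verts := H.edge_vert (H.symm.symm _ _ hab)
  have hne : a ≠ b := (H.adj_sub hab).ne
  -- the averaged flow
  set g : V × V → ℝ := fun i => (S.card : ℝ)⁻¹ * ∑ K ∈ S, flw K a b i with hg
  have hgs : ∀ i ∉ s ×ˢ s, g i = 0 := by
    intro i hi
    simp only [hg]
    rw [Finset.sum_eq_zero, mul_zero]
    intro K hK
    by_contra h
    have h' := adj_of_flw_ne (c := i.1) (d := i.2) h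
    have hK1 := ((hS K).1 hK).1.1
    exact hi (Finset.mem_product.2 ⟨(hs _).2 (mem_verts_of_adj hK1 h'),
      (hs _).2 (mem_verts_of_adj hK1 h'.symm)⟩)
  have hgf : (Function.support g).Finite := by
    refine (s ×ˢ s).finite_toSet.subset ?_
    intro i hi
    by_contra h
    exact hi (hgs i h)
  set θ : Hs V := ofFin g hgf with hθ
  have hθa : ∀ i, θ i = g i := fun i => rfl
  set χ : Hs V := dl (a, b) - dl (b, a) with hχ
  have hχa : ∀ i, χ i = (if i = (a, b) then 1 else 0) - (if i = (b, a) then 1 else 0) :=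
    fun i => chi_apply hne i
  have hganti : ∀ c d, g (c, d) = - g (d, c) := by
    intro c d
    simp only [hg]
    rw [← mul_neg, ← Finset.sum_neg_distrib]
    congr 1
    exact Finset.sum_congr rfl fun K hK => flw_antisymm ((hS K).1 hK).1 ha hb c d
  have hFF : ∀ i : V × V, s(i.1, i.2) ∈ F → χ i = 0 := by
    intro i hi
    rw [hχa]
    have h1 : i ≠ (a, b) := by rintro rfl; exact hF hi
    have h2 : i ≠ (b, a) := by rintro rfl; exact hF (by rw [Sym2.eq_swap]; exact hi)
    simp [h1, h2]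
  -- the difference is a cycle
  have hcyc : χ - θ ∈ cyc H.spanningCoe ⊓ coordSub (idx (F \ A))ᶜ := by
    refine ⟨⟨?_, ?_, ?_, ?_⟩, ?_⟩
    · refine ((s ×ˢ s).finite_toSet).subset ?_
      intro i hi
      by_contra h
      apply hi
      have e : (χ - θ) i = χ i - θ i := rfl
      have hi1 : i ≠ (a, b) := by
        rintro rfl
        exact h (Finset.mem_coe.2 (Finset.mem_product.2 ⟨(hs _).2 ha, (hs _).2 hb⟩))
      have hi2 : i ≠ (b, a) := by
        rintro rfl
        exact h (Finset.mem_coe.2 (Finset.mem_product.2 ⟨(hs _).2 hb, (hs _).2 ha⟩))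
      rw [e, hθa, hgs i h, hχa]
      simp [hi1, hi2]
    · intro c d
      have e : ∀ i, (χ - θ) i = χ i - θ i := fun i => rfl
      rw [e, e, hθa, hθa, hganti c d, hχa, hχa]
      have h1 : ((c, d) = (a, b)) ↔ ((d, c) = (b, a)) := by
        simp only [Prod.mk.injEq]; exact and_comm
      have h2 : ((c, d) = (b, a)) ↔ ((d, c) = (a, b)) := by
        simp only [Prod.mk.injEq]; exact and_comm
      simp only [h1, h2]
      ring
    · intro c d hcd
      have e : (χ - θ) (c, d) = χ (c, d) - θ (c, d) := rfl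
      have hi1 : (c, d) ≠ (a, b) := by
        rintro h
        obtain ⟨rfl, rfl⟩ := Prod.mk.inj h
        exact hcd hab
      have hi2 : (c, d) ≠ (b, a) := by
        rintro h
        obtain ⟨rfl, rfl⟩ := Prod.mk.inj h
        exact hcd (H.symm.symm _ _ hab)
      have h0 : g (c, d) = 0 := by
        simp only [hg]
        rw [Finset.sum_eq_zero, mul_zero]
        intro K hK
        by_contra h
        exact hcd (((hS K).1 hK).1.1 (adj_of_flw_ne h))
      rw [e, hθa, h0, hχa]
      simp [hi1, hi2]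
    · intro c
      have hsup : (Function.support fun d => (χ - θ) (c, d)) ⊆ s := by
        intro d hd
        by_contra h
        apply hd
        have e : (χ - θ) (c, d) = χ (c, d) - θ (c, d) := rfl
        have hi1 : (c, d) ≠ (a, b) := by
          rintro h'
          obtain ⟨rfl, rfl⟩ := Prod.mk.inj h'
          exact h ((hs _).2 hb)
        have hi2 : (c, d) ≠ (b, a) := by
          rintro h'
          obtain ⟨rfl, rfl⟩ := Prod.mk.inj h'
          exact h ((hs _).2 ha)
        have hi3 : (c, d) ∉ s ×ˢ s := fun h' => h (Finset.mem_product.1 h').2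
        change (χ - θ) (c, d) = 0
        rw [e, hθa, hgs _ hi3, hχa]
        simp [hi1, hi2]
      rw [finsum_eq_sum_of_support_subset _ hsup]
      have e : ∀ d, (χ - θ) (c, d) = χ (c, d) - g (c, d) := fun d => rfl
      simp only [e, Finset.sum_sub_distrib]
      have e1 : ∑ d ∈ s, χ (c, d) = (if c = a then 1 else 0) - (if c = b then 1 else 0) := by
        simp only [hχa, Prod.mk.injEq, Finset.sum_sub_distrib]
        congr 1
        · by_cases h : c = a
          · simp [h, (hs b).2 hb]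
          · simp [h]
        · by_cases h : c = b
          · simp [h, (hs a).2 ha]
          · simp [h]
      have e2 : ∑ d ∈ s, g (c, d) = (if c = a then 1 else 0) - (if c = b then 1 else 0) := by
        simp only [hg]
        rw [← Finset.mul_sum, Finset.sum_comm]
        have : ∀ K ∈ S, ∑ d ∈ s, flw K a b (c, d) =
            (if c = a then 1 else 0) - (if c = b then 1 else 0) := fun K hK =>
          flw_div ((hS K).1 hK).1 ha hb s (fun x hx => (hs x).2 hx) c
        rw [Finset.sum_congr rfl this, Finset.sum_const, nsmul_eq_mul, ← mul_assoc,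
          inv_mul_cancel₀ hn', one_mul]
      rw [e1, e2, sub_self]
    · intro i hi
      simp only [Set.mem_compl_iff, not_not] at hi
      have hiF : s(i.1, i.2) ∈ F := hi.1
      have hiA : s(i.1, i.2) ∉ A := hi.2
      have e : (χ - θ) i = χ i - θ i := rfl
      have h0 : g i = 0 := by
        simp only [hg]
        rw [Finset.sum_eq_zero, mul_zero]
        intro K hK
        by_contra h
        apply hiA
        rw [← ((hS K).1 hK).2]
        exact ⟨adj_of_flw_ne (c := i.1) (d := i.2) h, hiF⟩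
      rw [e, hθa, h0, hFF i hiF, sub_zero]
  -- projection
  set K0 : Submodule ℝ (Hs V) := (cyc H.spanningCoe ⊓ coordSub (idx (F \ A))ᶜ).map
    (pj (coordSub (idx F)ᶜ) : Hs V →ₗ[ℝ] Hs V) with hK0
  have hqq : qq (condSub (cyc H.spanningCoe) (idx F) (idx (F \ A))) (a, b) = qq K0 (a, b) := by
    unfold condSub
    exact qq_closure K0 (a, b)
  have hχF : pj (coordSub (idx F)ᶜ) χ = χ := by
    apply Hs.ext'
    intro i
    rw [pj_coordSub_apply]
    by_cases hi : i ∈ (idx F)ᶜ
    · rw [Set.indicator_of_mem hi]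
    · rw [Set.indicator_of_notMem hi, hFF i (not_not.1 hi)]
  set u : Hs V := pj (coordSub (idx F)ᶜ) (χ - θ) with hu
  have huK : u ∈ K0 := ⟨χ - θ, hcyc, rfl⟩
  have hK0a : K0 ≤ antisym V := by
    rintro _ ⟨z, hz, rfl⟩
    intro c d
    have e : ∀ i, (pj (coordSub (idx F)ᶜ) z : Hs V) i = (idx F)ᶜ.indicator (z : V × V → ℝ) i :=
      pj_coordSub_apply _ z
    show (pj (coordSub (idx F)ᶜ) z : Hs V) (c, d) = - (pj (coordSub (idx F)ᶜ) z : Hs V) (d, c)
    rw [e, e]
    have h1 : (c, d) ∈ (idx F)ᶜ ↔ (d, c) ∈ (idx F)ᶜ := by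
      simp only [Set.mem_compl_iff, idx, Set.mem_ofPred_eq, Sym2.eq_swap]
    by_cases h : (c, d) ∈ (idx F)ᶜ
    · rw [Set.indicator_of_mem h, Set.indicator_of_mem (h1.1 h)]
      exact hz.1.2.1 c d
    · rw [Set.indicator_of_notMem h, Set.indicator_of_notMem (fun h' => h (h1.2 h')), neg_zero]
  have hpj : pj K0 χ = u := by
    refine pj_eq_of (K0.le_topologicalClosure huK) ?_
    rintro _ ⟨z, hz, rfl⟩
    have e1 : χ - u = pj (coordSub (idx F)ᶜ) θ := by
      rw [hu, map_sub, hχF, sub_sub_cancel]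
    have e2 : (inner ℝ (pj (coordSub (idx F)ᶜ) θ) (pj (coordSub (idx F)ᶜ) z) : ℝ) =
        ∑ i ∈ s ×ˢ s, θ i * (pj (coordSub (idx F)ᶜ) z : Hs V) i := by
      rw [inner_pj_left, pj_pj]
      exact inner_eq_sum θ _ (s ×ˢ s) hgs
    show (inner ℝ (χ - u) (pj (coordSub (idx F)ᶜ) z) : ℝ) = 0
    rw [e1, e2]
    have e3 : ∀ i ∈ s ×ˢ s, θ i * (pj (coordSub (idx F)ᶜ) z : Hs V) i =
        (S.card : ℝ)⁻¹ * ∑ K ∈ S, z i * flw K i.1 i.2 (a, b) := by
      intro i _
      obtain ⟨c, d⟩ := i
      rw [pj_coordSub_apply, hθa]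
      by_cases hi : s(c, d) ∈ F
      · have h1 : (c, d) ∉ (idx F)ᶜ := fun h => h hi
        rw [Set.indicator_of_notMem h1, mul_zero]
        symm
        rw [Finset.sum_eq_zero, mul_zero]
        intro K hK
        by_cases hA : s(c, d) ∈ A
        · have hadj : K.Adj c d := by
            have : s(c, d) ∈ K.edgeSet ∩ F := by rw [((hS K).1 hK).2]; exact hA
            exact this.1
          rw [flw_of_adj hadj (fun h => hF (h ▸ hi)), mul_zero]
        · have : z (c, d) = 0 := hz.2 (c, d) (fun h => h ⟨hi, hA⟩)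
          rw [this, zero_mul]
      · have h1 : (c, d) ∈ (idx F)ᶜ := hi
        rw [Set.indicator_of_mem h1]
        by_cases hadj : H.Adj c d
        · have := flw_sum_symm S hS hab hadj hF hi
          simp only [hg]
          rw [this, ← Finset.mul_sum]
          ring
        · have : z (c, d) = 0 := hz.1.2.2.1 c d hadj
          rw [this]
          simp
    rw [Finset.sum_congr rfl e3, ← Finset.mul_sum, Finset.sum_comm]
    rw [Finset.sum_eq_zero, mul_zero]
    intro K _
    exact cycle_flw K s (fun x hx => (hs x).2 hx) hz.1 a b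
  have hmem : ∀ i : V × V, s(i.1, i.2) ∉ F → u i = χ i - g i := by
    intro i hi
    have h1 : i ∈ (idx F)ᶜ := hi
    rw [hu, pj_coordSub_apply, Set.indicator_of_mem h1]
    rfl
  have hu1 : u (a, b) = 1 - g (a, b) := by
    rw [hmem _ hF, hχa]
    have h2 : (a, b) ≠ (b, a) := fun h => hne (Prod.mk.inj h).1
    simp [h2]
  have hu2 : u (b, a) = -1 + g (a, b) := by
    rw [hmem _ (by simpa [Sym2.eq_swap] using hF), hχa, hganti b a]
    have h2 : (b, a) ≠ (a, b) := fun h => hne (Prod.mk.inj h).2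
    simp [h2]
  have hval : qq K0 (a, b) = (1 / 2) * (1 - g (a, b)) := by
    rw [qq_eq_quarter hK0a, ← inner_pj_self, ← hχ, hpj, hχ, inner_sub_left, inner_dl_left,
      inner_dl_left, hu1, hu2]
    ring
  have hgab : g (a, b) = (S.card : ℝ)⁻¹ * (S.filter (fun K => K.Adj a b)).card := by
    simp only [hg]
    congr 1
    rw [Finset.card_eq_sum_ones, Nat.cast_sum, Finset.sum_filter]
    refine Finset.sum_congr rfl fun K hK => ?_
    by_cases h : K.Adj a b
    · rw [if_pos h, flw_self ((hS K).1 hK).1.2.1 h]; simp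
    · rw [if_neg h]; simp [flw, h]
  rw [hqq, hval, hgab]
  field_simp
  ring

end Vale.Agent.P143
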